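import Vale.Agent.P179.H166.BrauerHom
import Vale.Agent.P179.H143.Vreg
import Vale.Agent.P179.H143.Pr

/-!
# The equality theorem: interface

`R0 red`: the localisation of the ring of algebraic integers at the kernel of `red`, with its
reduction `rho red : R0 red → k`.  `IrrB red B`: the ordinary irreducible characters in `B`.
`Ecf S g`: the coefficient at `g` of the central idempotent `∑_{χ ∈ S} e_χ`.
-/

namespace P179X

open Subgroup Finset P179H524 P179C P179A

open scoped Classical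

section Local

variable {k : Type*} [Field k] (red : integralClosure ℤ ℂ →+* k)

/-- The localisation of the ring of algebraic integers at the kernel of `red`. -/
def R0 : Subring ℂ where
  carrier := {x | ∃ a b : integralClosure ℤ ℂ, red b ≠ 0 ∧ x * b = a}
  mul_mem' := by
    rintro x y ⟨a, b, hb, h⟩ ⟨a', b', hb', h'⟩
    refine ⟨a * a', b * b', by rw [map_mul]; exact mul_ne_zero hb hb', ?_⟩
    push_cast
    rw [← h, ← h']; ring
  one_mem' := ⟨1, 1, by rw [map_one]; exact one_ne_zero, by simp⟩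
  add_mem' := by
    rintro x y ⟨a, b, hb, h⟩ ⟨a', b', hb', h'⟩
    refine ⟨a * b' + a' * b, b * b', by rw [map_mul]; exact mul_ne_zero hb hb', ?_⟩
    push_cast
    rw [← h, ← h']; ring
  zero_mem' := ⟨0, 1, by rw [map_one]; exact one_ne_zero, by simp⟩
  neg_mem' := by
    rintro x ⟨a, b, hb, h⟩
    exact ⟨-a, b, hb, by push_cast; rw [← h]; ring⟩

/-- The value of the reduction at `x ∈ R0 red` (and `0` outside). -/
noncomputable def rhoC (x : ℂ) : k :=
  if h : ∃ a b : integralClosure ℤ ℂ, red b ≠ 0 ∧ x * b = a then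
    red h.choose / red h.choose_spec.choose else 0

end Local

/-- The `p`-part of `y`. -/
noncomputable def pp (p : ℕ) {G : Type*} [Group G] (y : G) : G := y * (pr p y)⁻¹

/-- `x` and `y` lie in the same `p`-section. -/
def SameSec (p : ℕ) {G : Type*} [Group G] (x y : G) : Prop := IsConj (pp p x) (pp p y)

/-- The set of irreducible characters. -/
noncomputable def Irr (G : Type*) [Group G] [Finite G] : Finset (G → ℂ) :=
  (finite_irrChar G).toFinset

theorem mem_Irr {G : Type*} [Group G] [Finite G] {χ : G → ℂ} : χ ∈ Irr G ↔ IsIrrChar χ := by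
  simp [Irr]

/-- The irreducible characters in the block `B`. -/
noncomputable def IrrB {k : Type*} [Field k] (red : integralClosure ℤ ℂ →+* k) {G : Type*}
    [Group G] [Finite G] (B : MonoidAlgebra k G) : Finset (G → ℂ) :=
  (Irr G).filter fun χ => CharInBlock red χ B

/-- The coefficient at `g` of `∑_{χ ∈ S} e_χ`. -/
noncomputable def Ecf {G : Type*} [Group G] [Finite G] (S : Finset (G → ℂ)) (g : G) : ℂ :=
  (∑ χ ∈ S, χ 1 * χ g⁻¹) / (Nat.card G : ℂ)

/-- `S` is a union of blocks: the idempotent `∑_{χ ∈ S} e_χ` has coefficients in `R0`. -/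
def IsR0Set {k : Type*} [Field k] (red : integralClosure ℤ ℂ →+* k) {G : Type*}
    [Group G] [Finite G] (S : Finset (G → ℂ)) : Prop :=
  S ⊆ Irr G ∧ ∀ g : G, Ecf S g ∈ R0 red

/-- The coefficients of `j` outside the centraliser of `u` are replaced by `0`. -/
noncomputable def cut {G : Type*} [Group G] (u : G) (j : G → ℂ) : G → ℂ :=
  fun g => if u * g = g * u then j g else 0

/-- The `n`-fold convolution power. -/
noncomputable def cpow {G : Type*} [Group G] [Fintype G] (j : G → ℂ) : ℕ → G → ℂ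
  | 0 => fun g => if g = 1 then 1 else 0
  | n + 1 => conv (cpow j n) j

/-- The value of the linear extension of `f` at `y j`. -/
noncomputable def ev {G : Type*} [Group G] [Fintype G] (f : G → ℂ) (y : G) (j : G → ℂ) : ℂ :=
  ∑ g, j g * f (y * g)

section Stmts

variable (p : ℕ) {k : Type*} [Field k] (red : integralClosure ℤ ℂ →+* k)

/-- (XR) elementary facts on `R0`. -/
structure R0Facts : Prop where
  int_mem : ∀ x ∈ integralClosure ℤ ℂ, x ∈ R0 red
  rho_int : ∀ (x : ℂ) (hx : x ∈ integralClosure ℤ ℂ), rhoC red x = red ⟨x, hx⟩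
  rho_add : ∀ x ∈ R0 red, ∀ y ∈ R0 red, rhoC red (x + y) = rhoC red x + rhoC red y
  rho_mul : ∀ x ∈ R0 red, ∀ y ∈ R0 red, rhoC red (x * y) = rhoC red x * rhoC red y
  inv_mem : ∀ x ∈ R0 red, rhoC red x ≠ 0 → x⁻¹ ∈ R0 red
  inv_nat_mem : ∀ n : ℕ, ¬ p ∣ n → ((n : ℂ)⁻¹) ∈ R0 red
  alg : ∀ x ∈ R0 red, IsAlgebraic ℚ x
  /-- elements reducing to `0` are topologically nilpotent -/
  pow_zero : ∀ x ∈ R0 red, rhoC red x = 0 → ∀ N : ℕ, ∃ n₀ : ℕ, ∀ n ≥ n₀,
    ∃ y ∈ R0 red, x ^ p ^ n = p ^ N * y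
  /-- elements reducing to `1` have `p^n`-th powers tending to `1` -/
  pow_one : ∀ x ∈ R0 red, rhoC red x = 1 → ∀ N : ℕ, ∃ n₀ : ℕ, ∀ n ≥ n₀,
    ∃ y ∈ R0 red, x ^ p ^ n - 1 = p ^ N * y
  /-- separatedness -/
  sep : ∀ x : ℂ, IsAlgebraic ℚ x → (∀ N : ℕ, ∃ y ∈ R0 red, x = p ^ N * y) → x = 0

/-- (X1) the master congruence. -/
def X1 (G : Type) [Group G] [Fintype G] : Prop :=
  ∀ (f j : G → ℂ) (y : G), IsCF f → (∀ g, f g ∈ R0 red) → (∀ g, j g ∈ R0 red) →
    (∀ g, j (y * g * y⁻¹) = j g) → ∀ n : ℕ, ∃ c ∈ R0 red,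
      ev f y (cpow j (p ^ n)) - ev f y (cpow (cut (pp p y) j) (p ^ n)) = p ^ (n + 1) * c

/-- (X2) Lemma S: block orthogonality for `p`-sections. -/
def X2 (G : Type) [Group G] [Fintype G] : Prop :=
  ∀ (S : Finset (G → ℂ)), IsR0Set red S → ∀ (f : G → ℂ), IsCF f → ∀ y : G,
    (∀ x, SameSec p x y → f x = 0) → ev f y (Ecf S) = 0

/-- (X2') the form which is used: for `x`, `y` in different `p`-sections. -/
def X2' (G : Type) [Group G] [Finite G] : Prop :=
  ∀ (S : Finset (G → ℂ)), IsR0Set red S → ∀ x y : G, ¬ SameSec p x y →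
    ∑ χ ∈ S, χ x * χ y⁻¹ = 0

variable {p}

/-- (X3) the idempotent of a block lifts. -/
def X3 {G : Type} [Group G] [Finite G] (B : MonoidAlgebra k G) : Prop :=
  IsR0Set red (IrrB red B) ∧ ∀ g, rhoC red (Ecf (IrrB red B) g) = B.coeff g

variable (p)

/-- (X4) `l(B) ≤ r`, `r` the norm of the characters of `B` on the `p`-regular elements. -/
def X4 {G : Type} [Group G] [Fintype G] (B : MonoidAlgebra k G) : Prop :=
  ∃ r : ℕ, numSimpleIn B ≤ r ∧
    (r : ℂ) * Nat.card G = ∑ g ∈ univ.filter (fun g : G => ¬ p ∣ orderOf g),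
      ∑ χ ∈ IrrB red B, χ g * χ g⁻¹

/-- (X5) the Galois action on the characters of `B`. -/
def X5 {G : Type} [Group G] [Finite G] (B : MonoidAlgebra k G) : Prop :=
  ∀ m : ℕ, m.Coprime (Nat.card G) → ∀ χ ∈ IrrB red B, (fun g => χ (g ^ m)) ∈ IrrB red B

/-- The `m`-rational characters. -/
noncomputable def Srat (m : ℕ) {G : Type} [Group G] [Finite G] (B : MonoidAlgebra k G) :
    Finset (G → ℂ) := (IrrB red B).filter fun χ => ∀ g, χ (g ^ m) = χ g

/-- (X6) `l(B) ≤ |S|`. -/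
def X6 {G : Type} [Group G] [Finite G] (B : MonoidAlgebra k G) : Prop :=
  ∀ m : ℕ, m.Coprime (Nat.card G) → m ≡ 1 [MOD ordCompl[p] (Nat.card G)] →
    (∀ u : G, u ≠ 1 → (∃ n : ℕ, u ^ p ^ n = 1) → ¬ IsConj u (u ^ m)) →
    numSimpleIn B ≤ (Srat red m B).card

/-- `K` is a normal `p`-complement of the centraliser of `w`. -/
structure IsCompl {G : Type*} [Group G] (w : G) (K : Subgroup G) : Prop where
  le : K ≤ centralizer {w}
  normal : ∀ c ∈ centralizer {w}, ∀ s ∈ K, c * s * c⁻¹ ∈ K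
  reg : ¬ p ∣ Nat.card K
  card : ∃ n : ℕ, Nat.card (centralizer ({w} : Set G)) = Nat.card K * p ^ n

/-- The trace of `w` on the fixed points of `K`. -/
noncomputable def aval {G : Type*} [Group G] (K : Subgroup G) (χ : G → ℂ) (w : G) : ℂ :=
  (∑ᶠ s : K, χ (w * s)) / Nat.card K

/-- `B` is the principal block: its augmentation is `1`. -/
def IsPrincipal {G : Type*} [Group G] (B : MonoidAlgebra k G) : Prop :=
  ∑ᶠ g : G, B.coeff g = 1

/-- (X7a) `aval` vanishes outside of the principal block. -/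
def X7a {G : Type} [Group G] [Finite G] (B : MonoidAlgebra k G) : Prop :=
  ∀ (w : G) (K : Subgroup G), (∃ n : ℕ, w ^ p ^ n = 1) → IsCompl p w K → 
    (∀ P : Sylow p G, ∀ a ∈ P, ∀ b ∈ P, a * b = b * a) →
    ∀ χ ∈ Irr G, χ ∉ IrrB red B → aval K χ w = 0

/-- (X7b) orthogonality of the vectors `(aval K χ w)_χ`. -/
def X7b (G : Type) [Group G] [Finite G] : Prop :=
  ∀ (w w' : G) (K K' : Subgroup G), (∃ n : ℕ, w ^ p ^ n = 1) → (∃ n : ℕ, w' ^ p ^ n = 1) →
    IsCompl p w K → IsCompl p w' K' →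
    ∑ χ ∈ Irr G, aval K χ w * aval K' χ w'⁻¹ =
      if IsConj w w' then (Nat.card (centralizer ({w} : Set G)) : ℂ) / Nat.card K else 0

/-- (X8a) rationality. -/
def X8a (G : Type) [Group G] [Finite G] : Prop :=
  ∀ (m : ℕ), m ≡ 1 [MOD ordCompl[p] (Nat.card G)] →
    (∀ j : ℕ, ¬ p ∣ j → ∃ i : ℕ, m ^ i ≡ j [MOD ordProj[p] (Nat.card G)]) →
    ∀ (w : G) (K : Subgroup G), (∃ n : ℕ, w ^ p ^ n = 1) → IsCompl p w K →
    ∀ χ ∈ Irr G, (∀ g, χ (g ^ m) = χ g) → ∃ a : ℤ, aval K χ w = a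

/-- (X8b) the congruence, for the principal block. -/
def X8b {G : Type} [Group G] [Finite G] (B : MonoidAlgebra k G) : Prop :=
  ∀ (w : G) (K : Subgroup G), (∃ n : ℕ, w ^ p ^ n = 1) → IsCompl p w K →
    ∀ χ ∈ IrrB red B, ∃ x ∈ integralClosure ℤ ℂ,
      (Nat.card {x : G // IsConj w x} * Nat.card K * aval K χ w = x * χ 1) ∧
      redC red x = Nat.card {x : G // IsConj w x} * Nat.card K

end Stmts

end P179X

namespace P179X

open Subgroup Finset P179H524 P179C P179A

/-- The order of the automiser `N_G(P)/C_G(P)`. -/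
noncomputable def autOrd {G : Type*} [Group G] (D : Subgroup G) : ℕ :=
  (centralizer (D : Set G)).relIndex (normalizer (D : Set G))

/-- (X10) the weights in the principal block. -/
def X10 (p : ℕ) [Fact p.Prime] {k : Type*} [Field k] (red : integralClosure ℤ ℂ →+* k)
    {G : Type} [Group G] [Finite G] (B : MonoidAlgebra k G) : Prop :=
  IsBlock B → IsPrincipal B → ∀ P : Sylow p G, (∀ a ∈ P, ∀ b ∈ P, a * b = b * a) →
    autOrd (P : Subgroup G) < p → numWeightsIn p red B ≤ autOrd (P : Subgroup G)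

/-- (X9) the final inequality: `w` runs over `W` (the regular elements), `i` over the rational
characters, `a i w` the values, `q = |P|`. -/
def X9 : Prop :=
  ∀ (p e q : ℕ), p.Prime → 1 ≤ e → 4 * e ≤ p → 1 ≤ q →
    ∀ (W I : Type) [Fintype W] [Fintype I] (a : I → W → ℤ),
    Fintype.card W ≤ q → q * (p + 1 - e) ≤ p * Fintype.card W →
    (∀ i w, a i w ≠ 0) → (∀ i, (∃ c : ℤ, ∀ w, a i w ≡ c [ZMOD p])) →
    (∀ i, ∑ w, a i w ^ 2 ≤ q * e) →
    (∑ i, (∑ w, a i w) ^ 2 ≤ q * Fintype.card W * e) → Fintype.card I < p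

end P179X
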