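import Vale.Agent.P179.H526.XDefs
import Vale.Agent.P179.H905.Ord
import Vale.Agent.P179.H143.SecOrth

/-!
# Stage 2: interface

All blocks are represented by their central characters, functionals `l : (G → k) → k`.
-/

namespace P179Y

open Subgroup Finset P179H524 P179C P179A P179P

open scoped Classical

section Defs

variable {k : Type*} [Field k] {G : Type*} [Group G]

/-- extension by zero -/
noncomputable def ext (H : Subgroup G) (z : H → k) : G → k :=
  fun g => if h : g ∈ H then z ⟨g, h⟩ else 0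

/-- the functional on functions on `H` induced by `l` -/
noncomputable def lres (H : Subgroup G) (l : (G → k) → k) : (H → k) → k := fun z => l (ext H z)

/-- `a` is supported on `H` and invariant under conjugation by `H` -/
def InvOn (H : Subgroup G) (a : G → k) : Prop :=
  (∀ h ∈ H, ∀ x, a (h * x * h⁻¹) = a x) ∧ ∀ x, x ∉ H → a x = 0

/-- the `p`-subgroups of the centralisers of the elements of the support of `a` are conjugate to
subgroups of `D` -/
def SuppIn (p : ℕ) (D : Subgroup G) (a : G → k) : Prop :=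
  ∀ x, a x ≠ 0 → ∀ P : Subgroup G, IsPGroup p P → P ≤ centralizer {x} →
    ∃ c : G, ∀ y ∈ P, c⁻¹ * y * c ∈ D

/-- `l` is (the linear extension of) an algebra homomorphism of the centre of `kG` -/
structure IsHomCF [Fintype G] (l : (G → k) → k) : Prop where
  add : ∀ a b, l (a + b) = l a + l b
  smul : ∀ (c : k) a, l (c • a) = c * l a
  one : l (fun g => if g = 1 then 1 else 0) = 1
  mul : ∀ a b, IsCF a → IsCF b → l (conv a b) = l a * l b

/-- A Brauer pair `(D, ν)`, `ν` a homomorphism `Z(k C_G(D)) → k` of a block with defect group `D`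
(so `D` is abelian in the applications); `l = ν ∘ Br_D` on all functions on `G`. -/
structure BP (p : ℕ) [Fintype G] (D : Subgroup G) (l : (G → k) → k) : Prop where
  add : ∀ a b, l (a + b) = l a + l b
  smul : ∀ (c : k) a, l (c • a) = c * l a
  supp : ∀ a, (∀ x ∈ centralizer (D : Set G), a x = 0) → l a = 0
  one : l (fun g => if g = 1 then 1 else 0) = 1
  mul : ∀ a b, InvOn (centralizer (D : Set G)) a → InvOn (centralizer (D : Set G)) b →
    l (conv a b) = l a * l b
  dfct : ∃ a, InvOn (centralizer (D : Set G)) a ∧ l a ≠ 0 ∧ ∀ x, a x ≠ 0 →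
    ∀ P : Subgroup G, IsPGroup p P → P ≤ centralizer {x} → P ≤ centralizer (D : Set G) → P ≤ D

/-- the relative trace -/
noncomputable def trG [Fintype G] (H : Subgroup G) (a : G → k) : G → k :=
  fun g => ∑ c : G ⧸ H, a (c.out⁻¹ * g * c.out)

/-- `u ∈ D` is regular: `C_N(u) = C`, `N = N_G(D)`, `C = C_G(D)`. -/
def RegEl (D : Subgroup G) (u : G) : Prop :=
  u ∈ D ∧ ∀ n ∈ normalizer (D : Set G), n * u * n⁻¹ = u → n ∈ centralizer (D : Set G)

end Defs

section Chars

variable {k : Type*} [Field k] (red : integralClosure ℤ ℂ →+* k) {G : Type*} [Group G]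

/-- `χ` lies in `l` -/
def InL (l : (G → k) → k) (χ : G → ℂ) : Prop := ∀ z : G → k, IsCF z → lam red χ z = l z

/-- `ψ^G` lies in `l` -/
def IndL (H : Subgroup G) (l : (G → k) → k) (ψ : H → ℂ) : Prop :=
  ∀ z : G → k, IsCF z → lam red ψ (fun h : H => z h) = l z

/-- the kernel `∑_{χ ∈ l} χ(x) χ(y⁻¹)` -/
noncomputable def KK [Finite G] (l : (G → k) → k) (x y : G) : ℂ :=
  ∑ χ : Irr G, if InL red l χ.1 then χ.1 x * χ.1 y⁻¹ else 0

/-- the sum over the `p`-regular elements -/
noncomputable def rsum (p : ℕ) {H : Type*} [Group H] (f : H → ℂ) : ℂ :=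
  ∑ᶠ s : {s : H // ¬ p ∣ orderOf s}, f s.1

theorem rsum_eq (p : ℕ) {H : Type*} [Group H] [Fintype H] (f : H → ℂ) :
    rsum p f = ∑ s ∈ univ.filter (fun s : H => ¬ p ∣ orderOf s), f s := by
  rw [rsum, finsum_eq_sum_of_fintype]
  exact (Finset.sum_subtype _ (fun s => by simp) f).symm

/-- (conclusion of Theorem N) `l` has `q` irreducible characters, and they agree on the
`p`-regular elements, with `φ`. -/
structure ND (p : ℕ) [Finite G] (l : (G → k) → k) (q : ℕ) (φ : G → ℂ) : Prop where
  irr : IsIrrChar φ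
  mem : InL red l φ
  eq : ∀ χ : Irr G, InL red l χ.1 → ∀ s, ¬ p ∣ orderOf s → χ.1 s = φ s
  card : Nat.card {χ : Irr G // InL red l χ.1} = q
  nrm : q * rsum p (fun s => φ s * φ s⁻¹) = Nat.card G
  unit : ∃ a b : ℕ, ¬ p ∣ a ∧ ¬ p ∣ b ∧ (a : ℂ) * Nat.card G = b * (q * φ 1)

/-- the generalised decomposition number `d^u_χ`; `H = C_G(u)` -/
noncomputable def dn (p : ℕ) (H : Subgroup G) (q : ℕ) (φ : H → ℂ) (u : G) (χ : G → ℂ) : ℂ :=
  q / Nat.card H * rsum p (fun t : H => χ (u * t) * φ t⁻¹)

end Chars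

end P179Y
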