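import Vale.Agent.P179.H526.KY

/-!
# Brauer's first main theorem, uniqueness part; fusion of regular elements inside the inertial group
-/

namespace P179Y

open P179H524 P179C P179A Finset P179P Subgroup

open P179X (pp SameSec)

open scoped Classical

/-- `u ∈ D` is regular for the inertial group `T = stabT D l`: `C_T(u) = C`. -/
def RegT {k : Type*} [Field k] {G : Type*} [Group G] (D : Subgroup G) (l : (G → k) → k) (u : G) :
    Prop :=
  u ∈ D ∧ ∀ n ∈ stabT D l, n * u * n⁻¹ = u → n ∈ centralizer (D : Set G)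

section

variable {p : ℕ} {k : Type*} [Field k] {G : Type*} [Group G] [Fintype G] {D : Subgroup G}
  {l l2 : (G → k) → k}

/-- a functional which is multiplicative on the centre of `k C_G(D)` -/
structure MulOn (D : Subgroup G) (m : (G → k) → k) : Prop where
  add : ∀ a b, m (a + b) = m a + m b
  smul : ∀ (c : k) a, m (c • a) = c * m a
  one : m (fun g => if g = 1 then 1 else 0) = 1
  mul : ∀ a b, InvOn (centralizer (D : Set G)) a → InvOn (centralizer (D : Set G)) b →
    m (conv a b) = m a * m b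

theorem BP.mulOn (hl : BP p D l) : MulOn D l := ⟨hl.add, hl.smul, hl.one, hl.mul⟩

theorem MulOn.cj (hl : MulOn D l) {c : G} (hc : c ∈ normalizer (D : Set G)) :
    MulOn D (fun z => l (cj c z)) where
  add a b := by
    rw [cj_add, hl.add]
  smul r a := by
    rw [cj_smul, hl.smul]
  one := by
    rw [cj_delta, hl.one]
  mul a b ha hb := by
    rw [cj_conv, hl.mul _ _ (ha.cj hc) (hb.cj hc)]

theorem sep_one (hl : BP p D l) {m : (G → k) → k} (hm : MulOn D m) {z : G → k}
    (hz : InvOn (centralizer (D : Set G)) z) (hne : m z ≠ l z) :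
    ∃ z', InvOn (centralizer (D : Set G)) z' ∧ l z' ≠ 0 ∧ m z' = 0 := by
  let δ : G → k := fun g => if g = 1 then (1 : k) else 0
  refine ⟨z + (-(m z)) • δ, hz.add _ ((invOn_delta _).smul _ _), ?_, ?_⟩
  · have hδ : l δ = 1 := hl.one
    rw [hl.add, hl.smul, hδ, mul_one]
    intro h
    exact hne (by linear_combination -h)
  · have hδ : m δ = 1 := hm.one
    rw [hm.add, hm.smul, hδ, mul_one]
    ring

theorem sep_family [hp : Fact p.Prime] [CharP k p] (hl : BP p D l) (F : Finset ((G → k) → k))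
    (hF : ∀ m ∈ F, MulOn D m ∧ ∃ z, InvOn (centralizer (D : Set G)) z ∧ m z ≠ l z) :
    ∃ t : G → k, InvOn (centralizer (D : Set G)) t ∧ l t ≠ 0 ∧ DSupp p D t ∧
      ∀ m ∈ F, m t = 0 := by
  induction F using Finset.induction_on with
  | empty =>
    obtain ⟨a, ha, hla, hx⟩ := hl.dfct
    exact ⟨a, ha, hla, hx, by simp⟩
  | insert m F hc ih =>
    obtain ⟨t, ht, hlt, htD, htF⟩ := ih fun m' hm' => hF m' (Finset.mem_insert_of_mem hm')
    obtain ⟨hm, z, hz, hne⟩ := hF m (Finset.mem_insert_self _ _)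
    obtain ⟨z', hz', h1, h2⟩ := sep_one hl hm hz hne
    refine ⟨conv t z', ht.conv _ hz', ?_, htD.conv p ht hz', ?_⟩
    · rw [hl.mul _ _ ht hz']
      exact mul_ne_zero hlt h1
    · intro m' hm'
      have hm'' := (hF m' hm').1
      rw [hm''.mul _ _ ht hz']
      rcases Finset.mem_insert.1 hm' with rfl | hm'
      · rw [h2, mul_zero]
      · rw [htF m' hm', zero_mul]

theorem BP.conjBP (hl : BP p D l) {n : G} (hn : n ∈ normalizer (D : Set G)) :
    BP p D (fun z => l (cj n z)) where
  add := (hl.mulOn.cj hn).add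
  smul := (hl.mulOn.cj hn).smul
  one := (hl.mulOn.cj hn).one
  mul := (hl.mulOn.cj hn).mul
  supp a ha := by
    refine hl.supp _ fun x hx => ?_
    refine ha _ ?_
    have := (conj_mem_cent (inv_mem hn) x).2 hx
    simpa using this
  dfct := by
    obtain ⟨a, ha, hla, hx⟩ := hl.dfct
    have hn' : n⁻¹ ∈ normalizer (D : Set G) := inv_mem hn
    refine ⟨P179Y.cj n⁻¹ a, ha.cj hn', ?_, ?_⟩
    · rw [← cj_mul, mul_inv_cancel, cj_one]
      exact hla
    · intro x hx0 P hP hPx hPC
      have h1 := hx (n * x * n⁻¹) (by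
        unfold P179Y.cj at hx0
        rwa [inv_inv] at hx0) (P.map (MulAut.conj n).toMonoidHom) (hP.map _)
        (by
          rintro _ ⟨y, hy, rfl⟩
          rw [mem_centralizer_singleton_iff]
          have h2 := mem_centralizer_singleton_iff.1 (hPx hy)
          change n * y * n⁻¹ * (n * x * n⁻¹) = n * x * n⁻¹ * (n * y * n⁻¹)
          calc n * y * n⁻¹ * (n * x * n⁻¹) = n * (y * x) * n⁻¹ := by group
            _ = _ := by rw [h2]; group)
        (by
          rintro _ ⟨y, hy, rfl⟩
          exact (conj_mem_cent hn y).2 (hPC hy))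
      intro y hy
      have h2 : n * y * n⁻¹ ∈ D := h1 ⟨y, hy, rfl⟩
      exact (mem_normalizer_iff.1 hn y).2 h2

/-- the trace form of a separating function -/
theorem l_trG [hp : Fact p.Prime] [CharP k p] {m : (G → k) → k} (hm : BP p D m)
    (hD : IsPGroup p D) (hab : D ≤ centralizer (D : Set G)) {t : G → k}
    (ht : InvOn (centralizer (D : Set G)) t) (htD : DSupp p D t) :
    m (trG (centralizer (D : Set G)) t) = ∑ c : G ⧸ centralizer (D : Set G),
      (if c.out ∈ normalizer (D : Set G) then m (cj c.out t) else 0) := by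
  have h2 : m (trG (centralizer (D : Set G)) t) = m (∑ c : G ⧸ centralizer (D : Set G),
      (if c.out ∈ normalizer (D : Set G) then P179Y.cj c.out t else 0)) := by
    refine hm.congr fun x hx => ?_
    rw [trG_cent hD hab ht htD hx, Finset.sum_apply]
    refine Finset.sum_congr rfl fun c _ => ?_
    split_ifs <;> rfl
  rw [h2, hm.sum]
  refine Finset.sum_congr rfl fun c _ => ?_
  split_ifs
  · rfl
  · exact hm.zero

/-- (uniqueness in Brauer's first main theorem) -/
theorem FDP [hp : Fact p.Prime] [CharP k p] (hl : BP p D l) (hl2 : BP p D l2)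
    (hD : IsPGroup p D) (hab : D ≤ centralizer (D : Set G))
    (hT : ¬ p ∣ (centralizer (D : Set G)).relIndex (stabT D l))
    (hll : ∀ z, IsCF z → l2 z = l z) :
    ∃ n ∈ normalizer (D : Set G), ∀ z, InvOn (centralizer (D : Set G)) z → l2 z = l (cj n z) := by
  by_contra hcon
  push Not at hcon
  let F1 : Finset ((G → k) → k) := (Finset.univ.filter fun c : G => c ∈ normalizer (D : Set G)).image
    fun c z => l2 (P179Y.cj c z)
  let F2 : Finset ((G → k) → k) := (Finset.univ.filter fun c : G =>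
    c ∈ normalizer (D : Set G) ∧ c ∉ stabT D l).image fun c z => l (P179Y.cj c z)
  obtain ⟨t, ht, hlt, htD, htF⟩ := sep_family hl (F1 ∪ F2) (by
    intro m hm
    rcases Finset.mem_union.1 hm with h | h
    · obtain ⟨c, hc, rfl⟩ := Finset.mem_image.1 h
      have hcN := (Finset.mem_filter.1 hc).2
      refine ⟨hl2.mulOn.cj hcN, ?_⟩
      obtain ⟨z, hz, hne⟩ := hcon c⁻¹ (inv_mem hcN)
      refine ⟨P179Y.cj c⁻¹ z, hz.cj (inv_mem hcN), ?_⟩
      beta_reduce
      rw [← cj_mul, mul_inv_cancel, cj_one]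
      exact hne
    · obtain ⟨c, hc, rfl⟩ := Finset.mem_image.1 h
      obtain ⟨hcN, hcT⟩ := (Finset.mem_filter.1 hc).2
      refine ⟨hl.mulOn.cj hcN, ?_⟩
      rw [mem_stabT] at hcT
      push Not at hcT
      exact hcT hcN)
  have h1 : l (trG (centralizer (D : Set G)) t) =
      (centralizer (D : Set G)).relIndex (stabT D l) * l t := by
    rw [l_trG hl hD hab ht htD]
    have h3 : ∀ c : G ⧸ centralizer (D : Set G),
        (if c.out ∈ normalizer (D : Set G) then l (P179Y.cj c.out t) else 0) =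
        if c.out ∈ stabT D l then l t else 0 := by
      intro c
      by_cases hcT : c.out ∈ stabT D l
      · rw [if_pos hcT.1, if_pos hcT, hcT.2 t ht]
      · rw [if_neg hcT]
        by_cases hcN : c.out ∈ normalizer (D : Set G)
        · rw [if_pos hcN]
          exact htF _ (Finset.mem_union_right _ (Finset.mem_image.2 ⟨c.out,
            Finset.mem_filter.2 ⟨Finset.mem_univ _, hcN, hcT⟩, rfl⟩))
        · rw [if_neg hcN]
    rw [Finset.sum_congr rfl fun c _ => h3 c, ← Finset.sum_filter, Finset.sum_const, nsmul_eq_mul,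
      card_cosets _ _ (cent_le_stabT D l)]
  have h2 : l2 (trG (centralizer (D : Set G)) t) = 0 := by
    rw [l_trG hl2 hD hab ht htD]
    refine Finset.sum_eq_zero fun c _ => ?_
    by_cases hcN : c.out ∈ normalizer (D : Set G)
    · rw [if_pos hcN]
      exact htF _ (Finset.mem_union_left _ (Finset.mem_image.2 ⟨c.out,
        Finset.mem_filter.2 ⟨Finset.mem_univ _, hcN⟩, rfl⟩))
    · rw [if_neg hcN]
  rw [hll _ (isCF_trG _ ht.1), h1] at h2
  rcases mul_eq_zero.1 h2 with h | h
  · rw [CharP.cast_eq_zero_iff k p] at h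
    exact hT h
  · exact hlt h

end

section Fus

variable {p : ℕ} {k : Type*} [Field k] {G : Type*} [Group G] [Fintype G] {D : Subgroup G}
  {l l2 : (G → k) → k}

omit [Fintype G] in
theorem ext_cj (H : Subgroup G) (n : H) (z : H → k) :
    ext H (cj n z) = cj (n : G) (ext H z) := by
  funext x
  unfold cj
  by_cases hx : x ∈ H
  · rw [ext_of_mem H _ hx, ext_of_mem H z (mul_mem (mul_mem (inv_mem n.2) hx) n.2)]
    rfl
  · rw [ext_of_not_mem H _ hx, ext_of_not_mem H z]
    intro h
    apply hx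
    have h2 := mul_mem (mul_mem n.2 h) (inv_mem n.2)
    have e1 : (n : G) * ((n : G)⁻¹ * x * n) * (n : G)⁻¹ = x := by group
    rwa [e1] at h2

omit [Fintype G] in
theorem invOn_ext' {H : Subgroup G} (hDH : D ≤ H) (hCH : centralizer (D : Set G) ≤ H)
    {a : H → k} (ha : InvOn (centralizer ((D.subgroupOf H : Subgroup H) : Set H)) a) :
    InvOn (centralizer (D : Set G)) (ext H a) := by
  constructor
  · intro c hc x
    have hcH := hCH hc
    by_cases hx : x ∈ H
    · rw [ext_of_mem H a hx, ext_of_mem H a (mul_mem (mul_mem hcH hx) (inv_mem hcH))]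
      exact ha.1 ⟨c, hcH⟩ ((mem_cent_subgroupOf hDH _).2 hc) ⟨x, hx⟩
    · rw [ext_of_not_mem H a hx, ext_of_not_mem H a]
      intro h
      apply hx
      have := mul_mem (mul_mem (inv_mem hcH) h) hcH
      have e1 : c⁻¹ * (c * x * c⁻¹) * c = x := by group
      rwa [e1] at this
  · intro x hx
    by_cases hxH : x ∈ H
    · rw [ext_of_mem H a hxH]
      exact ha.2 _ fun h => hx ((mem_cent_subgroupOf hDH _).1 h)
    · exact ext_of_not_mem H a hxH

omit [Fintype G] in
theorem ext_restr' {H : Subgroup G} {a : G → k} (ha : ∀ x, x ∉ H → a x = 0) :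
    ext H (fun h : H => a h) = a := by
  funext x
  by_cases hx : x ∈ H
  · rw [ext_of_mem H _ hx]
  · rw [ext_of_not_mem H _ hx, ha x hx]

omit [Fintype G] in
theorem invOn_restr {H : Subgroup G} (hDH : D ≤ H) {a : G → k}
    (ha : InvOn (centralizer (D : Set G)) a) :
    InvOn (centralizer ((D.subgroupOf H : Subgroup H) : Set H)) (fun h : H => a h) :=
  ⟨fun c hc x => ha.1 c ((mem_cent_subgroupOf hDH c).1 hc) x,
    fun x hx => ha.2 x fun h => hx ((mem_cent_subgroupOf hDH x).2 h)⟩

omit [Fintype G] in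
/-- inertial groups in subgroups -/
theorem mem_stabT_lres {H : Subgroup G} (hDH : D ≤ H) (hCH : centralizer (D : Set G) ≤ H)
    (n : H) : n ∈ stabT (D.subgroupOf H) (lres H l) ↔ (n : G) ∈ stabT D l := by
  rw [mem_stabT, mem_stabT, mem_norm_subgroupOf hDH]
  refine and_congr_right fun _ => ⟨fun h z hz => ?_, fun h z hz => ?_⟩
  · have h1 := h _ (invOn_restr hDH hz)
    unfold lres at h1
    rw [ext_cj, ext_restr' fun x hx => hz.2 x fun h => hx (hCH h)] at h1
    exact h1
  · unfold lres
    rw [ext_cj]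
    exact h _ (invOn_ext' hDH hCH hz)

omit [Fintype G] in
theorem relIndex_stabT_lres {H : Subgroup G} (hDH : D ≤ H)
    (hCH : centralizer (D : Set G) ≤ H) :
    (centralizer ((D.subgroupOf H : Subgroup H) : Set H)).relIndex
      (stabT (D.subgroupOf H) (lres H l)) =
    (centralizer (D : Set G)).relIndex (stabT D l ⊓ H) := by
  have h1 : centralizer ((D.subgroupOf H : Subgroup H) : Set H) =
      (centralizer (D : Set G)).subgroupOf H := by
    ext x
    rw [mem_cent_subgroupOf hDH, Subgroup.mem_subgroupOf]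
  have h2 : stabT (D.subgroupOf H) (lres H l) = (stabT D l ⊓ H).subgroupOf H := by
    ext x
    rw [mem_stabT_lres hDH hCH, Subgroup.mem_subgroupOf, Subgroup.mem_inf]
    exact ⟨fun h => ⟨h, x.2⟩, fun h => h.1⟩
  rw [h1, h2, Subgroup.relIndex_subgroupOf inf_le_right]

omit [Fintype G] in
theorem relIndex_stabT_lres_dvd {H : Subgroup G} (hDH : D ≤ H)
    (hCH : centralizer (D : Set G) ≤ H) :
    (centralizer ((D.subgroupOf H : Subgroup H) : Set H)).relIndex
      (stabT (D.subgroupOf H) (lres H l)) ∣ (centralizer (D : Set G)).relIndex (stabT D l) := by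
  rw [relIndex_stabT_lres hDH hCH]
  exact Dvd.intro _ (Subgroup.relIndex_mul_relIndex _ _ _ (le_inf (cent_le_stabT D l) hCH)
    inf_le_left)

omit [Fintype G] in
theorem RegT.stab_le {u : G} (hu : RegT D l u) {n : G} (hn : n ∈ stabT D l)
    (hnu : n ∈ centralizer {u}) : n ∈ centralizer (D : Set G) := by
  refine hu.2 n hn ?_
  rw [mem_centralizer_singleton_iff] at hnu
  rw [mul_inv_eq_iff_eq_mul]
  exact hnu

omit [Fintype G] in
/-- the inertial group in the centraliser of a regular element -/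
theorem RegT.stab_le' (hab : D ≤ centralizer (D : Set G)) {u : G} (hu : RegT D l u) :
    stabT (D.subgroupOf (centralizer {u})) (lres (centralizer {u}) l) ≤
      centralizer ((D.subgroupOf (centralizer {u}) : Subgroup (centralizer {u})) :
        Set (centralizer {u} : Subgroup G)) := by
  have hDH := le_cent_of_mem hu.1 hab
  have hCH := cent_le_of_mem (D := D) hu.1
  intro n hn
  rw [mem_stabT_lres hDH hCH] at hn
  rw [mem_cent_subgroupOf hDH]
  exact hu.stab_le hn n.2

omit [Fintype G] in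
theorem RegT.relIndex_stabT (hab : D ≤ centralizer (D : Set G)) {u : G} (hu : RegT D l u) :
    (centralizer ((D.subgroupOf (centralizer {u}) : Subgroup (centralizer {u})) :
        Set (centralizer {u} : Subgroup G))).relIndex
      (stabT (D.subgroupOf (centralizer {u})) (lres (centralizer {u}) l)) = 1 := by
  rw [relIndex_eq_one]
  exact hu.stab_le' hab

/-- fusion, general form -/
theorem fusionH [hp : Fact p.Prime] [CharP k p] (hl : BP p D l) (hD : IsPGroup p D)
    (hab : D ≤ centralizer (D : Set G)) {H : Subgroup G} (hDH : D ≤ H)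
    (hCH : centralizer (D : Set G) ≤ H)
    (hT : ¬ p ∣ (centralizer ((D.subgroupOf H : Subgroup H) : Set H)).relIndex
      (stabT (D.subgroupOf H) (lres H l)))
    {g : G} (hgD : ∀ d ∈ D, g * d * g⁻¹ ∈ H)
    (heq : ∀ z, InvOn H z → l (cj g⁻¹ z) = l z) :
    ∃ c ∈ H, c⁻¹ * g ∈ stabT D l := by
  have hlH := hl.restrict hDH hCH
  have hDp : IsPGroup p (D.subgroupOf H) := hD.comap_subtype
  have habH : D.subgroupOf H ≤ centralizer ((D.subgroupOf H : Subgroup H) : Set H) := by
    intro x hx
    rw [mem_cent_subgroupOf hDH]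
    exact hab (by simpa [Subgroup.mem_subgroupOf] using hx)
  obtain ⟨y, hyCF, hyD, hly⟩ := exists_Y hlH hDp habH hT
  have hext : ∀ y : H → k, IsCF y → InvOn H (ext H y) := by
    intro y hyCF
    constructor
    · intro h hh x
      by_cases hx : x ∈ H
      · rw [ext_of_mem H y hx, ext_of_mem H y (mul_mem (mul_mem hh hx) (inv_mem hh))]
        exact hyCF ⟨h, hh⟩ ⟨x, hx⟩
      · rw [ext_of_not_mem H y hx, ext_of_not_mem H y]
        intro h1
        apply hx
        have h2 := mul_mem (mul_mem (inv_mem hh) h1) hh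
        have e1 : h⁻¹ * (h * x * h⁻¹) * h = x := by group
        rwa [e1] at h2
    · intro x hx
      exact ext_of_not_mem H y hx
  have hz := hext y hyCF
  have h1 : l (cj g⁻¹ (ext H y)) ≠ 0 := by
    rw [heq _ hz]
    exact hly
  obtain ⟨x, hx, hne⟩ : ∃ x ∈ centralizer (D : Set G), cj g⁻¹ (ext H y) x ≠ 0 := by
    by_contra hcon
    push Not at hcon
    exact h1 (hl.supp _ hcon)
  have hne' : ext H y (g * x * g⁻¹) ≠ 0 := by
    unfold cj at hne
    rwa [inv_inv] at hne
  have hxH : g * x * g⁻¹ ∈ H := by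
    by_contra h
    exact hne' (ext_of_not_mem H y h)
  rw [ext_of_mem H y hxH] at hne'
  let P : Subgroup H := (D.map (MulAut.conj g).toMonoidHom).subgroupOf H
  have hP : IsPGroup p P := (hD.map _).comap_subtype
  obtain ⟨c, hc⟩ := hyD _ hne' P hP (by
    intro q hq
    rw [mem_centralizer_singleton_iff]
    obtain ⟨d, hd, hdq⟩ := (Subgroup.mem_subgroupOf.1 hq)
    apply Subtype.ext
    change (q : G) * (g * x * g⁻¹) = (g * x * g⁻¹) * (q : G)
    have h2 : (q : G) = g * d * g⁻¹ := hdq.symm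
    have h3 := mem_centralizer_iff.1 hx d hd
    rw [h2]
    calc g * d * g⁻¹ * (g * x * g⁻¹) = g * (d * x) * g⁻¹ := by group
      _ = g * x * g⁻¹ * (g * d * g⁻¹) := by rw [h3]; group)
  have hn : (c : G)⁻¹ * g ∈ normalizer (D : Set G) := by
    have h4 : ((c : G)⁻¹ * g)⁻¹ ∈ normalizer (D : Set G) := by
      apply mem_norm_of_conj_le
      intro d hd
      have h3 := hc ⟨g * d * g⁻¹, hgD d hd⟩ (by
        rw [Subgroup.mem_subgroupOf]
        exact ⟨d, hd, rfl⟩)
      rw [Subgroup.mem_subgroupOf] at h3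
      have e : ((c⁻¹ * ⟨g * d * g⁻¹, hgD d hd⟩ * c : H) : G) =
          ((c : G)⁻¹ * g)⁻¹⁻¹ * d * ((c : G)⁻¹ * g)⁻¹ := by
        change (c : G)⁻¹ * (g * d * g⁻¹) * (c : G) = _
        group
      rwa [e] at h3
    simpa using inv_mem h4
  -- compare `l` and `l ∘ cj n⁻¹` on `H`
  set n : G := (c : G)⁻¹ * g with hndef
  have hl' := hl.conjBP (inv_mem hn)
  have hl'H := hl'.restrict hDH hCH
  have hll : ∀ z : H → k, IsCF z → lres H (fun z => l (cj n⁻¹ z)) z = lres H l z := by
    intro z hz
    unfold lres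
    have h5 := hext z hz
    have h6 : cj n⁻¹ (ext H z) = cj g⁻¹ (ext H z) := by
      have : n⁻¹ = g⁻¹ * (c : G) := by rw [hndef]; group
      rw [this, cj_mul]
      congr 1
      funext x
      unfold cj
      have := h5.1 (c : G)⁻¹ (inv_mem c.2) x
      rwa [inv_inv] at this
    change l (cj n⁻¹ (ext H z)) = _
    rw [h6]
    exact heq _ h5
  obtain ⟨m, hm, hm2⟩ := FDP hlH hl'H hDp habH hT hll
  have hmN : (m : G) ∈ normalizer (D : Set G) := (mem_norm_subgroupOf hDH m).1 hm
  have hkey : ∀ z, InvOn (centralizer (D : Set G)) z → l (cj n⁻¹ z) = l (cj (m : G) z) := by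
    intro z hz
    have h7 := hm2 _ (invOn_restr hDH hz)
    unfold lres at h7
    rw [ext_cj, ext_restr' fun x hx => hz.2 x fun h => hx (hCH h)] at h7
    exact h7
  refine ⟨(c : G) * (m : G)⁻¹, mul_mem c.2 (inv_mem m.2), ?_⟩
  have h8 : ((c : G) * (m : G)⁻¹)⁻¹ * g = (m : G) * n := by rw [hndef]; group
  rw [h8, mem_stabT]
  refine ⟨mul_mem hmN hn, fun z hz => ?_⟩
  rw [cj_mul, ← hkey _ (hz.cj hn), ← cj_mul, inv_mul_cancel, cj_one]

/-- (K8P) fusion of regular elements, in the inertial group -/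
theorem fusionT [hp : Fact p.Prime] [CharP k p] (hl : BP p D l) (hD : IsPGroup p D)
    (hab : D ≤ centralizer (D : Set G)) {w g : G} (hw : w ∈ D) (hw' : RegT D l (g * w * g⁻¹))
    (heq : ∀ z, InvOn (centralizer {g * w * g⁻¹}) z → l (cj g⁻¹ z) = l z) :
    ∃ n ∈ stabT D l, n * w * n⁻¹ = g * w * g⁻¹ := by
  obtain ⟨c, hc, hn⟩ := fusionH hl hD hab (le_cent_of_mem hw'.1 hab) (cent_le_of_mem hw'.1)
    (by
      rw [hw'.relIndex_stabT hab]
      exact fun h => hp.out.one_lt.ne' (Nat.dvd_one.1 h)) (g := g) (by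
      intro d hd
      rw [mem_centralizer_singleton_iff]
      have h2 := mem_centralizer_iff.1 (hab hw) d hd
      calc g * d * g⁻¹ * (g * w * g⁻¹) = g * (d * w) * g⁻¹ := by group
        _ = g * w * g⁻¹ * (g * d * g⁻¹) := by rw [h2]; group) heq
  refine ⟨_, hn, ?_⟩
  have h5 := mem_centralizer_singleton_iff.1 hc
  calc c⁻¹ * g * w * (c⁻¹ * g)⁻¹ = c⁻¹ * ((g * w * g⁻¹) * c) := by group
    _ = g * w * g⁻¹ := by rw [← h5]; group

end Fus

end P179Y
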