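import Mathlib

/-!
# The final inequality

Integer vectors which are constant modulo `p`, with small norms, and with small sum of squares of
coordinate sums: there are fewer than `p` of them.
-/

namespace P179X

open Finset

/-- An integer `d` not divisible by the odd prime `p` has `s d ≡ ρ` with a sign `s` and
`0 < ρ < p / 2`. -/
theorem exists_residue {p : ℕ} (hp : p.Prime) (hp2 : 5 ≤ p) (c : ℤ) (hc : ¬ (p : ℤ) ∣ c) :
    ∃ s ρ : ℤ, (s = 1 ∨ s = -1) ∧ 1 ≤ ρ ∧ 2 * ρ + 1 ≤ p ∧ s * c ≡ ρ [ZMOD p] := by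
  have hodd : p % 2 = 1 := by
    rcases hp.eq_two_or_odd with h | h
    · omega
    · exact h
  have hp0 : (0 : ℤ) < p := by omega
  have h1 : 0 ≤ c % p := Int.emod_nonneg _ hp0.ne'
  have h2 : c % p < p := Int.emod_lt_of_pos _ hp0
  have h3 : c % p ≠ 0 := fun h => hc (Int.dvd_of_emod_eq_zero h)
  by_cases h : 2 * (c % p) + 1 ≤ p
  · exact ⟨1, c % p, Or.inl rfl, by omega, h, by rw [one_mul]; exact (Int.mod_modEq c p).symm⟩
  · refine ⟨-1, p - c % p, Or.inr rfl, by omega, by omega, ?_⟩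
    rw [Int.modEq_iff_dvd]
    refine ⟨1 + c / p, ?_⟩
    have := Int.emod_add_mul_ediv c p
    linarith

/-- The elementary inequality. -/
theorem elem_ineq {p : ℕ} {ρ d : ℤ} (h : d ≡ ρ [ZMOD p]) :
    0 ≤ d ^ 2 - ρ ^ 2 + (p - 2 * ρ) * (d - ρ) := by
  obtain ⟨k, hk⟩ := (Int.modEq_iff_dvd.mp h.symm)
  have hd : d = ρ + p * k := by linarith
  have h1 : d ^ 2 - ρ ^ 2 + (p - 2 * ρ) * (d - ρ) = (p : ℤ) ^ 2 * (k * (k + 1)) := by
    rw [hd]; ring
  rw [h1]
  refine mul_nonneg (sq_nonneg _) ?_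
  rcases lt_or_ge k 0 with hk0 | hk0
  · exact mul_nonneg_of_nonpos_of_nonpos hk0.le (by omega)
  · exact mul_nonneg hk0 (by omega)

theorem sum_ge {p : ℕ} {W : Type*} [Fintype W] (a : W → ℤ) (ρ : ℤ) (X : ℤ)
    (h : ∀ w, a w ≡ ρ [ZMOD p]) (hX : ∑ w, a w ^ 2 ≤ X) :
    ρ * (p - ρ) * Fintype.card W - X ≤ (p - 2 * ρ) * ∑ w, a w := by
  have h1 : 0 ≤ ∑ w, (a w ^ 2 - ρ ^ 2 + (p - 2 * ρ) * (a w - ρ)) :=
    Finset.sum_nonneg fun w _ => elem_ineq (h w)
  rw [Finset.sum_add_distrib, Finset.sum_sub_distrib, ← Finset.mul_sum, Finset.sum_sub_distrib,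
    Finset.sum_const, Finset.sum_const, Finset.card_univ] at h1
  simp only [nsmul_eq_mul] at h1
  nlinarith

/-- The lower bound for the sums: `|∑ a| ≥ (3/5) |W|`. -/
theorem sum_sq_ge {p e q : ℕ} (hp : p.Prime) (he : 1 ≤ e) (hpe : 4 * e ≤ p)
    {W : Type*} [Fintype W] (a : W → ℤ) (hW0 : 0 < Fintype.card W)
    (hq : 3 * q ≤ 4 * Fintype.card W) (ha0 : ∀ w, a w ≠ 0)
    (c : ℤ) (hc : ∀ w, a w ≡ c [ZMOD p]) (hX : ∑ w, a w ^ 2 ≤ q * e) :
    9 * (Fintype.card W : ℤ) ^ 2 ≤ 25 * (∑ w, a w) ^ 2 := by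
  have hp5 : 5 ≤ p := by
    have h2 : 4 ≤ p := by omega
    rcases Nat.lt_or_ge p 5 with h | h
    · have : p = 4 := by omega
      subst this
      exact absurd hp (by norm_num)
    · exact h
  set m : ℤ := (Fintype.card W : ℤ) with hm
  have hm0 : 0 < m := by rw [hm]; exact_mod_cast hW0
  have hqe : 3 * ((q : ℤ) * e) ≤ p * m := by
    have h1 : 3 * (q : ℤ) ≤ 4 * m := by rw [hm]; exact_mod_cast hq
    have h2 : 4 * (e : ℤ) ≤ p := by exact_mod_cast hpe
    have h3 : (0 : ℤ) ≤ e := by positivity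
    nlinarith
  by_cases hpc : (p : ℤ) ∣ c
  · exfalso
    have h1 : ∀ w, (p : ℤ) ^ 2 ≤ a w ^ 2 := by
      intro w
      have h2 : (p : ℤ) ∣ a w := (Int.ModEq.dvd_iff (hc w)).mpr hpc
      exact pow_le_pow_left₀ (by positivity) (Int.le_of_dvd (abs_pos.mpr (ha0 w))
        ((dvd_abs _ _).mpr h2)) 2 |>.trans_eq (sq_abs _)
    have h3 : m * (p : ℤ) ^ 2 ≤ ∑ w, a w ^ 2 := by
      have := Finset.sum_le_sum (s := (Finset.univ : Finset W)) fun w _ => h1 w
      rw [Finset.sum_const, Finset.card_univ, nsmul_eq_mul] at this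
      exact this
    have h4 : m * (p : ℤ) ^ 2 ≤ q * e := h3.trans hX
    have h5 : (5 : ℤ) ≤ p := by exact_mod_cast hp5
    have h6 : 0 < m * (p : ℤ) := by positivity
    have h7 : m * (p : ℤ) * 5 ≤ m * (p : ℤ) * p := mul_le_mul_of_nonneg_left h5 h6.le
    nlinarith
  · obtain ⟨s, ρ, hs, hρ1, hρ2, hρ⟩ := exists_residue hp hp5 c hpc
    have hs2 : s * s = 1 := by rcases hs with h | h <;> rw [h] <;> norm_num
    have h1 := sum_ge (fun w => s * a w) ρ (q * e) (fun w => ((hc w).mul_left s).trans hρ) (by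
      simp only [mul_pow, pow_two s, hs2, one_mul]
      exact hX)
    rw [← Finset.mul_sum] at h1
    set T : ℤ := ∑ w, a w
    have h2 : 3 * m ≤ 5 * (s * T) := by
      have h3 : (0 : ℤ) < p - 2 * ρ := by omega
      by_contra hlt
      push Not at hlt
      have h4 : (p - 2 * ρ) * (5 * (s * T)) < (p - 2 * ρ) * (3 * m) :=
        mul_lt_mul_of_pos_left hlt h3
      have h5 : 15 * (ρ * (p - ρ)) * m - 5 * (p * m) < 9 * (p - 2 * ρ) * m := by
        nlinarith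
      have h6 : (15 * (ρ * (p - ρ)) - 5 * p - 9 * (p - 2 * ρ)) * m < 0 := by nlinarith
      have h7 : 0 ≤ 15 * (ρ * (p - ρ)) - 5 * (p : ℤ) - 9 * (p - 2 * ρ) := by
        have h8 : (0 : ℤ) ≤ p - (2 * ρ + 1) := by omega
        have h9 : (0 : ℤ) ≤ 15 * ρ - 14 := by omega
        nlinarith [mul_nonneg h8 h9]
      nlinarith
    have h3 : (s * T) ^ 2 = T ^ 2 := by rw [mul_pow, pow_two s, hs2, one_mul]
    have h4 : 0 ≤ s * T := by nlinarith
    nlinarith

/-- **The final inequality** (X9). -/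
theorem final_ineq {p e q : ℕ} (hp : p.Prime) (he : 1 ≤ e) (hpe : 4 * e ≤ p) (hq0 : 1 ≤ q)
    {W I : Type*} [Fintype W] [Fintype I] (a : I → W → ℤ)
    (hWq : q * (p + 1 - e) ≤ p * Fintype.card W)
    (ha0 : ∀ i w, a i w ≠ 0) (hc : ∀ i, ∃ c : ℤ, ∀ w, a i w ≡ c [ZMOD p])
    (hb : ∀ i, ∑ w, a i w ^ 2 ≤ q * e)
    (hT : ∑ i, (∑ w, a i w) ^ 2 ≤ q * Fintype.card W * e) : Fintype.card I < p := by
  have hp1 := hp.one_lt
  have h34 : 3 * q < 4 * Fintype.card W := by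
    have h1 : 3 * p + 4 ≤ 4 * (p + 1 - e) := by omega
    by_contra h
    push Not at h
    have h2 : q * (3 * p + 4) ≤ 4 * (p * Fintype.card W) :=
      (Nat.mul_le_mul_left q h1).trans (by rw [← mul_assoc, mul_comm q 4, mul_assoc]
                                           exact Nat.mul_le_mul_left 4 hWq)
    nlinarith
  have hW0 : 0 < Fintype.card W := by omega
  by_contra hI
  push Not at hI
  have h1 : ∀ i, 9 * (Fintype.card W : ℤ) ^ 2 ≤ 25 * (∑ w, a i w) ^ 2 := fun i => by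
    obtain ⟨c, hc⟩ := hc i
    exact sum_sq_ge hp he hpe (a i) hW0 h34.le (ha0 i) c hc (hb i)
  have h2 : (Fintype.card I : ℤ) * (9 * (Fintype.card W : ℤ) ^ 2) ≤
      25 * ∑ i, (∑ w, a i w) ^ 2 := by
    have := Finset.sum_le_sum (s := (Finset.univ : Finset I)) fun i _ => h1 i
    rw [Finset.sum_const, Finset.card_univ, nsmul_eq_mul, ← Finset.mul_sum] at this
    exact this
  set m : ℤ := (Fintype.card W : ℤ) with hm
  have hm0 : 0 < m := by rw [hm]; exact_mod_cast hW0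
  have h3 : (p : ℤ) ≤ Fintype.card I := by exact_mod_cast hI
  have h4 : 3 * (q : ℤ) ≤ 4 * m := by rw [hm]; exact_mod_cast h34.le
  have h5 : 4 * (e : ℤ) ≤ p := by exact_mod_cast hpe
  have h6 : (p : ℤ) * (9 * m ^ 2) ≤ 25 * (q * m * e) :=
    (mul_le_mul_of_nonneg_right h3 (by positivity)).trans
      (h2.trans (mul_le_mul_of_nonneg_left hT (by norm_num)))
  have h7 : 3 * ((q : ℤ) * e) ≤ p * m := by
    have h3 : (0 : ℤ) ≤ e := by positivity
    nlinarith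
  have h8 : (0 : ℤ) < p := by exact_mod_cast hp.pos
  have h9 : 27 * ((p : ℤ) * m ^ 2) ≤ 25 * (p * m ^ 2) := by nlinarith
  have : 0 < (p : ℤ) * m ^ 2 := by positivity
  linarith

end P179X
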