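import Vale.Agent.P179.H526.KBase

/-!
# Stage 2, `k`-side: elements with prescribed defect
-/

namespace P179Y

open Subgroup Finset P179H524 P179C P179A P179P

open scoped Classical

section Trace

variable {k : Type*} [Field k] {G : Type*} [Group G]

/-- conjugate function -/
def cj (c : G) (z : G → k) : G → k := fun x => z (c⁻¹ * x * c)

omit [Field k] in
theorem cj_mul (c d : G) (z : G → k) : cj (c * d) z = cj c (cj d z) := by
  funext x
  unfold cj
  congr 1
  group

omit [Field k] in
theorem cj_one (z : G → k) : cj 1 z = z := by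
  funext x
  simp [cj]

theorem cj_add (c : G) (a b : G → k) : cj c (a + b) = cj c a + cj c b := rfl

theorem cj_smul (c : G) (r : k) (a : G → k) : cj c (r • a) = r • cj c a := rfl

theorem cj_conv [Fintype G] (c : G) (a b : G → k) : cj c (conv a b) = conv (cj c a) (cj c b) := by
  funext x
  unfold cj conv
  refine Fintype.sum_equiv (MulAut.conj c).toEquiv _ _ fun h => ?_
  change _ = a (c⁻¹ * (c * h * c⁻¹) * c) * b (c⁻¹ * ((c * h * c⁻¹)⁻¹ * x) * c)
  congr 2 <;> group

theorem cj_delta (c : G) :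
    cj c (fun g => if g = 1 then (1 : k) else 0) = fun g => if g = 1 then 1 else 0 := by
  funext x
  unfold cj
  have : c⁻¹ * x * c = 1 ↔ x = 1 := by
    constructor
    · intro h
      have := congrArg (fun y => c * y * c⁻¹) h
      simpa [mul_assoc] using this
    · rintro rfl; simp
  simp only [this]

omit [Field k] in
/-- invariance passes to arbitrary representatives of cosets -/
theorem apply_out {H : Subgroup G} {a : G → k} (ha : ∀ h ∈ H, ∀ x, a (h * x * h⁻¹) = a x)
    (c x : G) : a ((c : G ⧸ H).out⁻¹ * x * (c : G ⧸ H).out) = a (c⁻¹ * x * c) := by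
  obtain ⟨h, hh⟩ := QuotientGroup.mk_out_eq_mul H c
  rw [hh, ← ha h h.2 ((c * h)⁻¹ * x * (c * h))]
  congr 1
  group

variable [Fintype G]

theorem isCF_trG (H : Subgroup G) {a : G → k} (ha : ∀ h ∈ H, ∀ x, a (h * x * h⁻¹) = a x) :
    IsCF (trG H a) := by
  intro g x
  unfold trG
  rw [← Equiv.sum_comp (MulAction.toPerm (g : G) : Equiv.Perm (G ⧸ H))]
  refine Finset.sum_congr rfl fun c => ?_
  induction c using QuotientGroup.induction_on with
  | H c =>
  intro _
  have h1 : (MulAction.toPerm (g : G) : Equiv.Perm (G ⧸ H)) (c : G ⧸ H) = ((g * c : G) : G ⧸ H) :=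
    rfl
  rw [h1, apply_out ha, apply_out ha]
  congr 1
  group

/-- fixed points in the relative trace -/
theorem exists_fixed_coset (p : ℕ) [hp : Fact p.Prime] [CharP k p] (H : Subgroup G) {a : G → k}
    (ha : ∀ h ∈ H, ∀ x, a (h * x * h⁻¹) = a x) {x : G} (S : G → Prop)
    (P : Subgroup G) (hP : IsPGroup p P) (hPx : P ≤ centralizer {x})
    (hS : ∀ q ∈ P, ∀ c, S c ↔ S (q * c)) (hSH : ∀ h ∈ H, ∀ c, S c ↔ S (c * h))
    (h0 : ∀ c, S c → (∀ y ∈ P, c⁻¹ * y * c ∈ H) → a (c⁻¹ * x * c) = 0) :
    ∑ c : G ⧸ H, (if S c.out then a (c.out⁻¹ * x * c.out) else 0) = 0 := by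
  have hfin : Finite P := inferInstance
  have hout : ∀ c : G, S (c : G ⧸ H).out ↔ S c := by
    intro c
    obtain ⟨h, hh⟩ := QuotientGroup.mk_out_eq_mul H c
    rw [hh]
    exact (hSH h h.2 c).symm
  refine sum_eq_zero_of_perm p hP
    ((MulAction.toPermHom G (G ⧸ H)).comp P.subtype : P →* Equiv.Perm (G ⧸ H)) _ ?_ ?_
  · intro q c
    induction c using QuotientGroup.induction_on with
    | H c =>
    have h1 : ((MulAction.toPermHom G (G ⧸ H)).comp P.subtype : P →* Equiv.Perm (G ⧸ H)) q
        (c : G ⧸ H) = (((q : G) * c : G) : G ⧸ H) := rfl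
    rw [h1, apply_out ha, apply_out ha]
    simp only [hout]
    have h2 : S ((q : G) * c) ↔ S c := (hS q q.2 c).symm
    have h3 : ((q : G) * c)⁻¹ * x * ((q : G) * c) = c⁻¹ * x * c := by
      have h4 := mem_centralizer_singleton_iff.1 (hPx q.2)
      calc ((q : G) * c)⁻¹ * x * ((q : G) * c) = c⁻¹ * ((q : G)⁻¹ * (x * q)) * c := by group
        _ = c⁻¹ * x * c := by rw [← h4]; group
    simp only [h2, h3]
  · intro c
    induction c using QuotientGroup.induction_on with
    | H c =>
    intro hc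
    rw [apply_out ha]
    simp only [hout]
    by_cases hcS : S c
    · rw [if_pos hcS]
      refine h0 c hcS fun y hy => ?_
      have h1 : (((y : G) * c : G) : G ⧸ H) = (c : G ⧸ H) := hc ⟨y, hy⟩
      have h2 := QuotientGroup.eq.1 h1.symm
      rwa [← mul_assoc] at h2
    · rw [if_neg hcS]

theorem exists_of_trG_ne (p : ℕ) [hp : Fact p.Prime] [CharP k p] (H : Subgroup G) {a : G → k}
    (ha : ∀ h ∈ H, ∀ x, a (h * x * h⁻¹) = a x) {x : G} (hx : trG H a x ≠ 0)
    (P : Subgroup G) (hP : IsPGroup p P) (hPx : P ≤ centralizer {x}) :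
    ∃ c : G, (∀ y ∈ P, c⁻¹ * y * c ∈ H) ∧ a (c⁻¹ * x * c) ≠ 0 := by
  by_contra hcon
  push Not at hcon
  apply hx
  have h := exists_fixed_coset p H ha (fun _ => True) P hP hPx (by simp) (by simp)
    fun c _ h => hcon c h
  simpa [trG] using h

end Trace

section Stab

variable {p : ℕ} {k : Type*} [Field k] {G : Type*} [Group G] {D : Subgroup G}
  {l : (G → k) → k}

theorem cent_le_norm (D : Subgroup G) :
    centralizer (D : Set G) ≤ normalizer (D : Set G) := by
  intro x hx
  rw [mem_normalizer_iff]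
  intro d
  constructor
  · intro hd
    have : x * d * x⁻¹ = d := by
      have := mem_centralizer_iff.1 hx d hd
      rw [← this]; group
    rw [this]; exact hd
  · intro hd
    have h1 : x * (x * d * x⁻¹) * x⁻¹ = x * d * x⁻¹ := by
      rw [← (mem_centralizer_iff.1 hx _ hd)]; group
    have h2 : x * d * x⁻¹ = d := by
      have h3 : x⁻¹ * (x * (x * d * x⁻¹) * x⁻¹) * x = x⁻¹ * (x * d * x⁻¹) * x := by rw [h1]
      have e1 : x⁻¹ * (x * (x * d * x⁻¹) * x⁻¹) * x = x * d * x⁻¹ := by group
      have e2 : x⁻¹ * (x * d * x⁻¹) * x = d := by group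
      rwa [e1, e2] at h3
    rwa [h2] at hd

theorem conj_mem_cent {n : G} (hn : n ∈ normalizer (D : Set G)) (x : G) :
    n * x * n⁻¹ ∈ centralizer (D : Set G) ↔ x ∈ centralizer (D : Set G) := by
  have key : ∀ n ∈ normalizer (D : Set G), ∀ x ∈ centralizer (D : Set G),
      n * x * n⁻¹ ∈ centralizer (D : Set G) := by
    intro n hn x hx
    rw [mem_centralizer_iff]
    intro d hd
    have h1 : n⁻¹ * d * n ∈ D := by
      have := (mem_normalizer_iff.1 (inv_mem hn) d).1 hd
      simpa using this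
    have h2 := mem_centralizer_iff.1 hx _ h1
    calc d * (n * x * n⁻¹) = n * (n⁻¹ * d * n * x) * n⁻¹ := by group
      _ = n * (x * (n⁻¹ * d * n)) * n⁻¹ := by rw [h2]
      _ = n * x * n⁻¹ * d := by group
  constructor
  · intro h
    have := key n⁻¹ (inv_mem hn) _ h
    have e1 : n⁻¹ * (n * x * n⁻¹) * n⁻¹⁻¹ = x := by group
    rwa [e1] at this
  · exact key n hn x

theorem InvOn.cj {n : G} (hn : n ∈ normalizer (D : Set G)) {z : G → k}
    (hz : InvOn (centralizer (D : Set G)) z) : InvOn (centralizer (D : Set G)) (cj n z) := by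
  constructor
  · intro c hc x
    have h1 : n⁻¹ * c * n ∈ centralizer (D : Set G) := by
      have := (conj_mem_cent (inv_mem hn) c).2 hc
      simpa using this
    have h2 := hz.1 _ h1 (n⁻¹ * x * n)
    unfold P179Y.cj
    rw [← h2]
    congr 1
    group
  · intro x hx
    apply hz.2
    intro h
    apply hx
    have := (conj_mem_cent hn _).2 h
    have e1 : n * (n⁻¹ * x * n) * n⁻¹ = x := by group
    rwa [e1] at this

/-- the stabiliser of the Brauer pair -/
def stabT (D : Subgroup G) (l : (G → k) → k) : Subgroup G where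
  carrier := {n | n ∈ normalizer (D : Set G) ∧ ∀ z, InvOn (centralizer (D : Set G)) z →
    l (cj n z) = l z}
  mul_mem' := by
    rintro a b ⟨ha, ha'⟩ ⟨hb, hb'⟩
    refine ⟨mul_mem ha hb, fun z hz => ?_⟩
    rw [cj_mul, ha' _ (hz.cj hb), hb' z hz]
  one_mem' := ⟨one_mem _, fun z _ => by rw [cj_one]⟩
  inv_mem' := by
    rintro a ⟨ha, ha'⟩
    refine ⟨inv_mem ha, fun z hz => ?_⟩
    rw [← ha' _ (hz.cj (inv_mem ha)), ← cj_mul, mul_inv_cancel, cj_one]

theorem mem_stabT {n : G} : n ∈ stabT D l ↔ n ∈ normalizer (D : Set G) ∧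
    ∀ z, InvOn (centralizer (D : Set G)) z → l (cj n z) = l z := Iff.rfl

omit [Field k] in
theorem cj_eq_of_inv {c : G} {z : G → k} (hz : ∀ x, z (c * x * c⁻¹) = z x) : cj c z = z := by
  funext x
  unfold cj
  rw [← hz (c⁻¹ * x * c)]
  congr 1
  group

theorem cent_le_stabT (D : Subgroup G) (l : (G → k) → k) :
    centralizer (D : Set G) ≤ stabT D l := by
  intro c hc
  refine ⟨cent_le_norm D hc, fun z hz => ?_⟩
  rw [cj_eq_of_inv fun x => hz.1 c hc x]

theorem stabT_le_norm (D : Subgroup G) (l : (G → k) → k) :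
    stabT D l ≤ normalizer (D : Set G) := fun _ h => h.1

theorem relIndex_stabT_dvd (D : Subgroup G) (l : (G → k) → k) :
    (centralizer (D : Set G)).relIndex (stabT D l) ∣
      (centralizer (D : Set G)).relIndex (normalizer (D : Set G)) := by
  rw [← relIndex_mul_relIndex _ _ _ (cent_le_stabT D l) (stabT_le_norm D l)]
  exact dvd_mul_right _ _

/-- counting cosets -/
theorem card_cosets [Fintype G] (C T : Subgroup G) (hCT : C ≤ T) :
    (univ.filter fun c : G ⧸ C => c.out ∈ T).card = C.relIndex T := by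
  have hout : ∀ c : G, (c : G ⧸ C).out ∈ T ↔ c ∈ T := by
    intro c
    obtain ⟨h, hh⟩ := QuotientGroup.mk_out_eq_mul C c
    rw [hh]
    exact ⟨fun h1 => by simpa using mul_mem h1 (inv_mem (hCT h.2)),
      fun h1 => mul_mem h1 (hCT h.2)⟩
  have h1 : Nat.card T = Nat.card C * (univ.filter fun c : G ⧸ C => c.out ∈ T).card := by
    have e := QuotientGroup.preimageMkEquivSubgroupProdSet C
      ({c : G ⧸ C | c.out ∈ T} : Set (G ⧸ C))
    have h2 : ((QuotientGroup.mk : G → G ⧸ C) ⁻¹' {c : G ⧸ C | c.out ∈ T}) = (T : Set G) := by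
      ext x
      exact hout x
    have h3 := Nat.card_congr e
    rw [h2, Nat.card_prod] at h3
    have h4 : Nat.card ({c : G ⧸ C | c.out ∈ T} : Set (G ⧸ C)) =
        (univ.filter fun c : G ⧸ C => c.out ∈ T).card := by
      rw [Nat.card_eq_fintype_card, Fintype.card_subtype]
      rfl
    rw [h4] at h3
    exact h3
  have h5 := relIndex_mul_relIndex (⊥ : Subgroup G) C T bot_le hCT
  rw [relIndex_bot_left, relIndex_bot_left, h1] at h5
  exact (Nat.eq_of_mul_eq_mul_left Nat.card_pos h5).symm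

end Stab

section Sep

variable {p : ℕ} {k : Type*} [Field k] {G : Type*} [Group G] [Fintype G] {D : Subgroup G}
  {l : (G → k) → k}

/-- the support condition in `C_G(D)` -/
def DSupp (p : ℕ) (D : Subgroup G) (a : G → k) : Prop := ∀ x, a x ≠ 0 →
    ∀ P : Subgroup G, IsPGroup p P → P ≤ centralizer {x} → P ≤ centralizer (D : Set G) → P ≤ D

/-- a fixed point argument for convolutions -/
theorem exists_of_conv_ne (p : ℕ) [hp : Fact p.Prime] [CharP k p] {a b : G → k} {x : G}
    (P : Subgroup G) (hP : IsPGroup p P) (hPx : P ≤ centralizer {x})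
    (ha : ∀ q ∈ P, ∀ x, a (q * x * q⁻¹) = a x) (hb : ∀ q ∈ P, ∀ x, b (q * x * q⁻¹) = b x)
    (h : conv a b x ≠ 0) : ∃ y, P ≤ centralizer {y} ∧ a y ≠ 0 := by
  have hfin : Finite P := inferInstance
  by_contra hcon
  push Not at hcon
  apply h
  unfold conv
  refine sum_eq_zero_of_perm p hP (conjPerm P) _ ?_ ?_
  · intro q y
    rw [conjPerm_apply, ha q q.2]
    congr 1
    have h1 := mem_centralizer_singleton_iff.1 (hPx q.2)
    rw [← hb q q.2 (y⁻¹ * x)]
    congr 1
    calc ((q : G) * y * (q : G)⁻¹)⁻¹ * x = (q : G) * y⁻¹ * (q : G)⁻¹ * (x * q) * (q : G)⁻¹ := by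
          group
      _ = (q : G) * (y⁻¹ * x) * (q : G)⁻¹ := by rw [← h1]; group
  · intro y hy
    rw [hcon y, zero_mul]
    intro q hq
    rw [mem_centralizer_singleton_iff]
    have h1 : q * y * q⁻¹ = y := hy ⟨q, hq⟩
    calc q * y = q * y * q⁻¹ * q := by group
      _ = y * q := by rw [h1]

theorem DSupp.conv (p : ℕ) [hp : Fact p.Prime] [CharP k p] {a b : G → k} (ha' : DSupp p D a)
    (ha : InvOn (centralizer (D : Set G)) a) (hb : InvOn (centralizer (D : Set G)) b) :
    DSupp p D (conv a b) := by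
  intro x hx P hP hPx hPC
  obtain ⟨y, hy, hay⟩ := exists_of_conv_ne p P hP hPx (fun q hq => ha.1 q (hPC hq))
    (fun q hq => hb.1 q (hPC hq)) hx
  exact ha' y hay P hP hy hPC

theorem SuppIn.conv (p : ℕ) [hp : Fact p.Prime] [CharP k p] {a b : G → k} (ha' : SuppIn p D a)
    (ha : IsCF a) (hb : IsCF b) : SuppIn p D (conv a b) := by
  intro x hx P hP hPx
  obtain ⟨y, hy, hay⟩ := exists_of_conv_ne p P hP hPx (fun q _ => ha q)
    (fun q _ => hb q) hx
  exact ha' y hay P hP hy

theorem InvOn.conv (H : Subgroup G) {a b : G → k} (ha : InvOn H a) (hb : InvOn H b) :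
    InvOn H (conv a b) := by
  constructor
  · intro c hc x
    unfold P179C.conv
    symm
    refine Fintype.sum_equiv (MulAut.conj c).toEquiv _ _ fun h => ?_
    change _ = a (c * h * c⁻¹) * b ((c * h * c⁻¹)⁻¹ * (c * x * c⁻¹))
    have e1 : (c * h * c⁻¹)⁻¹ * (c * x * c⁻¹) = c * (h⁻¹ * x) * c⁻¹ := by group
    rw [e1, ha.1 c hc, hb.1 c hc]
  · intro x hx
    unfold P179C.conv
    refine Finset.sum_eq_zero fun h _ => ?_
    by_cases hh : h ∈ H
    · rw [hb.2 (h⁻¹ * x), mul_zero]
      intro h1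
      exact hx (by simpa using mul_mem hh h1)
    · rw [ha.2 h hh, zero_mul]

omit [Fintype G] in
theorem InvOn.add (H : Subgroup G) {a b : G → k} (ha : InvOn H a) (hb : InvOn H b) :
    InvOn H (a + b) :=
  ⟨fun c hc x => by rw [Pi.add_apply, Pi.add_apply, ha.1 c hc, hb.1 c hc],
    fun x hx => by rw [Pi.add_apply, ha.2 x hx, hb.2 x hx, add_zero]⟩

omit [Fintype G] in
theorem InvOn.smul (H : Subgroup G) {a : G → k} (c : k) (ha : InvOn H a) :
    InvOn H (c • a) :=
  ⟨fun d hd x => by rw [Pi.smul_apply, Pi.smul_apply, ha.1 d hd],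
    fun x hx => by rw [Pi.smul_apply, ha.2 x hx, smul_zero]⟩

omit [Fintype G] in
theorem invOn_delta (H : Subgroup G) : InvOn H (fun g : G => if g = 1 then (1 : k) else 0) := by
  constructor
  · intro c _ x
    have : c * x * c⁻¹ = 1 ↔ x = 1 := by
      constructor
      · intro h
        have h2 : c⁻¹ * (c * x * c⁻¹) * c = 1 := by rw [h]; group
        have e : c⁻¹ * (c * x * c⁻¹) * c = x := by group
        rwa [e] at h2
      · rintro rfl; simp
    simp only [this]
  · intro x hx
    beta_reduce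
    rw [if_neg]
    rintro rfl
    exact hx (one_mem _)

/-- separation of the conjugates of a Brauer pair -/
theorem exists_sep_finset [hp : Fact p.Prime] [CharP k p] (hl : BP p D l) (F : Finset G) :
    ∃ t : G → k, InvOn (centralizer (D : Set G)) t ∧ l t ≠ 0 ∧ DSupp p D t ∧
      ∀ c ∈ F, c ∈ normalizer (D : Set G) → c ∉ stabT D l → l (cj c t) = 0 := by
  induction F using Finset.induction_on with
  | empty =>
    obtain ⟨a, ha, hla, hx⟩ := hl.dfct
    exact ⟨a, ha, hla, hx, by simp⟩
  | insert c F hc ih =>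
    obtain ⟨t, ht, hlt, htD, htF⟩ := ih
    by_cases hcT : c ∈ normalizer (D : Set G) ∧ c ∉ stabT D l
    · obtain ⟨hcN, hcT⟩ := hcT
      rw [mem_stabT] at hcT
      push Not at hcT
      obtain ⟨z, hz, hne⟩ := hcT hcN
      let δ : G → k := fun g => if g = 1 then (1 : k) else 0
      let z' : G → k := z + (-(l (cj c z))) • δ
      have hδ : l δ = 1 := hl.one
      have hz' : InvOn (centralizer (D : Set G)) z' :=
        hz.add _ ((invOn_delta _).smul _ _)
      have h1 : l z' ≠ 0 := by
        rw [hl.add, hl.smul, hδ, mul_one]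
        intro h
        exact hne (by linear_combination -h)
      have h2 : l (cj c z') = 0 := by
        rw [cj_add, cj_smul, hl.add, hl.smul, cj_delta, hl.one, mul_one]
        ring
      refine ⟨conv t z', ht.conv _ hz', ?_, htD.conv p ht hz', ?_⟩
      · rw [hl.mul _ _ ht hz']
        exact mul_ne_zero hlt h1
      · intro d hd hdN hdT
        rw [cj_conv, hl.mul _ _ (ht.cj hdN) (hz'.cj hdN)]
        rcases Finset.mem_insert.1 hd with rfl | hd
        · rw [h2, mul_zero]
        · rw [htF d hd hdN hdT, zero_mul]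
    · refine ⟨t, ht, hlt, htD, fun d hd hdN hdT => ?_⟩
      rcases Finset.mem_insert.1 hd with rfl | hd
      · exact absurd ⟨hdN, hdT⟩ hcT
      · exact htF d hd hdN hdT

omit [Fintype G] in
theorem mem_norm_of_conj_le [Finite G] {c : G} (h : ∀ d ∈ D, c⁻¹ * d * c ∈ D) :
    c ∈ normalizer (D : Set G) := by
  have h1 : c⁻¹ ∈ normalizer (D : Set G) := by
    have : Finite (D : Set G) := Subtype.finite
    refine mem_normalizer_fintype fun n hn => ?_
    simpa using h n hn
  simpa using inv_mem h1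

/-- the restriction of `trG C t` to `C = C_G(D)`. -/
theorem trG_cent [hp : Fact p.Prime] [CharP k p] (hD : IsPGroup p D)
    (hab : D ≤ centralizer (D : Set G)) {t : G → k}
    (ht : InvOn (centralizer (D : Set G)) t) (htD : DSupp p D t) {x : G}
    (hx : x ∈ centralizer (D : Set G)) :
    trG (centralizer (D : Set G)) t x = ∑ c : G ⧸ centralizer (D : Set G),
      (if c.out ∈ normalizer (D : Set G) then cj c.out t x else 0) := by
  rw [← sub_eq_zero]
  unfold trG
  rw [← Finset.sum_sub_distrib]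
  have h := exists_fixed_coset p (centralizer (D : Set G)) ht.1 (x := x)
    (fun c => c ∉ normalizer (D : Set G)) D hD ?_ ?_ ?_ ?_
  · refine Eq.trans (Finset.sum_congr rfl fun c _ => ?_) h
    unfold cj
    by_cases hc : c.out ∈ normalizer (D : Set G)
    · rw [if_pos hc, if_neg (not_not.2 hc), sub_self]
    · rw [if_neg hc, if_pos hc, sub_zero]
  · intro d hd
    rw [mem_centralizer_singleton_iff]
    exact (mem_centralizer_iff.1 hx d hd)
  · intro q hq c
    have hqN := cent_le_norm D (hab hq)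
    exact not_congr ⟨fun h => mul_mem hqN h, fun h => by simpa using mul_mem (inv_mem hqN) h⟩
  · intro q hq c
    have hqN := cent_le_norm D hq
    exact not_congr ⟨fun h => mul_mem h hqN, fun h => by simpa using mul_mem h (inv_mem hqN)⟩
  · intro c hc hcD
    by_contra hne
    apply hc
    apply mem_norm_of_conj_le
    let P : Subgroup G := D.map (MulAut.conj c⁻¹).toMonoidHom
    have hmem : ∀ y ∈ P, ∃ d ∈ D, y = c⁻¹ * d * c := by
      rintro _ ⟨d, hd, rfl⟩
      exact ⟨d, hd, by simp⟩
    have hP : P ≤ D := by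
      refine htD _ hne P (hD.map _) ?_ ?_
      · intro y hy
        obtain ⟨d, hd, rfl⟩ := hmem y hy
        rw [mem_centralizer_singleton_iff]
        have h1 := mem_centralizer_iff.1 hx d hd
        calc c⁻¹ * d * c * (c⁻¹ * x * c) = c⁻¹ * (d * x) * c := by group
          _ = c⁻¹ * x * c * (c⁻¹ * d * c) := by rw [h1]; group
      · intro y hy
        obtain ⟨d, hd, rfl⟩ := hmem y hy
        exact hcD d hd
    intro d hd
    exact hP ⟨d, hd, by simp⟩

/-- (DC) the explicit element with defect group `D` -/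
theorem exists_Y' [hp : Fact p.Prime] [CharP k p] (hl : BP p D l) (hD : IsPGroup p D)
    (hab : D ≤ centralizer (D : Set G))
    (hT : ¬ p ∣ (centralizer (D : Set G)).relIndex (stabT D l)) (F : Finset G) :
    ∃ t : G → k, InvOn (centralizer (D : Set G)) t ∧ l t ≠ 0 ∧ DSupp p D t ∧
      (∀ c ∈ F, c ∈ normalizer (D : Set G) → c ∉ stabT D l → l (cj c t) = 0) ∧
      IsCF (trG (centralizer (D : Set G)) t) ∧ SuppIn p D (trG (centralizer (D : Set G)) t) ∧
      l (trG (centralizer (D : Set G)) t) =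
        (centralizer (D : Set G)).relIndex (stabT D l) * l t ∧
      l (trG (centralizer (D : Set G)) t) ≠ 0 := by
  obtain ⟨t, ht, hlt, htD, htF⟩ := exists_sep_finset hl (Finset.univ : Finset G)
  have h1 : l (trG (centralizer (D : Set G)) t) =
      (centralizer (D : Set G)).relIndex (stabT D l) * l t := by
    have h2 : l (trG (centralizer (D : Set G)) t) = l (∑ c : G ⧸ centralizer (D : Set G),
      (if c.out ∈ normalizer (D : Set G) then cj c.out t else 0)) := by
      refine hl.congr fun x hx => ?_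
      rw [trG_cent hD hab ht htD hx, Finset.sum_apply]
      refine Finset.sum_congr rfl fun c _ => ?_
      split_ifs <;> rfl
    rw [h2, hl.sum]
    have h3 : ∀ c : G ⧸ centralizer (D : Set G),
        l (if c.out ∈ normalizer (D : Set G) then cj c.out t else 0) =
        if c.out ∈ stabT D l then l t else 0 := by
      intro c
      by_cases hcT : c.out ∈ stabT D l
      · rw [if_pos hcT.1, if_pos hcT, hcT.2 t ht]
      · rw [if_neg hcT]
        by_cases hcN : c.out ∈ normalizer (D : Set G)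
        · rw [if_pos hcN]
          exact htF _ (Finset.mem_univ _) hcN hcT
        · rw [if_neg hcN, hl.zero]
    rw [Finset.sum_congr rfl fun c _ => h3 c, ← Finset.sum_filter, Finset.sum_const, nsmul_eq_mul,
      card_cosets _ _ (cent_le_stabT D l)]
  refine ⟨t, ht, hlt, htD, fun c _ => htF c (Finset.mem_univ _), isCF_trG _ ht.1, ?_, h1, ?_⟩
  · intro x hx P hP hPx
    obtain ⟨c, hc, hne⟩ := exists_of_trG_ne p _ ht.1 hx P hP hPx
    refine ⟨c, ?_⟩
    let P' : Subgroup G := P.map (MulAut.conj c⁻¹).toMonoidHom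
    have hmem : ∀ y ∈ P', ∃ d ∈ P, y = c⁻¹ * d * c := by
      rintro _ ⟨d, hd, rfl⟩
      exact ⟨d, hd, by simp⟩
    have hP' : P' ≤ D := by
      refine htD _ hne P' (hP.map _) ?_ ?_
      · intro y hy
        obtain ⟨d, hd, rfl⟩ := hmem y hy
        rw [mem_centralizer_singleton_iff]
        have h1 := mem_centralizer_singleton_iff.1 (hPx hd)
        calc c⁻¹ * d * c * (c⁻¹ * x * c) = c⁻¹ * (d * x) * c := by group
          _ = c⁻¹ * x * c * (c⁻¹ * d * c) := by rw [h1]; group
      · intro y hy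
        obtain ⟨d, hd, rfl⟩ := hmem y hy
        exact hc d hd
    intro d hd
    exact hP' ⟨d, hd, by simp⟩
  · rw [h1]
    refine mul_ne_zero ?_ hlt
    rwa [Ne, CharP.cast_eq_zero_iff k p]

theorem exists_Y [hp : Fact p.Prime] [CharP k p] (hl : BP p D l) (hD : IsPGroup p D)
    (hab : D ≤ centralizer (D : Set G))
    (hT : ¬ p ∣ (centralizer (D : Set G)).relIndex (stabT D l)) :
    ∃ y : G → k, IsCF y ∧ SuppIn p D y ∧ l y ≠ 0 := by
  obtain ⟨t, -, -, -, -, h1, h2, -, h3⟩ := exists_Y' hl hD hab hT ∅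
  exact ⟨_, h1, h2, h3⟩

/-- two Brauer pairs with the same block: the first step of the conjugacy -/
theorem exists_conj_le {R : Subgroup G} {l2 : (G → k) → k} (hl2 : BP p R l2)
    (hR : IsPGroup p R) {y : G → k} (hy : SuppIn p D y) (hly : l2 y ≠ 0) :
    ∃ c : G, ∀ x ∈ R, c⁻¹ * x * c ∈ D := by
  by_contra hcon
  apply hly
  refine hl2.supp _ fun x hx => ?_
  by_contra hne
  apply hcon
  refine hy x hne R hR fun r hr => ?_
  rw [mem_centralizer_singleton_iff]
  exact mem_centralizer_iff.1 hx r hr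

omit [Fintype G] in
theorem RegEl.relIndex_stabT (hab : D ≤ centralizer (D : Set G)) {u : G} (hu : RegEl D u)
    (l' : ((centralizer {u} : Subgroup G) → k) → k) :
    (centralizer ((D.subgroupOf (centralizer {u}) : Subgroup (centralizer {u})) :
        Set (centralizer {u} : Subgroup G))).relIndex
      (stabT (D.subgroupOf (centralizer {u})) l') = 1 := by
  rw [relIndex_eq_one]
  exact (stabT_le_norm _ _).trans (hu.norm_le hab)

/-- (K8) fusion of regular elements -/
theorem fusion [hp : Fact p.Prime] [CharP k p] (hl : BP p D l) (hD : IsPGroup p D)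
    (hab : D ≤ centralizer (D : Set G)) {w g : G} (hw : w ∈ D) (hw' : RegEl D (g * w * g⁻¹))
    (heq : ∀ z, InvOn (centralizer {g * w * g⁻¹}) z → l (cj g⁻¹ z) = l z) :
    ∃ n ∈ normalizer (D : Set G), n * w * n⁻¹ = g * w * g⁻¹ := by
  set H : Subgroup G := centralizer {g * w * g⁻¹} with hH
  have hDH : D ≤ H := le_cent_of_mem hw'.1 hab
  have hCH : centralizer (D : Set G) ≤ H := cent_le_of_mem hw'.1
  have hlH := hl.restrict hDH hCH
  have hDp : IsPGroup p (D.subgroupOf H) := hD.comap_subtype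
  have habH : D.subgroupOf H ≤ centralizer ((D.subgroupOf H : Subgroup H) : Set H) := by
    intro x hx
    rw [mem_cent_subgroupOf hDH]
    exact hab (by simpa [Subgroup.mem_subgroupOf] using hx)
  obtain ⟨y, hyCF, hyD, hly⟩ := exists_Y hlH hDp habH (by
    rw [hw'.relIndex_stabT hab]
    exact fun h => hp.out.one_lt.ne' (Nat.dvd_one.1 h))
  have hz : InvOn H (ext H y) := by
    constructor
    · intro h hh x
      by_cases hx : x ∈ H
      · rw [ext_of_mem H y hx, ext_of_mem H y (mul_mem (mul_mem hh hx) (inv_mem hh))]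
        exact hyCF ⟨h, hh⟩ ⟨x, hx⟩
      · rw [ext_of_not_mem H y hx, ext_of_not_mem H y]
        intro h1
        apply hx
        have h2 := mul_mem (mul_mem (inv_mem hh) h1) hh
        have e1 : h⁻¹ * (h * x * h⁻¹) * h = x := by group
        rwa [e1] at h2
    · intro x hx
      exact ext_of_not_mem H y hx
  have h1 : l (cj g⁻¹ (ext H y)) ≠ 0 := by
    rw [heq _ hz]
    exact hly
  obtain ⟨x, hx, hne⟩ : ∃ x ∈ centralizer (D : Set G), cj g⁻¹ (ext H y) x ≠ 0 := by
    by_contra hcon
    push Not at hcon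
    exact h1 (hl.supp _ hcon)
  have hne' : ext H y (g * x * g⁻¹) ≠ 0 := by
    unfold cj at hne
    rwa [inv_inv] at hne
  have hxH : g * x * g⁻¹ ∈ H := by
    by_contra h
    exact hne' (ext_of_not_mem H y h)
  rw [ext_of_mem H y hxH] at hne'
  have hgD : ∀ d ∈ D, g * d * g⁻¹ ∈ H := by
    intro d hd
    rw [hH, mem_centralizer_singleton_iff]
    have h2 := mem_centralizer_iff.1 (hab hw) d hd
    calc g * d * g⁻¹ * (g * w * g⁻¹) = g * (d * w) * g⁻¹ := by group
      _ = g * w * g⁻¹ * (g * d * g⁻¹) := by rw [h2]; group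
  let P : Subgroup H := (D.map (MulAut.conj g).toMonoidHom).subgroupOf H
  have hP : IsPGroup p P := (hD.map _).comap_subtype
  obtain ⟨c, hc⟩ := hyD _ hne' P hP (by
    intro q hq
    rw [mem_centralizer_singleton_iff]
    obtain ⟨d, hd, hdq⟩ := (Subgroup.mem_subgroupOf.1 hq)
    apply Subtype.ext
    change (q : G) * (g * x * g⁻¹) = (g * x * g⁻¹) * (q : G)
    have h2 : (q : G) = g * d * g⁻¹ := hdq.symm
    have h3 := mem_centralizer_iff.1 hx d hd
    rw [h2]
    calc g * d * g⁻¹ * (g * x * g⁻¹) = g * (d * x) * g⁻¹ := by group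
      _ = g * x * g⁻¹ * (g * d * g⁻¹) := by rw [h3]; group)
  have hn : (c : G)⁻¹ * g ∈ normalizer (D : Set G) := by
    have h4 : ((c : G)⁻¹ * g)⁻¹ ∈ normalizer (D : Set G) := by
      apply mem_norm_of_conj_le
      intro d hd
      have h3 := hc ⟨g * d * g⁻¹, hgD d hd⟩ (by
        rw [Subgroup.mem_subgroupOf]
        exact ⟨d, hd, rfl⟩)
      rw [Subgroup.mem_subgroupOf] at h3
      have e : ((c⁻¹ * ⟨g * d * g⁻¹, hgD d hd⟩ * c : H) : G) =
          ((c : G)⁻¹ * g)⁻¹⁻¹ * d * ((c : G)⁻¹ * g)⁻¹ := by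
        change (c : G)⁻¹ * (g * d * g⁻¹) * (c : G) = _
        group
      rwa [e] at h3
    simpa using inv_mem h4
  refine ⟨_, hn, ?_⟩
  have h5 : (c : G) * (g * w * g⁻¹) = (g * w * g⁻¹) * c := by
    have := mem_centralizer_singleton_iff.1 c.2
    exact this
  calc (c : G)⁻¹ * g * w * ((c : G)⁻¹ * g)⁻¹ = (c : G)⁻¹ * ((g * w * g⁻¹) * c) := by group
    _ = g * w * g⁻¹ := by rw [← h5]; group

end Sep

end P179Y
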