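import Vale.Agent.P179.H526.KY
import Vale.Agent.P179.H166.Blocks

/-!
# Stage 2, `k`-side: existence of Brauer pairs
-/

namespace P179Y

open Subgroup Finset P179H524 P179C P179A P179P

open scoped Classical

universe u

section Comm

variable {k Z : Type*} [Field k] [CommRing Z] [Algebra k Z]

theorem exists_mul_eq_of_prim [IsArtinianRing Z] {B z : Z} (hB : Prim B) (l : Z →ₐ[k] k)
    (hl : l B = 1) (hz : l z ≠ 0) : ∃ w, B = z * w := by
  obtain ⟨n, y, hy⟩ := IsArtinian.exists_pow_succ_smul_dvd (M := Z) z (1 : Z)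
  simp only [smul_eq_mul, mul_one] at hy
  have h1 : ∀ j : ℕ, z ^ (n + 1) = z ^ (n + 1 + j) * y ^ j := by
    intro j
    induction j with
    | zero => simp
    | succ j ih =>
      have h2 : z ^ (n + 1 + (j + 1)) * y ^ (j + 1) = z ^ (j + 1) * (z ^ (n + 1) * y) * y ^ j := by
        ring
      rw [h2, hy, ih]
      ring
  have h2 := h1 (n + 1)
  set e := z ^ (n + 1) * y ^ (n + 1) with he
  have hee : e * e = e := by
    have h3 : z ^ (n + 1) * y ^ (n + 1) * (z ^ (n + 1) * y ^ (n + 1)) =
        (z ^ (n + 1 + (n + 1)) * y ^ (n + 1)) * y ^ (n + 1) := by ring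
    rw [he, h3, ← h2]
  have hle : l e = 1 := by
    have h3 := congrArg l h2
    have h4 : z ^ (n + 1 + (n + 1)) * y ^ (n + 1) = z ^ (n + 1) * (z ^ (n + 1) * y ^ (n + 1)) := by
      ring
    rw [h4, map_mul, map_pow] at h3
    have h5 : (l z) ^ (n + 1) ≠ 0 := pow_ne_zero _ hz
    exact (mul_left_cancel₀ h5 (by rw [mul_one]; exact h3)).symm
  have h6 : e * B * (e * B) = e * B := by
    have : e * B * (e * B) = (e * e) * (B * B) := by ring
    rw [this, hee, hB.1]
  have h7 : e * B * B = e * B := by rw [mul_assoc, hB.1]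
  rcases hB.2.2 (e * B) h6 h7 with h3 | h3
  · have := congrArg l h3
    rw [map_mul, hle, hl, map_zero, mul_one] at this
    exact absurd this one_ne_zero
  · refine ⟨z ^ n * y ^ (n + 1) * B, ?_⟩
    calc B = e * B := h3.symm
      _ = z * (z ^ n * y ^ (n + 1) * B) := by rw [he]; ring

end Comm

section Fun

variable {k : Type u} [Field k] {G : Type} [Group G] [Fintype G]

/-- functions as elements of the group algebra -/
noncomputable def mkF (a : G → k) : MonoidAlgebra k G := ∑ g, MonoidAlgebra.single g (a g)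

omit [Group G] in
theorem coeff_mkF (a : G → k) (g : G) : (mkF a).coeff g = a g := by
  rw [mkF, MonoidAlgebra.coeff_sum, Finsupp.finsetSum_apply, Finset.sum_eq_single g]
  · simp
  · intro y _ hy
    simp [hy]
  · simp

omit [Group G] in
theorem mkF_coeff (z : MonoidAlgebra k G) : mkF (fun g => z.coeff g) = z := by
  ext g
  rw [coeff_mkF]

theorem mkF_add (a b : G → k) : mkF (a + b) = mkF a + mkF b := by
  ext g
  simp [coeff_mkF]

theorem mkF_smul (c : k) (b : G → k) : mkF (c • b) = c • mkF b := by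
  ext g
  simp [coeff_mkF]

theorem mkF_conv (a b : G → k) : mkF (conv a b) = mkF a * mkF b := by
  ext g
  rw [coeff_mkF, coeff_mul_eq_conv]
  simp only [coeff_mkF]

theorem mkF_mem {a : G → k} (ha : IsCF a) :
    mkF a ∈ Subalgebra.center k (MonoidAlgebra k G) := by
  rw [P179C.mem_center_iff]
  simpa only [coeff_mkF] using ha

theorem mkF_one : mkF (fun g : G => if g = 1 then (1 : k) else 0) = 1 := by
  ext g
  rw [coeff_mkF, MonoidAlgebra.one_def, MonoidAlgebra.coeff_single, Finsupp.single_apply]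
  simp only [eq_comm]

/-- the algebra homomorphism of a functional -/
noncomputable def IsHomCF.toAlgHom {μ : (G → k) → k} (hμ : IsHomCF μ) :
    Subalgebra.center k (MonoidAlgebra k G) →ₐ[k] k :=
  AlgHom.ofLinearMap
    { toFun := fun z => μ (fun g => z.1.coeff g)
      map_add' := fun a b => by
        rw [← hμ.add]
        congr 1
      map_smul' := fun c a => by
        rw [RingHom.id_apply, smul_eq_mul, ← hμ.smul]
        congr 1 }
    (by
      change μ (fun g => (1 : MonoidAlgebra k G).coeff g) = 1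
      rw [← hμ.one]
      congr 1
      funext g
      rw [← mkF_one, coeff_mkF])
    (fun a b => by
      change μ (fun g => (a.1 * b.1).coeff g) =
        μ (fun g => a.1.coeff g) * μ (fun g => b.1.coeff g)
      rw [← hμ.mul _ _ ((P179C.mem_center_iff _).1 a.2) ((P179C.mem_center_iff _).1 b.2)]
      congr 1
      funext g
      rw [coeff_mul_eq_conv])

theorem IsHomCF.toAlgHom_apply {μ : (G → k) → k} (hμ : IsHomCF μ)
    (z : Subalgebra.center k (MonoidAlgebra k G)) :
    hμ.toAlgHom z = μ (fun g => z.1.coeff g) := rfl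

theorem IsHomCF.toAlgHom_mkF {μ : (G → k) → k} (hμ : IsHomCF μ) {a : G → k} (ha : IsCF a) :
    hμ.toAlgHom ⟨mkF a, mkF_mem ha⟩ = μ a := by
  rw [hμ.toAlgHom_apply]
  simp only [coeff_mkF]

/-- a nonzero central idempotent is not killed by all homomorphisms -/
theorem exists_hom_of_idem [IsAlgClosed k] (e : Subalgebra.center k (MonoidAlgebra k G))
    (he : e * e = e) (h0 : e ≠ 0) :
    ∃ ν : Subalgebra.center k (MonoidAlgebra k G) →ₐ[k] k, ν e = 1 := by
  obtain ⟨r, d, hd, f, hf, hker⟩ := exists_wedderburn k G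
  obtain ⟨l, hl⟩ := C2.exists_scalar f hf e.1 e.2
  have hee : e.1 * e.1 = e.1 := congrArg Subtype.val he
  have h1 : ∃ i, l i ≠ 0 := by
    by_contra hc
    push Not at hc
    have h2 : f e.1 = 0 := by
      funext i
      rw [hl, hc, map_zero]
      rfl
    obtain ⟨n, hn⟩ := isNilpotent_of_mem_jacobson e.1 (hker e.1 h2)
    have h5 : ∀ m : ℕ, e.1 ^ (m + 1) = e.1 := by
      intro m
      induction m with
      | zero => simp
      | succ m ih => rw [pow_succ, ih, hee]
    have h6 : e.1 = 0 := by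
      rw [← h5 n, pow_succ, hn, zero_mul]
    exact h0 (Subtype.ext h6)
  obtain ⟨i, hi⟩ := h1
  have h2 := (C2.scalar_idem f e.1 hee l hl i).resolve_left hi
  have ha : InBlock (compIrr f hf i) e.1 := (C2.inBlock_iff f hf e.1 l hl i).mpr h2
  obtain ⟨ν, hν⟩ := exists_chi (compIrr f hf i)
  refine ⟨ν, ?_⟩
  have := nontrivial_irrRep (compIrr f hf i)
  have hinj : Function.Injective (algebraMap k (Module.End k (Fin (compIrr f hf i).1.1 → k))) :=
    FaithfulSMul.algebraMap_injective _ _
  apply hinj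
  rw [Algebra.algebraMap_eq_smul_one, ← hν, map_one]
  exact ha

end Fun

section Sylow

variable {p : ℕ} [hp : Fact p.Prime] {G : Type*} [Group G] [Finite G]

/-- `R` is a Sylow `p`-subgroup of `C_G(x)` -/
structure SylCent (p : ℕ) {G : Type*} [Group G] (x : G) (R : Subgroup G) : Prop where
  pgp : IsPGroup p R
  le : R ≤ centralizer {x}
  max : ∀ P : Subgroup G, IsPGroup p P → P ≤ centralizer {x} → ∃ c ∈ centralizer {x},
    ∀ y ∈ P, c⁻¹ * y * c ∈ R
  ndvd : ∃ m : ℕ, ¬ p ∣ m ∧ Nat.card (centralizer {x} : Subgroup G) = Nat.card R * m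

theorem exists_sylCent (p : ℕ) [hp : Fact p.Prime] (x : G) : ∃ R, SylCent p x R := by
  obtain ⟨S⟩ : Nonempty (Sylow p (centralizer {x} : Subgroup G)) := inferInstance
  refine ⟨(S : Subgroup _).map (centralizer {x}).subtype, S.2.map _, ?_, ?_, ?_⟩
  · rintro _ ⟨y, _, rfl⟩
    exact y.2
  · intro P hP hPx
    have h1 : IsPGroup p (P.subgroupOf (centralizer {x})) := hP.comap_subtype
    obtain ⟨S', hS'⟩ := h1.exists_le_sylow
    obtain ⟨g, hg⟩ := MulAction.exists_smul_eq (centralizer {x} : Subgroup G) S' S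
    refine ⟨(g : G)⁻¹, inv_mem g.2, fun y hy => ?_⟩
    have hyS : (⟨y, hPx hy⟩ : (centralizer {x} : Subgroup G)) ∈ (S' : Subgroup _) :=
      hS' (by simpa [Subgroup.mem_subgroupOf] using hy)
    refine ⟨g * ⟨y, hPx hy⟩ * g⁻¹, ?_, by simp⟩
    rw [← hg]
    change g * ⟨y, hPx hy⟩ * g⁻¹ ∈ ((g • S' : Sylow p _) : Subgroup _)
    rw [Sylow.coe_subgroup_smul, Subgroup.mem_pointwise_smul_iff_inv_smul_mem, ← map_inv,
      MulAut.smul_def, MulAut.conj_apply]
    have e : g⁻¹ * (g * ⟨y, hPx hy⟩ * g⁻¹) * g⁻¹⁻¹ = ⟨y, hPx hy⟩ := by group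
    rw [e]
    exact hyS
  · have h1 : ¬ p ∣ (S : Subgroup (centralizer {x} : Subgroup G)).index := S.not_dvd_index
    refine ⟨(S : Subgroup (centralizer {x} : Subgroup G)).index, h1, ?_⟩
    rw [Subgroup.card_map_of_injective (Subgroup.subtype_injective _)]
    exact (Subgroup.card_mul_index _).symm

omit hp in
theorem SylCent.card_le {x : G} {R : Subgroup G} (hR : SylCent p x R) {P : Subgroup G}
    (hP : IsPGroup p P) (hPx : P ≤ centralizer {x}) : Nat.card P ≤ Nat.card R := by
  obtain ⟨c, -, hc⟩ := hR.max P hP hPx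
  let f : P → R := fun y => ⟨c⁻¹ * y * c, hc y y.2⟩
  refine Nat.card_le_card_of_injective f fun a b hab => ?_
  have h1 : c⁻¹ * (a : G) * c = c⁻¹ * (b : G) * c := congrArg Subtype.val hab
  exact Subtype.ext (mul_left_cancel (mul_right_cancel h1))

omit hp in
/-- conjugation -/
theorem SylCent.conj {x : G} {R : Subgroup G} (hR : SylCent p x R) (g : G) :
    SylCent p (g * x * g⁻¹) (R.map (MulAut.conj g).toMonoidHom) := by
  have key : ∀ y, y ∈ centralizer {g * x * g⁻¹} ↔ g⁻¹ * y * g ∈ centralizer {x} := by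
    intro y
    rw [mem_centralizer_singleton_iff, mem_centralizer_singleton_iff]
    constructor
    · intro h
      calc g⁻¹ * y * g * x = g⁻¹ * (y * (g * x * g⁻¹)) * g := by group
        _ = x * (g⁻¹ * y * g) := by rw [h]; group
    · intro h
      calc y * (g * x * g⁻¹) = g * (g⁻¹ * y * g * x) * g⁻¹ := by group
        _ = g * x * g⁻¹ * y := by rw [h]; group
  refine ⟨hR.pgp.map _, ?_, ?_, ?_⟩
  · rintro _ ⟨y, hy, rfl⟩
    rw [key]
    have : g⁻¹ * ((MulAut.conj g).toMonoidHom y) * g = y := by simp [mul_assoc]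
    rw [this]
    exact hR.le hy
  · intro P hP hPx
    obtain ⟨c, hc, h⟩ := hR.max (P.map (MulAut.conj g⁻¹).toMonoidHom) (hP.map _) (by
      rintro _ ⟨y, hy, rfl⟩
      have := (key y).1 (hPx hy)
      simpa [mul_assoc] using this)
    refine ⟨g * c * g⁻¹, ?_, fun y hy => ?_⟩
    · rw [key]
      have : g⁻¹ * (g * c * g⁻¹) * g = c := by group
      rwa [this]
    · refine ⟨_, h (g⁻¹ * y * g) ⟨y, hy, by simp⟩, ?_⟩
      simp [mul_assoc]
  · obtain ⟨m, hm, h⟩ := hR.ndvd
    refine ⟨m, hm, ?_⟩
    rw [card_centralizer_conj, h,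
      Subgroup.card_map_of_injective (MulAut.conj g).injective]

omit hp in
/-- `R` contains the `p`-subgroups of `C_G(x)` which normalise it -/
theorem SylCent.le_of_norm {x : G} {R : Subgroup G} (hR : SylCent p x R) {P : Subgroup G}
    (hP : IsPGroup p P) (hPx : P ≤ centralizer {x}) (hPR : P ≤ normalizer (R : Set G)) :
    P ≤ R := by
  have h1 : IsPGroup p (P ⊔ R : Subgroup G) := IsPGroup.to_sup_of_normal_right' hP hR.pgp hPR
  have h2 := hR.card_le h1 (sup_le hPx hR.le)
  have h3 : R = P ⊔ R := Subgroup.eq_of_le_of_card_ge le_sup_right h2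
  rw [h3]
  exact le_sup_left

end Sylow

section Main

variable {p : ℕ} [hp : Fact p.Prime] {k : Type u} [Field k] [CharP k p] {G : Type} [Group G]
  [Fintype G]

/-- a Brauer pair without the condition on the defect group -/
structure BP0 (D : Subgroup G) (l : (G → k) → k) : Prop where
  add : ∀ a b, l (a + b) = l a + l b
  smul : ∀ (c : k) a, l (c • a) = c * l a
  supp : ∀ a, (∀ x ∈ centralizer (D : Set G), a x = 0) → l a = 0
  one : l (fun g => if g = 1 then 1 else 0) = 1
  mul : ∀ a b, InvOn (centralizer (D : Set G)) a → InvOn (centralizer (D : Set G)) b →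
    l (conv a b) = l a * l b

omit hp [CharP k p] in
theorem BP0.congr {D : Subgroup G} {l : (G → k) → k} (hl : BP0 D l) {a b : G → k}
    (h : ∀ x ∈ centralizer (D : Set G), a x = b x) : l a = l b := by
  have h1 : l (a + (-1 : k) • b) = 0 := hl.supp _ fun x hx => by
    simp [h x hx]
  rw [hl.add, hl.smul] at h1
  linear_combination h1

theorem BP0.isHomCF {D : Subgroup G} {l : (G → k) → k} (hl : BP0 D l) (hD : IsPGroup p D) :
    IsHomCF l where
  add := hl.add
  smul := hl.smul
  one := hl.one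
  mul a b ha hb := by
    have hcut : ∀ a : G → k, l (cutC D a) = l a := fun a =>
      hl.congr fun x hx => by simp [cutC, hx]
    rw [hl.congr (b := conv (cutC D a) (cutC D b)) fun x hx =>
      conv_cut p D hD (fun d _ => ha d) (fun d _ => hb d) hx,
      hl.mul _ _ (invOn_cutC D fun c _ => ha c) (invOn_cutC D fun c _ => hb c), hcut, hcut]

omit hp [CharP k p] in
theorem BP.toBP0 {D : Subgroup G} {l : (G → k) → k} (hl : BP p D l) : BP0 D l :=
  ⟨hl.add, hl.smul, hl.supp, hl.one, hl.mul⟩

/-- (K2) without commutativity of `D` -/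
theorem BP.isHomCF' {D : Subgroup G} {l : (G → k) → k} (hl : BP p D l) (hD : IsPGroup p D) :
    IsHomCF l := hl.toBP0.isHomCF hD

omit hp [CharP k p] in
theorem IsHomCF.zero {μ : (G → k) → k} (hμ : IsHomCF μ) : μ 0 = 0 := by
  have := hμ.smul 0 0
  rwa [zero_smul, zero_mul] at this

omit hp [CharP k p] in
theorem IsHomCF.sum {μ : (G → k) → k} (hμ : IsHomCF μ) {ι : Type*} (s : Finset ι)
    (f : ι → G → k) : μ (∑ i ∈ s, f i) = ∑ i ∈ s, μ (f i) := by
  induction s using Finset.induction_on with
  | empty => simp [hμ.zero]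
  | insert i s hi ih => rw [Finset.sum_insert hi, Finset.sum_insert hi, hμ.add, ih]

/-- the indicator function of the class of `x` -/
noncomputable def cls (k : Type*) [Field k] {G : Type*} [Group G] (x : G) : G → k :=
  fun g => if IsConj x g then 1 else 0

omit hp [CharP k p] [Fintype G] in
theorem isCF_cls (x : G) : IsCF (cls k x) := by
  intro g y
  unfold cls
  have : IsConj x (g * y * g⁻¹) ↔ IsConj x y :=
    ⟨fun h => h.trans (isConj_iff.2 ⟨g⁻¹, by group⟩), fun h => h.trans (isConj_iff.2 ⟨g, rfl⟩)⟩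
  simp only [this]

omit hp [CharP k p] in
theorem eq_sum_cls {b : G → k} (hb : IsCF b) :
    b = ∑ C : ConjClasses G, b C.out • cls k C.out := by
  funext x
  rw [Finset.sum_apply, Finset.sum_eq_single (ConjClasses.mk x)]
  · have h1 : IsConj (ConjClasses.mk x).out x := by
      rw [← ConjClasses.mk_eq_mk_iff_isConj]
      exact Quotient.out_eq' _
    rw [Pi.smul_apply, cls, if_pos h1, smul_eq_mul, mul_one]
    exact (hb.isConj h1).symm
  · intro C _ hC
    rw [Pi.smul_apply, cls, if_neg, smul_zero]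
    intro h1
    apply hC
    rw [← ConjClasses.mk_eq_mk_iff_isConj] at h1
    rw [← h1]
    exact (Quotient.out_eq' C).symm
  · intro h
    exact absurd (Finset.mem_univ _) h

omit hp [CharP k p] in
theorem exists_cls_ne {μ : (G → k) → k} (hμ : IsHomCF μ) {b : G → k} (hb : IsCF b)
    (h : μ b ≠ 0) : ∃ x, b x ≠ 0 ∧ μ (cls k x) ≠ 0 := by
  by_contra hcon
  push Not at hcon
  apply h
  rw [eq_sum_cls hb, hμ.sum]
  refine Finset.sum_eq_zero fun C _ => ?_
  rw [hμ.smul]
  by_cases h1 : b C.out = 0
  · rw [h1, zero_mul]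
  · rw [hcon _ h1, mul_zero]

/-- existence of Brauer pairs -/
theorem exists_BP_aux [IsAlgClosed k] {μ : (G → k) → k} (hμ : IsHomCF μ) {b : G → k}
    (hb : IsCF b) (hprim : Prim (⟨mkF b, mkF_mem hb⟩ : Subalgebra.center k (MonoidAlgebra k G)))
    (hμb : μ b = 1) {x : G} (hx : b x ≠ 0) (hμx : μ (cls k x) ≠ 0) {R : Subgroup G}
    (hR : SylCent p x R) : ∃ l, BP p R l ∧ ∀ z, IsCF z → l z = μ z := by
  have hbb : conv b b = b := by
    funext g
    have h1 := congrArg (fun y : Subalgebra.center k (MonoidAlgebra k G) => y.1.coeff g) hprim.1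
    have h2 : (mkF b * mkF b).coeff g = (mkF b).coeff g := h1
    rwa [← mkF_conv, coeff_mkF, coeff_mkF] at h2
  set C : Subgroup G := centralizer (R : Set G) with hC
  let bC : C → k := fun c => b c
  have hbC : IsCF bC := fun g y => hb g y
  have hext : ∀ a : G → k, ext C (fun c : C => a c) = cutC R a := by
    intro a
    funext y
    by_cases hy : y ∈ C
    · rw [ext_of_mem C _ hy, cutC, if_pos hy]
    · rw [ext_of_not_mem C _ hy, cutC, if_neg hy]
  have hxC : x ∈ C := by
    rw [hC, mem_centralizer_iff]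
    intro y hy
    exact mem_centralizer_singleton_iff.1 (hR.le hy)
  have hbbC : conv bC bC = bC := by
    funext c
    rw [← ext_coe C (conv bC bC) c, ext_conv, hext,
      ← conv_cut p R hR.pgp (fun d _ => hb d) (fun d _ => hb d) c.2, hbb]
  obtain ⟨ν, hν⟩ := exists_hom_of_idem (⟨mkF bC, mkF_mem hbC⟩ :
      Subalgebra.center k (MonoidAlgebra k C)) (by
    apply Subtype.ext
    change mkF bC * mkF bC = mkF bC
    rw [← mkF_conv, hbbC]) (by
    intro h
    have h1 : (mkF bC).coeff ⟨x, hxC⟩ = (0 : MonoidAlgebra k C).coeff ⟨x, hxC⟩ :=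
      congrArg (fun y : Subalgebra.center k (MonoidAlgebra k C) => y.1.coeff ⟨x, hxC⟩) h
    rw [coeff_mkF] at h1
    exact hx h1)
  obtain ⟨g, hg⟩ := LinearMap.exists_extend
    (p := Subalgebra.toSubmodule (Subalgebra.center k (MonoidAlgebra k C))) ν.toLinearMap
  have hg' : ∀ (z : MonoidAlgebra k C) (hz : z ∈ Subalgebra.center k (MonoidAlgebra k C)),
      g z = ν ⟨z, hz⟩ := by
    intro z hz
    exact LinearMap.congr_fun hg (⟨z, hz⟩ : Subalgebra.toSubmodule
      (Subalgebra.center k (MonoidAlgebra k C)))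
  let l : (G → k) → k := fun a => g (mkF fun c : C => a c)
  have hinv : ∀ a : G → k, InvOn C a → IsCF (fun c : C => a c) := fun a ha c y => ha.1 c c.2 y
  have hl0 : BP0 R l :=
    { add := fun a b => by
        change g (mkF ((fun c : C => a c) + fun c : C => b c)) = _
        rw [mkF_add, map_add]
      smul := fun r a => by
        change g (mkF (r • fun c : C => a c)) = _
        rw [mkF_smul, map_smul, smul_eq_mul]
      supp := fun a ha => by
        have h1 : (fun c : C => a c) = (0 : k) • (0 : C → k) := by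
          funext c
          simp [ha c c.2]
        change g (mkF fun c : C => a c) = 0
        rw [h1, mkF_smul, zero_smul, map_zero]
      one := by
        have h1 : mkF (fun c : C => if (c : G) = 1 then (1 : k) else 0) = 1 := by
          rw [← mkF_one]
          congr 1
          funext c
          have : ((c : G) = 1) ↔ c = 1 := ⟨fun h => Subtype.ext h, fun h => congrArg Subtype.val h⟩
          by_cases hc : c = 1
          · rw [if_pos (this.2 hc), if_pos hc]
          · rw [if_neg (fun h => hc (this.1 h)), if_neg hc]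
        change g (mkF (fun c : C => if (c : G) = 1 then (1 : k) else 0)) = 1
        rw [h1, hg' 1 (one_mem _)]
        exact map_one ν
      mul := fun a b ha hb => by
        have h1 : (fun c : C => conv a b c) = conv (fun c : C => a c) (fun c : C => b c) := by
          funext c
          have ha' : ext C (fun c : C => a c) = a := by
            rw [hext]
            funext y
            unfold cutC
            by_cases hy : y ∈ C
            · rw [if_pos hy]
            · rw [if_neg hy, ha.2 y hy]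
          have hb' : ext C (fun c : C => b c) = b := by
            rw [hext]
            funext y
            unfold cutC
            by_cases hy : y ∈ C
            · rw [if_pos hy]
            · rw [if_neg hy, hb.2 y hy]
          rw [← ext_coe C (conv _ _) c, ext_conv, ha', hb']
        change g (mkF fun c : C => conv a b c) = g (mkF _) * g (mkF _)
        rw [h1, mkF_conv, hg' _ (mul_mem (mkF_mem (hinv a ha)) (mkF_mem (hinv b hb))),
          hg' _ (mkF_mem (hinv a ha)), hg' _ (mkF_mem (hinv b hb)), ← map_mul]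
        rfl }
  have hhom := hl0.isHomCF hR.pgp
  have hlb : l b = 1 := by
    change g (mkF bC) = 1
    rw [hg' _ (mkF_mem hbC)]
    exact hν
  have heq : ∀ z, IsCF z → l z = μ z := by
    intro z hz
    have h1 : hhom.toAlgHom = hμ.toAlgHom := by
      refine eq_of_prim hprim _ _ ?_ ?_
      · rw [hhom.toAlgHom_mkF hb, hlb]
      · rw [hμ.toAlgHom_mkF hb, hμb]
    rw [← hhom.toAlgHom_mkF hz, ← hμ.toAlgHom_mkF hz, h1]
  refine ⟨l, ⟨hl0.add, hl0.smul, hl0.supp, hl0.one, hl0.mul, cutC R (cls k x), ?_, ?_, ?_⟩, heq⟩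
  · exact invOn_cutC R fun c _ => isCF_cls x c
  · rw [hl0.congr (b := cls k x) fun y hy => by simp [cutC, hy], heq _ (isCF_cls x)]
    exact hμx
  · intro y hy P hP hPy hPC
    unfold cutC cls at hy
    have hyC : y ∈ centralizer (R : Set G) := by
      by_contra h
      rw [if_neg h] at hy
      exact hy rfl
    rw [if_pos hyC] at hy
    have hxy : IsConj x y := by
      by_contra h
      rw [if_neg h] at hy
      exact hy rfl
    obtain ⟨c, rfl⟩ := isConj_iff.1 hxy
    have h1 := hR.conj c
    have hRy : R ≤ centralizer {c * x * c⁻¹} := by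
      intro r hr
      rw [mem_centralizer_singleton_iff]
      exact mem_centralizer_iff.1 hyC r hr
    have h2 : IsPGroup p (P ⊔ R : Subgroup G) :=
      IsPGroup.to_sup_of_normal_right' hP hR.pgp (hPC.trans (cent_le_norm R))
    have h3 := h1.card_le h2 (sup_le hPy hRy)
    rw [Subgroup.card_map_of_injective (MulAut.conj c).injective] at h3
    have h4 : R = P ⊔ R := Subgroup.eq_of_le_of_card_ge le_sup_right h3
    rw [h4]
    exact le_sup_left

/-- existence of Brauer pairs for homomorphisms of the centre -/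
theorem exists_BP [IsAlgClosed k] {μ : (G → k) → k} (hμ : IsHomCF μ) :
    ∃ (R : Subgroup G) (l : (G → k) → k), IsPGroup p R ∧ BP p R l ∧ (∀ z, IsCF z → l z = μ z) ∧
      ∀ u ∈ center G, (∃ n : ℕ, u ^ p ^ n = 1) → u ∈ R := by
  obtain ⟨B, hB, hlB⟩ := exists_prim hμ.toAlgHom
  have hb : IsCF (fun g => B.1.coeff g) := (P179C.mem_center_iff _).1 B.2
  have hBb : (⟨mkF (fun g => B.1.coeff g), mkF_mem hb⟩ :
      Subalgebra.center k (MonoidAlgebra k G)) = B := Subtype.ext (mkF_coeff _)
  have hμb : μ (fun g => B.1.coeff g) = 1 := hlB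
  obtain ⟨x, hx, hμx⟩ := exists_cls_ne hμ hb (by rw [hμb]; exact one_ne_zero)
  obtain ⟨R, hR⟩ := exists_sylCent p x
  obtain ⟨l, hl, hlz⟩ := exists_BP_aux hμ hb (by rw [hBb]; exact hB) hμb hx hμx hR
  refine ⟨R, l, hR.pgp, hl, hlz, fun u hu ⟨n, hn⟩ => ?_⟩
  have h1 : zpowers u ≤ R := by
    refine hR.le_of_norm ?_ ?_ ?_
    · rintro ⟨_, i, rfl⟩
      refine ⟨n, Subtype.ext ?_⟩
      change (u ^ i) ^ p ^ n = 1
      rw [← zpow_natCast, ← zpow_mul, mul_comm, zpow_mul, zpow_natCast, hn, one_zpow]
    · rw [zpowers_le, mem_centralizer_singleton_iff]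
      exact ((Subgroup.mem_center_iff.1 hu) x).symm
    · rw [zpowers_le]
      refine cent_le_norm R ?_
      rw [mem_centralizer_iff]
      intro r _
      exact (Subgroup.mem_center_iff.1 hu) r
  exact h1 (mem_zpowers u)

/-! ### Blocks with a given defect group -/

omit [CharP k p] hp [Fintype G] in
theorem conjBy_mul (c : G) (a b : MonoidAlgebra k G) :
    conjBy c (a * b) = conjBy c a * conjBy c b := by
  unfold conjBy
  have h1 : (MonoidAlgebra.single c⁻¹ 1 : MonoidAlgebra k G) * MonoidAlgebra.single c 1 = 1 := by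
    rw [MonoidAlgebra.single_mul_single, inv_mul_cancel, one_mul, MonoidAlgebra.one_def]
  calc MonoidAlgebra.single c 1 * (a * b) * MonoidAlgebra.single c⁻¹ 1
      = MonoidAlgebra.single c 1 * a * 1 * b * MonoidAlgebra.single c⁻¹ 1 := by
        simp only [mul_assoc, one_mul]
    _ = _ := by rw [← h1]; simp only [mul_assoc]

omit [CharP k p] hp [Fintype G] in
theorem conjBy_central (c : G) {w : MonoidAlgebra k G}
    (hw : w ∈ Subalgebra.center k (MonoidAlgebra k G)) : conjBy c w = w := by
  unfold conjBy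
  rw [Subalgebra.mem_center_iff.1 hw, mul_assoc, MonoidAlgebra.single_mul_single,
    mul_inv_cancel, one_mul]
  exact mul_one w

omit [CharP k p] hp [Fintype G] in
theorem conjBy_single (c x : G) (r : k) :
    conjBy c (MonoidAlgebra.single x r) = MonoidAlgebra.single (c * x * c⁻¹) r := by
  unfold conjBy
  rw [MonoidAlgebra.single_mul_single, MonoidAlgebra.single_mul_single, one_mul, mul_one]

omit hp in
theorem classSum_eq_sum {x : G} {R : Subgroup G} (hR : SylCent p x R) {m : ℕ} (hm : ¬ p ∣ m)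
    (hcard : Nat.card (centralizer {x} : Subgroup G) = Nat.card R * m) :
    classSum k x = ∑ c : G ⧸ R, MonoidAlgebra.single (c.out * x * c.out⁻¹) ((m : k)⁻¹) := by
  have hm0 : (m : k) ≠ 0 := by rwa [Ne, CharP.cast_eq_zero_iff k p]
  have hout : ∀ c : G, (c : G ⧸ R).out * x * (c : G ⧸ R).out⁻¹ = c * x * c⁻¹ := by
    intro c
    obtain ⟨h, hh⟩ := QuotientGroup.mk_out_eq_mul R c
    rw [hh]
    have h1 := mem_centralizer_singleton_iff.1 (hR.le h.2)
    calc c * (h : G) * x * (c * (h : G))⁻¹ = c * ((h : G) * x) * (h : G)⁻¹ * c⁻¹ := by group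
      _ = c * x * c⁻¹ := by rw [h1]; group
  ext y
  rw [coeff_classSum, MonoidAlgebra.coeff_sum, Finsupp.finsetSum_apply]
  simp only [MonoidAlgebra.coeff_single, Finsupp.single_apply]
  rw [← Finset.sum_filter, Finset.sum_const, nsmul_eq_mul]
  have h1 : (univ.filter fun c : G ⧸ R => c.out * x * c.out⁻¹ = y).card =
      if IsConj x y then m else 0 := by
    have e := QuotientGroup.preimageMkEquivSubgroupProdSet R
      ({c : G ⧸ R | c.out * x * c.out⁻¹ = y} : Set (G ⧸ R))
    have h2 : ((QuotientGroup.mk : G → G ⧸ R) ⁻¹' {c : G ⧸ R | c.out * x * c.out⁻¹ = y}) =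
        {c : G | c * x * c⁻¹ = y} := by
      ext c
      change _ = y ↔ _ = y
      rw [hout]
    have h3 := Nat.card_congr e
    rw [h2, Nat.card_prod] at h3
    have h4 : Nat.card ({c : G ⧸ R | c.out * x * c.out⁻¹ = y} : Set (G ⧸ R)) =
        (univ.filter fun c : G ⧸ R => c.out * x * c.out⁻¹ = y).card := by
      rw [Nat.card_eq_fintype_card, Fintype.card_subtype]
      rfl
    have h5 : Nat.card ({c : G | c * x * c⁻¹ = y} : Set G) =
        if IsConj x y then Nat.card (centralizer {x} : Subgroup G) else 0 := by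
      rw [← card_conj, Nat.card_eq_fintype_card, Fintype.card_subtype]
      rfl
    rw [h4, h5] at h3
    by_cases hxy : IsConj x y
    · rw [if_pos hxy] at h3 ⊢
      rw [hcard] at h3
      exact (Nat.eq_of_mul_eq_mul_left Nat.card_pos h3).symm
    · rw [if_neg hxy] at h3 ⊢
      exact (Nat.mul_eq_zero.1 h3.symm).resolve_left Nat.card_pos.ne'
  rw [h1]
  by_cases hxy : IsConj x y
  · rw [if_pos hxy, mul_inv_cancel₀ hm0]
    have : ConjClasses.mk y = ConjClasses.mk x := (ConjClasses.mk_eq_mk_iff_isConj.2 hxy).symm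
    simp [ind, this]
  · rw [if_neg hxy]
    have : ConjClasses.mk y ≠ ConjClasses.mk x :=
      fun h => hxy (ConjClasses.mk_eq_mk_iff_isConj.1 h).symm
    simp [ind, this]

omit hp in
theorem isRelTrace_of_syl {B w : MonoidAlgebra k G} {x : G} {R : Subgroup G}
    (hR : SylCent p x R) (hw : w ∈ Subalgebra.center k (MonoidAlgebra k G))
    (hB : B = classSum k x * w) : IsRelTrace B R := by
  obtain ⟨m, hm, hcard⟩ := hR.ndvd
  refine ⟨MonoidAlgebra.single x ((m : k)⁻¹) * w, fun d hd => ?_, ?_⟩
  · rw [conjBy_mul, conjBy_central d hw, conjBy_single]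
    have h1 := mem_centralizer_singleton_iff.1 (hR.le hd)
    rw [h1, mul_inv_cancel_right]
  · rw [finsum_eq_sum_of_fintype, hB, classSum_eq_sum hR hm hcard, Finset.sum_mul]
    refine Finset.sum_congr rfl fun c _ => ?_
    rw [conjBy_mul, conjBy_central _ hw, conjBy_single]

/-- (K4) a block with defect group `D` -/
theorem exists_BP_of_block [IsAlgClosed k] (B : MonoidAlgebra k G) (hB : IsBlock B)
    (D : Subgroup G) (hD : IsDefectGroup B D) :
    IsPGroup p D ∧ ∃ l : (G → k) → k, BP p D l ∧
      ∀ z : G → k, IsCF z → l z = centralChar B (mkF z) := by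
  have hprim := (isBlock_iff_prim ⟨B, hB.1⟩).1 hB
  obtain ⟨L, hL⟩ := blockHomStmt B hB
  have hLB : L ⟨B, hB.1⟩ = 1 := by rw [hL]; exact centralChar_self B hB
  have hb : IsCF (fun g => B.coeff g) := (P179C.mem_center_iff _).1 hB.1
  have hBb : (⟨mkF (fun g => B.coeff g), mkF_mem hb⟩ :
      Subalgebra.center k (MonoidAlgebra k G)) = ⟨B, hB.1⟩ := Subtype.ext (mkF_coeff _)
  -- the functional of the block
  obtain ⟨g, hg⟩ := LinearMap.exists_extend
    (p := Subalgebra.toSubmodule (Subalgebra.center k (MonoidAlgebra k G))) L.toLinearMap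
  have hg' : ∀ (z : MonoidAlgebra k G) (hz : z ∈ Subalgebra.center k (MonoidAlgebra k G)),
      g z = L ⟨z, hz⟩ := by
    intro z hz
    exact LinearMap.congr_fun hg (⟨z, hz⟩ : Subalgebra.toSubmodule
      (Subalgebra.center k (MonoidAlgebra k G)))
  let μ : (G → k) → k := fun a => g (mkF a)
  have hμ : IsHomCF μ :=
    { add := fun a b => by
        change g (mkF (a + b)) = _
        rw [mkF_add, map_add]
      smul := fun r a => by
        change g (mkF (r • a)) = _
        rw [mkF_smul, map_smul, smul_eq_mul]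
      one := by
        change g (mkF _) = 1
        rw [mkF_one, hg' 1 (one_mem _)]
        exact map_one L
      mul := fun a b ha hb => by
        change g (mkF (conv a b)) = g (mkF a) * g (mkF b)
        rw [mkF_conv, hg' _ (mul_mem (mkF_mem ha) (mkF_mem hb)), hg' _ (mkF_mem ha),
          hg' _ (mkF_mem hb), ← map_mul]
        rfl }
  have hμz : ∀ z : G → k, IsCF z → μ z = centralChar B (mkF z) := by
    intro z hz
    change g (mkF z) = _
    rw [hg' _ (mkF_mem hz), hL]
  have hμb : μ (fun g => B.coeff g) = 1 := by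
    rw [hμz _ hb, mkF_coeff]
    exact centralChar_self B hB
  obtain ⟨x, hx, hμx⟩ := exists_cls_ne hμ hb (by rw [hμb]; exact one_ne_zero)
  obtain ⟨R, hR⟩ := exists_sylCent p x
  -- `R` is conjugate into `D`
  obtain ⟨c, hc⟩ := zab_of_relTrace p B D hD.1 x hx R hR.pgp hR.le
  -- replace `x` by a conjugate
  set x' := c⁻¹ * x * c⁻¹⁻¹ with hx'
  have hR' : SylCent p x' (R.map (MulAut.conj c⁻¹).toMonoidHom) := hR.conj c⁻¹
  have hBx' : (fun g => B.coeff g) x' ≠ 0 := by
    rw [hx', hb]; exact hx
  have hcls : cls k x' = cls k x := by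
    funext y
    unfold cls
    have h1 : IsConj x x' := isConj_iff.2 ⟨c⁻¹, rfl⟩
    by_cases h : IsConj x y
    · rw [if_pos h, if_pos (h1.symm.trans h)]
    · rw [if_neg h, if_neg (fun h2 => h (h1.trans h2))]
  have hμx' : μ (cls k x') ≠ 0 := by rwa [hcls]
  have hRD : R.map (MulAut.conj c⁻¹).toMonoidHom ≤ D := by
    rintro _ ⟨y, hy, rfl⟩
    have := hc y hy
    simpa using this
  -- `B` is a relative trace
  have hmkcls : mkF (cls k x') = classSum k x' := by
    ext y
    rw [coeff_mkF, coeff_classSum]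
    unfold cls ind
    by_cases hxy : IsConj x' y
    · have : ConjClasses.mk y = ConjClasses.mk x' := (ConjClasses.mk_eq_mk_iff_isConj.2 hxy).symm
      rw [if_pos hxy, if_pos this, Int.cast_one]
    · have : ConjClasses.mk y ≠ ConjClasses.mk x' :=
        fun h => hxy (ConjClasses.mk_eq_mk_iff_isConj.1 h).symm
      rw [if_neg hxy, if_neg this, Int.cast_zero]
  obtain ⟨w, hw⟩ := exists_mul_eq_of_prim hprim L hLB
    (z := ⟨mkF (cls k x'), mkF_mem (isCF_cls x')⟩) (by
      rw [hL, ← hμz _ (isCF_cls x')]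
      exact hμx')
  have hrel : IsRelTrace B (R.map (MulAut.conj c⁻¹).toMonoidHom) := by
    refine isRelTrace_of_syl hR' w.2 ?_
    rw [← hmkcls]
    exact congrArg Subtype.val hw
  have hDR : D = R.map (MulAut.conj c⁻¹).toMonoidHom :=
    le_antisymm (hD.2 hrel hRD) hRD
  rw [hDR]
  refine ⟨hR'.pgp, ?_⟩
  obtain ⟨l, hl, hlz⟩ := exists_BP_aux hμ hb (by rw [hBb]; exact hprim) hμb hBx' hμx' hR'
  exact ⟨l, hl, fun z hz => by rw [hlz z hz, hμz z hz]⟩

end Main

end P179Y
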