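import Vale.Agent.P179.H526.M9c

/-!
# The bound `k(B) ≤ 9`
-/

namespace P179T

open P179H524 P179C P179A Finset P179P P179Y Subgroup

open P179X (pp)

open scoped Classical

variable {k : Type*} [Field k] [IsAlgClosed k] [CharP k 3]
  (red : integralClosure ℤ ℂ →+* k) {G : Type} [Group G] [Fintype G]

theorem MM_self (H : Subgroup G) (u : G) (lH : (H → k) → k) (χ : Irr G) :
    MM 3 red H u lH χ.1 χ.1 =
      ((∑ η ∈ bs red lH, Complex.normSq (gg 3 H u χ.1 η.1) : ℝ) : ℂ) := by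
  rw [MM]
  push_cast
  exact Finset.sum_congr rfl fun η _ => Complex.mul_conj _

theorem MM_self_nonneg (H : Subgroup G) (u : G) (lH : (H → k) → k) (χ : Irr G) :
    0 ≤ (MM 3 red H u lH χ.1 χ.1).re := by
  rw [MM_self, Complex.ofReal_re]
  exact Finset.sum_nonneg fun _ _ => Complex.normSq_nonneg _

theorem MM_normSq (u : G) (hu : ∃ a : ℕ, u ^ 3 ^ a = 1) (H : Subgroup G)
    (hH : ∀ x, x ∈ H ↔ x * u = u * x) (lH : (H → k) → k) (χ : Irr G) :
    ∑ ψ : Irr G, Complex.normSq (9 * MM 3 red H u lH χ.1 ψ.1) =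
      81 * (MM 3 red H u lH χ.1 χ.1).re := by
  have h1 := MM_mul 3 red u hu H hH lH χ χ
  have h2 : ∀ ψ : Irr G, MM 3 red H u lH χ.1 ψ.1 * MM 3 red H u lH ψ.1 χ.1 =
      (Complex.normSq (MM 3 red H u lH χ.1 ψ.1) : ℂ) := by
    intro ψ
    rw [← MM_conj 3 red H u lH χ.1 ψ.1, Complex.mul_conj]
  rw [Finset.sum_congr rfl fun ψ _ => h2 ψ] at h1
  rw [← h1]
  have h3 : (∑ ψ : Irr G, (Complex.normSq (MM 3 red H u lH χ.1 ψ.1) : ℂ)).re =
      ∑ ψ : Irr G, Complex.normSq (MM 3 red H u lH χ.1 ψ.1) := by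
    rw [Complex.re_sum]
    exact Finset.sum_congr rfl fun ψ _ => Complex.ofReal_re _
  rw [h3, Finset.mul_sum]
  refine Finset.sum_congr rfl fun ψ _ => ?_
  rw [map_mul]
  congr 1
  rw [Complex.normSq_apply]
  norm_num

/-- the entries of `9M` are Eisenstein integers -/
theorem MM_eis (u : G) (hu3 : u ^ 3 = 1) (H : Subgroup G) (hH : ∀ x, x ∈ H ↔ x * u = u * x)
    (lH : (H → k) → k) (hmm : ∀ η θ : Irr H, InL red lH η.1 → ∃ c : ℤ, (9 : ℂ) * mm 3 η.1 θ.1 = c)
    (χ ψ : Irr G) : 9 * MM 3 red H u lH χ.1 ψ.1 ∈ Eis := by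
  obtain ⟨a, ha1, ha2⟩ := exists_coeffs u hu3 H hH χ
  obtain ⟨b, hb1, hb2⟩ := exists_coeffs u hu3 H hH ψ
  have haE : ∀ η, a η ∈ Eis := by
    intro η
    obtain ⟨n, c, hc, h⟩ := ha1 η
    rw [h]
    exact Eis.mul_mem (nat_mem_Eis n) (root_mem_Eis hc)
  have hbE : ∀ η, b η ∈ Eis := by
    intro η
    obtain ⟨n, c, hc, h⟩ := hb1 η
    rw [h]
    exact Eis.mul_mem (nat_mem_Eis n) (root_mem_Eis hc)
  have hg : ∀ η ∈ bs red lH, 9 * gg 3 H u χ.1 η.1 ∈ Eis := by
    intro η hη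
    rw [mem_bs 3 red] at hη
    rw [gg_eq 3 u H χ ha2, Finset.mul_sum]
    refine Eis.sum_mem fun θ _ => ?_
    have e : (9 : ℂ) * (a θ * mm 3 θ.1 η.1) = a θ * (9 * mm 3 θ.1 η.1) := by ring
    rw [e]
    by_cases hθ : InL red lH θ.1
    · obtain ⟨c, hc⟩ := hmm θ η hθ
      rw [hc]
      exact Eis.mul_mem (haE θ) (int_mem_Eis c)
    · rw [mm_orth 3 red θ η hη hθ, mul_zero, mul_zero]
      exact Eis.zero_mem
  rw [MM_eq 3 red u hu3 H hH lH χ ψ hb2, Finset.mul_sum]
  refine Eis.sum_mem fun η hη => ?_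
  rw [← mul_assoc]
  exact Eis.mul_mem (hg η hη) (conj_mem_Eis (hbE η))

/-- **Theorem K9**, from the local statements -/
theorem K9_of {D : Subgroup G} {l : (G → k) → k} (hl : BP 3 D l) (hD : IsPGroup 3 D)
    (hab : D ≤ centralizer (D : Set G))
    (hT : ¬ 3 ∣ (centralizer (D : Set G)).relIndex (stabT D l)) (hcard : Nat.card D = 9)
    {u : G} (hu : u ∈ D) (hu3 : u ^ 3 = 1) {H : Subgroup G} (hHu : H = centralizer {u})
    (hA : StA 3 H) (hB : StB red 3 D l u H)
    (hC1 : ∀ η : Irr H, InL red (lres H l) η.1 → 9 * (mm 3 η.1 η.1).re ≤ 2)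
    (hC2 : (∑ η ∈ bs red (lres H l), mm 3 η.1 η.1).re ≤ 2) :
    (univ.filter fun χ : Irr G => InL red l χ.1).card ≤ 9 ∧
      ∀ χ : Irr G, InL red l χ.1 → ∃ t : H, ¬ 3 ∣ orderOf t ∧ χ.1 (u * t) ≠ 0 := by
  have hp3 : Nat.Prime 3 := Nat.prime_three
  have : Fact (Nat.Prime 3) := ⟨hp3⟩
  have hup : ∃ a : ℕ, u ^ 3 ^ a = 1 := ⟨1, by rw [pow_one]; exact hu3⟩
  have hH : ∀ x, x ∈ H ↔ x * u = u * x := by
    intro x
    rw [hHu]
    exact mem_centralizer_singleton_iff
  have hDH : D ≤ H := hHu ▸ le_cent_of_mem hu hab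
  have hCH : centralizer (D : Set G) ≤ H := hHu ▸ cent_le_of_mem hu
  have hlH := hl.restrict hDH hCH
  have hDp : IsPGroup 3 (D.subgroupOf H) := hD.comap_subtype
  have habH : D.subgroupOf H ≤ centralizer ((D.subgroupOf H : Subgroup H) : Set H) := by
    intro x hx
    rw [mem_cent_subgroupOf hDH]
    exact hab (by simpa [Subgroup.mem_subgroupOf] using hx)
  have hTH : ¬ 3 ∣ (centralizer ((D.subgroupOf H : Subgroup H) : Set H)).relIndex
      (stabT (D.subgroupOf H) (lres H l)) :=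
    fun h => hT (h.trans (relIndex_stabT_lres_dvd hDH hCH))
  have hcardH : Nat.card (D.subgroupOf H) = 9 := by
    rw [← hcard]
    exact Nat.card_congr (Subgroup.subgroupOfEquivOfLe hDH).toEquiv
  have hG0 : (Nat.card G : ℂ) ≠ 0 := by exact_mod_cast Nat.card_pos.ne'
  have hHc0 : (Nat.card H : ℂ) ≠ 0 := by exact_mod_cast Nat.card_pos.ne'
  set lH := lres H l with hlHdef
  have hmm : ∀ η θ : Irr H, InL red lH η.1 → ∃ c : ℤ, (9 : ℂ) * mm 3 η.1 θ.1 = c := by
    intro η θ hη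
    obtain ⟨c, hc⟩ := mm_int red hlH hDp habH hTH hA η θ hη
    rw [hcardH] at hc
    exact ⟨c, by exact_mod_cast hc⟩
  -- one character of the block of `H`
  obtain ⟨η, hη⟩ := exists_inL 3 red (hlH.isHomCF hDp habH)
  obtain ⟨c, hc⟩ := hmm η η hη
  have hc3 : ¬ ((3 : ℕ) : ℤ) ∣ c := by
    have h1 := hC1 η hη
    have h2 := mm_self_pos (p := 3) η
    have h3 : 9 * (mm 3 η.1 η.1).re = (c : ℝ) := by
      have := congrArg Complex.re hc
      simpa using this
    rw [h3] at h1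
    have h4 : (0 : ℝ) < c := by rw [← h3]; positivity
    have h5 : 0 < c := by exact_mod_cast h4
    have h6 : c ≤ 2 := by exact_mod_cast h1
    rintro ⟨d, hd⟩
    push_cast at hd
    omega
  have hlz : lH (fun t => red (zb 3 η t)) ≠ 0 :=
    lam_zb_ne red hlH hDp habH hTH η η hη (c := c) (by rw [hcardH]; exact_mod_cast hc) hc3
  have hxv : xv 3 red H u l η ≠ 0 := by
    rw [hB η hη]
    refine mul_ne_zero ?_ hlz
    rw [Ne, CharP.cast_eq_zero_iff k 3]
    intro h
    apply hT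
    exact h.trans (Dvd.intro_left _ (Subgroup.relIndex_mul_relIndex _ (H ⊓ stabT D l) _
      (le_inf hCH (cent_le_stabT D l)) inf_le_right))
  have hgg : ∀ χ : Irr G, InL red l χ.1 → gg 3 H u χ.1 η.1 ≠ 0 := by
    intro χ hχ h0
    obtain ⟨X, hX, hX2⟩ := om_gg 3 red H u hH η χ hχ
    rw [h0, mul_zero] at hX
    have hX0 : X = 0 := by
      apply Subtype.ext
      exact (mul_eq_zero.1 hX).resolve_right χ.one_ne_zero
    rw [hX0, map_zero] at hX2
    exact hxv hX2.symm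
  have hEis := MM_eis red u hu3 H hH lH hmm
  -- the diagonal
  have hdiag : ∀ χ : Irr G, ∃ n : ℤ, 9 * MM 3 red H u lH χ.1 χ.1 = n := by
    intro χ
    refine int_of_real_Eis (hEis χ χ) ?_
    rw [map_mul, MM_conj, map_ofNat]
  choose n hn using hdiag
  have hnr : ∀ χ, 9 * (MM 3 red H u lH χ.1 χ.1).re = (n χ : ℝ) := by
    intro χ
    have := congrArg Complex.re (hn χ)
    simpa using this
  have hpos : ∀ χ : Irr G, InL red l χ.1 → 1 ≤ n χ := by
    intro χ hχ
    have h1 : 0 < (MM 3 red H u lH χ.1 χ.1).re := by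
      rw [MM_self, Complex.ofReal_re]
      exact Finset.sum_pos' (fun _ _ => Complex.normSq_nonneg _)
        ⟨η, (mem_bs 3 red).2 hη, Complex.normSq_pos.2 (hgg χ hχ)⟩
    have h2 : (0 : ℝ) < n χ := by rw [← hnr]; positivity
    have h3 : 0 < n χ := by exact_mod_cast h2
    exact h3
  have hcardD : (Nat.card D : ℂ) = 9 := by rw [hcard]; norm_num
  refine ⟨?_, fun χ hχ => ?_⟩
  swap
  · by_contra hcon
    push Not at hcon
    apply hgg χ hχ
    rw [gg, rsum_eq, Finset.sum_eq_zero, mul_zero]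
    intro t ht
    rw [hcon t (mem_filter.1 ht).2, zero_mul]
  by_cases hex : ∃ ψ : Irr G, InL red l ψ.1 ∧ n ψ = 1
  · -- a character of contribution `1/9`
    obtain ⟨ψ, hψ, hn1⟩ := hex
    obtain ⟨yv, hyv⟩ := MM_Y (p := 3) red H (l := l) u (N := 3) (by norm_num) hu3 hH lH
      (fun χ ψ a ha => MM_eq 3 red u hu3 H hH lH χ ψ ha) ψ
    have hyv0 : yv ≠ 0 := by
      obtain ⟨Y, hY, hY2⟩ := hyv ψ hψ
      obtain ⟨V, W, hV, hVW⟩ := height red hl hD hab hT ψ hψ
      rw [hcardD] at hVW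
      have h1 : (V : ℂ) = W * Y := by
        have h2 := hn ψ
        rw [hn1, Int.cast_one] at h2
        apply mul_left_cancel₀ hG0
        linear_combination (-9 * V : ℂ) * hY - (Nat.card G * V : ℂ) * h2 + Y * hVW
      have h2 : V = W * Y := Subtype.ext h1
      rw [← hY2]
      intro h0
      apply hV
      rw [h2, map_mul, h0, mul_zero]
    have hne : ∀ χ : Irr G, InL red l χ.1 → 9 * MM 3 red H u lH ψ.1 χ.1 ≠ 0 := by
      intro χ hχ h0
      have h1 : MM 3 red H u lH ψ.1 χ.1 = 0 := (mul_eq_zero.1 h0).resolve_left (by norm_num)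
      obtain ⟨Y, hY, hY2⟩ := hyv χ hχ
      rw [← MM_conj, h1, map_zero, mul_zero] at hY
      have hY0 : Y = 0 := by
        apply Subtype.ext
        exact (mul_eq_zero.1 hY).resolve_right χ.one_ne_zero
      rw [hY0, map_zero] at hY2
      exact hyv0 hY2.symm
    have h1 := MM_normSq red u hup H hH lH ψ
    have h2 : ((univ.filter fun χ : Irr G => InL red l χ.1).card : ℝ) ≤
        ∑ χ : Irr G, Complex.normSq (9 * MM 3 red H u lH ψ.1 χ.1) := by
      calc ((univ.filter fun χ : Irr G => InL red l χ.1).card : ℝ) =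
          ∑ χ ∈ univ.filter (fun χ : Irr G => InL red l χ.1), (1 : ℝ) := by simp
        _ ≤ ∑ χ ∈ univ.filter (fun χ : Irr G => InL red l χ.1),
            Complex.normSq (9 * MM 3 red H u lH ψ.1 χ.1) :=
          Finset.sum_le_sum fun χ hχ =>
            one_le_normSq_Eis (hEis ψ χ) (hne χ (mem_filter.1 hχ).2)
        _ ≤ _ := Finset.sum_le_sum_of_subset_of_nonneg (Finset.filter_subset _ _)
            fun _ _ _ => Complex.normSq_nonneg _
    have h3 := hnr ψ
    rw [hn1, Int.cast_one] at h3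
    rw [h1] at h2
    have h4 : ((univ.filter fun χ : Irr G => InL red l χ.1).card : ℝ) ≤ 9 := by linarith
    exact_mod_cast h4
  · push Not at hex
    have h1 : ((univ.filter fun χ : Irr G => InL red l χ.1).card : ℝ) * 2 ≤
        ∑ χ : Irr G, 9 * (MM 3 red H u lH χ.1 χ.1).re := by
      calc ((univ.filter fun χ : Irr G => InL red l χ.1).card : ℝ) * 2 =
          ∑ χ ∈ univ.filter (fun χ : Irr G => InL red l χ.1), (2 : ℝ) := by
            rw [Finset.sum_const, nsmul_eq_mul]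
        _ ≤ ∑ χ ∈ univ.filter (fun χ : Irr G => InL red l χ.1),
            9 * (MM 3 red H u lH χ.1 χ.1).re := by
          refine Finset.sum_le_sum fun χ hχ => ?_
          rw [hnr]
          have h2 := hpos χ (mem_filter.1 hχ).2
          have h3 := hex χ (mem_filter.1 hχ).2
          have h4 : 2 ≤ n χ := by omega
          exact_mod_cast h4
        _ ≤ _ := Finset.sum_le_sum_of_subset_of_nonneg (Finset.filter_subset _ _)
            fun χ _ _ => mul_nonneg (by norm_num) (MM_self_nonneg red H u lH χ)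
    rw [← Finset.mul_sum, ← Complex.re_sum, MM_trace 3 red u hup H hH lH] at h1
    have h4 : ((univ.filter fun χ : Irr G => InL red l χ.1).card : ℝ) ≤ 9 := by linarith
    exact_mod_cast h4

end P179T
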