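import Vale.Agent.P179.H526.Z1b

/-!
# The combinatorial part of Theorem Z: the main statement
-/

namespace P179Z

open Finset

open scoped Classical ComplexConjugate

variable {D : Type*} [AddCommGroup D] [Fintype D] {p : ℕ} [hp : Fact p.Prime]

/-- the final argument -/
theorem comb_x (hDp : ∃ n, Nat.card D = p ^ n) (K : AddSubgroup D) {s : ℕ} (hs0 : 1 ≤ s)
    (hs : Nat.card (D ⧸ K) = p ^ s) (B : D → ℤ)
    (hB : ∀ j : ℕ, (Nat.card D).Coprime j → ∀ u, B (j • u) = B u) (x : AddChar D ℂ → ℝ)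
    (hx : ∀ ν, xC B ν = x ν) (t : ℝ) (hp2 : 2 < p) (ht0 : 0 ≤ t) (ht1 : t * (p - 1) < p - 2)
    (htV : ∑ ν : AddChar D ℂ, x ν ^ 2 = p * t) (hxt : ∀ ν, |x ν| ≤ t)
    (hyint : ∀ (μ : AddChar D ℂ) (l1 l2 : AddChar (D ⧸ K) ℂ), ∃ c : ℤ,
      x (μ * io K l1) - x (μ * io K l2) = c)
    (hysum : ∀ μ : AddChar D ℂ, ∑ lam : AddChar (D ⧸ K) ℂ, x (μ * io K lam) = 0) :
    ∀ ν, x ν = 0 := by
  have hp0 : (0 : ℝ) < p := by exact_mod_cast hp.out.pos
  have hpR : (2 : ℝ) < p := by exact_mod_cast hp2
  have hm : Fintype.card (AddChar (D ⧸ K) ℂ) = Nat.card (D ⧸ K) := by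
    rw [AddChar.card_eq, Nat.card_eq_fintype_card]
  have ht2 : t < 1 := by nlinarith
  set V : ℝ := ∑ ν : AddChar D ℂ, x ν ^ 2 with hV
  by_contra hcon
  push Not at hcon
  obtain ⟨ν, hν⟩ := hcon
  have htpos : 0 < t := lt_of_lt_of_le (abs_pos.2 hν) (hxt ν)
  have hmp : (p : ℝ) ≤ Fintype.card (AddChar (D ⧸ K) ℂ) := by
    rw [hm, hs]
    have : p ≤ p ^ s := by
      calc p = p ^ 1 := (pow_one p).symm
        _ ≤ p ^ s := Nat.pow_le_pow_right hp.out.pos hs0
    exact_mod_cast this
  have ht3 : 0 < t * (1 - t) := mul_pos htpos (by linarith)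
  by_cases hνK : ∃ u ∈ K, ν u ≠ 1
  · -- a coset which is moved by the Galois group
    have h1 := coset_lemma (fun lam : AddChar (D ⧸ K) ℂ => x (ν * io K lam)) t ht2
      (fun i j => hyint ν i j) (hysum ν) (fun i => hxt _) ⟨1, by
        have h2 : ν * io K 1 = ν := by
          ext u
          rw [AddChar.mul_apply, io_apply, AddChar.one_apply, mul_one]
        simp only [h2]
        exact hν⟩
    have h2 := galois_cosets hDp K B hB x hx ν hνK
    have h3 : ((p : ℝ) - 1) * (p * (t * (1 - t))) ≤ V := by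
      refine le_trans ?_ h2
      refine mul_le_mul_of_nonneg_left ?_ (by linarith)
      refine le_trans ?_ h1
      exact mul_le_mul_of_nonneg_right hmp ht3.le
    rw [htV] at h3
    have h4 : ((p : ℝ) - 1) * (1 - t) ≤ 1 := by
      have h5 : 0 < (p : ℝ) * t := mul_pos hp0 htpos
      by_contra h6
      push Not at h6
      nlinarith
    nlinarith
  · push Not at hνK
    obtain ⟨lam0, hlam0⟩ := io_surj K ν hνK
    -- the coset of the characters trivial on `K`
    have hone : ∀ lam : AddChar (D ⧸ K) ℂ, (1 : AddChar D ℂ) * io K lam = io K lam := fun lam =>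
      one_mul _
    have hsub : ∑ lam : AddChar (D ⧸ K) ℂ, x (io K lam) ^ 2 ≤ V := by
      rw [← Finset.sum_image (s := univ) (g := io K) (f := fun ν => x ν ^ 2)
        (fun a _ b _ h => io_injective K h)]
      exact Finset.sum_le_univ_sum_of_nonneg fun ν => sq_nonneg _
    have hy1 : ∀ l1 l2 : AddChar (D ⧸ K) ℂ, ∃ c : ℤ, x (io K l1) - x (io K l2) = c := by
      intro l1 l2
      have := hyint 1 l1 l2
      rwa [one_mul, one_mul] at this
    have hy2 : ∑ lam : AddChar (D ⧸ K) ℂ, x (io K lam) = 0 := by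
      have := hysum 1
      simp only [one_mul] at this
      exact this
    rcases Nat.lt_or_ge s 2 with hs2 | hs2
    · -- `|D / K| = p`
      have hs1 : s = 1 := by omega
      rw [hs1, pow_one] at hs
      have hcardp : Nat.card (AddChar (D ⧸ K) ℂ) = p := by
        rw [Nat.card_eq_fintype_card, hm, hs]
      have hne : ∃ l0 : AddChar (D ⧸ K) ℂ, l0 ≠ 1 := by
        by_contra hcon
        push Not at hcon
        have h1 : Nat.card (AddChar (D ⧸ K) ℂ) ≤ 1 := by
          rw [Nat.card_eq_fintype_card]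
          exact Fintype.card_le_one_iff.2 fun a b => (hcon a).trans (hcon b).symm
        rw [hcardp] at h1
        have := hp.out.one_lt
        omega
      obtain ⟨l0, hl0⟩ := hne
      have hconst : ∀ l : AddChar (D ⧸ K) ℂ, l ≠ 1 → x (io K l) = x (io K l0) := by
        intro l hl
        have h1 : l ∈ Submonoid.powers l0 := mem_powers_of_prime_card hcardp hl0
        obtain ⟨j, hj⟩ := h1
        have hj' : l0 ^ j = l := hj
        have hpj : ¬ p ∣ j := by
          rintro ⟨i, rfl⟩
          apply hl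
          rw [← hj', pow_mul, ← hcardp, pow_card_eq_one', one_pow]
        obtain ⟨n, hn⟩ := id hDp
        have hc : (Nat.card D).Coprime j := by
          rw [hn]
          exact Nat.Coprime.pow_left n ((Nat.Prime.coprime_iff_not_dvd hp.out).2 hpj)
        have h2 := xC_pow B (io K l0) hc (hB j hc)
        rw [← io_pow, hj', hx, hx] at h2
        exact_mod_cast h2
      obtain ⟨c, hc⟩ := hy1 1 l0
      have h1 : ∑ lam : AddChar (D ⧸ K) ℂ, x (io K lam) =
          x (io K 1) + ((p : ℝ) - 1) * x (io K l0) := by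
        rw [← Finset.add_sum_erase _ _ (mem_univ (1 : AddChar (D ⧸ K) ℂ))]
        congr 1
        have h2 : ∀ l ∈ univ.erase (1 : AddChar (D ⧸ K) ℂ), x (io K l) = x (io K l0) :=
          fun l hl => hconst l (Finset.ne_of_mem_erase hl)
        rw [Finset.sum_congr rfl h2, Finset.sum_const, Finset.card_erase_of_mem (mem_univ _),
          Finset.card_univ, ← Nat.card_eq_fintype_card, hcardp, nsmul_eq_mul,
          Nat.cast_sub hp.out.one_le, Nat.cast_one]
      rw [hy2] at h1
      have h2 : p * x (io K 1) = (p - 1) * c := by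
        have : x (io K 1) = x (io K l0) + c := by linarith
        nlinarith
      have hc0 : c = 0 := by
        by_contra hc0
        have h3 : 1 ≤ |(c : ℝ)| := by
          have : 1 ≤ |c| := Int.one_le_abs hc0
          exact_mod_cast this
        have h4 : p * |x (io K 1)| = (p - 1) * |(c : ℝ)| := by
          have h5 : |p * x (io K 1)| = |((p : ℝ) - 1) * c| := by rw [h2]
          rw [abs_mul, abs_mul, abs_of_pos hp0, abs_of_pos (by linarith : (0 : ℝ) < p - 1)] at h5
          exact h5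
        have h5 := hxt (io K 1)
        nlinarith
      rw [hc0, Int.cast_zero, mul_zero] at h2
      have h3 : x (io K 1) = 0 := (mul_eq_zero.1 h2).resolve_left hp0.ne'
      have h4 : x (io K l0) = 0 := by
        rw [hc0, Int.cast_zero] at hc
        linarith
      apply hν
      rw [← hlam0]
      by_cases h5 : lam0 = 1
      · rw [h5]; exact h3
      · rw [hconst lam0 h5]; exact h4
    · have h1 := coset_lemma (fun lam : AddChar (D ⧸ K) ℂ => x (io K lam)) t ht2
        hy1 hy2 (fun i => hxt _) ⟨lam0, by rw [hlam0]; exact hν⟩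
      have h2 : (p : ℝ) ^ 2 ≤ Fintype.card (AddChar (D ⧸ K) ℂ) := by
        rw [hm, hs]
        have : p ^ 2 ≤ p ^ s := Nat.pow_le_pow_right hp.out.pos hs2
        exact_mod_cast this
      have h3 : (p : ℝ) ^ 2 * (t * (1 - t)) ≤ V :=
        (mul_le_mul_of_nonneg_right h2 ht3.le).trans (h1.trans hsub)
      rw [htV] at h3
      have h4 : (p : ℝ) * (1 - t) ≤ 1 := by
        have h5 : 0 < (p : ℝ) * t := mul_pos hp0 htpos
        by_contra h6
        push Not at h6
        nlinarith
      nlinarith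

/-- **Combinatorial claim** -/
theorem main_comb (hDp : ∃ n, Nat.card D = p ^ n) (K : AddSubgroup D) (hK : K ≠ ⊤) (A : D → ℤ)
    (a : ℤ) (e : ℕ) (he : e + 2 ≤ p) (hp2 : 2 < p) (ha0 : a ≠ 0) (ha : 2 * |a| < p)
    (hgal : ∀ u, u ∉ K → ∀ j : ℕ, (Nat.card D).Coprime j → A (j • u) = A u)
    (hmod : ∀ u, u ∉ K → (p : ℤ) ∣ A u - a)
    (hint : ∀ μ lam : AddChar D ℂ, (∀ u ∈ K, lam u = 1) → ∃ c : ℤ,
      ∑ u ∈ univ.filter (fun u => u ∉ K), (lam u - 1) * μ u * (A u : ℂ) = c * Nat.card D)
    (hmass : ∑ u ∈ univ.filter (fun u => u ∉ K), (A u) ^ 2 ≤ Nat.card D * e) :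
    ∀ u, u ∉ K → A u = a := by
  have hq : (Nat.card D : ℝ) = Fintype.card D := by rw [Nat.card_eq_fintype_card]
  have hq0 : (0 : ℝ) < Fintype.card D := by exact_mod_cast Fintype.card_pos
  have hqC : (Fintype.card D : ℂ) ≠ 0 := by exact_mod_cast Fintype.card_ne_zero
  have hp0 : (0 : ℝ) < p := by exact_mod_cast hp.out.pos
  have hpR : (2 : ℝ) < p := by exact_mod_cast hp2
  have hm : Fintype.card (AddChar (D ⧸ K) ℂ) = Nat.card (D ⧸ K) := by
    rw [AddChar.card_eq, Nat.card_eq_fintype_card]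
  obtain ⟨s, hs0, hs⟩ : ∃ s : ℕ, 1 ≤ s ∧ Nat.card (D ⧸ K) = p ^ s := by
    obtain ⟨n, hn⟩ := id hDp
    have h1 : Nat.card (D ⧸ K) ∣ p ^ n := hn ▸ AddSubgroup.card_quotient_dvd_card K
    obtain ⟨s, -, hs⟩ := (Nat.dvd_prime_pow hp.out).1 h1
    refine ⟨s, ?_, hs⟩
    by_contra h
    have hs0 : s = 0 := by omega
    rw [hs0, pow_zero] at hs
    apply hK
    exact AddSubgroup.index_eq_one.1 hs
  -- the modified function
  set B : D → ℤ := fun u => if u ∈ K then 0 else A u - a with hBdef
  have hjK : ∀ j : ℕ, (Nat.card D).Coprime j → ∀ u, j • u ∈ K ↔ u ∈ K := by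
    intro j hj u
    constructor
    · intro h
      have h1 : j.Coprime (addOrderOf u) :=
        (hj.coprime_dvd_left (addOrderOf_dvd_natCard u)).symm
      obtain ⟨m, hm⟩ := exists_nsmul_eq_self_of_coprime h1
      rw [← hm]
      exact K.nsmul_mem h m
    · exact fun h => K.nsmul_mem h j
  have hB : ∀ j : ℕ, (Nat.card D).Coprime j → ∀ u, B (j • u) = B u := by
    intro j hj u
    simp only [hBdef, hjK j hj u]
    by_cases h : u ∈ K
    · rw [if_pos h, if_pos h]
    · rw [if_neg h, if_neg h, hgal u h j hj]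
  have hBneg : ∀ u, B (-u) = B u := by
    intro u
    have h1 : (Nat.card D).Coprime (Nat.card D - 1) := by
      have h2 : 1 ≤ Nat.card D := Nat.card_pos
      have h3 := Nat.coprime_self_sub_right h2
      exact h3.2 (Nat.coprime_one_right _)
    have h2 := hB _ h1 u
    have h3 : (Nat.card D - 1) • u = -u := by
      have h4 : (Nat.card D - 1) • u + u = 0 := by
        have h5 : (Nat.card D - 1) • u + u = (Nat.card D - 1 + 1) • u := by
          rw [add_nsmul, one_nsmul]
        rw [h5, Nat.sub_add_cancel Nat.card_pos, Nat.card_eq_fintype_card]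
        exact card_nsmul_eq_zero
      exact eq_neg_of_add_eq_zero_left h4
    rw [h3] at h2
    exact h2
  -- the Fourier coefficients are real
  have hreal : ∀ ν, ∃ r : ℝ, xC B ν = r := by
    intro ν
    have h1 := conj_xC B ν hBneg
    exact ⟨(xC B ν).re, (Complex.conj_eq_iff_re.1 h1).symm⟩
  choose x hx using hreal
  set V : ℝ := ∑ ν : AddChar D ℂ, x ν ^ 2 with hV
  have hVB : V = (Fintype.card D : ℝ)⁻¹ * ∑ u, (B u : ℝ) ^ 2 := by
    rw [← parseval, hV]
    refine Finset.sum_congr rfl fun ν _ => ?_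
    rw [hx, Complex.norm_real, Real.norm_eq_abs, sq_abs]
  -- it suffices to show `V = 0`
  suffices hV0 : ∀ ν, x ν = 0 by
    have h1 : V = 0 := by
      rw [hV]
      exact Finset.sum_eq_zero fun ν _ => by rw [hV0 ν]; ring
    rw [h1] at hVB
    have h2 : ∑ u, (B u : ℝ) ^ 2 = 0 := by
      rcases mul_eq_zero.1 hVB.symm with h | h
      · exact absurd h (inv_ne_zero hq0.ne')
      · exact h
    intro u hu
    have h3 := (Finset.sum_eq_zero_iff_of_nonneg (fun u _ => sq_nonneg (B u : ℝ))).1 h2 u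
      (mem_univ u)
    have h4 : (B u : ℝ) = 0 := by
      have := pow_eq_zero_iff (two_ne_zero) |>.1 h3
      exact this
    have h5 : B u = 0 := by exact_mod_cast h4
    simp only [hBdef] at h5
    rw [if_neg hu] at h5
    linarith
  -- the bound for `V`
  set S : ℝ := ∑ u, (B u : ℝ) ^ 2 with hS
  set W := univ.filter (fun u : D => u ∉ K) with hW
  have hSW : S = ∑ u ∈ W, ((A u - a : ℤ) : ℝ) ^ 2 := by
    rw [hS, hW, Finset.sum_filter]
    refine Finset.sum_congr rfl fun u _ => ?_
    simp only [hBdef]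
    by_cases h : u ∈ K
    · rw [if_pos h, if_neg (not_not.2 h)]; simp
    · rw [if_neg h, if_pos h]
  have hWcard : (Fintype.card D : ℝ) * (1 - 1 / p) ≤ W.card := by
    have h1 : (W.card : ℝ) = Fintype.card D - Nat.card K := by
      have h2 : W.card + (univ.filter (fun u : D => u ∈ K)).card = Fintype.card D := by
        rw [add_comm, hW]
        exact Finset.card_filter_add_card_filter_not (fun u : D => u ∈ K)
      have h3 : (univ.filter (fun u : D => u ∈ K)).card = Nat.card K := by
        rw [← Fintype.card_subtype, Nat.card_eq_fintype_card]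
      rw [h3] at h2
      have : (W.card : ℝ) + Nat.card K = Fintype.card D := by exact_mod_cast h2
      linarith
    have h2 : (Nat.card K : ℝ) * p ≤ Fintype.card D := by
      have h3 : Nat.card K * Nat.card (D ⧸ K) = Nat.card D := by
        rw [mul_comm]
        exact (AddSubgroup.card_eq_card_quotient_mul_card_addSubgroup K).symm
      have h4 : Nat.card K * p ≤ Fintype.card D := by
        rw [← Nat.card_eq_fintype_card, ← h3, hs]
        refine Nat.mul_le_mul_left _ ?_
        calc p = p ^ 1 := (pow_one p).symm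
          _ ≤ p ^ s := Nat.pow_le_pow_right hp.out.pos hs0
      exact_mod_cast h4
    rw [h1]
    have h5 : (Fintype.card D : ℝ) * (1 - 1 / p) = Fintype.card D - Fintype.card D / p := by
      field_simp
    rw [h5]
    have h6 : (Nat.card K : ℝ) ≤ Fintype.card D / p := by
      rw [le_div_iff₀ hp0]
      exact h2
    linarith
  set α : ℝ := ((|a| : ℤ) : ℝ) with hα
  have hα1 : 1 ≤ α := by
    have : 1 ≤ |a| := Int.one_le_abs ha0
    rw [hα]
    exact_mod_cast this
  have hα2 : 2 * α < p := by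
    rw [hα]
    exact_mod_cast ha
  have hterm : ∀ u ∈ W, (p - 2 * α) * ((A u - a : ℤ) : ℝ) ^ 2 ≤ p * ((A u : ℝ) ^ 2 - α ^ 2) := by
    intro u hu
    rw [hW, mem_filter] at hu
    obtain ⟨k, hk⟩ := hmod u hu.2
    have h1 : (A u : ℝ) = a + p * k := by
      have : A u = a + p * k := by linarith
      rw [this]; push_cast; ring
    have h2 : α ^ 2 = (a : ℝ) ^ 2 := by
      rw [hα, Int.cast_abs, sq_abs]
    have h3 : -α * (k : ℝ) ^ 2 ≤ a * k := by
      have h4 : |(k : ℝ)| ≤ (k : ℝ) ^ 2 := by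
        rw [← sq_abs]
        rcases eq_or_ne k 0 with rfl | hk0
        · simp
        · have h5 : 1 ≤ |(k : ℝ)| := by
            have : 1 ≤ |k| := Int.one_le_abs hk0
            exact_mod_cast this
          nlinarith
      have h5 : -(|(a : ℝ)| * |(k : ℝ)|) ≤ a * k := by
        rw [← abs_mul]
        exact neg_abs_le _
      have h6 : |(a : ℝ)| = α := by rw [hα, Int.cast_abs]
      rw [h6] at h5
      have h7 : α * |(k : ℝ)| ≤ α * (k : ℝ) ^ 2 := mul_le_mul_of_nonneg_left h4 (by linarith)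
      linarith
    rw [hk, h2, h1]
    push_cast
    have h8 : (p : ℝ) * (((a : ℝ) + p * k) ^ 2 - (a : ℝ) ^ 2) - (p - 2 * α) * ((p : ℝ) * k) ^ 2 =
        2 * (p : ℝ) ^ 2 * (a * k + α * (k : ℝ) ^ 2) := by ring
    have h9 : 0 ≤ 2 * (p : ℝ) ^ 2 * (a * k + α * (k : ℝ) ^ 2) :=
      mul_nonneg (by positivity) (by linarith)
    linarith
  have hSp : S * (p - 1) < Fintype.card D * (p * (p - 2)) := by
    refine bound_aux (e := e) (a := α) (M := ∑ u ∈ W, (A u : ℝ) ^ 2) hpR ?_ hα1 hα2 hq0 ?_ ?_
    · have : (e : ℝ) + 2 ≤ p := by exact_mod_cast he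
      linarith
    · rw [hSW, Finset.mul_sum]
      refine (Finset.sum_le_sum hterm).trans ?_
      rw [← Finset.mul_sum, Finset.sum_sub_distrib, Finset.sum_const, nsmul_eq_mul]
      refine mul_le_mul_of_nonneg_left ?_ hp0.le
      have : α ^ 2 * (Fintype.card D * (1 - 1 / p)) ≤ W.card * α ^ 2 := by
        rw [mul_comm]
        exact mul_le_mul_of_nonneg_right hWcard (sq_nonneg _)
      linarith
    · rw [← hq]
      exact_mod_cast hmass
  have hVp : V * (p - 1) < p * (p - 2) := by
    rw [hVB, mul_assoc, inv_mul_lt_iff₀ hq0]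
    exact hSp
  -- the bound for the coefficients
  set t : ℝ := V / p with ht
  have hV0 : 0 ≤ V := Finset.sum_nonneg fun ν _ => sq_nonneg _
  have ht0 : 0 ≤ t := div_nonneg hV0 hp0.le
  have htV : V = p * t := by rw [ht]; field_simp
  have ht1 : t * (p - 1) < p - 2 := by
    rw [htV] at hVp
    nlinarith
  have ht2 : t < 1 := by nlinarith
  have hxt : ∀ ν, |x ν| ≤ t := by
    intro ν
    have h1 : |x ν| = ‖xC B ν‖ := by rw [hx, Complex.norm_real, Real.norm_eq_abs]
    rw [h1, ht, hVB]
    have h2 : ‖xC B ν‖ ≤ (Fintype.card D : ℝ)⁻¹ * ∑ u, |(B u : ℝ)| := by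
      unfold xC
      rw [norm_mul, norm_inv, Complex.norm_natCast]
      refine mul_le_mul_of_nonneg_left ?_ (inv_nonneg.2 hq0.le)
      refine (norm_sum_le _ _).trans (le_of_eq ?_)
      refine Finset.sum_congr rfl fun u _ => ?_
      rw [norm_mul, Complex.norm_intCast, ν.norm_apply, mul_one]
    have h3 : ∀ u, |(B u : ℝ)| ≤ (B u : ℝ) ^ 2 / p := by
      intro u
      rw [le_div_iff₀ hp0, ← sq_abs (B u : ℝ)]
      have h4 : (p : ℤ) ∣ B u := by
        simp only [hBdef]
        split_ifs with h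
        · exact dvd_zero _
        · exact hmod u h
      rcases eq_or_ne (B u) 0 with h5 | h5
      · rw [h5]; simp
      · have h6 : (p : ℤ) ≤ |B u| := Int.le_of_dvd (abs_pos.2 h5) ((dvd_abs _ _).2 h4)
        have h7 : (p : ℝ) ≤ |(B u : ℝ)| := by exact_mod_cast h6
        nlinarith [abs_nonneg (B u : ℝ)]
    refine h2.trans ?_
    rw [mul_div_assoc, Finset.sum_div]
    exact mul_le_mul_of_nonneg_left (Finset.sum_le_sum fun u _ => h3 u) (inv_nonneg.2 hq0.le)
  -- the properties of `x` on cosets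
  have hyint : ∀ (μ : AddChar D ℂ) (l1 l2 : AddChar (D ⧸ K) ℂ), ∃ c : ℤ,
      x (μ * io K l1) - x (μ * io K l2) = c := by
    intro μ l1 l2
    obtain ⟨c, hc⟩ := hint (μ * io K l2) (io K (l1 * l2⁻¹)) (by
      intro u hu
      rw [io_apply, (QuotientAddGroup.eq_zero_iff u).2 hu, AddChar.map_zero_eq_one])
    have h1 : ∀ u : D, (io K (l1 * l2⁻¹) u - 1) * (μ * io K l2) u =
        (μ * io K l1) u - (μ * io K l2) u := by
      intro u
      have h2 : io K l1 = io K (l1 * l2⁻¹) * io K l2 := by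
        rw [← io_mul, inv_mul_cancel_right]
      rw [h2, AddChar.mul_apply, AddChar.mul_apply, AddChar.mul_apply]
      ring
    have h3 : xC B (μ * io K l1) - xC B (μ * io K l2) =
        (Fintype.card D : ℂ)⁻¹ * ∑ u ∈ W, (io K (l1 * l2⁻¹) u - 1) * (μ * io K l2) u *
          (A u - a : ℂ) := by
      unfold xC
      rw [← mul_sub, ← Finset.sum_sub_distrib]
      congr 1
      rw [hW, Finset.sum_filter]
      refine Finset.sum_congr rfl fun u _ => ?_
      rw [h1]
      simp only [hBdef]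
      by_cases h : u ∈ K
      · rw [if_pos h, if_neg (not_not.2 h)]; simp
      · rw [if_neg h, if_pos h]; push_cast; ring
    have h4 : ∑ u ∈ W, (io K (l1 * l2⁻¹) u - 1) * (μ * io K l2) u * (a : ℂ) =
        a * (∑ u, (μ * io K l1) u - ∑ u, (μ * io K l2) u) := by
      rw [← Finset.sum_sub_distrib, Finset.mul_sum, hW, Finset.sum_filter]
      refine Finset.sum_congr rfl fun u _ => ?_
      rw [h1]
      by_cases h : u ∈ K
      · rw [if_neg (not_not.2 h)]
        have h5 : (μ * io K l1) u = (μ * io K l2) u := by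
          rw [AddChar.mul_apply, AddChar.mul_apply, io_apply, io_apply,
            (QuotientAddGroup.eq_zero_iff u).2 h, AddChar.map_zero_eq_one,
            AddChar.map_zero_eq_one]
        rw [h5, sub_self, mul_zero]
      · rw [if_pos h]; ring
    have h5 : ∀ ν : AddChar D ℂ, ∃ d : ℤ, ∑ u, ν u = d * Fintype.card D := by
      intro ν
      rw [AddChar.sum_eq_ite]
      by_cases h : ν = 0
      · exact ⟨1, by rw [if_pos h]; simp⟩
      · exact ⟨0, by rw [if_neg h]; simp⟩
    obtain ⟨d1, hd1⟩ := h5 (μ * io K l1)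
    obtain ⟨d2, hd2⟩ := h5 (μ * io K l2)
    refine ⟨c - a * (d1 - d2), ?_⟩
    have h6 : ((x (μ * io K l1) - x (μ * io K l2) : ℝ) : ℂ) = ((c - a * (d1 - d2) : ℤ) : ℂ) := by
      push_cast
      rw [← hx, ← hx, h3]
      have h7 : ∀ u ∈ W, (io K (l1 * l2⁻¹) u - 1) * (μ * io K l2) u * (A u - a : ℂ) =
          (io K (l1 * l2⁻¹) u - 1) * (μ * io K l2) u * (A u : ℂ) -
          (io K (l1 * l2⁻¹) u - 1) * (μ * io K l2) u * (a : ℂ) := fun u _ => by ring
      rw [Finset.sum_congr rfl h7, Finset.sum_sub_distrib, hc, h4, hd1, hd2,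
        Nat.card_eq_fintype_card]
      field_simp
    have h7 : ((x (μ * io K l1) - x (μ * io K l2) : ℝ) : ℂ) =
        (((c - a * (d1 - d2) : ℤ) : ℝ) : ℂ) := by
      rw [h6]; push_cast; rfl
    exact Complex.ofReal_injective h7
  have hysum : ∀ μ : AddChar D ℂ, ∑ lam : AddChar (D ⧸ K) ℂ, x (μ * io K lam) = 0 := by
    intro μ
    have h1 : ∑ lam : AddChar (D ⧸ K) ℂ, xC B (μ * io K lam) = 0 := by
      unfold xC
      rw [← Finset.mul_sum, Finset.sum_comm]
      rw [Finset.sum_eq_zero, mul_zero]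
      intro u _
      have h2 : ∀ lam : AddChar (D ⧸ K) ℂ, (B u : ℂ) * (μ * io K lam) u =
          (B u * μ u) * lam (u : D ⧸ K) := by
        intro lam
        rw [AddChar.mul_apply, io_apply]; ring
      rw [Finset.sum_congr rfl fun lam _ => h2 lam, ← Finset.mul_sum, AddChar.sum_apply_eq_ite]
      by_cases h : u ∈ K
      · simp only [hBdef]
        rw [if_pos h]; simp
      · rw [if_neg fun h' => h ((QuotientAddGroup.eq_zero_iff u).1 h'), mul_zero]
    have h2 : ((∑ lam : AddChar (D ⧸ K) ℂ, x (μ * io K lam) : ℝ) : ℂ) = 0 := by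
      rw [← h1]
      push_cast
      exact Finset.sum_congr rfl fun lam _ => (hx _).symm
    exact_mod_cast h2
  exact comb_x hDp K hs0 hs B hB x hx t hp2 ht0 ht1 htV hxt hyint hysum

end P179Z
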