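import Vale.Agent.P179.H143.Cong
import Vale.Agent.P179.H234.C0
import Vale.Agent.P179.H526.KDef
import Vale.Agent.P179.H905.N5d

/-!
# Theorem N, case 1: `D` central
-/

namespace P179Y

open Subgroup Finset P179H524 P179C P179A P179P

open P179X (pp SameSec)

open scoped Classical

universe u

variable {p : ℕ} [hp : Fact p.Prime] {k : Type u} [Field k] [CharP k p]
  (red : integralClosure ℤ ℂ →+* k) {G : Type} [Group G] [Fintype G]

omit hp [CharP k p] [Fintype G] in
theorem cls_eq_ind (x : G) : cls k x = fun g => ((ind (ConjClasses.mk x) g : ℤ) : k) := by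
  funext g
  unfold cls ind
  by_cases hxy : IsConj x g
  · have : ConjClasses.mk g = ConjClasses.mk x := (ConjClasses.mk_eq_mk_iff_isConj.2 hxy).symm
    rw [if_pos hxy, if_pos this, Int.cast_one]
  · have : ConjClasses.mk g ≠ ConjClasses.mk x :=
      fun h => hxy (ConjClasses.mk_eq_mk_iff_isConj.1 h).symm
    rw [if_neg hxy, if_neg this, Int.cast_zero]

omit hp [CharP k p] in
/-- the value of a central character on a class -/
theorem exists_om_cls (χ : Irr G) (x : G) : ∃ X : AA,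
    (X : ℂ) * χ.1 1 = Nat.card {y : G // IsConj x y} * χ.1 x ∧ red X = lam red χ.1 (cls k x) := by
  have h1 : om χ.1 (ind (ConjClasses.mk x)) ∈ integralClosure ℤ ℂ :=
    isIntegral_om χ.2 (isCF_ind _)
  refine ⟨⟨_, h1⟩, ?_, ?_⟩
  · change om χ.1 (ind (ConjClasses.mk x)) * χ.1 1 = _
    rw [om_ind χ.2, div_mul_cancel₀ _ χ.one_ne_zero]
  · rw [cls_eq_ind, lam_int red χ.2 (isCF_ind _), redC_of_mem red h1]

/-- (ND.unit) `|G| / (|D| φ(1))` is a natural number prime to `p` -/
theorem unit_of_nrm {D : Subgroup G} (_hD : IsPGroup p D) {l : (G → k) → k} (hl : IsHomCF l)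
    {y : G → k} (hy : IsCF y) (hyD : SuppIn p D y) (hly : l y ≠ 0) (φ : Irr G)
    (hφ : InL red l φ.1)
    (hn : (Nat.card D : ℂ) * rsum p (fun s => φ.1 s * φ.1 s⁻¹) = Nat.card G) :
    ∃ S : ℕ, ¬ p ∣ S ∧ (Nat.card G : ℂ) = S * (Nat.card D * φ.1 1) := by
  have hq0 : (Nat.card D : ℂ) ≠ 0 := by exact_mod_cast Nat.card_pos.ne'
  have h10 := φ.one_ne_zero
  -- the algebraic integer `|G| / (|D| φ(1))`
  let F : G → AA := fun g => if ¬ p ∣ orderOf g then ⟨φ.1 g⁻¹, φ.integral _⟩ else 0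
  have hF : IsCF F := by
    intro t g
    simp only [F, orderOf_conj]
    have e : (t * g * t⁻¹)⁻¹ = t * g⁻¹ * t⁻¹ := by group
    simp only [e, φ.conj]
  obtain ⟨X, hX, -⟩ := exists_omAA red φ hF
  have hXG : (X : ℂ) * (Nat.card D * φ.1 1) = Nat.card G := by
    rw [hX, omC, ← hn, rsum_eq, Finset.sum_filter]
    have h2 : ∀ g : G, ((F g : AA) : ℂ) * φ.1 g =
        if ¬ p ∣ orderOf g then φ.1 g * φ.1 g⁻¹ else 0 := by
      intro g
      simp only [F]
      by_cases hg : ¬ p ∣ orderOf g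
      · rw [if_pos hg, if_pos hg, mul_comm]
      · rw [if_neg hg, if_neg hg]
        simp
    rw [Finset.sum_congr rfl fun g _ => h2 g]
    field_simp
  obtain ⟨d, hd, hdφ⟩ := φ.exists_deg
  obtain ⟨a, ha⟩ := int_of_rat_integral X.2 ⟨(Nat.card G : ℚ) / (Nat.card D * d), by
    rw [hdφ] at hXG
    push_cast
    rw [eq_div_iff (mul_ne_zero hq0 (by exact_mod_cast hd.ne'))]
    exact hXG⟩
  have haG : (a : ℂ) * (Nat.card D * φ.1 1) = Nat.card G := by
    rw [← hXG, ← ha]
  have haZ : a * (Nat.card D * d : ℕ) = (Nat.card G : ℕ) := by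
    rw [hdφ] at haG
    exact_mod_cast haG
  have hapos : 0 < a := by
    have h1 : (0 : ℤ) < (Nat.card G : ℕ) := by exact_mod_cast Nat.card_pos
    rw [← haZ] at h1
    by_contra hcon
    push Not at hcon
    have h2 := mul_nonpos_of_nonpos_of_nonneg hcon (Int.natCast_nonneg (Nat.card D * d))
    omega
  obtain ⟨S, rfl⟩ := Int.eq_ofNat_of_zero_le hapos.le
  refine ⟨S, ?_, ?_⟩
  swap
  · rw [← haG]
    push_cast
    ring
  -- `p` does not divide `S`
  intro hpS
  obtain ⟨x, hx, hlx⟩ := exists_cls_ne hl hy hly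
  obtain ⟨R, hR⟩ := exists_sylCent p x
  obtain ⟨c, hc⟩ := hyD x hx R hR.pgp hR.le
  have hcard : Nat.card R ∣ Nat.card D := by
    let f : R →* D :=
      { toFun := fun y => ⟨c⁻¹ * y * c, hc y y.2⟩
        map_one' := by ext; simp
        map_mul' := fun a b => by ext; simp [mul_assoc] }
    refine Subgroup.card_dvd_of_injective f fun a b hab => ?_
    have h1 : c⁻¹ * (a : G) * c = c⁻¹ * (b : G) * c := congrArg Subtype.val hab
    exact Subtype.ext (mul_left_cancel (mul_right_cancel h1))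
  obtain ⟨j, hj⟩ := hcard
  obtain ⟨m, hm, hcm⟩ := hR.ndvd
  obtain ⟨Y, hY, hYl⟩ := exists_om_cls red φ x
  have hclass : Nat.card (centralizer {x} : Subgroup G) * Nat.card {y : G // IsConj x y} =
      Nat.card G := by
    rw [← card_class_mul x]
    congr 1
    rw [Nat.card_eq_fintype_card, Fintype.card_subtype]
  have hR0 : (Nat.card R : ℂ) ≠ 0 := by exact_mod_cast Nat.card_pos.ne'
  have hmY : (m : ℂ) * (Y : ℂ) = S * (j * φ.1 x) := by
    have h3 : (Nat.card R : ℂ) * m * Nat.card {y : G // IsConj x y} = Nat.card G := by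
      rw [← hclass, hcm]
      push_cast
      ring
    have h4 : (Nat.card D : ℂ) = Nat.card R * j := by
      rw [hj]; push_cast; ring
    have h5 : (Nat.card G : ℂ) = S * (Nat.card R * j * φ.1 1) := by
      rw [← haG, h4]
      push_cast
      ring
    apply mul_right_cancel₀ (mul_ne_zero hR0 h10)
    calc (m : ℂ) * Y * (Nat.card R * φ.1 1) = Nat.card R * m * (Y * φ.1 1) := by ring
      _ = (Nat.card R * m * Nat.card {y : G // IsConj x y}) * φ.1 x := by rw [hY]; ring
      _ = S * (j * φ.1 x) * (Nat.card R * φ.1 1) := by rw [h3, h5]; ring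
  have hmY' : (m : AA) * Y = (S : AA) * ((j : AA) * ⟨φ.1 x, φ.integral x⟩) := by
    apply Subtype.ext
    push_cast
    exact hmY
  have h6 := congrArg red hmY'
  rw [map_mul, map_mul, map_natCast, map_natCast, (CharP.cast_eq_zero_iff k p S).2 hpS, zero_mul,
    hYl, hφ _ (isCF_cls x)] at h6
  rcases mul_eq_zero.1 h6 with h7 | h7
  · exact hm ((CharP.cast_eq_zero_iff k p m).1 h7)
  · exact hlx h7

/-! ### Vanishing -/

omit [CharP k p] hp in
theorem eq_zero_of_KK_self {l : (G → k) → k} {y : G} (h : KK red l y y = 0) (χ : Irr G)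
    (hχ : InL red l χ.1) : χ.1 y = 0 := by
  have h1 : ∀ χ : Irr G, (if InL red l χ.1 then χ.1 y * χ.1 y⁻¹ else 0) =
      (((if InL red l χ.1 then Complex.normSq (χ.1 y) else 0 : ℝ)) : ℂ) := by
    intro χ
    split_ifs
    · rw [χ.inv_eq_conj, Complex.mul_conj]
    · simp
  unfold KK at h
  rw [Finset.sum_congr rfl fun χ _ => h1 χ, ← Complex.ofReal_sum] at h
  have h2 := Complex.ofReal_eq_zero.1 h
  rw [Finset.sum_eq_zero_iff_of_nonneg] at h2
  · have h3 := h2 χ (Finset.mem_univ _)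
    rw [if_pos hχ] at h3
    exact Complex.normSq_eq_zero.1 h3
  · intro χ _
    split_ifs
    · exact Complex.normSq_nonneg _
    · exact le_rfl

theorem vanish_off {D : Subgroup G} {l : (G → k) → k} (hl : BP p D l) (hDZ : D ≤ center G)
    (χ : Irr G) (hχ : InL red l χ.1) (y : G) (hy : pp p y ∉ D) : χ.1 y = 0 := by
  have hC : centralizer (D : Set G) = ⊤ := by
    rw [eq_top_iff]
    intro x _
    rw [mem_centralizer_iff]
    intro d hd
    exact ((Subgroup.mem_center_iff.1 (hDZ hd)) x).symm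
  obtain ⟨a, ha, hla, hax⟩ := hl.dfct
  rw [hC] at ha hax
  set u := pp p y with hu
  have hup : ∃ n : ℕ, u ^ p ^ n = 1 := pp_pow_eq_one y
  have hH : ∀ x, x ∈ centralizer {u} ↔ x * u = u * x := fun x => mem_centralizer_singleton_iff
  have hs : ¬ p ∣ orderOf (pr p y) := pr_regular' y
  have hsH : pr p y ∈ centralizer {u} := by
    rw [hH]
    exact (pp_comm y).symm
  have hs' : ¬ p ∣ orderOf (⟨pr p y, hsH⟩ : (centralizer {u} : Subgroup G)) := by
    rwa [← Subgroup.orderOf_coe]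
  refine eq_zero_of_KK_self red ?_ χ hχ
  have h1 := KK_eq' p red u hup (centralizer {u}) hH l ⟨pr p y, hsH⟩ ⟨pr p y, hsH⟩ hs' hs'
  have h2 : u * ((⟨pr p y, hsH⟩ : (centralizer {u} : Subgroup G)) : G) = y := pp_mul_pr y
  rw [h2] at h1
  rw [h1]
  refine Finset.sum_eq_zero fun ψ _ => ?_
  rw [if_neg]
  intro hψ
  have h3 := hψ a (fun g x => ha.1 g (mem_top g) x)
  have h4 : (fun h : (centralizer {u} : Subgroup G) => a h) = 0 := by
    funext h
    by_contra hne
    apply hy
    obtain ⟨n, hn⟩ := hup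
    have h5 : zpowers u ≤ D := by
      refine hax h hne _ ?_ ?_ le_top
      · rintro ⟨_, i, rfl⟩
        refine ⟨n, Subtype.ext ?_⟩
        change (u ^ i) ^ p ^ n = 1
        rw [← zpow_natCast, ← zpow_mul, mul_comm, zpow_mul, zpow_natCast, hn, one_zpow]
      · rw [zpowers_le, mem_centralizer_singleton_iff]
        exact (mem_centralizer_singleton_iff.1 h.2).symm
    exact h5 (mem_zpowers u)
  rw [h4] at h3
  have h5 : lam red ψ.1 (0 : (centralizer {u} : Subgroup G) → k) = 0 := by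
    have := lam_smul red ψ.1 0 (0 : (centralizer {u} : Subgroup G) → k)
    rwa [zero_smul, zero_mul] at this
  rw [h5] at h3
  exact hla h3.symm

/-! ### Summation over `D × G_{p'}` -/

omit [CharP k p] in
theorem sum_eq_DReg {D : Subgroup G} (hD : IsPGroup p D) (hDZ : D ≤ center G) (F : G → ℂ)
    (hF : ∀ g, pp p g ∉ D → F g = 0) :
    ∑ g : G, F g = ∑ z : D, rsum p (fun s => F (z * s)) := by
  simp only [rsum_eq]
  rw [← Finset.sum_subset (Finset.subset_univ (univ.filter fun g : G => pp p g ∈ D))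
    (fun g _ hg => hF g (by simpa using hg))]
  rw [Finset.sum_sigma']
  symm
  have key : ∀ (z : D) (s : G), ¬ p ∣ orderOf s → pp p ((z : G) * s) = z ∧
      pr p ((z : G) * s) = s := by
    intro z s hs
    have hz : ∃ n : ℕ, (z : G) ^ p ^ n = 1 := by
      obtain ⟨n, hn⟩ := hD z
      exact ⟨n, congrArg Subtype.val hn⟩
    have h1 : pp p ((z : G) * s) = z :=
      pp_eq ((Subgroup.mem_center_iff.1 (hDZ z.2)) s).symm hz hs
    refine ⟨h1, ?_⟩
    have h2 := pp_mul_pr (p := p) ((z : G) * s)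
    rw [h1] at h2
    exact mul_left_cancel h2
  refine Finset.sum_bij (fun x _ => (x.1 : G) * x.2) ?_ ?_ ?_ ?_
  · rintro ⟨z, s⟩ h
    simp only [mem_sigma, mem_univ, true_and, mem_filter] at h ⊢
    rw [(key z s h).1]
    exact z.2
  · rintro ⟨z, s⟩ h ⟨z', s'⟩ h' heq
    simp only [mem_sigma, mem_univ, true_and, mem_filter] at h h'
    have heq' : (z : G) * s = (z' : G) * s' := heq
    have h1 := (key z s h).1
    have h2 := (key z s h).2
    rw [heq', (key z' s' h').1] at h1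
    rw [heq', (key z' s' h').2] at h2
    rw [Sigma.mk.injEq]
    exact ⟨Subtype.ext h1.symm, heq_of_eq h2.symm⟩
  · intro g hg
    rw [mem_filter] at hg
    refine ⟨⟨⟨pp p g, hg.2⟩, pr p g⟩, ?_, pp_mul_pr g⟩
    simp only [mem_sigma, mem_univ, true_and, mem_filter]
    exact pr_regular' g
  · rintro ⟨z, s⟩ _
    rfl

/-! ### Central elements -/

omit [CharP k p] in
theorem central_char {D : Subgroup G} (hD : IsPGroup p D) (hDZ : D ≤ center G) (χ : Irr G)
    (z : D) : ∃ c : ℂ, Complex.normSq c = 1 ∧ ∀ t, χ.1 (z * t) = c * χ.1 t := by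
  obtain ⟨n, hn⟩ := hD z
  have hn' : (z : G) ^ p ^ n = 1 := congrArg Subtype.val hn
  obtain ⟨c, hc, h⟩ := central_scalar χ (z : G)
    (fun x => (Subgroup.mem_center_iff.1 (hDZ z.2)) x) hn'
  refine ⟨c, ?_, fun t => by simpa using h 1 t⟩
  have h1 : Complex.normSq c ^ p ^ n = 1 := by
    rw [← map_pow, hc, map_one]
  exact (pow_eq_one_iff_of_nonneg (Complex.normSq_nonneg c)
    (pow_ne_zero _ hp.out.ne_zero)).1 h1

theorem nrm_of_central {D : Subgroup G} (hD : IsPGroup p D) (hDZ : D ≤ center G)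
    {l : (G → k) → k} (hl : BP p D l) (χ : Irr G) (hχ : InL red l χ.1) :
    (Nat.card D : ℂ) * rsum p (fun s => χ.1 s * χ.1 s⁻¹) = Nat.card G := by
  have h1 := row_orth χ χ
  rw [if_pos rfl, sum_eq_DReg hD hDZ _ (fun g hg => by
    rw [vanish_off red hl hDZ χ hχ g hg, zero_mul])] at h1
  have h2 : ∀ z : D, rsum p (fun s => χ.1 (z * s) * χ.1 (z * s)⁻¹) =
      rsum p (fun s => χ.1 s * χ.1 s⁻¹) := by
    intro z
    obtain ⟨c, hc, hcz⟩ := central_char hD hDZ χ z
    unfold rsum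
    refine finsum_congr fun s => ?_
    beta_reduce
    rw [χ.inv_eq_conj, χ.inv_eq_conj, hcz, Complex.mul_conj, Complex.mul_conj, map_mul, hc,
      one_mul]
  rw [Finset.sum_congr rfl fun z _ => h2 z, Finset.sum_const, Finset.card_univ, nsmul_eq_mul] at h1
  rw [Nat.card_eq_fintype_card, Nat.card_eq_fintype_card]
  exact h1

/-- the kernel is a sum over the characters with `D` in the kernel -/
theorem KK_central {D : Subgroup G} (hD : IsPGroup p D) (hDZ : D ≤ center G)
    (l : (G → k) → k) (x s : G) (hx : ¬ p ∣ orderOf x) (hs : ¬ p ∣ orderOf s) :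
    KK red l x s = Nat.card D * ∑ χ : Irr G,
      if InL red l χ.1 ∧ (∀ z ∈ D, ∀ t, χ.1 (z * t) = χ.1 t) then χ.1 x * χ.1 s⁻¹ else 0 := by
  have h1 : ∑ z : D, KK red l (z * x) s = KK red l x s := by
    rw [Finset.sum_eq_single (1 : D)]
    · simp
    · intro z _ hz
      refine KK_sec p red l _ _ fun h => hz ?_
      have hzp : ∃ n : ℕ, (z : G) ^ p ^ n = 1 := by
        obtain ⟨n, hn⟩ := hD z
        exact ⟨n, congrArg Subtype.val hn⟩
      unfold SameSec at h
      rw [pp_eq ((Subgroup.mem_center_iff.1 (hDZ z.2)) x).symm hzp hx,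
        (pp_eq_one_iff s).2 hs] at h
      obtain ⟨c, hc⟩ := isConj_iff.1 h
      apply Subtype.ext
      have : (z : G) = c⁻¹ * (c * z * c⁻¹) * c := by group
      rw [this, hc]; simp
    · intro h
      exact absurd (Finset.mem_univ _) h
  rw [← h1]
  unfold KK
  rw [Finset.sum_comm, Finset.mul_sum]
  refine Finset.sum_congr rfl fun χ _ => ?_
  by_cases hχ : InL red l χ.1
  swap
  · rw [if_neg (fun h => hχ h.1), mul_zero]
    exact Finset.sum_eq_zero fun z _ => if_neg hχ
  by_cases hker : ∀ z ∈ D, ∀ t, χ.1 (z * t) = χ.1 t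
  · rw [if_pos ⟨hχ, hker⟩]
    have h2 : ∀ z : D, (if InL red l χ.1 then χ.1 (z * x) * χ.1 s⁻¹ else 0) =
        χ.1 x * χ.1 s⁻¹ := fun z => by rw [if_pos hχ, hker z z.2]
    rw [Finset.sum_congr rfl fun z _ => h2 z, Finset.sum_const, Finset.card_univ, nsmul_eq_mul,
      Nat.card_eq_fintype_card]
  · rw [if_neg (fun h => hker h.2), mul_zero]
    push Not at hker
    obtain ⟨z₀, hz₀, t, ht⟩ := hker
    obtain ⟨c, -, hc⟩ := central_char hD hDZ χ ⟨z₀, hz₀⟩
    have hc1 : c ≠ 1 := by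
      rintro rfl
      exact ht (by simpa using hc t)
    set S := ∑ z : D, (if InL red l χ.1 then χ.1 (z * x) * χ.1 s⁻¹ else 0) with hS
    have h2 : c * S = S := by
      rw [hS, Finset.mul_sum, ← Equiv.sum_comp (Equiv.mulLeft (⟨z₀, hz₀⟩ : D))
        (fun z : D => (if InL red l χ.1 then χ.1 (z * x) * χ.1 s⁻¹ else 0))]
      refine Finset.sum_congr rfl fun z _ => ?_
      rw [if_pos hχ, if_pos hχ]
      have h3 : ((Equiv.mulLeft (⟨z₀, hz₀⟩ : D)) z : G) * x = z₀ * ((z : G) * x) := by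
        simp [mul_assoc]
      rw [h3, ← mul_assoc]
      congr 1
      exact (hc _).symm
    have h3 : (c - 1) * S = 0 := by rw [sub_mul, h2, one_mul, sub_self]
    exact (mul_eq_zero.1 h3).resolve_left (sub_ne_zero.2 hc1)

/-! ### Uniqueness -/

theorem unique_central {D : Subgroup G} (hD : IsPGroup p D) (hDZ : D ≤ center G)
    {l : (G → k) → k} (hl : BP p D l) (χ ψ : Irr G) (hχ : InL red l χ.1) (hψ : InL red l ψ.1)
    (hχD : ∀ z ∈ D, ∀ t, χ.1 (z * t) = χ.1 t) (hψD : ∀ z ∈ D, ∀ t, ψ.1 (z * t) = ψ.1 t)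
    {y : G → k} (hy : IsCF y) (hyD : SuppIn p D y) (hly : l y ≠ 0) :
    χ = ψ := by
  by_contra hne
  have hq0 : (Nat.card D : ℂ) ≠ 0 := by exact_mod_cast Nat.card_pos.ne'
  -- orthogonality
  have h0 : rsum p (fun s => χ.1 s * ψ.1 s⁻¹) = 0 := by
    have h1 := row_orth χ ψ
    rw [if_neg hne, sum_eq_DReg hD hDZ _ (fun g hg => by
      rw [vanish_off red hl hDZ χ hχ g hg, zero_mul])] at h1
    have h2 : ∀ z : D, rsum p (fun s => χ.1 (z * s) * ψ.1 (z * s)⁻¹) =
        rsum p (fun s => χ.1 s * ψ.1 s⁻¹) := by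
      intro z
      unfold rsum
      refine finsum_congr fun s => ?_
      beta_reduce
      rw [ψ.inv_eq_conj, ψ.inv_eq_conj, hχD z z.2, hψD z z.2]
    rw [Finset.sum_congr rfl fun z _ => h2 z, Finset.sum_const, Finset.card_univ,
      nsmul_eq_mul] at h1
    rcases mul_eq_zero.1 h1 with h3 | h3
    · exact absurd h3 (by exact_mod_cast Fintype.card_ne_zero)
    · exact h3
  obtain ⟨S, hS, hSG⟩ := unit_of_nrm red hD (hl.isHomCF' hD) hy hyD hly ψ hψ
    (nrm_of_central red hD hDZ hl ψ hψ)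
  let F : G → AA := fun g => if ¬ p ∣ orderOf g then ⟨ψ.1 g⁻¹, ψ.integral _⟩ else 0
  have hF : IsCF F := by
    intro t g
    simp only [F, orderOf_conj]
    have e : (t * g * t⁻¹)⁻¹ = t * g⁻¹ * t⁻¹ := by group
    simp only [e, ψ.conj]
  have hom : ∀ ζ : Irr G, omC ζ.1 (fun x => ((F x : AA) : ℂ)) =
      rsum p (fun s => ζ.1 s * ψ.1 s⁻¹) / ζ.1 1 := by
    intro ζ
    rw [omC, rsum_eq, Finset.sum_filter]
    congr 1
    refine Finset.sum_congr rfl fun g _ => ?_
    simp only [F]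
    by_cases hg : ¬ p ∣ orderOf g
    · rw [if_pos hg, if_pos hg, mul_comm]
    · rw [if_neg hg, if_neg hg]
      simp
  obtain ⟨X, hX, hXr⟩ := exists_omAA red ψ hF
  obtain ⟨Y, hY, hYr⟩ := exists_omAA red χ hF
  have hY0 : Y = 0 := by
    apply Subtype.ext
    rw [hY, hom, h0, zero_div]
    rfl
  have hXS : X = (S : AA) := by
    apply Subtype.ext
    have h1 : (X : ℂ) * (Nat.card D * ψ.1 1) = S * (Nat.card D * ψ.1 1) := by
      rw [← hSG, ← nrm_of_central red hD hDZ hl ψ hψ, hX, hom]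
      have := ψ.one_ne_zero
      field_simp
    exact_mod_cast mul_right_cancel₀ (mul_ne_zero hq0 ψ.one_ne_zero) h1
  have hFr : IsCF (fun x => red (F x)) := fun t x => congrArg red (hF t x)
  have h1 : red X = red Y := by rw [hXr, hYr, hχ _ hFr, hψ _ hFr]
  rw [hY0, hXS, map_zero, map_natCast] at h1
  exact hS ((CharP.cast_eq_zero_iff k p S).1 h1)

/-! ### Theorem N for central `D` -/

theorem thmN_central [IsAlgClosed k] {D : Subgroup G} (hD : IsPGroup p D) (hDZ : D ≤ center G)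
    {l : (G → k) → k} (hl : BP p D l) : ∃ φ : G → ℂ, ND red p l (Nat.card D) φ := by
  have hq0 : (Nat.card D : ℂ) ≠ 0 := by exact_mod_cast Nat.card_pos.ne'
  have hG0 : (Nat.card G : ℂ) ≠ 0 := by exact_mod_cast Nat.card_pos.ne'
  have hC : centralizer (D : Set G) = ⊤ := by
    rw [eq_top_iff]
    intro x _
    rw [mem_centralizer_iff]
    intro d hd
    exact ((Subgroup.mem_center_iff.1 (hDZ hd)) x).symm
  obtain ⟨y, hy, hyD, hly⟩ := exists_Y hl hD (by rw [hC]; exact le_top) (by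
    rw [relIndex_eq_one.2 (by rw [hC]; exact le_top)]
    exact fun h => hp.out.one_lt.ne' (Nat.dvd_one.1 h))
  have hhom := hl.isHomCF' hD
  have h1r : ¬ p ∣ orderOf (1 : G) := by
    rw [orderOf_one]; exact hp.out.one_lt.ne' ∘ Nat.dvd_one.1
  -- a character with `D` in its kernel
  have hex : ∃ ψ : Irr G, InL red l ψ.1 ∧ ∀ z ∈ D, ∀ t, ψ.1 (z * t) = ψ.1 t := by
    by_contra hcon
    push Not at hcon
    have h2 := KK_central red hD hDZ l 1 1 h1r h1r
    rw [Finset.sum_eq_zero fun χ _ => if_neg (fun h => by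
      obtain ⟨z, hz, t, ht⟩ := hcon χ h.1
      exact ht (h.2 z hz t)), mul_zero] at h2
    obtain ⟨χ, hχ⟩ := exists_inL p red hhom
    exact χ.one_ne_zero (eq_zero_of_KK_self red h2 χ hχ)
  obtain ⟨ψ, hψ, hψD⟩ := hex
  have hKK : ∀ x s : G, ¬ p ∣ orderOf x → ¬ p ∣ orderOf s →
      KK red l x s = Nat.card D * (ψ.1 x * ψ.1 s⁻¹) := by
    intro x s hx hs
    rw [KK_central red hD hDZ l x s hx hs, Finset.sum_eq_single ψ]
    · rw [if_pos ⟨hψ, hψD⟩]
    · intro χ _ hχ
      rw [if_neg]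
      rintro ⟨h2, h3⟩
      exact hχ (unique_central red hD hDZ hl χ ψ h2 hψ h3 hψD hy hyD hly)
    · intro h
      exact absurd (Finset.mem_univ _) h
  have hnrm := nrm_of_central red hD hDZ hl ψ hψ
  -- all characters are multiples of `ψ` on the `p`-regular elements
  have heq : ∀ χ : Irr G, InL red l χ.1 → ∀ x, ¬ p ∣ orderOf x → χ.1 x = ψ.1 x := by
    intro χ hχ
    set c : ℂ := (Nat.card D : ℂ) * rsum p (fun s => ψ.1 s⁻¹ * χ.1 s) / Nat.card G with hc
    have h2 : ∀ x, ¬ p ∣ orderOf x → χ.1 x = c * ψ.1 x := by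
      intro x hx
      have h3 : ∑ g : G, KK red l x g * χ.1 g = Nat.card G * χ.1 x := by
        unfold KK
        simp only [Finset.sum_mul]
        rw [Finset.sum_comm, Finset.sum_eq_single χ]
        · simp only [if_pos hχ]
          have h4 := row_orth χ χ
          rw [if_pos rfl] at h4
          rw [Nat.card_eq_fintype_card, ← h4, Finset.sum_mul]
          exact Finset.sum_congr rfl fun g _ => by ring
        · intro ζ _ hζ
          by_cases hζl : InL red l ζ.1
          · simp only [if_pos hζl]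
            have h4 := row_orth χ ζ
            rw [if_neg (Ne.symm hζ)] at h4
            have h5 : ∑ g : G, ζ.1 x * ζ.1 g⁻¹ * χ.1 g = ζ.1 x * ∑ g : G, χ.1 g * ζ.1 g⁻¹ := by
              rw [Finset.mul_sum]
              exact Finset.sum_congr rfl fun g _ => by ring
            rw [h5, h4, mul_zero]
          · exact Finset.sum_eq_zero fun g _ => by rw [if_neg hζl, zero_mul]
        · intro h
          exact absurd (Finset.mem_univ _) h
      have h4 : ∑ g : G, KK red l x g * χ.1 g =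
          Nat.card D * ψ.1 x * rsum p (fun s => ψ.1 s⁻¹ * χ.1 s) := by
        rw [rsum_eq, Finset.mul_sum, Finset.sum_filter]
        refine Finset.sum_congr rfl fun g _ => ?_
        by_cases hg : ¬ p ∣ orderOf g
        · rw [if_pos hg, hKK x g hx hg]
          ring
        · rw [if_neg hg, KK_sec p red l x g, zero_mul]
          intro h5
          unfold SameSec at h5
          rw [(pp_eq_one_iff x).2 hx] at h5
          apply hg
          rw [← pp_eq_one_iff]
          obtain ⟨t, ht⟩ := isConj_iff.1 h5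
          rw [← ht]; group
      rw [h4] at h3
      rw [hc]
      field_simp
      rw [mul_comm (χ.1 x), ← h3]
      ring
    obtain ⟨d, hd, hdχ⟩ := χ.exists_deg
    obtain ⟨d', hd', hdψ⟩ := ψ.exists_deg
    have h3 := h2 1 h1r
    rw [hdχ, hdψ] at h3
    have hd0 : (d' : ℂ) ≠ 0 := by exact_mod_cast hd'.ne'
    have hcr : c = ((d / d' : ℝ) : ℂ) := by
      push_cast
      rw [eq_div_iff hd0, h3]
    have h4 := nrm_of_central red hD hDZ hl χ hχ
    have h5 : rsum p (fun s => χ.1 s * χ.1 s⁻¹) =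
        (((d / d' : ℝ) ^ 2 : ℝ) : ℂ) * rsum p (fun s => ψ.1 s * ψ.1 s⁻¹) := by
      rw [rsum_eq, rsum_eq, Finset.mul_sum]
      refine Finset.sum_congr rfl fun s hs => ?_
      rw [mem_filter] at hs
      rw [χ.inv_eq_conj, ψ.inv_eq_conj, h2 s hs.2, map_mul, hcr, Complex.conj_ofReal]
      push_cast
      ring
    rw [h5] at h4
    have h6 : (((d / d' : ℝ) ^ 2 : ℝ) : ℂ) = 1 := by
      have h7 : (((d / d' : ℝ) ^ 2 : ℝ) : ℂ) * Nat.card G = 1 * Nat.card G := by
        linear_combination h4 - (((d / d' : ℝ) ^ 2 : ℝ) : ℂ) * hnrm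
      exact mul_right_cancel₀ hG0 h7
    have h7 : ((d / d' : ℝ) ^ 2 : ℝ) = 1 := by exact_mod_cast h6
    have h8 : (d / d' : ℝ) = 1 :=
      (pow_eq_one_iff_of_nonneg (by positivity) two_ne_zero).1 h7
    have hc1 : c = 1 := by rw [hcr, h8]; simp
    intro x hx
    rw [h2 x hx, hc1, one_mul]
  refine ⟨ψ.1, ψ.2, hψ, heq, ?_, hnrm, ?_⟩
  · have h2 := hKK 1 1 h1r h1r
    unfold KK at h2
    have h3 : ∀ χ : Irr G, (if InL red l χ.1 then χ.1 1 * χ.1 1⁻¹ else 0) =
        if InL red l χ.1 then ψ.1 1 * ψ.1 1⁻¹ else 0 := by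
      intro χ
      by_cases hχ : InL red l χ.1
      · rw [if_pos hχ, if_pos hχ, inv_one, heq χ hχ 1 h1r]
      · rw [if_neg hχ, if_neg hχ]
    rw [Finset.sum_congr rfl fun χ _ => h3 χ, ← Finset.sum_filter, Finset.sum_const,
      nsmul_eq_mul] at h2
    have h4 : ψ.1 1 * ψ.1 1⁻¹ ≠ 0 := by
      rw [inv_one]
      exact mul_ne_zero ψ.one_ne_zero ψ.one_ne_zero
    have h5 := mul_right_cancel₀ h4 h2
    rw [Nat.card_eq_fintype_card, Fintype.card_subtype]
    exact_mod_cast h5
  · obtain ⟨S, hS, hSG⟩ := unit_of_nrm red hD hhom hy hyD hly ψ hψ hnrm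
    refine ⟨1, S, ?_, hS, ?_⟩
    · exact hp.out.one_lt.ne' ∘ Nat.dvd_one.1
    · rw [Nat.cast_one, one_mul, hSG]

end P179Y
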