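import Mathlib

/-!
# The inertial group and the inertial index of a block of `C_G(D)`
-/

namespace P179B

open Subgroup

variable {k : Type*} [Field k] {G : Type*} [Group G]

theorem conj_mem_centralizer_of_mem_normalizer {D : Subgroup G} {n : G}
    (hn : n ∈ normalizer (D : Set G)) {x : G} (hx : x ∈ centralizer (D : Set G)) :
    n * x * n⁻¹ ∈ centralizer (D : Set G) := by
  rw [mem_centralizer_iff] at hx ⊢
  intro d hd
  have h1 : n⁻¹ * d * n ∈ D := by
    have := (mem_normalizer_iff.1 (inv_mem hn) d).1 hd
    simpa using this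
  have h2 := hx _ h1
  calc d * (n * x * n⁻¹) = n * (n⁻¹ * d * n * x) * n⁻¹ := by group
    _ = n * (x * (n⁻¹ * d * n)) * n⁻¹ := by rw [h2]
    _ = n * x * n⁻¹ * d := by group

/-- The inertial group of `b ∈ k C_G(D)`: the elements `n` of `N_G(D)` with `n b n⁻¹ = b`. -/
def inertialGroup (D : Subgroup G) (b : MonoidAlgebra k (centralizer (D : Set G))) :
    Subgroup G where
  carrier := {n | n ∈ normalizer (D : Set G) ∧
    ∀ x y : centralizer (D : Set G), (y : G) = n * x * n⁻¹ → b.coeff y = b.coeff x}
  one_mem' := ⟨one_mem _, fun x y h => by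
    congr 1
    exact Subtype.ext (by simpa using h)⟩
  mul_mem' := by
    rintro m n ⟨hm, hm'⟩ ⟨hn, hn'⟩
    refine ⟨mul_mem hm hn, fun x y h => ?_⟩
    rw [hm' ⟨_, conj_mem_centralizer_of_mem_normalizer hn x.2⟩ y (by rw [h]; group), hn' x _ rfl]
  inv_mem' := by
    rintro n ⟨hn, hn'⟩
    refine ⟨inv_mem hn, fun x y h => ?_⟩
    refine (hn' y x ?_).symm
    rw [h]; group

/-- The inertial index of `b`: `|T : C_G(D)|`, `T` the inertial group of `b` in `N_G(D)`. -/
noncomputable def inertialIndex (D : Subgroup G) (b : MonoidAlgebra k (centralizer (D : Set G))) :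
    ℕ :=
  (centralizer (D : Set G)).relIndex (inertialGroup D b)

/-- The regular elements of `D`: those whose centraliser in the inertial group `T` of `b` is
`C_G(D)`, that is, the elements of `D` lying in a regular orbit of `T / C_G(D)`. -/
def regularElements (D : Subgroup G) (b : MonoidAlgebra k (centralizer (D : Set G))) : Set G :=
  {u | u ∈ D ∧ ∀ n ∈ inertialGroup D b, n * u * n⁻¹ = u → n ∈ centralizer (D : Set G)}

end P179B
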