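import Vale.Agent.P179.H526.Z16
import Vale.Agent.P179.H166.Y6

/-!
# `AgreeMod` passes from the blocks of `G / R` dominated by `B` to `B`
-/

namespace P179B

open Subgroup P179H524

universe u

theorem AgreeMod.zero (m : ℕ) : AgreeMod m 0 0 := ⟨rfl, fun _ => le_rfl, fun _ => le_rfl⟩

theorem AgreeMod.add {m a b c d : ℕ} (h : AgreeMod m a b) (h' : AgreeMod m c d) :
    AgreeMod m (a + c) (b + d) := by
  refine ⟨h.1.add h'.1, fun h1 => ?_, fun h1 => ?_⟩
  · exact add_le_add (h.2.1 (by omega)) (h'.2.1 (by omega))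
  · exact add_le_add (h.2.2 (by omega)) (h'.2.2 (by omega))

/-- **`AgreeMod` passes from the blocks of `G / R` dominated by `B` to `B`** -/
theorem agreeMod_quo {p : ℕ} [hp : Fact p.Prime] {k : Type u} [Field k] [IsAlgClosed k]
    [CharP k p] (red : integralClosure ℤ ℂ →+* k) {G : Type} [Group G] [Finite G] {m : ℕ}
    (R : Subgroup G) [R.Normal] (hR : IsPGroup p R) {B : MonoidAlgebra k G}
    (hB : IsBlock B) (h : ∀ B' : MonoidAlgebra k (G ⧸ R), IsBlock B' →
      B' * MonoidAlgebra.mapDomainAlgHom k k (QuotientGroup.mk' R) B = B' →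
      AgreeMod m (numSimpleIn B') (numWeightsIn p red B')) :
    AgreeMod m (numSimpleIn B) (numWeightsIn p red B) := by
  rw [numSimpleIn_eq, numWeightsIn_eq]
  refine P179R.rel_of_quo p red (AgreeMod.zero m) (fun _ _ _ _ h h' => h.add h') R hR hB
    fun B' hB' hBB' => ?_
  have h1 := h B' hB' hBB'
  rwa [numSimpleIn_eq, numWeightsIn_eq] at h1

end P179B
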