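import Vale.Agent.P179.H526.KDef
import Vale.Agent.P179.H143.MainY
import Vale.Agent.P179.H524.K7
import Vale.Agent.P179.H905.FinalP

/-!
# From the functional `l` back to the block `B`
-/

namespace P179Y

open P179H524 P179C P179A Finset P179P Subgroup

open P179X (pp SameSec IrrB Srat autOrd)

open scoped Classical

section

variable {k : Type*} [Field k] [IsAlgClosed k]
  (red : integralClosure ℤ ℂ →+* k) {G : Type} [Group G] [Fintype G]

theorem lam_eq_centralChar {B : MonoidAlgebra k G} (hB : IsBlock B) {χ : G → ℂ}
    (hχ : IsIrrChar χ) (h : CharInBlock red χ B) {z : G → k} (hz : IsCF z) :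
    lam red χ z = centralChar B (mkF z) := by
  obtain ⟨L, hL⟩ := blockHomStmt B hB
  have h3 : L = lamHom red χ hχ := by
    refine eq_of_classSum _ _ fun g => ?_
    rw [hL, lamHom_apply]
    change centralChar B (classSum k g) = _
    rw [h g, lam_classSum red hχ]
  have h4 := hL ⟨mkF z, mkF_mem hz⟩
  rw [h3, lamHom_apply] at h4
  change lam red χ (fun x => (mkF z).coeff x) = _ at h4
  have h5 : (fun x => (mkF z).coeff x) = z := funext fun x => coeff_mkF z x
  rw [h5] at h4
  exact h4

theorem inL_iff {B : MonoidAlgebra k G} (hB : IsBlock B) {l : (G → k) → k}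
    (hl : ∀ z : G → k, IsCF z → l z = centralChar B (mkF z)) (χ : Irr G) :
    InL red l χ.1 ↔ CharInBlock red χ.1 B := by
  constructor
  · intro h g
    have h1 : IsCF (fun x => (classSum k g).coeff x) :=
      (P179C.mem_center_iff _).1 (classSum_mem_center g)
    have h2 := h _ h1
    rw [lam_classSum red χ.2, hl _ h1, mkF_coeff] at h2
    exact h2.symm
  · intro h z hz
    rw [hl z hz]
    exact lam_eq_centralChar red hB χ.2 h hz

end

end P179Y
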