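import Vale.Agent.P179.H526.FDP
import Vale.Agent.P179.H524.K7

/-!
# K7 with the inertial group
-/

namespace P179Y

open Subgroup Finset P179H524 P179C P179A P179P

open scoped Classical

section Conj

variable {p : ℕ} {k : Type*} [Field k] {G : Type*} [Group G] [Fintype G] {D R : Subgroup G}
  {l l2 : (G → k) → k}

omit [Fintype G] in
theorem cent_conj {g : G} (hg : ∀ x, x ∈ R ↔ g⁻¹ * x * g ∈ D) (x : G) :
    x ∈ centralizer (R : Set G) ↔ g⁻¹ * x * g ∈ centralizer (D : Set G) := by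
  rw [mem_centralizer_iff, mem_centralizer_iff]
  constructor
  · intro h d hd
    have h1 : g * d * g⁻¹ ∈ R := by
      rw [hg]
      have : g⁻¹ * (g * d * g⁻¹) * g = d := by group
      rw [this]; exact hd
    have h2 := h _ h1
    calc d * (g⁻¹ * x * g) = g⁻¹ * (g * d * g⁻¹ * x) * g := by group
      _ = g⁻¹ * (x * (g * d * g⁻¹)) * g := by rw [h2]
      _ = _ := by group
  · intro h r hr
    have h2 := h _ ((hg r).1 hr)
    calc r * x = g * (g⁻¹ * r * g * (g⁻¹ * x * g)) * g⁻¹ := by group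
      _ = g * (g⁻¹ * x * g * (g⁻¹ * r * g)) * g⁻¹ := by rw [h2]
      _ = _ := by group

omit [Fintype G] in
theorem InvOn.cjG {g : G} (hg : ∀ x, x ∈ R ↔ g⁻¹ * x * g ∈ D) {a : G → k}
    (ha : InvOn (centralizer (D : Set G)) a) : InvOn (centralizer (R : Set G)) (P179Y.cj g a) := by
  constructor
  · intro c hc x
    unfold P179Y.cj
    have h1 := ha.1 _ ((cent_conj hg c).1 hc) (g⁻¹ * x * g)
    rw [← h1]
    congr 1
    group
  · intro x hx
    exact ha.2 _ fun h => hx ((cent_conj hg x).2 h)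

/-- conjugate Brauer pairs -/
theorem BP.conjG {g : G} (hg : ∀ x, x ∈ R ↔ g⁻¹ * x * g ∈ D) (hl2 : BP p R l2) :
    BP p D (fun z => l2 (cj g z)) where
  add a b := by rw [cj_add, hl2.add]
  smul c a := by rw [cj_smul, hl2.smul]
  one := by rw [cj_delta, hl2.one]
  mul a b ha hb := by rw [cj_conv, hl2.mul _ _ (ha.cjG hg) (hb.cjG hg)]
  supp a ha := hl2.supp _ fun x hx => ha _ ((cent_conj hg x).1 hx)
  dfct := by
    obtain ⟨a, ha, hla, hx⟩ := hl2.dfct
    have hg' : ∀ x, x ∈ D ↔ g⁻¹⁻¹ * x * g⁻¹ ∈ R := by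
      intro x
      rw [hg]
      have : g⁻¹ * (g⁻¹⁻¹ * x * g⁻¹) * g = x := by group
      rw [this]
    refine ⟨cj g⁻¹ a, ha.cjG hg', ?_, ?_⟩
    · rw [← cj_mul, mul_inv_cancel, cj_one]
      exact hla
    · intro x hx0 P hP hPx hPC
      have h1 := hx (g * x * g⁻¹) (by
        unfold cj at hx0
        rwa [inv_inv] at hx0) (P.map (MulAut.conj g).toMonoidHom) (hP.map _)
        (by
          rintro _ ⟨y, hy, rfl⟩
          rw [mem_centralizer_singleton_iff]
          have h2 := mem_centralizer_singleton_iff.1 (hPx hy)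
          change g * y * g⁻¹ * (g * x * g⁻¹) = g * x * g⁻¹ * (g * y * g⁻¹)
          calc g * y * g⁻¹ * (g * x * g⁻¹) = g * (y * x) * g⁻¹ := by group
            _ = _ := by rw [h2]; group)
        (by
          rintro _ ⟨y, hy, rfl⟩
          have h3 := (cent_conj hg' y).1 (hPC hy)
          rwa [inv_inv] at h3)
      intro y hy
      have h2 : g * y * g⁻¹ ∈ R := h1 ⟨y, hy, rfl⟩
      rw [hg'] 
      rwa [inv_inv]

end Conj

section FD

variable {p : ℕ} [hp : Fact p.Prime] {k : Type*} [Field k] [CharP k p] {G : Type*} [Group G]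
  [Fintype G]

/-- the defect groups of two Brauer pairs with the same functional on class functions
are conjugate -/
theorem FDT {D R : Subgroup G} {l l2 : (G → k) → k} (hl : BP p D l) (hD : IsPGroup p D)
    (hDab : ∀ a ∈ D, ∀ b ∈ D, a * b = b * a)
    (hT : ¬ p ∣ (centralizer (D : Set G)).relIndex (stabT D l))
    (hl2 : BP p R l2) (hR : IsPGroup p R) (hll : ∀ z, IsCF z → l2 z = l z) :
    ∃ g : G, ∀ x, x ∈ R ↔ g⁻¹ * x * g ∈ D := by
  have hab : ∀ D : Subgroup G, (∀ a ∈ D, ∀ b ∈ D, a * b = b * a) →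
      D ≤ centralizer (D : Set G) := by
    intro D h x hx
    rw [mem_centralizer_iff]
    intro y hy
    exact h y hy x hx
  obtain ⟨y, hy, hyD, hly⟩ := exists_Y hl hD (hab D hDab) hT
  have hly2 : l2 y ≠ 0 := by rw [hll y hy]; exact hly
  have hcent : ∀ (Q : Subgroup G) (l' : (G → k) → k) (hl' : BP p Q l') (z : G → k), l' z ≠ 0 →
      ∃ x, z x ≠ 0 ∧ Q ≤ centralizer {x} := by
    intro Q l' hl' z hz
    by_contra hcon
    push Not at hcon
    apply hz
    refine hl'.supp z fun x hx => ?_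
    by_contra hx0
    apply hcon x hx0
    intro r hr
    rw [mem_centralizer_singleton_iff]
    rw [mem_centralizer_iff] at hx
    exact hx r hr
  obtain ⟨x, hx, hRx⟩ := hcent R l2 hl2 y hly2
  obtain ⟨g, hg⟩ := hyD x hx R hR hRx
  have hRab : ∀ a ∈ R, ∀ b ∈ R, a * b = b * a := by
    intro a ha b hb
    have h7 := hDab _ (hg a ha) _ (hg b hb)
    have h8 : g⁻¹ * a * g * (g⁻¹ * b * g) = g⁻¹ * (a * b) * g := by group
    have h9 : g⁻¹ * b * g * (g⁻¹ * a * g) = g⁻¹ * (b * a) * g := by group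
    rw [h8, h9] at h7
    exact mul_left_cancel (mul_right_cancel h7)
  have hT2 := stab_index_coprime hl2 hR hDab hy hyD hly2
  obtain ⟨y', hy', hyR, hly'⟩ := exists_Y hl2 hR (hab R hRab) hT2
  have hly'2 : l y' ≠ 0 := by rw [← hll y' hy']; exact hly'
  obtain ⟨x', hx', hDx'⟩ := hcent D l hl y' hly'2
  obtain ⟨g', hg'⟩ := hyR x' hx' D hD hDx'
  -- orders
  have hfin : Finite G := inferInstance
  let f : R → D := fun r => ⟨g⁻¹ * r * g, hg r r.2⟩
  have hf : Function.Injective f := by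
    intro a b hab
    have h1 := congrArg Subtype.val hab
    exact Subtype.ext (mul_left_cancel (mul_right_cancel h1))
  let f' : D → R := fun r => ⟨g'⁻¹ * r * g', hg' r r.2⟩
  have hf' : Function.Injective f' := by
    intro a b hab
    have h1 := congrArg Subtype.val hab
    exact Subtype.ext (mul_left_cancel (mul_right_cancel h1))
  have hcard : Nat.card R = Nat.card D :=
    le_antisymm (Nat.card_le_card_of_injective f hf) (Nat.card_le_card_of_injective f' hf')
  have hbij : Function.Bijective f := (Nat.bijective_iff_injective_and_card f).2 ⟨hf, hcard⟩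
  refine ⟨g, fun x => ⟨fun hx => hg x hx, fun hx => ?_⟩⟩
  obtain ⟨r, hr⟩ := hbij.2 ⟨_, hx⟩
  have h1 : g⁻¹ * (r : G) * g = g⁻¹ * x * g := congrArg Subtype.val hr
  have h2 : (r : G) = x := mul_left_cancel (mul_right_cancel h1)
  exact h2 ▸ r.2

/-- two Brauer pairs with the same functional on class functions are conjugate -/
theorem FDc {D R : Subgroup G} {l l2 : (G → k) → k} (hl : BP p D l) (hD : IsPGroup p D)
    (hDab : ∀ a ∈ D, ∀ b ∈ D, a * b = b * a)
    (hT : ¬ p ∣ (centralizer (D : Set G)).relIndex (stabT D l))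
    (hl2 : BP p R l2) (hR : IsPGroup p R) (hll : ∀ z, IsCF z → l2 z = l z) :
    ∃ g : G, (∀ x, x ∈ R ↔ g⁻¹ * x * g ∈ D) ∧
      ∀ z, InvOn (centralizer (D : Set G)) z → l2 (cj g z) = l z := by
  obtain ⟨g, hg⟩ := FDT hl hD hDab hT hl2 hR hll
  have hab : D ≤ centralizer (D : Set G) := by
    intro x hx
    rw [mem_centralizer_iff]
    intro y hy
    exact hDab y hy x hx
  obtain ⟨n, hn, h1⟩ := FDP hl (hl2.conjG hg) hD hab hT (by
    intro z hz
    have : cj g z = z := by
      funext x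
      unfold cj
      have := hz g⁻¹ x
      rwa [inv_inv] at this
    rw [this]
    exact hll z hz)
  refine ⟨g * n⁻¹, fun x => ?_, fun z hz => ?_⟩
  · rw [hg, mem_normalizer_iff.1 hn]
    have : n * (g⁻¹ * x * g) * n⁻¹ = (g * n⁻¹)⁻¹ * x * (g * n⁻¹) := by group
    rw [this]
  · rw [cj_mul, h1 _ (hz.cj (inv_mem hn)), ← cj_mul, mul_inv_cancel, cj_one]

end FD

section Fusion

variable {p : ℕ} [hp : Fact p.Prime] {G : Type*} [Group G] [Finite G]

/-- no element of `T` induces `v ↦ v^m` -/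
theorem no_power_fusionT {D T : Subgroup G} (hT : T ≤ normalizer (D : Set G))
    (he : (centralizer (D : Set G)).relIndex T < p - 1) {m : ℕ}
    (hgen : ∀ j : ℕ, ¬ p ∣ j → ∃ i : ℕ, m ^ i ≡ j [MOD ordProj[p] (Nat.card G)])
    {n v : G} (hn : n ∈ T) (hvD : v ∈ D) (hv1 : v ≠ 1)
    (hvp : ∃ a : ℕ, v ^ p ^ a = 1) (hnv : n * v * n⁻¹ = v ^ m) : False := by
  have hpow : ∀ i : ℕ, n ^ i * v * (n ^ i)⁻¹ = v ^ m ^ i := by
    intro i
    induction i with
    | zero => simp
    | succ i ih =>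
      have h1 : n ^ (i + 1) * v * (n ^ (i + 1))⁻¹ = n * (n ^ i * v * (n ^ i)⁻¹) * n⁻¹ := by
        rw [pow_succ']; group
      rw [h1, ih, ← conj_pow, hnv, ← pow_mul, ← pow_succ']
  let C' : Subgroup T := (centralizer (D : Set G)).subgroupOf T
  have hC'n : C'.Normal := by
    refine ⟨fun c hc x => ?_⟩
    rw [mem_subgroupOf] at hc ⊢
    exact conj_mem_centralizer (hT x.2) hc
  have hcard : Nat.card (T ⧸ C') = (centralizer (D : Set G)).relIndex T := rfl
  have hepos : 0 < (centralizer (D : Set G)).relIndex T := by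
    rw [← hcard]; exact Nat.card_pos
  set e := (centralizer (D : Set G)).relIndex T with hee
  have h3 : (QuotientGroup.mk' C' (⟨n, hn⟩ : T)) ^ e = 1 := by
    rw [← hcard]; exact pow_card_eq_one'
  rw [← map_pow] at h3
  have h4 : (⟨n, hn⟩ : T) ^ e ∈ C' := (QuotientGroup.eq_one_iff _).1 h3
  rw [mem_subgroupOf, mem_centralizer_iff] at h4
  have h5 := h4 v hvD
  have h6 : v ^ m ^ e = v := by
    rw [← hpow, mul_inv_eq_iff_eq_mul]
    exact h5.symm
  have h7 : m ^ e ≡ 1 [MOD orderOf v] := by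
    rw [← pow_eq_pow_iff_modEq, h6, pow_one]
  have hpv : p ∣ orderOf v := by
    obtain ⟨j, hj'⟩ := hvp
    obtain ⟨a, -, ha⟩ := (Nat.dvd_prime_pow hp.out).1 (orderOf_dvd_of_pow_eq_one hj')
    rw [ha]
    refine dvd_pow_self p fun h0 => hv1 ?_
    rw [← orderOf_eq_one_iff, ha, h0, pow_zero]
  have hpG : p ∣ ordProj[p] (Nat.card G) := by
    have h8 : p ∣ Nat.card G := hpv.trans (orderOf_dvd_natCard v)
    have h9 : 1 ≤ (Nat.card G).factorization p :=
      (hp.out.pow_dvd_iff_le_factorization Nat.card_pos.ne').1 (by rwa [pow_one])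
    exact dvd_pow_self p (by omega)
  have h10 := le_of_pow_modEq_one (p := p) hepos (h7.of_dvd hpv) (fun j hj => by
    obtain ⟨i, hi⟩ := hgen j hj
    exact ⟨i, hi.of_dvd hpG⟩)
  omega

end Fusion

section K7

variable {p : ℕ} [hp : Fact p.Prime] {k : Type*} [Field k] [CharP k p] [IsAlgClosed k]
  (red : AA →+* k) {G : Type} [Group G] [Fintype G]

/-- (K7), for functionals -/
theorem K7T' {D : Subgroup G} {l : (G → k) → k} (hl : BP p D l) (hD : IsPGroup p D)
    (hDab : ∀ a ∈ D, ∀ b ∈ D, a * b = b * a)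
    (he : (centralizer (D : Set G)).relIndex (stabT D l) < p - 1) {m : ℕ}
    (hm : m.Coprime (Nat.card G))
    (hgen : ∀ j : ℕ, ¬ p ∣ j → ∃ i : ℕ, m ^ i ≡ j [MOD ordProj[p] (Nat.card G)])
    {u : G} (hu : ∃ n : ℕ, u ^ p ^ n = 1) (hu1 : u ≠ 1) {h : G} (hh : h * u * h⁻¹ = u ^ m)
    {H : Subgroup G} (hH : ∀ x, x ∈ H ↔ x * u = u * x) {μ : (H → k) → k} (hμ : IsHomCF μ)
    (hμl : ∀ z : G → k, IsCF z → μ (fun x : H => z x) = l z) :
    ∃ z : G → k, InvOn H z ∧ μ (fun x : H => z x) ≠ μ (fun x : H => z (h * x * h⁻¹)) := by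
  by_contra hcon
  push Not at hcon
  have hhH : ∀ x : G, x ∈ H → h * x * h⁻¹ ∈ H := by
    intro x hx
    rw [hH] at hx ⊢
    have h1 : (h * x * h⁻¹) * u ^ m = u ^ m * (h * x * h⁻¹) := by
      rw [← hh]
      calc h * x * h⁻¹ * (h * u * h⁻¹) = h * (x * u) * h⁻¹ := by group
        _ = h * (u * x) * h⁻¹ := by rw [hx]
        _ = _ := by group
    obtain ⟨r, hr⟩ : ∃ r : ℕ, (u ^ m) ^ r = u := by
      have h3 : Nat.Coprime m (orderOf u) := hm.coprime_dvd_right (orderOf_dvd_natCard u)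
      obtain ⟨r, hr⟩ := exists_pow_eq_self_of_coprime h3
      exact ⟨r, hr⟩
    have h4 : Commute (h * x * h⁻¹) ((u ^ m) ^ r) := Commute.pow_right h1 r
    rw [hr] at h4
    exact h4
  have huH : u ∈ H := (hH u).2 rfl
  obtain ⟨R, l', hR, hl', hμl', hcen⟩ := exists_BP (p := p) hμ
  have huR : (⟨u, huH⟩ : H) ∈ R := by
    refine hcen _ ?_ ?_
    · rw [Subgroup.mem_center_iff]
      intro g
      exact Subtype.ext ((hH g).1 g.2)
    · obtain ⟨n, hn⟩ := hu
      exact ⟨n, Subtype.ext hn⟩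
  set R' : Subgroup G := R.map H.subtype with hR'
  have hRR : R'.subgroupOf H = R := comap_map_eq_self_of_injective H.subtype_injective R
  have hR'H : R' ≤ H := by
    rintro _ ⟨x, -, rfl⟩
    exact x.2
  have huR' : u ∈ R' := ⟨_, huR, rfl⟩
  have hCH : centralizer (R' : Set G) ≤ H := by
    intro x hx
    rw [hH]
    exact (mem_centralizer_iff.1 hx u huR').symm
  have hl'' : BP p (R'.subgroupOf H) l' := by rw [hRR]; exact hl'
  have hl2 := BP.extend hR'H hCH hl''
  set l2 : (G → k) → k := fun a : G → k => l' (fun h : H => a h) with hl2def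
  have hll : ∀ z : G → k, IsCF z → l2 z = l z := by
    intro z hz
    change l' (fun h : H => z h) = l z
    rw [← hμl z hz]
    exact hμl' _ (fun g x => hz g x)
  have hTpos : 0 < (centralizer (D : Set G)).relIndex (stabT D l) :=
    Nat.pos_of_ne_zero (Subgroup.index_ne_zero_of_finite (H :=
      (centralizer (D : Set G)).subgroupOf (stabT D l)))
  have hT : ¬ p ∣ (centralizer (D : Set G)).relIndex (stabT D l) := fun hd => by
    have := Nat.le_of_dvd hTpos hd
    omega
  have hR'p : IsPGroup p R' := hR.map _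
  obtain ⟨g, hg, hgl⟩ := FDc hl hD hDab hT hl2 hR'p hll
  have hab : D ≤ centralizer (D : Set G) := by
    intro x hx
    rw [mem_centralizer_iff]
    intro y hy
    exact hDab y hy x hx
  obtain ⟨y, hy, hyD, hly⟩ := exists_Y hl hD hab hT
  have hRab' : ∀ a ∈ R', ∀ b ∈ R', a * b = b * a := by
    intro a ha b hb
    have h7 := hDab _ ((hg _).1 ha) _ ((hg _).1 hb)
    have h8 : g⁻¹ * (a : G) * g * (g⁻¹ * b * g) = g⁻¹ * ((a : G) * b) * g := by group
    have h9 : g⁻¹ * (b : G) * g * (g⁻¹ * a * g) = g⁻¹ * ((b : G) * a) * g := by group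
    rw [h8, h9] at h7
    exact mul_left_cancel (mul_right_cancel h7)
  have habR : R' ≤ centralizer (R' : Set G) := by
    intro x hx
    rw [mem_centralizer_iff]
    intro y hy
    exact hRab' y hy x hx
  have hT2 : ¬ p ∣ (centralizer (R' : Set G)).relIndex (stabT R' l2) :=
    stab_index_coprime hl2 hR'p hDab hy hyD (by rw [hll y hy]; exact hly)
  -- the element of the inertial group
  obtain ⟨c, hc, hn⟩ := fusionH hl2 hR'p habR hR'H hCH
    (fun hd => hT2 (hd.trans (relIndex_stabT_lres_dvd hR'H hCH))) (g := h)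
    (fun d hd => hhH d (hR'H hd)) (by
      intro z hz
      have h1 := hcon z hz
      have hcf : IsCF (fun x : H => z x) := fun t x => hz.1 t t.2 x
      have hcf2 : IsCF (fun x : H => z (h * x * h⁻¹)) := by
        intro t x
        have h1 := hz.1 (h * t * h⁻¹) (hhH t t.2) (h * x * h⁻¹)
        change z (h * ((t : G) * x * (t : G)⁻¹) * h⁻¹) = z (h * x * h⁻¹)
        rw [← h1]
        congr 1
        group
      rw [← hμl' _ hcf, ← hμl' _ hcf2] at h1
      rw [hl2def]
      change l' (fun x : H => cj h⁻¹ z x) = l' (fun x : H => z x)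
      rw [h1]
      congr 1
      funext x
      unfold cj
      rw [inv_inv])
  -- transport to `D`
  set n : G := g⁻¹ * (c⁻¹ * h) * g with hndef
  have hnT : n ∈ stabT D l := by
    rw [mem_stabT] at hn ⊢
    have hnD : n ∈ normalizer (D : Set G) := by
      rw [mem_normalizer_iff]
      intro x
      have h1 : ∀ x, x ∈ D ↔ g * x * g⁻¹ ∈ R' := by
        intro x
        rw [hg]
        have : g⁻¹ * (g * x * g⁻¹) * g = x := by group
        rw [this]
      change x ∈ D ↔ n * x * n⁻¹ ∈ D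
      rw [h1, h1]
      have h2 := mem_normalizer_iff.1 hn.1 (g * x * g⁻¹)
      have h3 : g * (n * x * n⁻¹) * g⁻¹ = c⁻¹ * h * (g * x * g⁻¹) * (c⁻¹ * h)⁻¹ := by
        rw [hndef]; group
      rw [h3]
      exact h2
    refine ⟨hnD, fun z hz => ?_⟩
    have h1 := hn.2 _ (hz.cjG hg)
    rw [← hgl z hz, ← hgl _ (hz.cj hnD), ← cj_mul, hndef]
    rw [← cj_mul] at h1
    rw [← h1]
    congr 2
    group
  have hvD : g⁻¹ * u * g ∈ D := (hg u).1 huR'
  refine no_power_fusionT (stabT_le_norm D l) he hgen hnT hvD ?_ ?_ (m := m) ?_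
  · intro h1
    apply hu1
    have : u = g * (g⁻¹ * u * g) * g⁻¹ := by group
    rw [this, h1]; group
  · obtain ⟨a, ha⟩ := hu
    refine ⟨a, ?_⟩
    have h1 : (g⁻¹ * u * g) ^ p ^ a = g⁻¹ * u ^ p ^ a * g := by
      have := conj_pow (i := p ^ a) (a := g⁻¹) (b := u)
      rwa [inv_inv] at this
    rw [h1, ha]; group
  · have h1 : (g⁻¹ * u * g) ^ m = g⁻¹ * u ^ m * g := by
      have := conj_pow (i := m) (a := g⁻¹) (b := u)
      rwa [inv_inv] at this
    have h2 : c * u ^ m = u ^ m * c := by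
      have : Commute c u := (hH c).1 hc
      exact this.pow_right m
    rw [h1, hndef]
    calc g⁻¹ * (c⁻¹ * h) * g * (g⁻¹ * u * g) * (g⁻¹ * (c⁻¹ * h) * g)⁻¹ =
        g⁻¹ * (c⁻¹ * (h * u * h⁻¹) * c) * g := by group
      _ = g⁻¹ * (c⁻¹ * (u ^ m * c)) * g := by rw [hh]; group
      _ = g⁻¹ * u ^ m * g := by rw [← h2]; group

/-- **(K7)** for the inertial index -/
theorem K7T {D : Subgroup G} {l : (G → k) → k} (hl : BP p D l) (hD : IsPGroup p D)
    (hDab : ∀ a ∈ D, ∀ b ∈ D, a * b = b * a)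
    (he : (centralizer (D : Set G)).relIndex (stabT D l) < p - 1) {m : ℕ}
    (hm : m.Coprime (Nat.card G))
    (hgen : ∀ j : ℕ, ¬ p ∣ j → ∃ i : ℕ, m ^ i ≡ j [MOD ordProj[p] (Nat.card G)]) :
    K7P p red l m := by
  intro u hu hu1 h hh H hH ψ hψ
  exact K7T' hl hD hDab he hm hgen hu hu1 hh hH (isHomCF_lam red ψ) hψ

end K7

end P179Y
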