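import Vale.Agent.P179.H526.InertDefs
import Vale.Agent.P179.H526.K7T
import Vale.Agent.P179.H526.Bridge

/-!
# The inertial index in terms of blocks of `C_G(D)`
-/

namespace P179Y

open Subgroup Finset P179H524 P179C P179A P179P

open P179B (inertialGroup inertialIndex)

open scoped Classical

section

variable {k : Type*} [Field k] [IsAlgClosed k] {H : Type} [Group H] [Fintype H]

/-- the functional of a block -/
theorem exists_hom_of_block {B : MonoidAlgebra k H} (hB : IsBlock B) :
    ∃ μ : (H → k) → k, IsHomCF μ ∧ ∀ z : H → k, IsCF z → μ z = centralChar B (mkF z) := by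
  obtain ⟨L, hL⟩ := blockHomStmt B hB
  obtain ⟨g, hg⟩ := LinearMap.exists_extend
    (p := Subalgebra.toSubmodule (Subalgebra.center k (MonoidAlgebra k H))) L.toLinearMap
  have hg' : ∀ (z : MonoidAlgebra k H) (hz : z ∈ Subalgebra.center k (MonoidAlgebra k H)),
      g z = L ⟨z, hz⟩ := by
    intro z hz
    exact LinearMap.congr_fun hg (⟨z, hz⟩ : Subalgebra.toSubmodule
      (Subalgebra.center k (MonoidAlgebra k H)))
  let μ : (H → k) → k := fun a => g (mkF a)
  refine ⟨μ, ?_, ?_⟩
  · exact
      { add := fun a b => by
          change g (mkF (a + b)) = _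
          rw [mkF_add, map_add]
        smul := fun r a => by
          change g (mkF (r • a)) = _
          rw [mkF_smul, map_smul, smul_eq_mul]
        one := by
          change g (mkF _) = 1
          rw [mkF_one, hg' 1 (one_mem _)]
          exact map_one L
        mul := fun a b ha hb => by
          change g (mkF (conv a b)) = g (mkF a) * g (mkF b)
          rw [mkF_conv, hg' _ (mul_mem (mkF_mem ha) (mkF_mem hb)), hg' _ (mkF_mem ha),
            hg' _ (mkF_mem hb), ← map_mul]
          rfl }
  · intro z hz
    change g (mkF z) = _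
    rw [hg' _ (mkF_mem hz), hL]

omit [IsAlgClosed k] [Fintype H] in
theorem center_map (f : MonoidAlgebra k H ≃ₐ[k] MonoidAlgebra k H) {z : MonoidAlgebra k H}
    (hz : z ∈ Subalgebra.center k (MonoidAlgebra k H)) :
    f z ∈ Subalgebra.center k (MonoidAlgebra k H) := by
  rw [Subalgebra.mem_center_iff] at hz ⊢
  intro x
  have h1 := congrArg f (hz (f.symm x))
  rw [map_mul, map_mul, f.apply_symm_apply] at h1
  exact h1

omit [IsAlgClosed k] [Fintype H] in
theorem isBlock_map (f : MonoidAlgebra k H ≃ₐ[k] MonoidAlgebra k H) {b : MonoidAlgebra k H}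
    (hb : IsBlock b) : IsBlock (f b) := by
  obtain ⟨h1, h2, h3, h4⟩ := hb
  refine ⟨center_map f h1, by rw [← map_mul, h2], ?_, fun e he hee heb => ?_⟩
  · intro h
    apply h3
    exact (map_eq_zero_iff f f.injective).1 h
  · have h5 := h4 (f.symm e) (center_map f.symm he) (by rw [← map_mul, hee]) (by
      have h6 := congrArg f.symm heb
      rwa [map_mul, f.symm_apply_apply] at h6)
    rcases h5 with h | h
    · left
      exact (map_eq_zero_iff f.symm f.symm.injective).1 h
    · right
      rw [← h, f.apply_symm_apply]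

/-- blocks fixed by an automorphism -/
theorem map_block_iff (f : MonoidAlgebra k H ≃ₐ[k] MonoidAlgebra k H) {b : MonoidAlgebra k H}
    (hb : IsBlock b) : f b = b ↔ ∀ z ∈ Subalgebra.center k (MonoidAlgebra k H),
      centralChar b (f z) = centralChar b z := by
  constructor
  · intro h z hz
    obtain ⟨L, hL⟩ := blockHomStmt b hb
    let F : Subalgebra.center k (MonoidAlgebra k H) →ₐ[k]
        Subalgebra.center k (MonoidAlgebra k H) :=
      ((f : MonoidAlgebra k H →ₐ[k] MonoidAlgebra k H).comp
        (Subalgebra.center k (MonoidAlgebra k H)).val).codRestrict _ fun z => center_map f z.2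
    obtain ⟨B'', hB'', hL''⟩ := homBlockStmt (k := k) (G := H) (L.comp F)
    have h1 : (L.comp F) ⟨b, hb.1⟩ = 1 := by
      have : F ⟨b, hb.1⟩ = ⟨b, hb.1⟩ := Subtype.ext h
      rw [AlgHom.comp_apply, this, hL]
      exact centralChar_self b hb
    rw [hL''] at h1
    change centralChar B'' b = 1 at h1
    rw [charBlockStmt B'' b hB'' hb] at h1
    have h2 : B'' = b := by
      by_contra hne
      rw [if_neg hne] at h1
      exact zero_ne_one h1
    have h3 := hL'' ⟨z, hz⟩
    rw [h2, AlgHom.comp_apply, hL] at h3
    exact h3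
  · intro h
    have h1 := h b hb.1
    rw [centralChar_self b hb, charBlockStmt b (f b) hb (isBlock_map f hb)] at h1
    by_contra hne
    rw [if_neg (fun h => hne h.symm)] at h1
    exact zero_ne_one h1

end

section Inert

variable {p : ℕ} [hp : Fact p.Prime] {k : Type*} [Field k] [IsAlgClosed k] [CharP k p]
  {G : Type} [Group G] [Fintype G]

omit [IsAlgClosed k] in
theorem suppIn_of_isDefectGroup {B : MonoidAlgebra k G} {D : Subgroup G}
    (hD : IsDefectGroup B D) : SuppIn p D (fun g => B.coeff g) :=
  fun x hx P hP hPx => zab_of_relTrace p B D hD.1 x hx P hP hPx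

/-- the inertial index is prime to `p` -/
theorem hT_of_block {B : MonoidAlgebra k G} (hB : IsBlock B) {D : Subgroup G}
    (hD : IsDefectGroup B D) (hDp : IsPGroup p D) (hab : ∀ a ∈ D, ∀ b ∈ D, a * b = b * a)
    {l : (G → k) → k} (hl : BP p D l) (hlz : ∀ z : G → k, IsCF z → l z = centralChar B (mkF z)) :
    ¬ p ∣ (centralizer (D : Set G)).relIndex (stabT D l) := by
  have hb : IsCF (fun g => B.coeff g) := (P179C.mem_center_iff _).1 hB.1
  refine stab_index_coprime hl hDp hab hb (suppIn_of_isDefectGroup hD) ?_
  rw [hlz _ hb, mkF_coeff, centralChar_self B hB]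
  exact one_ne_zero

/-- a block of `C_G(D)` inducing `B` gives a Brauer pair with defect group `D` -/
theorem exists_BP_of_subblock {B : MonoidAlgebra k G} (hB : IsBlock B) {D : Subgroup G}
    (hD : IsDefectGroup B D) (hab : ∀ a ∈ D, ∀ b ∈ D, a * b = b * a)
    {b : MonoidAlgebra k (centralizer (D : Set G))} (hb : IsBlock b) (hbB : InducesTo b B) :
    ∃ l : (G → k) → k, BP p D l ∧ (∀ z : G → k, IsCF z → l z = centralChar B (mkF z)) ∧
      ∀ z : G → k, InvOn (centralizer (D : Set G)) z →
        l z = centralChar b (mkF (fun h : centralizer (D : Set G) => z h)) := by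
  obtain ⟨hDp, l, hl, hlz⟩ := exists_BP_of_block (p := p) B hB D hD
  have hT := hT_of_block hB hD hDp hab hl hlz
  have habH : D ≤ (centralizer (D : Set G)) := by
    intro x hx
    rw [mem_centralizer_iff]
    intro y hy
    exact hab y hy x hx
  obtain ⟨μ, hμ, hμz⟩ := exists_hom_of_block hb
  obtain ⟨R, l', hR, hl', hμl', hcen⟩ := exists_BP (p := p) hμ
  set R' : Subgroup G := R.map (centralizer (D : Set G)).subtype with hR'
  have hRR : R'.subgroupOf (centralizer (D : Set G)) = R := comap_map_eq_self_of_injective (centralizer (D : Set G)).subtype_injective R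
  have hRpH : R' ≤ (centralizer (D : Set G)) := by
    rintro _ ⟨x, -, rfl⟩
    exact x.2
  have hDR : D ≤ R' := by
    intro d hd
    refine ⟨⟨d, habH hd⟩, hcen _ ?_ ?_, rfl⟩
    · rw [Subgroup.mem_center_iff]
      intro x
      apply Subtype.ext
      exact (mem_centralizer_iff.1 x.2 d hd).symm
    · obtain ⟨n, hn⟩ := hDp ⟨d, hd⟩
      exact ⟨n, Subtype.ext (by simpa using congrArg Subtype.val hn)⟩
  have hCH : centralizer (R' : Set G) ≤ (centralizer (D : Set G)) := centralizer_le hDR
  have hl'' : BP p (R'.subgroupOf (centralizer (D : Set G))) l' := by rw [hRR]; exact hl'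
  have hl2 := BP.extend hRpH hCH hl''
  have hres : ∀ z : G → k, InvOn (centralizer (D : Set G)) z → l' (fun h : (centralizer (D : Set G)) => z h) =
      centralChar b (mkF (fun h : (centralizer (D : Set G)) => z h)) := by
    intro z hz
    have hcf : IsCF (fun h : (centralizer (D : Set G)) => z h) := fun t x => hz.1 t t.2 x
    rw [hμl' _ hcf, hμz _ hcf]
  have hll : ∀ z : G → k, IsCF z → (fun a : G → k => l' (fun h : (centralizer (D : Set G)) => a h)) z = l z := by
    intro z hz
    have hcf : IsCF (fun h : (centralizer (D : Set G)) => z h) := fun t x => hz t x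
    change l' (fun h : (centralizer (D : Set G)) => z h) = l z
    rw [hμl' _ hcf, hμz _ hcf, hlz z hz, ← hbB _ (mkF_mem hz)]
    congr 1
    ext h
    rw [coeff_mkF, coeff_trunc, coeff_mkF]
  obtain ⟨g, hg, -⟩ := FDc hl hDp hab hT hl2 (hR.map _) hll
  have hcard : Nat.card R' ≤ Nat.card D := by
    let f : R' → D := fun r => ⟨g⁻¹ * r * g, (hg r).1 r.2⟩
    refine Nat.card_le_card_of_injective f fun a b hab => ?_
    have h1 : g⁻¹ * (a : G) * g = g⁻¹ * (b : G) * g := congrArg Subtype.val hab
    exact Subtype.ext (mul_left_cancel (mul_right_cancel h1))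
  have hDR' : D = R' := Subgroup.eq_of_le_of_card_ge hDR hcard
  rw [← hDR'] at hl2
  exact ⟨_, hl2, fun z hz => (hll z hz).trans (hlz z hz), fun z hz => hres z hz⟩

include p hp in
/-- there is a block of `C_G(D)` inducing `B` -/
theorem exists_subblock {B : MonoidAlgebra k G} (hB : IsBlock B) {D : Subgroup G}
    (hD : IsDefectGroup B D) :
    ∃ b : MonoidAlgebra k (centralizer (D : Set G)), IsBlock b ∧ InducesTo b B := by
  obtain ⟨hDp, l, hl, hlz⟩ := exists_BP_of_block (p := p) B hB D hD
  -- the homomorphism of the centre of `k C_G(D)`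
  have hext : ∀ a : centralizer (D : Set G) → k, IsCF a →
      InvOn (centralizer (D : Set G)) (ext (centralizer (D : Set G)) a) := by
    intro a ha
    constructor
    · intro c hc x
      by_cases hx : x ∈ centralizer (D : Set G)
      · rw [ext_of_mem _ _ hx, ext_of_mem _ _ (mul_mem (mul_mem hc hx) (inv_mem hc))]
        exact ha ⟨c, hc⟩ ⟨x, hx⟩
      · rw [ext_of_not_mem _ _ hx, ext_of_not_mem]
        intro h
        apply hx
        have := mul_mem (mul_mem (inv_mem hc) h) hc
        have e1 : c⁻¹ * (c * x * c⁻¹) * c = x := by group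
        rwa [e1] at this
    · intro x hx
      exact ext_of_not_mem _ _ hx
  have hμ : IsHomCF (lres (centralizer (D : Set G)) l) :=
    { add := fun a b => by
        unfold lres
        rw [ext_add, hl.add]
      smul := fun c a => by
        unfold lres
        rw [ext_smul, hl.smul]
      one := by
        unfold lres
        refine (congrArg l ?_).trans hl.one
        exact ext_one _ _ (if_pos rfl) fun g hg => if_neg hg
      mul := fun a b ha hb => by
        unfold lres
        rw [ext_conv, hl.mul _ _ (hext a ha) (hext b hb)] }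
  obtain ⟨b, hb, hlb⟩ := homBlockStmt (k := k) (G := centralizer (D : Set G)) hμ.toAlgHom
  refine ⟨b, hb, fun z hz => ?_⟩
  have hzcf : IsCF (fun g => z.coeff g) := (P179C.mem_center_iff _).1 hz
  have hcf : IsCF (fun h : centralizer (D : Set G) => z.coeff h) := fun t x => hzcf t x
  have htr : trunc (centralizer (D : Set G)) z =
      mkF (fun h : centralizer (D : Set G) => z.coeff h) := by
    ext h
    rw [coeff_mkF, coeff_trunc]
  have h1 := hlb ⟨mkF (fun h : centralizer (D : Set G) => z.coeff h), mkF_mem hcf⟩
  rw [hμ.toAlgHom_mkF hcf] at h1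
  change _ = centralChar b (mkF (fun h : centralizer (D : Set G) => z.coeff h)) at h1
  rw [htr, ← h1]
  have h2 : lres (centralizer (D : Set G)) l (fun h => z.coeff h) = l (fun g => z.coeff g) := by
    unfold lres
    exact hl.congr fun x hx => by rw [ext_of_mem _ _ hx]
  rw [h2, hlz _ hzcf, mkF_coeff]

omit [CharP k p] hp in
/-- the inertial group of `b` is the group `stabT` -/
theorem stabT_eq_inertialGroup {D : Subgroup G} {b : MonoidAlgebra k (centralizer (D : Set G))}
    (hb : IsBlock b) {l : (G → k) → k}
    (hl : ∀ z : G → k, InvOn (centralizer (D : Set G)) z →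
      l z = centralChar b (mkF (fun h : centralizer (D : Set G) => z h))) :
    stabT D l = inertialGroup D b := by
  ext n
  rw [mem_stabT]
  change _ ↔ n ∈ normalizer (D : Set G) ∧
    ∀ x y : centralizer (D : Set G), (y : G) = n * x * n⁻¹ → b.coeff y = b.coeff x
  refine and_congr_right fun hn => ?_
  let e : centralizer (D : Set G) ≃* centralizer (D : Set G) :=
    { toFun := fun x => ⟨n * x * n⁻¹, P179B.conj_mem_centralizer_of_mem_normalizer hn x.2⟩
      invFun := fun x => ⟨n⁻¹ * x * n, by
        have := P179B.conj_mem_centralizer_of_mem_normalizer (inv_mem hn) x.2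
        rwa [inv_inv] at this⟩
      left_inv := fun x => Subtype.ext (by
        change n⁻¹ * (n * x * n⁻¹) * n = x
        group)
      right_inv := fun x => Subtype.ext (by
        change n * (n⁻¹ * x * n) * n⁻¹ = x
        group)
      map_mul' := fun x y => Subtype.ext (by
        change n * (x * y) * n⁻¹ = n * x * n⁻¹ * (n * y * n⁻¹)
        group) }
  let f := MonoidAlgebra.domCongr k k e
  have hf : ∀ (z : MonoidAlgebra k (centralizer (D : Set G))) (y : centralizer (D : Set G)),
      (f z).coeff y = z.coeff (e.symm y) := fun z y => MonoidAlgebra.coeff_domCongr _ _ _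
  have h1 : (∀ x y : centralizer (D : Set G), (y : G) = n * x * n⁻¹ → b.coeff y = b.coeff x) ↔
      f b = b := by
    constructor
    · intro h
      ext y
      rw [hf]
      refine (h (e.symm y) y ?_).symm
      exact congrArg Subtype.val (e.apply_symm_apply y).symm
    · intro h x y hxy
      have h2 : y = e x := Subtype.ext hxy
      rw [h2, ← h, hf, e.symm_apply_apply, h]
  rw [h1, map_block_iff f hb]
  have hkey : ∀ z : G → k, InvOn (centralizer (D : Set G)) z →
      mkF (fun h : centralizer (D : Set G) => cj n z h) =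
        f (mkF (fun h : centralizer (D : Set G) => z h)) := by
    intro z hz
    ext y
    rw [hf, coeff_mkF, coeff_mkF]
    rfl
  constructor
  · intro h z hz
    have hcf : IsCF (fun h => z.coeff h) := (P179C.mem_center_iff _).1 hz
    have hinv : InvOn (centralizer (D : Set G)) (ext (centralizer (D : Set G)) fun h => z.coeff h) := by
      constructor
      · intro c hc x
        by_cases hx : x ∈ centralizer (D : Set G)
        · rw [ext_of_mem _ _ hx, ext_of_mem _ _ (mul_mem (mul_mem hc hx) (inv_mem hc))]
          exact hcf ⟨c, hc⟩ ⟨x, hx⟩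
        · rw [ext_of_not_mem _ _ hx, ext_of_not_mem]
          intro h
          apply hx
          have := mul_mem (mul_mem (inv_mem hc) h) hc
          have e1 : c⁻¹ * (c * x * c⁻¹) * c = x := by group
          rwa [e1] at this
      · intro x hx
        exact ext_of_not_mem _ _ hx
    have h2 := h _ hinv
    rw [hl _ hinv, hl _ (hinv.cj hn), hkey _ hinv] at h2
    simp only [ext_coe] at h2
    rw [mkF_coeff] at h2
    exact h2
  · intro h z hz
    rw [hl _ hz, hl _ (hz.cj hn), hkey _ hz]
    exact h _ (mkF_mem fun t x => hz.1 t t.2 x)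

end Inert

end P179Y
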