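import Mathlib

/-!
# The Eisenstein integers in `ℂ`
-/

namespace P179T

open Complex

/-- a primitive cube root of unity -/
noncomputable def om3 : ℂ := ⟨-1 / 2, Real.sqrt 3 / 2⟩

theorem om3_sq : om3 * om3 = -1 - om3 := by
  have h : Real.sqrt 3 * Real.sqrt 3 = 3 := Real.mul_self_sqrt (by norm_num)
  apply Complex.ext
  · simp only [om3, mul_re, sub_re, neg_re, one_re]
    nlinarith
  · simp only [om3, mul_im, sub_im, neg_im, one_im]
    ring

theorem om3_conj : (starRingEnd ℂ) om3 = -1 - om3 := by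
  apply Complex.ext
  · simp only [om3, conj_re, sub_re, neg_re, one_re]
    norm_num
  · simp only [om3, conj_im, sub_im, neg_im, one_im]
    ring

theorem om3_cube : om3 * om3 * om3 = 1 := by
  rw [om3_sq]
  have h := om3_sq
  linear_combination -h

theorem om3_ne : om3 ≠ 1 := by
  intro h
  have := congrArg Complex.re h
  simp [om3] at this
  norm_num at this

/-- the ring of Eisenstein integers -/
def Eis : Subring ℂ where
  carrier := {x | ∃ a b : ℤ, x = a + b * om3}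
  mul_mem' := by
    rintro x y ⟨a, b, rfl⟩ ⟨c, d, rfl⟩
    refine ⟨a * c - b * d, a * d + b * c - b * d, ?_⟩
    push_cast
    linear_combination (b * d : ℂ) * om3_sq
  one_mem' := ⟨1, 0, by simp⟩
  add_mem' := by
    rintro x y ⟨a, b, rfl⟩ ⟨c, d, rfl⟩
    exact ⟨a + c, b + d, by push_cast; ring⟩
  zero_mem' := ⟨0, 0, by simp⟩
  neg_mem' := by
    rintro x ⟨a, b, rfl⟩
    exact ⟨-a, -b, by push_cast; ring⟩

theorem mem_Eis {x : ℂ} : x ∈ Eis ↔ ∃ a b : ℤ, x = a + b * om3 := Iff.rfl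

theorem om3_mem : om3 ∈ Eis := ⟨0, 1, by simp⟩

theorem int_mem_Eis (n : ℤ) : (n : ℂ) ∈ Eis := ⟨n, 0, by simp⟩

theorem nat_mem_Eis (n : ℕ) : (n : ℂ) ∈ Eis := ⟨n, 0, by simp⟩

theorem conj_mem_Eis {x : ℂ} (hx : x ∈ Eis) : (starRingEnd ℂ) x ∈ Eis := by
  obtain ⟨a, b, rfl⟩ := hx
  refine ⟨a - b, -b, ?_⟩
  rw [map_add, map_mul, om3_conj, map_intCast, map_intCast]
  push_cast
  ring

theorem root_mem_Eis {c : ℂ} (hc : c ^ 3 = 1) : c ∈ Eis := by
  have h : (c - 1) * ((c - om3) * (c - (-1 - om3))) = 0 := by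
    have h1 := om3_sq
    linear_combination hc + (1 - c) * h1
  rcases mul_eq_zero.1 h with h | h
  · rw [sub_eq_zero.1 h]
    exact Eis.one_mem
  · rcases mul_eq_zero.1 h with h | h
    · rw [sub_eq_zero.1 h]
      exact om3_mem
    · rw [sub_eq_zero.1 h]
      exact Eis.sub_mem (Eis.neg_mem Eis.one_mem) om3_mem

theorem isIntegral_Eis {x : ℂ} (hx : x ∈ Eis) : x ∈ integralClosure ℤ ℂ := by
  obtain ⟨a, b, rfl⟩ := hx
  have h1 : om3 ∈ integralClosure ℤ ℂ := by
    refine ⟨Polynomial.X ^ 3 - 1, ?_, ?_⟩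
    · exact Polynomial.monic_X_pow_sub_C 1 (by norm_num)
    · simp only [Polynomial.eval₂_sub, Polynomial.eval₂_X_pow, Polynomial.eval₂_one]
      have := om3_cube
      linear_combination this
  have h2 : ∀ n : ℤ, (n : ℂ) ∈ integralClosure ℤ ℂ := fun n => (integralClosure ℤ ℂ).algebraMap_mem n
  exact add_mem (h2 a) (mul_mem (h2 b) h1)

theorem normSq_Eis (a b : ℤ) :
    Complex.normSq ((a : ℂ) + b * om3) = ((a * a - a * b + b * b : ℤ) : ℝ) := by
  have h : Real.sqrt 3 * Real.sqrt 3 = 3 := Real.mul_self_sqrt (by norm_num)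
  rw [Complex.normSq_apply]
  simp only [om3, add_re, add_im, mul_re, mul_im, intCast_re, intCast_im]
  push_cast
  nlinarith

/-- nonzero Eisenstein integers have norm at least `1` -/
theorem one_le_normSq_Eis {x : ℂ} (hx : x ∈ Eis) (h0 : x ≠ 0) : 1 ≤ Complex.normSq x := by
  have h1 : 0 < Complex.normSq x := Complex.normSq_pos.2 h0
  obtain ⟨a, b, rfl⟩ := hx
  rw [normSq_Eis] at h1 ⊢
  have h2 : 0 < a * a - a * b + b * b := by exact_mod_cast h1
  have h3 : 1 ≤ a * a - a * b + b * b := h2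
  exact_mod_cast h3

/-- real Eisenstein integers are integers -/
theorem int_of_real_Eis {x : ℂ} (hx : x ∈ Eis) (hr : (starRingEnd ℂ) x = x) :
    ∃ n : ℤ, x = n := by
  obtain ⟨a, b, rfl⟩ := hx
  have h1 := congrArg Complex.im hr
  have h3 : (0 : ℝ) < Real.sqrt 3 := Real.sqrt_pos.2 (by norm_num)
  simp only [om3, conj_im, add_im, mul_im, intCast_re, intCast_im] at h1
  have h2 : (b : ℝ) * Real.sqrt 3 = 0 := by nlinarith
  have h4 : (b : ℝ) = 0 := by
    rcases mul_eq_zero.1 h2 with h | h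
    · exact h
    · exact absurd h h3.ne'
  have h5 : b = 0 := by exact_mod_cast h4
  exact ⟨a, by rw [h5]; simp⟩

end P179T
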