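import Vale.Agent.P179.H526.Inert
import Vale.Agent.P179.H143.TranspT
import Vale.Agent.P179.H166.K6p3

/-!
# The equality theorem for blocks with abelian defect group and small inertial index
-/

namespace P179Y

open P179H524 P179C P179A Finset P179P Subgroup

open P179X (pp SameSec IrrB Srat autOrd)

open P179B (inertialGroup inertialIndex regularElements)

open scoped Classical

section

variable {p : ℕ} [hp : Fact p.Prime] {k : Type*} [Field k] [IsAlgClosed k] [CharP k p]
  (red : integralClosure ℤ ℂ →+* k) {G : Type} [Group G] [Fintype G]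

/-- the equality, for a Brauer pair of the block -/
theorem equality_of_BP {B : MonoidAlgebra k G} (hB : IsBlock B) {D : Subgroup G}
    (hD : IsDefectGroup B D) (hDp : IsPGroup p D) (hab : ∀ a ∈ D, ∀ b ∈ D, a * b = b * a)
    {l : (G → k) → k} (hl : BP p D l) (hlz : ∀ z : G → k, IsCF z → l z = centralChar B (mkF z))
    (hH : 2 * ((Nat.card D : ℝ) * (centralizer (D : Set G)).relIndex (stabT D l)) ≤
      ((p : ℝ) - 3) * Nat.card {w : G // RegT D l w}) :
    numSimpleIn B = numWeightsIn p red B := by
  have hlB : ∀ χ : Irr G, InL red l χ.1 ↔ CharInBlock red χ.1 B := inL_iff red hB hlz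
  have he := le_of_hyp p l hH
  have hp2 : p ≠ 2 := by omega
  have hab' : D ≤ centralizer (D : Set G) := by
    intro x hx
    rw [mem_centralizer_iff]
    intro y hy
    exact hab y hy x hx
  obtain ⟨m, hmc, hm1, hgen⟩ := exists_exponent (p := p) hp2 (Nat.card G) Nat.card_pos.ne'
  have h1 : ∀ χ ∈ IrrB red B, (fun g => χ (g ^ m)) ∈ IrrB red B := by
    intro χ hχ
    simp only [P179X.IrrB, mem_filter, P179X.mem_Irr] at hχ ⊢
    refine ⟨irr_pow hχ.1 hmc, ?_⟩
    exact charInBlock_of_reg p red hχ.1 (irr_pow hχ.1 hmc)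
      (fun g hg => by rw [pow_eq_of_regular hm1 hg]) hχ.2
  have h3 : numSimpleIn B ≤ (Srat red m B).card :=
    P7 red hB l hlB m hmc hm1 h1 (K7T red hl hDp hab (by omega) hmc hgen)
  have h4 : (Srat red m B).card < p := mainT2 p red hl hDp hab' hlB hH hmc hm1 hgen
  have h5 := K6plus red hl hDp hab' (hT_of_block hB hD hDp hab hl hlz) hlz
  have h6 := P179C.theoremC p red B hB D hD hab
  exact h6.eq_of_lt_of_lt (h3.trans_lt h4) (by omega)

/-- **Theorem X+** -/
theorem equalityT {B : MonoidAlgebra k G} (hB : IsBlock B) {D : Subgroup G}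
    (hD : IsDefectGroup B D) (hab : ∀ a ∈ D, ∀ b ∈ D, a * b = b * a)
    {b : MonoidAlgebra k (centralizer (D : Set G))} (hb : IsBlock b) (hbB : InducesTo b B)
    (h : 3 * inertialIndex D b + 2 ≤ p ∨
      2 * (Nat.card D * inertialIndex D b) ≤ (p - 3) * Nat.card (regularElements D b)) :
    numSimpleIn B = numWeightsIn p red B := by
  obtain ⟨hDp, -⟩ := exists_BP_of_block (p := p) B hB D hD
  obtain ⟨l, hl, hlz, hlb⟩ := exists_BP_of_subblock (p := p) hB hD hab hb hbB
  have hT := stabT_eq_inertialGroup hb hlb
  refine equality_of_BP red hB hD hDp hab hl hlz ?_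
  rcases h with h | h
  · refine hyp_of_le p hDp l ?_
    rw [hT]
    exact h
  · have hreg : Nat.card (regularElements D b) = Nat.card {w : G // RegT D l w} := by
      refine Nat.card_congr (Equiv.subtypeEquivRight fun u => ?_)
      unfold RegT regularElements
      rw [hT]
      rfl
    have he : inertialIndex D b = (centralizer (D : Set G)).relIndex (stabT D l) := by
      rw [hT]
      rfl
    rw [hreg, he] at h
    have hpos : 0 < Nat.card D * (centralizer (D : Set G)).relIndex (stabT D l) :=
      Nat.mul_pos Nat.card_pos (Nat.pos_of_ne_zero (Subgroup.index_ne_zero_of_finite (H :=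
        (centralizer (D : Set G)).subgroupOf (stabT D l))))
    have hp3 : 3 ≤ p := by
      by_contra hlt
      have : p - 3 = 0 := by omega
      rw [this, zero_mul] at h
      omega
    have h' : ((2 * (Nat.card D * (centralizer (D : Set G)).relIndex (stabT D l)) : ℕ) : ℝ) ≤
        (((p - 3) * Nat.card {w : G // RegT D l w} : ℕ) : ℝ) := by exact_mod_cast h
    rw [Nat.cast_mul (p - 3), Nat.cast_sub hp3] at h'
    push_cast at h'
    exact h'

end

end P179Y
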