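import Vale.Agent.P179.H526.Bridge
import Vale.Agent.P179.H143.MainY2
import Vale.Agent.P179.H905.ThmN
import Vale.Agent.P179.H166.K6g

/-!
# The equality theorem for blocks with abelian defect group
-/

namespace P179Y

open P179H524 P179C P179A Finset P179P Subgroup

open P179X (pp SameSec IrrB Srat autOrd)

open scoped Classical

section

variable {p : ℕ} [hp : Fact p.Prime] {k : Type*} [Field k] [IsAlgClosed k] [CharP k p]
  (red : integralClosure ℤ ℂ →+* k) {G : Type} [Group G] [Fintype G]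

theorem equality_of {B : MonoidAlgebra k G} (hB : IsBlock B) {D : Subgroup G}
    (hD : IsDefectGroup B D) (hab : ∀ a ∈ D, ∀ b ∈ D, a * b = b * a) (he : 4 * autOrd D ≤ p)
    (hmain : ∀ l : (G → k) → k, BP p D l → (∀ χ : Irr G, InL red l χ.1 ↔ CharInBlock red χ.1 B) →
      ∀ m : ℕ, m.Coprime (Nat.card G) → m ≡ 1 [MOD ordCompl[p] (Nat.card G)] →
      (∀ j : ℕ, ¬ p ∣ j → ∃ i : ℕ, m ^ i ≡ j [MOD ordProj[p] (Nat.card G)]) →
      (Srat red m B).card < p)
    (hK6 : numWeightsIn p red B ≤ autOrd D) :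
    numSimpleIn B = numWeightsIn p red B := by
  obtain ⟨hDp, l, hl, hlz⟩ := exists_BP_of_block B hB D hD
  have hlB : ∀ χ : Irr G, InL red l χ.1 ↔ CharInBlock red χ.1 B := inL_iff red hB hlz
  have he0 : 0 < autOrd D :=
    Nat.pos_of_ne_zero (Subgroup.index_ne_zero_of_finite (H :=
      (centralizer (D : Set G)).subgroupOf (normalizer (D : Set G))))
  have he1 : autOrd D < p := by omega
  have he2 : autOrd D < p - 1 := by omega
  have hp2 : p ≠ 2 := by omega
  obtain ⟨m, hmc, hm1, hgen⟩ := exists_exponent (p := p) hp2 (Nat.card G) Nat.card_pos.ne'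
  have h1 : ∀ χ ∈ IrrB red B, (fun g => χ (g ^ m)) ∈ IrrB red B := by
    intro χ hχ
    simp only [P179X.IrrB, mem_filter, P179X.mem_Irr] at hχ ⊢
    refine ⟨irr_pow hχ.1 hmc, ?_⟩
    exact charInBlock_of_reg p red hχ.1 (irr_pow hχ.1 hmc)
      (fun g hg => by rw [pow_eq_of_regular hm1 hg]) hχ.2
  have h3 : numSimpleIn B ≤ (Srat red m B).card :=
    P7 red hB l hlB m hmc hm1 h1 (K7 red hl hDp hab he2 hmc hgen)
  have h4 : (Srat red m B).card < p := hmain l hl hlB m hmc hm1 hgen
  have h6 := P179C.theoremC p red B hB D hD hab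
  exact h6.eq_of_lt_of_lt (h3.trans_lt h4) (hK6.trans_lt he1)

theorem equality_of' {B : MonoidAlgebra k G} (hB : IsBlock B) {D : Subgroup G}
    (hD : IsDefectGroup B D) (hab : ∀ a ∈ D, ∀ b ∈ D, a * b = b * a) (he : 4 * autOrd D ≤ p)
    (hK6 : numWeightsIn p red B ≤ autOrd D) :
    numSimpleIn B = numWeightsIn p red B := by
  refine equality_of red hB hD hab he (fun l hl hlB m hm hm1 hgen => ?_) hK6
  have hab' : D ≤ centralizer (D : Set G) := by
    intro x hx
    rw [mem_centralizer_iff]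
    intro y hy
    exact hab y hy x hx
  exact mainY2 p red (P179N.thmN red) hl (exists_BP_of_block B hB D hD).1 hab' hlB he hm hm1 hgen

/-- **Theorem X** -/
theorem equality {B : MonoidAlgebra k G} (hB : IsBlock B) {D : Subgroup G}
    (hD : IsDefectGroup B D) (hab : ∀ a ∈ D, ∀ b ∈ D, a * b = b * a) (he : 4 * autOrd D ≤ p) :
    numSimpleIn B = numWeightsIn p red B := by
  refine equality_of' red hB hD hab he ?_
  have hab' : D ≤ centralizer (D : Set G) := by
    intro x hx
    rw [mem_centralizer_iff]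
    intro y hy
    exact hab y hy x hx
  have he0 : 0 < autOrd D :=
    Nat.pos_of_ne_zero (Subgroup.index_ne_zero_of_finite (H :=
      (centralizer (D : Set G)).subgroupOf (normalizer (D : Set G))))
  obtain ⟨hDp, l, hl, hlz⟩ := exists_BP_of_block B hB D hD
  exact K6 red hl hDp hab' hlz (by omega)

end

end P179Y
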