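import Vale.Agent.P179.H143.Dn
import Vale.Agent.P179.H234.AG

/-!
# Frobenius integrality for characters
-/

namespace P179T

open P179H524 P179C P179A Finset P179P P179Y Subgroup

open P179X (pp)

open scoped Classical

section Fix

variable {C : Type*} [Group C] [Fintype C]

/-- sums over subgroups -/
def SubInt (f : C → ℂ) : Prop := ∀ K : Subgroup C, ∃ n : ℤ, ∑ x : K, f x = n * Nat.card K

theorem subInt_mul (ψ φ : Irr C) : SubInt fun x => ψ.1 x * φ.1 x⁻¹ := by
  intro K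
  obtain ⟨ψ, d, ρ, hρ, rfl⟩ := ψ
  obtain ⟨φ, e, σ, hσ, rfl⟩ := φ
  have : Invertible (Nat.card K : ℂ) := invertibleOfNonzero (by exact_mod_cast Nat.card_pos.ne')
  let ρK : Representation ℂ K (Fin d → ℂ) := ρ.comp K.subtype
  let σK : Representation ℂ K (Fin e → ℂ) := σ.comp K.subtype
  have h2 := Representation.card_inv_mul_sum_char_mul_char_eq_finrank σK ρK
  have hK0 : (Nat.card K : ℂ) ≠ 0 := by exact_mod_cast Nat.card_pos.ne'
  refine ⟨(Module.finrank ℂ (σK.IntertwiningMap ρK) : ℕ), ?_⟩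
  rw [inv_mul_eq_iff_eq_mul₀ hK0] at h2
  rw [Int.cast_natCast, mul_comm, ← h2]
  rfl

/-- sums weighted by the numbers of fixed points -/
theorem sum_fix {Ω : Type*} [Fintype Ω] [MulAction C Ω] (f : C → ℂ) (hf : IsCF f)
    (hfK : SubInt f) :
    ∃ n : ℤ, ∑ x : C, f x * (Nat.card {ω : Ω // x • ω = ω} : ℂ) = n * Nat.card C := by
  have : Fintype (MulAction.orbitRel.Quotient C Ω) := Fintype.ofFinite _
  set s : Ω → ℂ := fun ω => ∑ x : C, if x • ω = ω then f x else 0 with hs
  have h1 : ∑ x : C, f x * (Nat.card {ω : Ω // x • ω = ω} : ℂ) = ∑ ω : Ω, s ω := by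
    simp only [hs]
    rw [Finset.sum_comm]
    refine Finset.sum_congr rfl fun x _ => ?_
    rw [← Finset.sum_filter, Finset.sum_const, nsmul_eq_mul, Nat.card_eq_fintype_card,
      Fintype.card_subtype, mul_comm]
  have hconst : ∀ (g : C) (ω : Ω), s (g • ω) = s ω := by
    intro g ω
    simp only [hs]
    rw [← Equiv.sum_comp (MulAut.conj g).toEquiv]
    refine Finset.sum_congr rfl fun x _ => ?_
    have e : (MulAut.conj g).toEquiv x = g * x * g⁻¹ := rfl
    rw [e, hf]
    refine if_congr ?_ rfl rfl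
    rw [smul_smul, inv_mul_cancel_right, mul_smul]
    exact (MulAction.injective g).eq_iff
  have hval : ∀ ω : Ω, ∃ n : ℤ, s ω = n * Nat.card (MulAction.stabilizer C ω) := by
    intro ω
    obtain ⟨n, hn⟩ := hfK (MulAction.stabilizer C ω)
    refine ⟨n, ?_⟩
    rw [← hn]
    simp only [hs]
    rw [← Finset.sum_filter]
    exact (Finset.sum_subtype _ (fun x => by simp [MulAction.mem_stabilizer_iff]) f)
  choose n hn using hval
  refine ⟨∑ o : MulAction.orbitRel.Quotient C Ω, n o.out, ?_⟩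
  rw [h1, ← Finset.sum_fiberwise_of_maps_to (t := univ)
    (g := fun ω : Ω => (Quotient.mk'' ω : MulAction.orbitRel.Quotient C Ω))
    (fun _ _ => mem_univ _) s, Int.cast_sum, Finset.sum_mul]
  refine Finset.sum_congr rfl fun o _ => ?_
  have hmem : ∀ ω : Ω, (Quotient.mk'' ω : MulAction.orbitRel.Quotient C Ω) = o ↔
      ω ∈ MulAction.orbit C o.out := by
    intro ω
    conv_lhs => rw [← Quotient.out_eq' o]
    rw [Quotient.eq'', MulAction.orbitRel_apply]
  have h2 : ∀ ω ∈ univ.filter (fun ω : Ω =>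
      (Quotient.mk'' ω : MulAction.orbitRel.Quotient C Ω) = o), s ω = s o.out := by
    intro ω hω
    rw [mem_filter, hmem] at hω
    obtain ⟨g, hg⟩ := hω.2
    rw [← hg]
    exact hconst g _
  rw [Finset.sum_congr rfl h2, Finset.sum_const, nsmul_eq_mul, hn]
  have h3 : (univ.filter (fun ω : Ω =>
      (Quotient.mk'' ω : MulAction.orbitRel.Quotient C Ω) = o)).card =
      Nat.card (MulAction.orbit C o.out) := by
    rw [← Fintype.card_subtype, ← Nat.card_eq_fintype_card]
    exact Nat.card_congr (Equiv.subtypeEquivRight hmem)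
  rw [h3]
  have h4 : Nat.card (MulAction.orbit C o.out) * Nat.card (MulAction.stabilizer C o.out) =
      Nat.card C := by
    rw [Nat.card_eq_fintype_card, Nat.card_eq_fintype_card, Nat.card_eq_fintype_card]
    exact MulAction.card_orbit_mul_card_stabilizer_eq_card_group C o.out
  rw [← h4]
  push_cast
  ring

end Fix

section Ell

variable (l : ℕ) [hl : Fact l.Prime] {C : Type*} [Group C] [Fintype C]

/-- divisibility of the sum over the `l`-elements -/
theorem sum_lelt (f : C → ℂ) (hf : IsCF f) (hfi : ∀ x, f x ∈ integralClosure ℤ ℂ)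
    (hfK : SubInt f) (j : ℕ) (hj : l ^ j ∣ Nat.card C) :
    ∃ Z : AA, ∑ x : C, (if ∃ n : ℕ, x ^ l ^ n = 1 then f x else 0) = (l : ℂ) ^ j * Z := by
  let Q : Sylow l C := default
  set π : C → ℕ := fun x => Nat.card {c : C ⧸ (Q : Subgroup C) // x • c = c} with hπ
  have hQ : ¬ l ∣ Nat.card (C ⧸ (Q : Subgroup C)) := by
    have := Q.not_dvd_index
    exact this
  set m := Nat.totient (l ^ j) with hm
  have hm0 : m ≠ 0 := by
    have : 0 < Nat.totient (l ^ j) := Nat.totient_pos.2 (pow_pos hl.out.pos j)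
    omega
  -- fixed points
  have h1 : ∀ x : C, (∃ n : ℕ, x ^ l ^ n = 1) → ¬ l ∣ π x := by
    rintro x ⟨n, hn⟩
    have hP : IsPGroup l (zpowers x) := by
      rw [IsPGroup.iff_orderOf]
      intro y
      obtain ⟨y, z, rfl⟩ := y
      have h2 : orderOf (⟨x ^ z, ⟨z, rfl⟩⟩ : zpowers x) ∣ l ^ n := by
        rw [orderOf_dvd_iff_pow_eq_one]
        apply Subtype.ext
        change (x ^ z) ^ l ^ n = 1
        rw [← zpow_natCast, ← zpow_mul, mul_comm, zpow_mul, zpow_natCast, hn, one_zpow]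
      obtain ⟨i, -, hi⟩ := (Nat.dvd_prime_pow hl.out).1 h2
      exact ⟨i, hi⟩
    have h2 := hP.card_modEq_card_fixedPoints (C ⧸ (Q : Subgroup C))
    have h3 : Nat.card (MulAction.fixedPoints (zpowers x) (C ⧸ (Q : Subgroup C))) = π x := by
      refine Nat.card_congr (Equiv.subtypeEquivRight fun c => ?_)
      rw [MulAction.mem_fixedPoints]
      constructor
      · intro h
        exact h ⟨x, mem_zpowers x⟩
      · rintro h ⟨y, z, rfl⟩
        have : x ∈ MulAction.stabilizer C c := h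
        exact (MulAction.stabilizer C c).zpow_mem this z
    rw [h3] at h2
    intro h4
    exact hQ ((Nat.modEq_zero_iff_dvd.1 (h2.trans (Nat.modEq_zero_iff_dvd.2 h4))))
  have h2 : ∀ x : C, (¬ ∃ n : ℕ, x ^ l ^ n = 1) → π x = 0 := by
    intro x hx
    simp only [hπ]
    rw [Nat.card_eq_zero]
    left
    refine ⟨fun ⟨c, hc⟩ => hx ?_⟩
    obtain ⟨g, rfl⟩ := QuotientGroup.mk_surjective c
    have h3 : g⁻¹ * (x * g) ∈ (Q : Subgroup C) := by
      rw [MulAction.Quotient.smul_mk, eq_comm, QuotientGroup.eq] at hc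
      exact hc
    obtain ⟨n, hn⟩ := Q.isPGroup' ⟨_, h3⟩
    refine ⟨n, ?_⟩
    have h4 : (g⁻¹ * (x * g)) ^ l ^ n = 1 := congrArg Subtype.val hn
    have h5 : g⁻¹ * (x * g) = g⁻¹ * x * g⁻¹⁻¹ := by group
    rw [h5, conj_pow] at h4
    calc x ^ l ^ n = g * (g⁻¹ * x ^ l ^ n * g⁻¹⁻¹) * g⁻¹ := by group
      _ = 1 := by rw [h4]; group
  -- the integers `e x`
  have h3 : ∀ x : C, ∃ e : ℤ, (if ∃ n : ℕ, x ^ l ^ n = 1 then (1 : ℤ) else 0) - (π x : ℤ) ^ m =
      (l : ℤ) ^ j * e := by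
    intro x
    by_cases hx : ∃ n : ℕ, x ^ l ^ n = 1
    · rw [if_pos hx]
      have h4 : (π x).Coprime (l ^ j) :=
        (Nat.Coprime.pow_right j ((Nat.coprime_comm.1 ((Nat.Prime.coprime_iff_not_dvd hl.out).2
          (h1 x hx)))))
      have h5 := Nat.ModEq.pow_totient h4
      have h6 := (Nat.modEq_iff_dvd.1 h5)
      obtain ⟨e, he⟩ := h6
      refine ⟨e, ?_⟩
      push_cast at he
      exact he
    · rw [if_neg hx, h2 x hx]
      exact ⟨0, by simp [hm0]⟩
  choose e he using h3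
  obtain ⟨n, hn⟩ := sum_fix (Ω := Fin m → C ⧸ (Q : Subgroup C)) f hf hfK
  have h4 : ∀ x : C, Nat.card {ω : Fin m → C ⧸ (Q : Subgroup C) // x • ω = ω} = π x ^ m := by
    intro x
    have h5 : {ω : Fin m → C ⧸ (Q : Subgroup C) // x • ω = ω} ≃
        (Fin m → {c : C ⧸ (Q : Subgroup C) // x • c = c}) :=
      { toFun := fun ω i => ⟨ω.1 i, congrFun ω.2 i⟩
        invFun := fun ω => ⟨fun i => (ω i).1, funext fun i => (ω i).2⟩
        left_inv := fun _ => rfl
        right_inv := fun _ => rfl }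
    rw [Nat.card_congr h5, Nat.card_pi, Finset.prod_const, Finset.card_univ, Fintype.card_fin]
  simp only [h4] at hn
  obtain ⟨c, hc⟩ := hj
  refine ⟨∑ x : C, ⟨f x, hfi x⟩ * (e x : AA) + (n : AA) * (c : AA), ?_⟩
  have h5 : ∑ x : C, (if ∃ n : ℕ, x ^ l ^ n = 1 then f x else 0) =
      ∑ x : C, f x * ((l : ℂ) ^ j * e x) + ∑ x : C, f x * ((π x ^ m : ℕ) : ℂ) := by
    rw [← Finset.sum_add_distrib]
    refine Finset.sum_congr rfl fun x _ => ?_
    have h6 : ((if ∃ n : ℕ, x ^ l ^ n = 1 then (1 : ℤ) else 0 : ℤ) : ℂ) - (π x : ℂ) ^ m =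
      (l : ℂ) ^ j * e x := by exact_mod_cast congrArg (Int.cast : ℤ → ℂ) (he x)
    rw [← h6]
    push_cast
    split_ifs <;> ring
  rw [h5, hn, hc]
  push_cast
  rw [mul_add, Finset.mul_sum]
  congr 1
  · exact Finset.sum_congr rfl fun x _ => by ring
  · ring

end Ell

end P179T
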