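import Vale.Agent.P179.H526.M9b
import Vale.Agent.P179.H526.Eis
import Vale.Agent.P179.H526.FDP
import Vale.Agent.P179.H234.C0

/-!
# Integrality of the contributions, and the bound `k(B) ≤ 9`
-/

namespace P179T

open P179H524 P179C P179A Finset P179P P179Y Subgroup

open P179X (pp)

open scoped Classical

/-- Frobenius integrality -/
def StA (p : ℕ) (H : Type*) [Group H] [Finite H] : Prop :=
  ∀ η θ : Irr H, ∃ c : ℤ,
    (c : ℂ) * (ordCompl[p] (Nat.card H) : ℕ) = rsum p (fun t : H => η.1 t * θ.1 t⁻¹)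

section Int

variable {p : ℕ} [hp : Fact p.Prime] {k : Type*} [Field k] [CharP k p]
  (red : integralClosure ℤ ℂ →+* k)

theorem dvd_of_red {V : AA} (hV : red V ≠ 0) (j : ℕ) (c : ℤ) (W : AA)
    (h : (V : ℂ) * c = (p : ℂ) ^ j * W) : (p : ℤ) ^ j ∣ c := by
  induction j generalizing c with
  | zero => simp
  | succ j ih =>
    have h1 : V * (c : AA) = (p : AA) * ((p : AA) ^ j * W) := by
      apply Subtype.ext
      push_cast
      rw [h]; ring
    have h2 : red V * (c : k) = 0 := by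
      have := congrArg red h1
      rw [map_mul, map_intCast, map_mul, map_natCast, CharP.cast_eq_zero, zero_mul] at this
      exact this
    have h3 : (c : k) = 0 := (mul_eq_zero.1 h2).resolve_left hV
    obtain ⟨c', rfl⟩ := (CharP.intCast_eq_zero_iff k p c).1 h3
    have h4 : (V : ℂ) * c' = (p : ℂ) ^ j * W := by
      have hp0 : (p : ℂ) ≠ 0 := by exact_mod_cast hp.out.ne_zero
      apply mul_left_cancel₀ hp0
      push_cast at h
      linear_combination h
    rw [pow_succ']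
    exact mul_dvd_mul_left _ (ih c' h4)

variable {G : Type} [Group G] [Fintype G]

/-- the inner products are integral after multiplication by `|D|` -/
theorem mm_int {D : Subgroup G} {l : (G → k) → k} (hl : BP p D l) (hD : IsPGroup p D)
    (hab : D ≤ centralizer (D : Set G))
    (hT : ¬ p ∣ (centralizer (D : Set G)).relIndex (stabT D l)) (hA : StA p G) (η θ : Irr G)
    (hη : InL red l η.1) :
    ∃ c : ℤ, (Nat.card D : ℂ) * mm p η.1 θ.1 = c := by
  obtain ⟨c, hc⟩ := hA η θ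
  obtain ⟨V, W, hV, hVW⟩ := height red hl hD hab hT η hη
  obtain ⟨X, hX, -⟩ := exists_omAA red η (zb_isCF p θ)
  have hG0 : (Nat.card G : ℂ) ≠ 0 := by exact_mod_cast Nat.card_pos.ne'
  have hη0 := η.one_ne_zero
  obtain ⟨d, hd⟩ := hD.exists_card_eq
  -- `X η(1) = |G| m(η, θ)`
  have hX1 : (X : ℂ) * η.1 1 = Nat.card G * mm p η.1 θ.1 := by
    rw [hX, omC, div_mul_cancel₀ _ hη0, mm, ← mul_assoc, mul_inv_cancel₀ hG0, one_mul, rsum_eq,
      Finset.sum_filter]
    refine Finset.sum_congr rfl fun t _ => ?_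
    by_cases ht : ¬ p ∣ orderOf t
    · rw [zb, if_pos ht, if_pos ht]
      exact mul_comm (θ.1 t⁻¹) (η.1 t)
    · rw [zb, if_neg ht, if_neg ht]
      exact zero_mul _
  have h1 : (V : ℂ) * ((Nat.card D : ℂ) * mm p η.1 θ.1) = W * X := by
    apply mul_left_cancel₀ hG0
    linear_combination (V * Nat.card D : ℂ) * (-hX1) + X * hVW
  -- the exact power of `p` dividing `|G|`
  set a := (Nat.card G).factorization p with ha
  have hcardG : (Nat.card G : ℂ) = (p : ℂ) ^ a * (ordCompl[p] (Nat.card G) : ℕ) := by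
    exact_mod_cast (Nat.ordProj_mul_ordCompl_eq_self (Nat.card G) p).symm
  have hc0 : ((ordCompl[p] (Nat.card G) : ℕ) : ℂ) ≠ 0 := by
    exact_mod_cast (Nat.ordCompl_pos p Nat.card_pos.ne').ne'
  have hp0 : (p : ℂ) ≠ 0 := by exact_mod_cast hp.out.ne_zero
  have h2 : (p : ℂ) ^ a * mm p η.1 θ.1 = c := by
    have h3 : (Nat.card G : ℂ) * mm p η.1 θ.1 = c * (ordCompl[p] (Nat.card G) : ℕ) := by
      rw [mm, ← mul_assoc, mul_inv_cancel₀ hG0, one_mul, hc]
    apply mul_right_cancel₀ hc0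
    rw [← h3, hcardG]; ring
  have hda : d ≤ a := by
    rw [ha]
    refine (hp.out.pow_dvd_iff_le_factorization Nat.card_pos.ne').1 ?_
    rw [← hd]
    exact Subgroup.card_subgroup_dvd_card D
  have h3 : (V : ℂ) * c = (p : ℂ) ^ (a - d) * ((W * X : AA) : ℂ) := by
    rw [← h2]
    push_cast
    rw [← h1, hd]
    have : (p : ℂ) ^ a = (p : ℂ) ^ (a - d) * (p : ℂ) ^ d := by
      rw [← pow_add, Nat.sub_add_cancel hda]
    rw [this]
    push_cast
    ring
  obtain ⟨c', hc'⟩ := dvd_of_red red hV (a - d) c _ h3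
  refine ⟨c', ?_⟩
  have h4 : (p : ℂ) ^ a = (p : ℂ) ^ (a - d) * (p : ℂ) ^ d := by
    rw [← pow_add, Nat.sub_add_cancel hda]
  have h5 : (p : ℂ) ^ (a - d) ≠ 0 := pow_ne_zero _ hp0
  apply mul_left_cancel₀ h5
  rw [hd, ← mul_assoc]
  push_cast
  rw [← h4, h2, hc']
  push_cast
  ring

omit [CharP k p] in
/-- positivity of the norm on the `p`-regular elements -/
theorem mm_self_pos (η : Irr G) : 0 < (mm p η.1 η.1).re := by
  have h1 : mm p η.1 η.1 = ((Nat.card G : ℝ)⁻¹ *
      ∑ t ∈ univ.filter (fun s : G => ¬ p ∣ orderOf s), Complex.normSq (η.1 t) : ℝ) := by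
    rw [mm, rsum_eq]
    push_cast
    congr 1
    refine Finset.sum_congr rfl fun t _ => ?_
    rw [Irr.inv_eq_conj, Complex.mul_conj]
  rw [h1, Complex.ofReal_re]
  refine mul_pos (inv_pos.2 (by exact_mod_cast Nat.card_pos)) ?_
  refine Finset.sum_pos' (fun t _ => Complex.normSq_nonneg _) ⟨1, ?_, ?_⟩
  · rw [mem_filter]
    refine ⟨mem_univ _, ?_⟩
    rw [orderOf_one, Nat.dvd_one]
    exact hp.out.one_lt.ne'
  · exact Complex.normSq_pos.2 η.one_ne_zero

omit hp [CharP k p] in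
/-- the central character of `ζ̄` -/
theorem om_zb (η θ : Irr G) : ∃ X : AA, (X : ℂ) * η.1 1 = Nat.card G * mm p η.1 θ.1 ∧
    red X = lam red η.1 (fun t => red (zb p θ t)) := by
  obtain ⟨X, hX, hX2⟩ := exists_omAA red η (zb_isCF p θ)
  refine ⟨X, ?_, hX2⟩
  have hG0 : (Nat.card G : ℂ) ≠ 0 := by exact_mod_cast Nat.card_pos.ne'
  rw [hX, omC, div_mul_cancel₀ _ η.one_ne_zero, mm, ← mul_assoc, mul_inv_cancel₀ hG0, one_mul,
    rsum_eq, Finset.sum_filter]
  refine Finset.sum_congr rfl fun t _ => ?_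
  by_cases ht : ¬ p ∣ orderOf t
  · rw [zb, if_pos ht, if_pos ht]
    exact mul_comm (θ.1 t⁻¹) (η.1 t)
  · rw [zb, if_neg ht, if_neg ht]
    exact zero_mul _

/-- the value at `ζ̄` is nonzero if `|D| m(η, η)` is prime to `p` -/
theorem lam_zb_ne {D : Subgroup G} {l : (G → k) → k} (hl : BP p D l) (hD : IsPGroup p D)
    (hab : D ≤ centralizer (D : Set G))
    (hT : ¬ p ∣ (centralizer (D : Set G)).relIndex (stabT D l)) (η θ : Irr G)
    (hη : InL red l η.1) {c : ℤ} (hc : (Nat.card D : ℂ) * mm p η.1 θ.1 = c)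
    (hcp : ¬ (p : ℤ) ∣ c) : l (fun t => red (zb p θ t)) ≠ 0 := by
  obtain ⟨V, W, hV, hVW⟩ := height red hl hD hab hT η hη
  obtain ⟨X, hX, hX2⟩ := om_zb (p := p) red η θ
  have hcf : IsCF (fun t => red (zb p θ t)) := fun g x => congrArg red (zb_isCF p θ g x)
  rw [← hη _ hcf, ← hX2]
  intro h0
  have hG0 : (Nat.card G : ℂ) ≠ 0 := by exact_mod_cast Nat.card_pos.ne'
  have hη0 := η.one_ne_zero
  have h1 : (V : ℂ) * c = W * X := by
    rw [← hc]
    apply mul_left_cancel₀ hG0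
    linear_combination (V * Nat.card D : ℂ) * (-hX) + X * hVW
  have h2 : V * (c : AA) = W * X := by
    apply Subtype.ext
    push_cast
    exact h1
  have h3 := congrArg red h2
  rw [map_mul, map_mul, h0, mul_zero, map_intCast] at h3
  rcases mul_eq_zero.1 h3 with h4 | h4
  · exact hV h4
  · exact hcp ((CharP.intCast_eq_zero_iff k p c).1 h4)

end Int

section Main

variable {p : ℕ} [hp : Fact p.Prime] {k : Type*} [Field k] [CharP k p]
  (red : integralClosure ℤ ℂ →+* k) {G : Type} [Group G] [Fintype G]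

/-- the value of `l` at the relative traces of `u ζ` -/
def StB (p : ℕ) (D : Subgroup G) (l : (G → k) → k) (u : G) (H : Subgroup G) : Prop :=
  ∀ η : Irr H, InL red (lres H l) η.1 →
    xv p red H u l η =
      ((H ⊓ stabT D l).relIndex (stabT D l) : k) * lres H l (fun t => red (zb p η t))

omit [CharP k p] in
/-- the numbers `|G| M(χ, ψ) / χ(1)` are congruent, for the `χ ∈ l` -/
theorem MM_Y (H : Subgroup G) {l : (G → k) → k} (u : G) {N : ℕ} (hN : N ≠ 0) (hu : u ^ N = 1)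
    (hH : ∀ x, x ∈ H ↔ x * u = u * x) (lH : (H → k) → k) (hcong : ∀ (χ ψ : Irr G),
      ∀ a : Irr H → ℂ, (∀ t : H, ψ.1 (u * t) = ∑ η : Irr H, a η * η.1 t) →
      MM p red H u lH χ.1 ψ.1 = ∑ η ∈ bs red lH, gg p H u χ.1 η.1 * (starRingEnd ℂ) (a η))
    (ψ : Irr G) :
    ∃ yv : k, ∀ χ : Irr G, InL red l χ.1 → ∃ Y : AA,
      (Y : ℂ) * χ.1 1 = Nat.card G * MM p red H u lH χ.1 ψ.1 ∧ red Y = yv := by
  obtain ⟨a, ha1, ha2⟩ := exists_coeffs u hu H hH ψ
  have hint : ∀ η, (starRingEnd ℂ) (a η) ∈ integralClosure ℤ ℂ := by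
    intro η
    obtain ⟨n, c, hc, h⟩ := ha1 η
    rw [h, map_mul, map_natCast]
    refine mul_mem ((integralClosure ℤ ℂ).natCast_mem n) ?_
    refine ⟨Polynomial.X ^ N - 1, Polynomial.monic_X_pow_sub_C 1 hN, ?_⟩
    simp only [Polynomial.eval₂_sub, Polynomial.eval₂_X_pow, Polynomial.eval₂_one]
    rw [← map_pow, hc, map_one, sub_self]
  refine ⟨∑ η ∈ bs red lH, xv p red H u l η * red ⟨_, hint η⟩, fun χ hχ => ?_⟩
  have h1 : ∀ η : Irr H, ∃ X : AA, (X : ℂ) * χ.1 1 = Nat.card G * gg p H u χ.1 η.1 ∧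
      red X = xv p red H u l η := fun η => om_gg p red H u hH η χ hχ
  choose X hX1 hX2 using h1
  refine ⟨∑ η ∈ bs red lH, X η * ⟨_, hint η⟩, ?_, ?_⟩
  · rw [hcong χ ψ a ha2]
    push_cast
    rw [Finset.sum_mul, Finset.mul_sum]
    refine Finset.sum_congr rfl fun η _ => ?_
    rw [← mul_assoc, ← hX1]
    ring
  · rw [map_sum]
    refine Finset.sum_congr rfl fun η _ => ?_
    rw [map_mul, hX2]

end Main

end P179T
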