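import Vale.Agent.P179.H526.FrobA
import Vale.Agent.P179.H526.M9c
import Vale.Agent.P179.H143.Pr
import Vale.Agent.P179.H905.N4

/-!
# Frobenius integrality for characters, II
-/

namespace P179T

open P179H524 P179C P179A Finset P179P P179Y Subgroup Polynomial

open P179X (pp)

open scoped Classical

section Cent

variable (l : ℕ) [hl : Fact l.Prime] {G : Type*} [Group G] [Fintype G]

theorem coeff_integral {N : ℕ} (hN : N ≠ 0) {a c : ℂ} {n : ℕ} (hc : c ^ N = 1) (ha : a = n * c) :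
    a ∈ integralClosure ℤ ℂ := by
  rw [ha]
  refine mul_mem ((integralClosure ℤ ℂ).natCast_mem n) ?_
  refine ⟨Polynomial.X ^ N - 1, Polynomial.monic_X_pow_sub_C 1 hN, ?_⟩
  simp only [Polynomial.eval₂_sub, Polynomial.eval₂_X_pow, Polynomial.eval₂_one]
  rw [hc, sub_self]

theorem sum_lelt_cent (η θ : Irr G) (s : G) (H : Subgroup G) (hH : ∀ x, x ∈ H ↔ x * s = s * x)
    (j : ℕ) (hj : l ^ j ∣ Nat.card H) :
    ∃ Z : AA, ∑ x : H, (if ∃ n : ℕ, x ^ l ^ n = 1 then η.1 (s * x) * θ.1 (s * x)⁻¹ else 0) =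
      (l : ℂ) ^ j * Z := by
  have hN : orderOf s ≠ 0 := (orderOf_pos s).ne'
  obtain ⟨a, ha1, ha2⟩ := exists_coeffs s (pow_orderOf_eq_one s) H hH η
  obtain ⟨b, hb1, hb2⟩ := exists_coeffs s (pow_orderOf_eq_one s) H hH θ
  have haI : ∀ ψ, a ψ ∈ integralClosure ℤ ℂ := by
    intro ψ
    obtain ⟨n, c, hc, h⟩ := ha1 ψ
    exact coeff_integral hN hc h
  have hbI : ∀ ψ, (starRingEnd ℂ) (b ψ) ∈ integralClosure ℤ ℂ := by
    intro ψ
    obtain ⟨n, c, hc, h⟩ := hb1 ψ
    refine coeff_integral (c := (starRingEnd ℂ) c) (n := n) hN ?_ ?_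
    · rw [← map_pow, hc, map_one]
    · rw [h, map_mul, map_natCast]
  have hb3 : ∀ x : H, θ.1 (s * x)⁻¹ = ∑ φ : Irr H, (starRingEnd ℂ) (b φ) * φ.1 x⁻¹ := by
    intro x
    rw [Irr.inv_eq_conj, hb2, map_sum]
    exact Finset.sum_congr rfl fun φ _ => by rw [map_mul, ← Irr.inv_eq_conj]
  have hZ : ∀ ψ φ : Irr H, ∃ Z : AA, ∑ x : H, (if ∃ n : ℕ, x ^ l ^ n = 1 then
      ψ.1 x * φ.1 x⁻¹ else 0) = (l : ℂ) ^ j * Z := by
    intro ψ φ
    refine sum_lelt l (fun x => ψ.1 x * φ.1 x⁻¹) ?_ (fun x => mul_mem (ψ.integral x)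
      (φ.integral x⁻¹)) (subInt_mul ψ φ) j hj
    intro g x
    have e : (g * x * g⁻¹)⁻¹ = g * x⁻¹ * g⁻¹ := by group
    simp only [e]
    rw [ψ.conj, φ.conj]
  choose Z hZ using hZ
  refine ⟨∑ ψ : Irr H, ∑ φ : Irr H, ⟨a ψ, haI ψ⟩ * ⟨_, hbI φ⟩ * Z ψ φ, ?_⟩
  have h1 : ∀ x : H, (if ∃ n : ℕ, x ^ l ^ n = 1 then η.1 (s * x) * θ.1 (s * x)⁻¹ else 0) =
      ∑ ψ : Irr H, ∑ φ : Irr H, a ψ * (starRingEnd ℂ) (b φ) *
        (if ∃ n : ℕ, x ^ l ^ n = 1 then ψ.1 x * φ.1 x⁻¹ else 0) := by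
    intro x
    split_ifs with h
    · rw [ha2, hb3, Finset.sum_mul_sum]
      exact Finset.sum_congr rfl fun ψ _ => Finset.sum_congr rfl fun φ _ => by ring
    · simp
  rw [Finset.sum_congr rfl fun x _ => h1 x, Finset.sum_comm]
  push_cast
  rw [Finset.mul_sum]
  refine Finset.sum_congr rfl fun ψ _ => ?_
  rw [Finset.sum_comm, Finset.mul_sum]
  refine Finset.sum_congr rfl fun φ _ => ?_
  rw [← Finset.mul_sum, hZ]
  ring

/-- summation over the conjugacy classes -/
theorem sum_classes [Fintype (ConjClasses G)] (F : G → ℂ) (hF : IsCF F) :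
    ∑ s : G, F s = ∑ D : ConjClasses G, (#{b : G | IsConj D.out b} : ℂ) * F D.out := by
  rw [← Finset.sum_fiberwise_of_maps_to (t := univ) (g := fun s : G => ConjClasses.mk s)
    (fun _ _ => mem_univ _) F]
  refine Finset.sum_congr rfl fun D _ => ?_
  have h1 : ∀ b : G, ConjClasses.mk b = D ↔ IsConj D.out b := by
    intro b
    rw [← ConjClasses.mk_eq_mk_iff_isConj]
    have : ConjClasses.mk D.out = D := Quotient.out_eq D
    rw [this]
    exact eq_comm
  have h2 : ∀ b ∈ univ.filter (fun b : G => ConjClasses.mk b = D), F b = F D.out := by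
    intro b hb
    rw [mem_filter, h1] at hb
    obtain ⟨c, hc⟩ := isConj_iff.1 hb.2
    rw [← hc, hF]
  rw [Finset.sum_congr rfl h2, Finset.sum_const, nsmul_eq_mul]
  congr 2
  exact congrArg Finset.card (Finset.filter_congr fun b _ => h1 b)

theorem sum_reg_dvd (p : ℕ) [hp : Fact p.Prime] (hlp : l ≠ p) (η θ : Irr G) (j : ℕ)
    (hj : l ^ j ∣ Nat.card G) :
    ∃ Z : AA, ∑ t ∈ univ.filter (fun s : G => ¬ p ∣ orderOf s), η.1 t * θ.1 t⁻¹ =
      (l : ℂ) ^ j * Z := by
  have := Fintype.ofFinite (ConjClasses G)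
  set f : G → ℂ := fun t => η.1 t * θ.1 t⁻¹ with hf
  have hfcf : IsCF f := by
    intro g x
    have e : (g * x * g⁻¹)⁻¹ = g * x⁻¹ * g⁻¹ := by group
    simp only [hf, e]
    rw [η.conj, θ.conj]
  set g : G → ℂ := fun s => ∑ x : G, if (x * s = s * x ∧ ∃ n : ℕ, x ^ l ^ n = 1) then f (s * x)
    else 0 with hg
  set F : G → ℂ := fun s => if (¬ p ∣ orderOf s ∧ ¬ l ∣ orderOf s) then g s else 0 with hF
  have hFcf : IsCF F := by
    intro h s
    simp only [hF]
    rw [P179C.orderOf_conj]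
    refine if_congr Iff.rfl ?_ rfl
    simp only [hg]
    rw [← Equiv.sum_comp (MulAut.conj h).toEquiv]
    refine Finset.sum_congr rfl fun x _ => ?_
    have e : (MulAut.conj h).toEquiv x = h * x * h⁻¹ := rfl
    rw [e]
    have e1 : h * x * h⁻¹ * (h * s * h⁻¹) = h * (x * s) * h⁻¹ := by group
    have e2 : h * s * h⁻¹ * (h * x * h⁻¹) = h * (s * x) * h⁻¹ := by group
    rw [e1, e2, hfcf]
    refine if_congr (and_congr ?_ (exists_congr fun n => ?_)) rfl rfl
    · constructor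
      · intro h1
        exact mul_left_cancel (mul_right_cancel h1)
      · intro h1
        rw [h1]
    · rw [conj_pow]
      constructor
      · intro h1
        have h2 : h * x ^ l ^ n * h⁻¹ = h * 1 * h⁻¹ := by rw [h1]; group
        exact mul_left_cancel (mul_right_cancel h2)
      · intro h1
        rw [h1]; group
  have h1 : ∑ t ∈ univ.filter (fun s : G => ¬ p ∣ orderOf s), f t = ∑ s : G, F s := by
    have h2 : ∑ s : G, F s = ∑ z ∈ univ.filter (fun z : G × G =>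
        (¬ p ∣ orderOf z.1 ∧ ¬ l ∣ orderOf z.1) ∧ z.2 * z.1 = z.1 * z.2 ∧
          ∃ n : ℕ, z.2 ^ l ^ n = 1), f (z.1 * z.2) := by
      rw [Finset.sum_filter, Fintype.sum_prod_type]
      refine Finset.sum_congr rfl fun s _ => ?_
      simp only [hF]
      split_ifs with h
      · simp only [hg]
        refine Finset.sum_congr rfl fun x _ => ?_
        refine if_congr ⟨fun h2 => ⟨h, h2⟩, fun h2 => h2.2⟩ rfl rfl
      · symm
        refine Finset.sum_eq_zero fun x _ => ?_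
        rw [if_neg fun h2 => h h2.1]
    rw [h2]
    refine Finset.sum_bij' (i := fun t _ => (pr l t, pp l t)) (j := fun z _ => z.1 * z.2)
      ?_ ?_ ?_ ?_ ?_
    · intro t ht
      rw [mem_filter] at ht ⊢
      refine ⟨mem_univ _, ⟨?_, pr_regular' t⟩, pp_comm t, pp_pow_eq_one t⟩
      intro h3
      apply ht.2
      exact h3.trans (orderOf_pow_dvd _)
    · rintro ⟨s, x⟩ hz
      rw [mem_filter] at hz ⊢
      obtain ⟨-, ⟨h3, h4⟩, h5, n, h6⟩ := hz
      refine ⟨mem_univ _, ?_⟩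
      intro h7
      have h8 : Commute s x := h5.symm
      have h9 := h7.trans h8.orderOf_mul_dvd_mul_orderOf
      rcases (Nat.Prime.dvd_mul hp.out).1 h9 with h10 | h10
      · exact h3 h10
      · have h11 := h10.trans (orderOf_dvd_of_pow_eq_one h6)
        have h12 := (Nat.prime_dvd_prime_iff_eq hp.out hl.out).1 (hp.out.dvd_of_dvd_pow h11)
        exact hlp h12.symm
    · intro t _
      have := pp_mul_pr (p := l) t
      rw [← pp_comm]
      exact this
    · rintro ⟨s, x⟩ hz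
      rw [mem_filter] at hz
      obtain ⟨-, ⟨h3, h4⟩, h5, h6⟩ := hz
      simp only at h3 h4 h5 h6 ⊢
      have h7 : pp l (s * x) = x := by
        rw [← h5]
        exact pp_eq h5 h6 h4
      have h8 : pr l (s * x) = s := by
        have h9 := pp_mul_pr (p := l) (s * x)
        rw [h7] at h9
        exact mul_left_cancel (h9.trans h5.symm)
      rw [h7, h8]
    · intro t _
      have := pp_mul_pr (p := l) t
      simp only
      rw [← pp_comm, this]
  rw [h1, sum_classes F hFcf]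
  have h2 : ∀ s : G, ∃ Z : AA, (#{b : G | IsConj s b} : ℂ) * F s = (l : ℂ) ^ j * Z := by
    intro s
    by_cases hs : ¬ p ∣ orderOf s ∧ ¬ l ∣ orderOf s
    · set i := (Nat.card (centralizer {s} : Subgroup G)).factorization l with hi
      obtain ⟨Z, hZ⟩ := sum_lelt_cent l η θ s (centralizer {s})
        (fun x => mem_centralizer_singleton_iff) i (Nat.ordProj_dvd _ _)
      have h3 : F s = (l : ℂ) ^ i * Z := by
        rw [← hZ]
        simp only [hF, hg]
        rw [if_pos hs, ← Finset.sum_filter, ← Finset.sum_filter]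
        symm
        refine Finset.sum_bij (fun x _ => (x : G)) ?_ ?_ ?_ ?_
        · intro x hx
          rw [mem_filter] at hx ⊢
          obtain ⟨-, n, hn⟩ := hx
          exact ⟨mem_univ _, mem_centralizer_singleton_iff.1 x.2, n, congrArg Subtype.val hn⟩
        · intro a _ b _ hab
          exact Subtype.ext hab
        · intro x hx
          rw [mem_filter] at hx
          obtain ⟨-, h3, n, hn⟩ := hx
          refine ⟨⟨x, mem_centralizer_singleton_iff.2 h3⟩, ?_, rfl⟩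
          rw [mem_filter]
          exact ⟨mem_univ _, n, Subtype.ext hn⟩
        · intro x _
          rfl
      have h4 : l ^ j ∣ #{b : G | IsConj s b} * l ^ i := by
        have h5 := P179C.card_class_mul s
        have h6 := Nat.ordProj_mul_ordCompl_eq_self (Nat.card (centralizer {s} : Subgroup G)) l
        rw [← h6, mul_assoc, mul_comm, mul_assoc] at h5
        have h7 : Nat.Coprime (l ^ j) (ordCompl[l] (Nat.card (centralizer {s} : Subgroup G))) :=
          Nat.Coprime.pow_left j (Nat.coprime_ordCompl hl.out Nat.card_pos.ne')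
        rw [← h5] at hj
        exact h7.dvd_of_dvd_mul_left hj
      obtain ⟨w, hw⟩ := h4
      refine ⟨(w : AA) * Z, ?_⟩
      rw [h3, ← mul_assoc]
      have h8 : (#{b : G | IsConj s b} : ℂ) * (l : ℂ) ^ i = (l : ℂ) ^ j * w := by
        exact_mod_cast hw
      rw [h8]
      push_cast
      ring
    · refine ⟨0, ?_⟩
      simp only [hF]
      rw [if_neg hs]
      simp
  choose Z hZ using h2
  refine ⟨∑ D : ConjClasses G, Z D.out, ?_⟩
  rw [Finset.sum_congr rfl fun D _ => hZ D.out, ← Finset.mul_sum]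
  push_cast
  rfl

end Cent

section Rat

variable {G : Type*} [Group G] [Fintype G]

/-- the values at powers, as values of a polynomial -/
theorem exists_poly (χ : Irr G) (x : G) {ζ : ℂ} (hζ : IsPrimitiveRoot ζ (Nat.card G)) :
    ∃ P : ℤ[X], ∀ j : ℕ, χ.1 (x ^ j) = aeval (ζ ^ j) P := by
  have : NeZero (Nat.card G) := ⟨Nat.card_pos.ne'⟩
  obtain ⟨n, hn⟩ := restr_decomp χ (zpowers x)
  set u : zpowers x := ⟨x, mem_zpowers x⟩ with hu
  have hcomm : ∀ y : zpowers x, y * u = u * y := by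
    rintro ⟨y, z, rfl⟩
    exact Subtype.ext ((Commute.refl x).zpow_left z)
  have hc : ∀ ψ : Irr (zpowers x), ∃ (i d : ℕ), ∀ j : ℕ, ψ.1 (u ^ j) = (ζ ^ j) ^ i * d := by
    intro ψ
    obtain ⟨c, hcN, hc⟩ := central_scalar ψ u hcomm (N := Nat.card G)
      (Subtype.ext (pow_card_eq_one'))
    obtain ⟨i, -, hi⟩ := hζ.eq_pow_of_pow_eq_one hcN
    obtain ⟨d, hd⟩ : ∃ d : ℕ, ψ.1 1 = d := by
      obtain ⟨ψ, d, ρ, hρ, rfl⟩ := ψ
      refine ⟨d, ?_⟩
      change ρ.character 1 = d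
      rw [Representation.char_one, Module.finrank_fin_fun]
    refine ⟨i, d, fun j => ?_⟩
    have h1 := hc j 1
    rw [mul_one, hd] at h1
    rw [h1, ← hi, ← pow_mul, ← pow_mul, mul_comm i j]
  choose i d hid using hc
  refine ⟨∑ ψ : Irr (zpowers x), C ((n ψ : ℤ) * (d ψ : ℤ)) * X ^ i ψ, fun j => ?_⟩
  have h1 : x ^ j = ((u ^ j : zpowers x) : G) := rfl
  rw [h1, hn, map_sum]
  refine Finset.sum_congr rfl fun ψ _ => ?_
  rw [hid, map_mul, aeval_C, map_pow, aeval_X]
  simp only [map_mul, map_natCast]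
  ring

/-- the sum over the `p`-regular elements is an integer -/
theorem sum_reg_int (p : ℕ) [hp : Fact p.Prime] (η θ : Irr G) :
    ∃ c : ℤ, ∑ t ∈ univ.filter (fun s : G => ¬ p ∣ orderOf s), η.1 t * θ.1 t⁻¹ = (c : ℂ) := by
  have hN0 : Nat.card G ≠ 0 := Nat.card_pos.ne'
  set N := Nat.card G with hN
  have hζ := Complex.isPrimitiveRoot_exp N hN0
  set ζ := Complex.exp (2 * Real.pi * Complex.I / N) with hζd
  have hP : ∀ t : G, ∃ P : ℤ[X], ∀ j : ℕ, η.1 (t ^ j) * θ.1 (t ^ j)⁻¹ = aeval (ζ ^ j) P := by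
    intro t
    obtain ⟨P, hP⟩ := exists_poly η t hζ
    obtain ⟨Q, hQ⟩ := exists_poly θ t⁻¹ hζ
    refine ⟨P * Q, fun j => ?_⟩
    rw [map_mul, hP, ← hQ, inv_pow]
  choose P hP using hP
  set S := ∑ t ∈ univ.filter (fun s : G => ¬ p ∣ orderOf s), η.1 t * θ.1 t⁻¹ with hS
  set R : ℤ[X] := ∑ t ∈ univ.filter (fun s : G => ¬ p ∣ orderOf s), P t with hR
  have h1 : ∀ μ ∈ primitiveRoots N ℂ, aeval μ R = S := by
    intro μ hμ
    rw [mem_primitiveRoots (Nat.pos_of_ne_zero hN0)] at hμ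
    have : NeZero N := ⟨hN0⟩
    obtain ⟨j, -, hj, rfl⟩ := hζ.isPrimitiveRoot_iff.1 hμ
    rw [hR, map_sum, hS]
    simp only [← hP]
    have hcop : (Nat.card G).Coprime j := hj.symm
    refine Finset.sum_bij (fun t _ => t ^ j) ?_ ?_ ?_ ?_
    · intro t ht
      rw [mem_filter] at ht ⊢
      refine ⟨mem_univ _, ?_⟩
      rw [Nat.Coprime.orderOf_pow (Nat.Coprime.coprime_dvd_left (orderOf_dvd_natCard t) hcop)]
      exact ht.2
    · intro a _ b _ hab
      exact (powCoprime hcop).injective hab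
    · intro t ht
      rw [mem_filter] at ht
      obtain ⟨a, ha⟩ := (powCoprime hcop).surjective t
      refine ⟨a, ?_, ha⟩
      rw [mem_filter]
      refine ⟨mem_univ _, ?_⟩
      rw [← Nat.Coprime.orderOf_pow
        (Nat.Coprime.coprime_dvd_left (orderOf_dvd_natCard a) hcop)]
      have : a ^ j = t := ha
      rw [this]
      exact ht.2
    · intro t _
      rfl
  obtain ⟨c, hc⟩ := P179H234.exists_int_sum (Nat.pos_of_ne_zero hN0) R
  rw [Finset.sum_congr rfl h1, Finset.sum_const, nsmul_eq_mul] at hc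
  have hcard : ((primitiveRoots N ℂ).card : ℂ) ≠ 0 := by
    rw [hζ.card_primitiveRoots]
    exact_mod_cast (Nat.totient_pos.2 (Nat.pos_of_ne_zero hN0)).ne'
  have hSi : S ∈ integralClosure ℤ ℂ := by
    rw [hS]
    exact sum_mem fun t _ => mul_mem (η.integral t) (θ.integral t⁻¹)
  have hSq : S = ((c / (primitiveRoots N ℂ).card : ℚ) : ℂ) := by
    push_cast
    rw [eq_div_iff hcard, mul_comm]
    exact hc
  have h2 : IsIntegral ℤ ((c / (primitiveRoots N ℂ).card : ℚ)) := by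
    have h3 : IsIntegral ℤ (algebraMap ℚ ℂ (c / (primitiveRoots N ℂ).card : ℚ)) := by
      have h4 : algebraMap ℚ ℂ (c / (primitiveRoots N ℂ).card : ℚ) = S := by
        rw [hSq]; rfl
      rw [h4]
      exact hSi
    exact (isIntegral_algebraMap_iff (algebraMap ℚ ℂ).injective).1 h3
  obtain ⟨e, he⟩ := (IsIntegrallyClosed.isIntegral_iff (R := ℤ) (K := ℚ)).1 h2
  refine ⟨e, ?_⟩
  rw [hSq, ← he]
  simp

theorem int_dvd_of_integral {a b : ℤ} (hb : b ≠ 0) {Z : ℂ} (hZ : Z ∈ integralClosure ℤ ℂ)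
    (h : (a : ℂ) = b * Z) : b ∣ a := by
  have hb0 : (b : ℂ) ≠ 0 := by exact_mod_cast hb
  have h1 : Z = ((a / b : ℚ) : ℂ) := by
    push_cast
    rw [eq_div_iff hb0, mul_comm]
    exact h.symm
  have h2 : IsIntegral ℤ ((a / b : ℚ)) := by
    have h3 : IsIntegral ℤ (algebraMap ℚ ℂ (a / b : ℚ)) := by
      have h4 : algebraMap ℚ ℂ (a / b : ℚ) = Z := by
        rw [h1]; rfl
      rw [h4]
      exact hZ
    exact (isIntegral_algebraMap_iff (algebraMap ℚ ℂ).injective).1 h3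
  obtain ⟨e, he⟩ := (IsIntegrallyClosed.isIntegral_iff (R := ℤ) (K := ℚ)).1 h2
  refine ⟨e, ?_⟩
  have h5 : (a : ℂ) = ((b * e : ℤ) : ℂ) := by
    rw [h, h1, ← he]
    simp
  exact_mod_cast h5

/-- **(A)** Frobenius integrality -/
theorem stA (p : ℕ) [hp : Fact p.Prime] (G : Type*) [Group G] [Finite G] : StA p G := by
  intro η θ
  have := Fintype.ofFinite G
  obtain ⟨c, hc⟩ := sum_reg_int p η θ
  rw [rsum_eq, hc]
  have h1 : ((ordCompl[p] (Nat.card G) : ℕ) : ℤ) ∣ c := by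
    rw [Int.natCast_dvd, Nat.dvd_iff_prime_pow_dvd_dvd]
    intro l j hl hj
    rcases Nat.eq_zero_or_pos j with rfl | hj0
    · simp
    have : Fact l.Prime := ⟨hl⟩
    have hlp : l ≠ p := by
      rintro rfl
      exact Nat.not_dvd_ordCompl hl Nat.card_pos.ne' ((dvd_pow_self l hj0.ne').trans hj)
    obtain ⟨Z, hZ⟩ := sum_reg_dvd l p hlp η θ j (hj.trans (Nat.ordCompl_dvd _ _))
    rw [hc] at hZ
    have h2 : ((l ^ j : ℕ) : ℤ) ∣ c := by
      refine int_dvd_of_integral (by exact_mod_cast (pow_pos hl.pos j).ne') Z.2 ?_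
      push_cast
      exact hZ
    exact Int.natCast_dvd.1 h2
  obtain ⟨e, he⟩ := h1
  refine ⟨e, ?_⟩
  rw [he, Int.cast_mul, Int.cast_natCast, mul_comm]

end Rat

end P179T
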