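import Vale.Agent.P179.H526.YDefs
import Vale.Agent.P179.H905.Zab

/-!
# Stage 2, `k`-side: the Brauer homomorphism on functions
-/

namespace P179Y

open Subgroup Finset P179H524 P179C P179A P179P

open scoped Classical

section Ext

variable {k : Type*} [Field k] {G : Type*} [Group G]

theorem ext_coe (H : Subgroup G) (z : H → k) (h : H) : ext H z (h : G) = z h := by
  unfold ext
  rw [dif_pos h.2]

theorem ext_of_mem (H : Subgroup G) (z : H → k) {g : G} (h : g ∈ H) : ext H z g = z ⟨g, h⟩ := by
  unfold ext
  rw [dif_pos h]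

theorem ext_of_not_mem (H : Subgroup G) (z : H → k) {g : G} (h : g ∉ H) : ext H z g = 0 := by
  unfold ext
  rw [dif_neg h]

theorem ext_add (H : Subgroup G) (a b : H → k) : ext H (a + b) = ext H a + ext H b := by
  funext g
  by_cases h : g ∈ H
  · rw [Pi.add_apply, ext_of_mem H _ h, ext_of_mem H _ h, ext_of_mem H _ h, Pi.add_apply]
  · rw [Pi.add_apply, ext_of_not_mem H _ h, ext_of_not_mem H _ h, ext_of_not_mem H _ h, add_zero]

theorem ext_smul (H : Subgroup G) (c : k) (a : H → k) : ext H (c • a) = c • ext H a := by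
  funext g
  by_cases h : g ∈ H
  · rw [Pi.smul_apply, ext_of_mem H _ h, ext_of_mem H _ h, Pi.smul_apply]
  · rw [Pi.smul_apply, ext_of_not_mem H _ h, ext_of_not_mem H _ h, smul_zero]

theorem ext_one (H : Subgroup G) (f : H → k) (h1 : f 1 = 1) (h0 : ∀ g, g ≠ 1 → f g = 0) :
    ext H f = fun g : G => if g = 1 then 1 else 0 := by
  funext g
  by_cases h : g ∈ H
  · rw [ext_of_mem H _ h]
    by_cases hg : g = 1
    · subst hg
      rw [if_pos rfl]
      exact h1
    · rw [if_neg hg]
      exact h0 _ (fun h' => hg (congrArg Subtype.val h'))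
  · rw [ext_of_not_mem H _ h, if_neg]
    rintro rfl
    exact h (one_mem _)

theorem ext_conv [Fintype G] (H : Subgroup G) [Fintype H] (a b : H → k) :
    ext H (conv a b) = conv (ext H a) (ext H b) := by
  funext g
  unfold conv
  by_cases h : g ∈ H
  · rw [ext_of_mem H _ h]
    rw [← Finset.sum_subset (Finset.subset_univ (univ.filter fun x : G => x ∈ H))]
    · rw [Finset.sum_subtype (p := fun x => x ∈ H) (univ.filter fun x : G => x ∈ H)
        (fun x => by simp)]
      refine Finset.sum_congr rfl fun x _ => ?_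
      rw [ext_coe]
      congr 1
      have h1 : (x : G)⁻¹ * g ∈ H := mul_mem (inv_mem x.2) h
      rw [ext_of_mem H _ h1]
      rfl
    · intro x _ hx
      rw [ext_of_not_mem H a (by simpa using hx), zero_mul]
  · rw [ext_of_not_mem H _ h]
    symm
    refine Finset.sum_eq_zero fun x _ => ?_
    by_cases hx : x ∈ H
    · rw [ext_of_not_mem H b (g := x⁻¹ * g), mul_zero]
      intro h1
      exact h (by simpa using mul_mem hx h1)
    · rw [ext_of_not_mem H a hx, zero_mul]

end Ext

section Brauer

variable {k : Type*} [Field k] {G : Type*} [Group G] [Fintype G]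

/-- the functions `a` replaced by `0` outside of the centraliser of `D` -/
noncomputable def cutC (D : Subgroup G) (a : G → k) : G → k :=
  fun x => if x ∈ centralizer (D : Set G) then a x else 0

/-- conjugation action by permutations -/
def conjPerm (D : Subgroup G) : D →* Equiv.Perm G where
  toFun q := (MulAut.conj (q : G)).toEquiv
  map_one' := by ext; simp
  map_mul' a b := by ext; simp [mul_assoc]

omit [Fintype G] in
theorem conjPerm_apply (D : Subgroup G) (d : D) (x : G) :
    conjPerm D d x = (d : G) * x * (d : G)⁻¹ := rfl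

omit [Fintype G] in
theorem mem_cent_iff (D : Subgroup G) (x : G) :
    x ∈ centralizer (D : Set G) ↔ ∀ d ∈ D, d * x * d⁻¹ = x := by
  rw [mem_centralizer_iff]
  constructor
  · intro h d hd
    rw [h d hd]; group
  · intro h d hd
    have := h d hd
    calc d * x = d * x * d⁻¹ * d := by group
      _ = x * d := by rw [this]

/-- (K1) the Brauer homomorphism is multiplicative -/
theorem conv_cut (p : ℕ) [hp : Fact p.Prime] [CharP k p] (D : Subgroup G) (hD : IsPGroup p D)
    {a b : G → k} (ha : ∀ d ∈ D, ∀ x, a (d * x * d⁻¹) = a x)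
    (hb : ∀ d ∈ D, ∀ x, b (d * x * d⁻¹) = b x) {x : G} (hx : x ∈ centralizer (D : Set G)) :
    conv a b x = conv (cutC D a) (cutC D b) x := by
  have hfin : Finite D := inferInstance
  rw [← sub_eq_zero]
  unfold conv
  rw [← Finset.sum_sub_distrib]
  refine sum_eq_zero_of_perm p hD (conjPerm D) _ ?_ ?_
  · intro d h
    have hdx : (d : G) * x * (d : G)⁻¹ = x := (mem_cent_iff D x).1 hx d d.2
    have e1 : ((d : G) * h * (d : G)⁻¹)⁻¹ * x = (d : G) * (h⁻¹ * x) * (d : G)⁻¹ := by
      conv_lhs => rw [← hdx]
      group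
    have e2 : ((d : G) * h * (d : G)⁻¹ ∈ centralizer (D : Set G)) ↔
        (h ∈ centralizer (D : Set G)) := by
      constructor
      · intro h1
        have h2 : (d : G)⁻¹ * ((d : G) * h * (d : G)⁻¹) * ((d : G)⁻¹)⁻¹ = _ :=
          (mem_cent_iff D _).1 h1 _ (inv_mem d.2)
        have h3 : (d : G)⁻¹ * ((d : G) * h * (d : G)⁻¹) * ((d : G)⁻¹)⁻¹ = h := by group
        rw [h3] at h2
        rw [h2]; exact h1
      · intro h1
        rw [(mem_cent_iff D h).1 h1 d d.2]; exact h1
    have e3 : ((d : G) * (h⁻¹ * x) * (d : G)⁻¹ ∈ centralizer (D : Set G)) ↔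
        (h⁻¹ * x ∈ centralizer (D : Set G)) := by
      constructor
      · intro h1
        have h2 : (d : G)⁻¹ * ((d : G) * (h⁻¹ * x) * (d : G)⁻¹) * ((d : G)⁻¹)⁻¹ = _ :=
          (mem_cent_iff D _).1 h1 _ (inv_mem d.2)
        have h3 : (d : G)⁻¹ * ((d : G) * (h⁻¹ * x) * (d : G)⁻¹) * ((d : G)⁻¹)⁻¹ = h⁻¹ * x := by
          group
        rw [h3] at h2
        rw [h2]; exact h1
      · intro h1
        rw [(mem_cent_iff D _).1 h1 d d.2]; exact h1
    simp only [conjPerm_apply, cutC, e1, e2, e3, ha d d.2, hb d d.2]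
  · intro h hh
    have h1 : h ∈ centralizer (D : Set G) := (mem_cent_iff D h).2 fun d hd => hh ⟨d, hd⟩
    have h2 : h⁻¹ * x ∈ centralizer (D : Set G) := mul_mem (inv_mem h1) hx
    simp only [cutC, if_pos h1, if_pos h2, sub_self]

end Brauer

section BPs

variable {p : ℕ} {k : Type*} [Field k] {G : Type*} [Group G] [Fintype G]
  {D : Subgroup G} {l : (G → k) → k}

theorem BP.zero (hl : BP p D l) : l 0 = 0 := hl.supp 0 fun _ _ => rfl

theorem BP.congr (hl : BP p D l) {a b : G → k}
    (h : ∀ x ∈ centralizer (D : Set G), a x = b x) : l a = l b := by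
  have h1 : l (a + (-1 : k) • b) = 0 := hl.supp _ fun x hx => by
    simp [h x hx]
  rw [hl.add, hl.smul] at h1
  linear_combination h1

theorem BP.cut (hl : BP p D l) (a : G → k) : l (cutC D a) = l a :=
  hl.congr fun x hx => by simp [cutC, hx]

theorem BP.sum (hl : BP p D l) {ι : Type*} (s : Finset ι) (f : ι → G → k) :
    l (∑ i ∈ s, f i) = ∑ i ∈ s, l (f i) := by
  induction s using Finset.induction_on with
  | empty => simp [hl.zero]
  | insert i s hi ih => rw [Finset.sum_insert hi, Finset.sum_insert hi, hl.add, ih]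

omit [Fintype G] in
theorem invOn_cutC (D : Subgroup G) {a : G → k}
    (ha : ∀ c ∈ centralizer (D : Set G), ∀ x, a (c * x * c⁻¹) = a x) :
    InvOn (centralizer (D : Set G)) (cutC D a) := by
  refine ⟨fun c hc x => ?_, fun x hx => by simp [cutC, hx]⟩
  have e : c * x * c⁻¹ ∈ centralizer (D : Set G) ↔ x ∈ centralizer (D : Set G) := by
    constructor
    · intro h
      have := mul_mem (mul_mem (inv_mem hc) h) hc
      have e1 : c⁻¹ * (c * x * c⁻¹) * c = x := by group
      rwa [e1] at this
    · intro h
      exact mul_mem (mul_mem hc h) (inv_mem hc)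
  simp only [cutC, e, ha c hc]

/-- the functional of a Brauer pair is multiplicative on functions which are invariant under
`C_G(D)` (`D` abelian). -/
theorem BP.mul' [hp : Fact p.Prime] [CharP k p] (hl : BP p D l) (hD : IsPGroup p D)
    (hab : D ≤ centralizer (D : Set G)) {a b : G → k}
    (ha : ∀ c ∈ centralizer (D : Set G), ∀ x, a (c * x * c⁻¹) = a x)
    (hb : ∀ c ∈ centralizer (D : Set G), ∀ x, b (c * x * c⁻¹) = b x) :
    l (conv a b) = l a * l b := by
  rw [hl.congr (b := conv (cutC D a) (cutC D b)) fun x hx =>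
    conv_cut p D hD (fun d hd => ha d (hab hd)) (fun d hd => hb d (hab hd)) hx,
    hl.mul _ _ (invOn_cutC D ha) (invOn_cutC D hb), hl.cut, hl.cut]

/-- (K2) -/
theorem BP.isHomCF [hp : Fact p.Prime] [CharP k p] (hl : BP p D l) (hD : IsPGroup p D)
    (hab : D ≤ centralizer (D : Set G)) : IsHomCF l where
  add := hl.add
  smul := hl.smul
  one := hl.one
  mul _ _ ha hb := hl.mul' hD hab (fun c _ => ha c) (fun c _ => hb c)

omit [Fintype G] in
theorem mem_cent_subgroupOf {H : Subgroup G} (hD : D ≤ H) (x : H) :
    x ∈ centralizer ((D.subgroupOf H : Subgroup H) : Set H) ↔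
      (x : G) ∈ centralizer (D : Set G) := by
  rw [mem_centralizer_iff, mem_centralizer_iff]
  constructor
  · intro h d hd
    have := h ⟨d, hD hd⟩ (by simpa [Subgroup.mem_subgroupOf] using hd)
    exact congrArg Subtype.val this
  · intro h d hd
    apply Subtype.ext
    exact h d (by simpa [Subgroup.mem_subgroupOf] using hd)

/-- (K3) -/
theorem BP.restrict (hl : BP p D l) {H : Subgroup G} (hDH : D ≤ H)
    (hCH : centralizer (D : Set G) ≤ H) : BP p (D.subgroupOf H) (lres H l) where
  add a b := by
    rw [lres, ext_add, hl.add]; rfl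
  smul c a := by
    rw [lres, ext_smul, hl.smul]; rfl
  supp a ha := by
    refine hl.supp _ fun x hx => ?_
    rw [ext_of_mem H a (hCH hx)]
    exact ha _ ((mem_cent_subgroupOf hDH _).2 hx)
  one := by
    have h1 := ext_one (k := k) H (fun g => if g = 1 then 1 else 0) (if_pos rfl)
      (fun g hg => if_neg hg)
    have h2 := hl.one
    rw [← h1] at h2
    unfold lres
    convert h2 using 3
    funext g
    congr
  mul a b ha hb := by
    have key : ∀ a : H → k, InvOn (centralizer ((D.subgroupOf H : Subgroup H) : Set H)) a →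
        InvOn (centralizer (D : Set G)) (ext H a) := by
      intro a ha
      constructor
      · intro c hc x
        have hcH := hCH hc
        by_cases hx : x ∈ H
        · rw [ext_of_mem H a hx, ext_of_mem H a (mul_mem (mul_mem hcH hx) (inv_mem hcH))]
          exact ha.1 ⟨c, hcH⟩ ((mem_cent_subgroupOf hDH _).2 hc) ⟨x, hx⟩
        · rw [ext_of_not_mem H a hx, ext_of_not_mem H a]
          intro h
          apply hx
          have := mul_mem (mul_mem (inv_mem hcH) h) hcH
          have e1 : c⁻¹ * (c * x * c⁻¹) * c = x := by group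
          rwa [e1] at this
      · intro x hx
        by_cases hxH : x ∈ H
        · rw [ext_of_mem H a hxH]
          exact ha.2 _ fun h => hx ((mem_cent_subgroupOf hDH _).1 h)
        · exact ext_of_not_mem H a hxH
    rw [lres, ext_conv, hl.mul _ _ (key a ha) (key b hb)]; rfl
  dfct := by
    obtain ⟨a, ha, hla, hx⟩ := hl.dfct
    refine ⟨fun h => a h, ⟨fun c hc x => ?_, fun x hx' => ?_⟩, ?_, ?_⟩
    · exact ha.1 c ((mem_cent_subgroupOf hDH _).1 hc) x
    · exact ha.2 x fun h => hx' ((mem_cent_subgroupOf hDH _).2 h)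
    · have : lres H l (fun h => a h) = l a := by
        rw [lres]
        refine hl.congr fun x hx' => ?_
        rw [ext_of_mem H _ (hCH hx')]
      rw [this]; exact hla
    · intro x hax P hP hPx hPC y hy
      rw [Subgroup.mem_subgroupOf]
      have h1 := hx x hax (P.map H.subtype) (hP.map _) ?_ ?_
      · exact h1 ⟨y, hy, rfl⟩
      · rintro _ ⟨z, hz, rfl⟩
        have := hPx hz
        rw [mem_centralizer_singleton_iff] at this ⊢
        exact congrArg Subtype.val this
      · rintro _ ⟨z, hz, rfl⟩
        exact (mem_cent_subgroupOf hDH z).1 (hPC hz)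

/-- (K3) -/
theorem BP.lres_coe (hl : BP p D l) {H : Subgroup G}
    (hCH : centralizer (D : Set G) ≤ H) (z : G → k) : lres H l (fun h : H => z h) = l z := by
  rw [lres]
  refine hl.congr fun x hx' => ?_
  rw [ext_of_mem H _ (hCH hx')]

omit [Fintype G] in
theorem cent_le_of_mem {u : G} (hu : u ∈ D) :
    centralizer (D : Set G) ≤ centralizer {u} :=
  centralizer_le (by simpa using hu)

omit [Fintype G] in
theorem le_cent_of_mem {u : G} (hu : u ∈ D) (hab : D ≤ centralizer (D : Set G)) :
    D ≤ centralizer {u} := hab.trans (cent_le_of_mem hu)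

omit [Fintype G] in
theorem mem_norm_subgroupOf {H : Subgroup G} (hD : D ≤ H) (x : H) :
    x ∈ normalizer ((D.subgroupOf H : Subgroup H) : Set H) ↔
      (x : G) ∈ normalizer (D : Set G) := by
  rw [mem_normalizer_iff, mem_normalizer_iff]
  constructor
  · intro h d
    have h1 : ∀ d ∈ H, (d ∈ D ↔ (x : G) * d * (x : G)⁻¹ ∈ D) := fun d hd => by
      have := h ⟨d, hd⟩
      simpa [Subgroup.mem_subgroupOf] using this
    constructor
    · intro hd
      exact (h1 d (hD hd)).1 hd
    · intro hd
      refine (h1 d ?_).2 hd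
      have h2 := mul_mem (mul_mem (inv_mem x.2) (hD hd)) x.2
      have e1 : (x : G)⁻¹ * ((x : G) * d * (x : G)⁻¹) * x = d := by group
      rwa [e1] at h2
  · intro h d
    have := h (d : G)
    simpa [Subgroup.mem_subgroupOf] using this

omit [Fintype G] in
/-- for `u ∈ D` regular, `D` is central in its normaliser in `C_G(u)` -/
theorem RegEl.norm_le (hab : D ≤ centralizer (D : Set G)) {u : G} (hu : RegEl D u) :
    normalizer ((D.subgroupOf (centralizer {u}) : Subgroup (centralizer {u})) :
        Set (centralizer {u} : Subgroup G)) ≤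
      centralizer ((D.subgroupOf (centralizer {u}) : Subgroup (centralizer {u})) :
        Set (centralizer {u} : Subgroup G)) := by
  intro x hx
  have hDH := le_cent_of_mem hu.1 hab
  rw [mem_norm_subgroupOf hDH] at hx
  rw [mem_cent_subgroupOf hDH]
  refine hu.2 x hx ?_
  have := mem_centralizer_singleton_iff.1 x.2
  rw [this]; group

end BPs

end P179Y
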