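import Vale.Agent.P179.H143.Cong
import Vale.Agent.P179.H143.Dn

/-!
# Matrices of the contributions of a subsection `(u, b_u)`

`mm p η η'`: the inner product on the `p`-regular elements of `H = C_G(u)`; `gg p H u χ η`: the
pairing of `t ↦ χ(ut)` and `η` on the `p`-regular elements of `H`.
-/

namespace P179T

open P179H524 P179C P179A Finset P179P P179Y

open P179X (pp)

open scoped Classical

/-- the inner product on the `p`-regular elements -/
noncomputable def mm (p : ℕ) {H : Type*} [Group H] (η η' : H → ℂ) : ℂ :=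
  (Nat.card H : ℂ)⁻¹ * rsum p (fun t : H => η t * η' t⁻¹)

/-- the pairing of `t ↦ χ(ut)` and `η` on the `p`-regular elements of `H` -/
noncomputable def gg (p : ℕ) {G : Type*} [Group G] (H : Subgroup G) (u : G) (χ : G → ℂ)
    (η : H → ℂ) : ℂ :=
  (Nat.card H : ℂ)⁻¹ * rsum p (fun t : H => χ (u * t) * η t⁻¹)

section MM

variable {k : Type*} [Field k] (p : ℕ) [hp : Fact p.Prime] [CharP k p]
  (red : integralClosure ℤ ℂ →+* k) {H : Type*} [Group H] [Fintype H]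

theorem mm_orth {l : (H → k) → k} (ψ ζ : Irr H) (hζ : InL red l ζ.1)
    (hψ : ¬ InL red l ψ.1) : mm p ψ.1 ζ.1 = 0 := by
  rw [mm, rsum_orth_of_inL p red ψ ζ hζ hψ, mul_zero]

omit hp in
theorem mm_conj (η η' : Irr H) : (starRingEnd ℂ) (mm p η.1 η'.1) = mm p η'.1 η.1 := by
  rw [mm, mm, map_mul, map_inv₀, map_natCast, rsum_eq, rsum_eq, map_sum]
  congr 1
  refine Finset.sum_congr rfl fun t _ => ?_
  rw [map_mul, ← Irr.inv_eq_conj, ← Irr.inv_eq_conj, inv_inv, mul_comm]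

theorem mm_orth' {l : (H → k) → k} (ψ ζ : Irr H) (hζ : InL red l ζ.1)
    (hψ : ¬ InL red l ψ.1) : mm p ζ.1 ψ.1 = 0 := by
  rw [← mm_conj, mm_orth p red ψ ζ hζ hψ, map_zero]

omit hp in
theorem mm_mul (η η' : Irr H) : ∑ θ : Irr H, mm p η.1 θ.1 * mm p θ.1 η'.1 = mm p η.1 η'.1 := by
  have hH0 : (Nat.card H : ℂ) ≠ 0 := by exact_mod_cast Nat.card_pos.ne'
  simp only [mm, rsum_eq]
  have h1 : ∀ θ : Irr H, (Nat.card H : ℂ)⁻¹ * (∑ t ∈ univ.filter (fun s : H => ¬ p ∣ orderOf s),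
      η.1 t * θ.1 t⁻¹) * ((Nat.card H : ℂ)⁻¹ *
        ∑ s ∈ univ.filter (fun s : H => ¬ p ∣ orderOf s), θ.1 s * η'.1 s⁻¹) =
      (Nat.card H : ℂ)⁻¹ * (Nat.card H : ℂ)⁻¹ * ∑ t ∈ univ.filter (fun s : H => ¬ p ∣ orderOf s),
        ∑ s ∈ univ.filter (fun s : H => ¬ p ∣ orderOf s),
          η.1 t * η'.1 s⁻¹ * (θ.1 s * θ.1 t⁻¹) := by
    intro θ
    rw [mul_mul_mul_comm, Finset.sum_mul_sum]
    congr 1
    exact Finset.sum_congr rfl fun t _ => Finset.sum_congr rfl fun s _ => by ring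
  rw [Finset.sum_congr rfl fun θ _ => h1 θ, ← Finset.mul_sum, Finset.sum_comm, mul_assoc]
  congr 1
  rw [Finset.mul_sum]
  refine Finset.sum_congr rfl fun t ht => ?_
  rw [Finset.sum_comm]
  have h2 : ∀ s : H, ∑ θ : Irr H, η.1 t * η'.1 s⁻¹ * (θ.1 s * θ.1 t⁻¹) =
      ∑ x : H, if x * s * x⁻¹ = t then η.1 t * η'.1 s⁻¹ else 0 := by
    intro s
    rw [← Finset.mul_sum, col_orth, ← Finset.sum_filter, Finset.sum_const, nsmul_eq_mul,
      Nat.card_eq_fintype_card, Fintype.card_subtype, mul_comm]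
  rw [Finset.sum_congr rfl fun s _ => h2 s, Finset.sum_comm]
  have h3 : ∀ x : H, ∑ s ∈ univ.filter (fun s : H => ¬ p ∣ orderOf s),
      (if x * s * x⁻¹ = t then η.1 t * η'.1 s⁻¹ else 0) = η.1 t * η'.1 t⁻¹ := by
    intro x
    rw [Finset.sum_eq_single (x⁻¹ * t * x)]
    · rw [if_pos (by group)]
      congr 1
      have : (x⁻¹ * t * x)⁻¹ = x⁻¹ * t⁻¹ * x⁻¹⁻¹ := by group
      rw [this, η'.conj]
    · intro s _ hs
      rw [if_neg]
      intro h
      apply hs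
      rw [← h]; group
    · intro h
      exfalso
      apply h
      rw [mem_filter]
      refine ⟨mem_univ _, ?_⟩
      have h4 : x⁻¹ * t * x = x⁻¹ * t * x⁻¹⁻¹ := by group
      rw [h4, P179C.orderOf_conj]
      exact (mem_filter.1 ht).2
  rw [Finset.sum_congr rfl fun x _ => h3 x, Finset.sum_const, Finset.card_univ, nsmul_eq_mul,
    ← Nat.card_eq_fintype_card, ← mul_assoc, inv_mul_cancel₀ hH0, one_mul]

end MM

section GG

variable {k : Type*} [Field k] (p : ℕ) [hp : Fact p.Prime] [CharP k p]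
  (red : integralClosure ℤ ℂ →+* k) {G : Type*} [Group G] [Fintype G]

/-- the Gram matrix -/
theorem gg_gram (u : G) (hu : ∃ a : ℕ, u ^ p ^ a = 1) (H : Subgroup G)
    (hH : ∀ x, x ∈ H ↔ x * u = u * x) (η η' : Irr H) :
    ∑ χ : Irr G, gg p H u χ.1 η.1 * (starRingEnd ℂ) (gg p H u χ.1 η'.1) = mm p η'.1 η.1 := by
  have hH0 : (Nat.card H : ℂ) ≠ 0 := by exact_mod_cast Nat.card_pos.ne'
  have hconj : ∀ χ : Irr G, (starRingEnd ℂ) (gg p H u χ.1 η'.1) =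
      (Nat.card H : ℂ)⁻¹ * ∑ s ∈ univ.filter (fun s : H => ¬ p ∣ orderOf s),
        χ.1 (s * u)⁻¹ * η'.1 s := by
    intro χ
    rw [gg, map_mul, map_inv₀, map_natCast, rsum_eq, map_sum]
    congr 1
    refine Finset.sum_congr rfl fun t _ => ?_
    rw [map_mul, ← Irr.inv_eq_conj, ← Irr.inv_eq_conj, inv_inv, (hH t).1 t.2]
  simp only [hconj]
  simp only [gg, rsum_eq]
  have h1 : ∀ χ : Irr G, (Nat.card H : ℂ)⁻¹ * (∑ t ∈ univ.filter (fun s : H => ¬ p ∣ orderOf s),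
      χ.1 (u * t) * η.1 t⁻¹) * ((Nat.card H : ℂ)⁻¹ *
        ∑ s ∈ univ.filter (fun s : H => ¬ p ∣ orderOf s), χ.1 (s * u)⁻¹ * η'.1 s) =
      (Nat.card H : ℂ)⁻¹ * (Nat.card H : ℂ)⁻¹ * ∑ t ∈ univ.filter (fun s : H => ¬ p ∣ orderOf s),
        ∑ s ∈ univ.filter (fun s : H => ¬ p ∣ orderOf s),
          η.1 t⁻¹ * η'.1 s * (χ.1 (t * u) * χ.1 (s * u)⁻¹) := by
    intro χ
    rw [mul_mul_mul_comm, Finset.sum_mul_sum]
    congr 1
    refine Finset.sum_congr rfl fun t _ => Finset.sum_congr rfl fun s _ => ?_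
    rw [(hH t).1 t.2]; ring
  have h1' : ∀ θ : Irr H, (Nat.card H : ℂ)⁻¹ * (∑ t ∈ univ.filter (fun s : H => ¬ p ∣ orderOf s),
      θ.1 t * η.1 t⁻¹) * ((Nat.card H : ℂ)⁻¹ *
        ∑ s ∈ univ.filter (fun s : H => ¬ p ∣ orderOf s), θ.1 s⁻¹ * η'.1 s) =
      (Nat.card H : ℂ)⁻¹ * (Nat.card H : ℂ)⁻¹ * ∑ t ∈ univ.filter (fun s : H => ¬ p ∣ orderOf s),
        ∑ s ∈ univ.filter (fun s : H => ¬ p ∣ orderOf s),
          η.1 t⁻¹ * η'.1 s * (θ.1 t * θ.1 s⁻¹) := by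
    intro θ
    rw [mul_mul_mul_comm, Finset.sum_mul_sum]
    congr 1
    exact Finset.sum_congr rfl fun t _ => Finset.sum_congr rfl fun s _ => by ring
  have h2 : mm p η'.1 η.1 = ∑ θ : Irr H, mm p θ.1 η.1 * mm p η'.1 θ.1 := by
    rw [← mm_mul]
    exact Finset.sum_congr rfl fun θ _ => mul_comm _ _
  have h3 : ∀ θ : Irr H, mm p η'.1 θ.1 = (Nat.card H : ℂ)⁻¹ *
        ∑ s ∈ univ.filter (fun s : H => ¬ p ∣ orderOf s), θ.1 s⁻¹ * η'.1 s := by
    intro θ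
    rw [mm, rsum_eq]
    congr 1
    exact Finset.sum_congr rfl fun t _ => mul_comm _ _
  rw [h2]
  simp only [h3]
  simp only [mm, rsum_eq]
  rw [Finset.sum_congr rfl fun χ _ => h1 χ, Finset.sum_congr rfl fun θ _ => h1' θ, ← Finset.mul_sum,
    ← Finset.mul_sum]
  congr 1
  rw [Finset.sum_comm]
  conv_rhs => rw [Finset.sum_comm]
  refine Finset.sum_congr rfl fun t ht => ?_
  rw [Finset.sum_comm]
  conv_rhs => rw [Finset.sum_comm]
  refine Finset.sum_congr rfl fun s hs => ?_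
  rw [← Finset.mul_sum, ← Finset.mul_sum, col_orth_centralizer p u hu H hH t s (mem_filter.1 ht).2
    (mem_filter.1 hs).2]

/-- the central characters of `u` and the multiplicities in the restriction -/
theorem exists_coeffs (u : G) {N : ℕ} (hu : u ^ N = 1) (H : Subgroup G)
    (hH : ∀ x, x ∈ H ↔ x * u = u * x) (χ : Irr G) :
    ∃ a : Irr H → ℂ, (∀ η, ∃ (n : ℕ) (c : ℂ), c ^ N = 1 ∧ a η = n * c) ∧
      ∀ t : H, χ.1 (u * t) = ∑ η : Irr H, a η * η.1 t := by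
  obtain ⟨n, hn⟩ := restr_decomp χ H
  have huH : u ∈ H := (hH u).2 rfl
  have hc : ∀ η : Irr H, ∃ c : ℂ, c ^ N = 1 ∧ ∀ t : H, η.1 ((⟨u, huH⟩ : H) * t) = c * η.1 t := by
    intro η
    obtain ⟨c, hcN, hc⟩ := central_scalar η (⟨u, huH⟩ : H)
      (fun x => Subtype.ext ((hH x).1 x.2)) (N := N) (Subtype.ext hu)
    refine ⟨c, hcN, fun t => ?_⟩
    have := hc 1 t
    rwa [pow_one, pow_one] at this
  choose c hc1 hc2 using hc
  refine ⟨fun η => n η * c η, fun η => ⟨n η, c η, hc1 η, rfl⟩, fun t => ?_⟩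
  have h1 := hn ((⟨u, huH⟩ : H) * t)
  have h2 : (((⟨u, huH⟩ : H) * t : H) : G) = u * t := rfl
  rw [h2] at h1
  rw [h1]
  refine Finset.sum_congr rfl fun η _ => ?_
  rw [hc2]; ring

omit hp in
theorem gg_eq (u : G) (H : Subgroup G) (χ : Irr G) {a : Irr H → ℂ}
    (ha : ∀ t : H, χ.1 (u * t) = ∑ η : Irr H, a η * η.1 t) (η : Irr H) :
    gg p H u χ.1 η.1 = ∑ θ : Irr H, a θ * mm p θ.1 η.1 := by
  simp only [gg, mm, rsum_eq]
  have h1 : ∀ θ : Irr H, a θ * ((Nat.card H : ℂ)⁻¹ *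
      ∑ t ∈ univ.filter (fun s : H => ¬ p ∣ orderOf s), θ.1 t * η.1 t⁻¹) =
      (Nat.card H : ℂ)⁻¹ * ∑ t ∈ univ.filter (fun s : H => ¬ p ∣ orderOf s),
        a θ * θ.1 t * η.1 t⁻¹ := by
    intro θ
    rw [mul_left_comm, Finset.mul_sum]
    congr 1
    exact Finset.sum_congr rfl fun t _ => by ring
  rw [Finset.sum_congr rfl fun θ _ => h1 θ, ← Finset.mul_sum, Finset.sum_comm]
  congr 1
  refine Finset.sum_congr rfl fun t _ => ?_
  rw [ha, Finset.sum_mul]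

/-- characters outside of the block -/
theorem gg_eq_zero (H : Subgroup G) {l : (G → k) → k}
    (hK3 : ∀ z : G → k, lres H l (fun h : H => z h) = l z) (η : Irr H)
    (hη : InL red (lres H l) η.1) (u : G) (hu : ∃ a : ℕ, u ^ p ^ a = 1)
    (hH : ∀ x, x ∈ H ↔ x * u = u * x) (χ : Irr G) (hχ : ¬ InL red l χ.1) :
    gg p H u χ.1 η.1 = 0 := by
  have h2 : ∃ z : G → k, ∃ _ : IsCF z, lam red χ.1 z ≠ l z := by
    by_contra hcon
    push Not at hcon
    exact hχ fun z hz => hcon z hz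
  obtain ⟨z, hz, hne⟩ := h2
  have h3 : lam red η.1 (fun h : H => z h) = l z := by
    rw [hη _ (isCF_restr hz H), hK3]
  obtain ⟨z', hz', hne'⟩ := sep_G_H red χ H η hz (by rw [h3]; exact hne)
  have h4 := two_mt p red χ u hu H hH η z' hz' hne'
  rw [gg, rsum_eq, Finset.sum_filter]
  have h5 : ∑ t : H, (if ¬ p ∣ orderOf t then χ.1 (u * t) * η.1 t⁻¹ else 0) = 0 := by
    refine Eq.trans (Finset.sum_congr rfl fun t _ => ?_) h4
    rw [(hH t).1 t.2]
  rw [h5, mul_zero]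

/-- the irreducible characters of `H` in the block `lH` -/
noncomputable def bs {H : Type*} [Group H] [Finite H] (lH : (H → k) → k) : Finset (Irr H) :=
  haveI := Fintype.ofFinite (Irr H)
  univ.filter fun η : Irr H => InL red lH η.1

omit [CharP k p] hp [Fintype G] in
include p in
theorem mem_bs {H : Type*} [Group H] [Finite H] {lH : (H → k) → k} {η : Irr H} :
    η ∈ bs red lH ↔ InL red lH η.1 := by
  simp [bs]

/-- the matrix of contributions -/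
noncomputable def MM (H : Subgroup G) (u : G) (lH : (H → k) → k) (χ ψ : G → ℂ) : ℂ :=
  ∑ η ∈ bs red lH, gg p H u χ η.1 * (starRingEnd ℂ) (gg p H u ψ η.1)

omit hp in
theorem MM_conj (H : Subgroup G) (u : G) (lH : (H → k) → k) (χ ψ : G → ℂ) :
    (starRingEnd ℂ) (MM p red H u lH χ ψ) = MM p red H u lH ψ χ := by
  rw [MM, MM, map_sum]
  refine Finset.sum_congr rfl fun η _ => ?_
  rw [map_mul, Complex.conj_conj, mul_comm]

theorem gg_mul (u : G) {N : ℕ} (hu : u ^ N = 1) (H : Subgroup G)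
    (hH : ∀ x, x ∈ H ↔ x * u = u * x) (lH : (H → k) → k) (χ : Irr G) (η : Irr H)
    (hη : InL red lH η.1) :
    ∑ θ ∈ bs red lH, gg p H u χ.1 θ.1 * mm p θ.1 η.1 = gg p H u χ.1 η.1 := by
  obtain ⟨a, -, ha⟩ := exists_coeffs u hu H hH χ
  have h0 : ∑ θ ∈ bs red lH, gg p H u χ.1 θ.1 * mm p θ.1 η.1 =
      ∑ θ : Irr H, gg p H u χ.1 θ.1 * mm p θ.1 η.1 := by
    refine Finset.sum_subset (Finset.subset_univ _) fun θ _ hθ => ?_
    rw [mem_bs p red] at hθ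
    rw [mm_orth p red θ η hη hθ, mul_zero]
  rw [h0]
  simp only [gg_eq p u H χ ha]
  simp only [Finset.sum_mul]
  rw [Finset.sum_comm]
  refine Finset.sum_congr rfl fun θ _ => ?_
  have h1 : ∀ x : Irr H, a θ * mm p θ.1 x.1 * mm p x.1 η.1 = a θ * (mm p θ.1 x.1 * mm p x.1 η.1) :=
    fun x => by ring
  rw [Finset.sum_congr rfl fun x _ => h1 x, ← Finset.mul_sum, mm_mul]

/-- the matrix of contributions, with the multiplicities -/
theorem MM_eq (u : G) {N : ℕ} (hu : u ^ N = 1) (H : Subgroup G)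
    (hH : ∀ x, x ∈ H ↔ x * u = u * x) (lH : (H → k) → k) (χ ψ : Irr G) {a : Irr H → ℂ}
    (ha : ∀ t : H, ψ.1 (u * t) = ∑ η : Irr H, a η * η.1 t) :
    MM p red H u lH χ.1 ψ.1 =
      ∑ η ∈ bs red lH, gg p H u χ.1 η.1 * (starRingEnd ℂ) (a η) := by
  have h1 : ∀ η ∈ bs red lH, gg p H u χ.1 η.1 * (starRingEnd ℂ) (gg p H u ψ.1 η.1) =
      ∑ θ ∈ bs red lH, (starRingEnd ℂ) (a θ) * (gg p H u χ.1 η.1 * mm p η.1 θ.1) := by
    intro η hη
    rw [gg_eq p u H ψ ha, map_sum, Finset.mul_sum]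
    have h0 : ∑ θ ∈ bs red lH, (starRingEnd ℂ) (a θ) * (gg p H u χ.1 η.1 * mm p η.1 θ.1) =
        ∑ θ : Irr H, (starRingEnd ℂ) (a θ) * (gg p H u χ.1 η.1 * mm p η.1 θ.1) := by
      refine Finset.sum_subset (Finset.subset_univ _) fun θ _ hθ => ?_
      rw [mem_bs p red] at hθ hη
      rw [mm_orth' p red θ η hη hθ, mul_zero, mul_zero]
    rw [h0]
    refine Finset.sum_congr rfl fun θ _ => ?_
    rw [map_mul, mm_conj]; ring
  rw [MM, Finset.sum_congr rfl h1, Finset.sum_comm]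
  refine Finset.sum_congr rfl fun θ hθ => ?_
  rw [← Finset.mul_sum, gg_mul p red u hu H hH lH χ θ ((mem_bs p red).1 hθ), mul_comm]

/-- the matrix of contributions is idempotent -/
theorem MM_mul (u : G) (hu : ∃ a : ℕ, u ^ p ^ a = 1) (H : Subgroup G)
    (hH : ∀ x, x ∈ H ↔ x * u = u * x) (lH : (H → k) → k) (χ χ' : Irr G) :
    ∑ ψ : Irr G, MM p red H u lH χ.1 ψ.1 * MM p red H u lH ψ.1 χ'.1 =
      MM p red H u lH χ.1 χ'.1 := by
  obtain ⟨e, he⟩ := id hu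
  have h1 : ∀ ψ : Irr G, MM p red H u lH χ.1 ψ.1 * MM p red H u lH ψ.1 χ'.1 =
      ∑ η ∈ bs red lH, ∑ θ ∈ bs red lH, gg p H u χ.1 η.1 * (starRingEnd ℂ) (gg p H u χ'.1 θ.1) *
        (gg p H u ψ.1 θ.1 * (starRingEnd ℂ) (gg p H u ψ.1 η.1)) := by
    intro ψ
    rw [MM, MM, Finset.sum_mul_sum]
    exact Finset.sum_congr rfl fun η _ => Finset.sum_congr rfl fun θ _ => by ring
  rw [Finset.sum_congr rfl fun ψ _ => h1 ψ, Finset.sum_comm]
  have h2 : ∀ η ∈ bs red lH, ∑ ψ : Irr G, ∑ θ ∈ bs red lH, gg p H u χ.1 η.1 *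
      (starRingEnd ℂ) (gg p H u χ'.1 θ.1) *
        (gg p H u ψ.1 θ.1 * (starRingEnd ℂ) (gg p H u ψ.1 η.1)) =
      ∑ θ ∈ bs red lH, gg p H u χ.1 η.1 * (starRingEnd ℂ) (gg p H u χ'.1 θ.1) * mm p η.1 θ.1 := by
    intro η _
    rw [Finset.sum_comm]
    refine Finset.sum_congr rfl fun θ _ => ?_
    rw [← Finset.mul_sum, gg_gram p u hu H hH]
  rw [Finset.sum_congr rfl h2, Finset.sum_comm, MM]
  refine Finset.sum_congr rfl fun θ hθ => ?_
  rw [← gg_mul p red u he H hH lH χ θ ((mem_bs p red).1 hθ), Finset.sum_mul]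
  exact Finset.sum_congr rfl fun η _ => by ring

/-- the trace of the matrix of contributions -/
theorem MM_trace (u : G) (hu : ∃ a : ℕ, u ^ p ^ a = 1) (H : Subgroup G)
    (hH : ∀ x, x ∈ H ↔ x * u = u * x) (lH : (H → k) → k) :
    ∑ χ : Irr G, MM p red H u lH χ.1 χ.1 = ∑ η ∈ bs red lH, mm p η.1 η.1 := by
  simp only [MM]
  rw [Finset.sum_comm]
  exact Finset.sum_congr rfl fun η _ => gg_gram p u hu H hH η η

end GG

end P179T
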