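import Vale.Agent.P179.H526.M9a
import Vale.Agent.P179.H526.N1
import Vale.Agent.P179.H526.KY

/-!
# Heights and central characters
-/

namespace P179T

open P179H524 P179C P179A Finset P179P P179Y Subgroup

open P179X (pp)

open scoped Classical

section Height

variable {p : ℕ} [hp : Fact p.Prime] {k : Type*} [Field k] [CharP k p]
  (red : integralClosure ℤ ℂ →+* k) {G : Type} [Group G] [Fintype G]

/-- the height of a character is nonnegative -/
theorem height {D : Subgroup G} {l : (G → k) → k} (hl : BP p D l) (hD : IsPGroup p D)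
    (hab : D ≤ centralizer (D : Set G))
    (hT : ¬ p ∣ (centralizer (D : Set G)).relIndex (stabT D l)) (χ : Irr G)
    (hχ : InL red l χ.1) :
    ∃ V W : AA, red V ≠ 0 ∧ (V : ℂ) * (Nat.card D * χ.1 1) = Nat.card G * W := by
  obtain ⟨y, hy, hyD, hly⟩ := exists_Y hl hD hab hT
  obtain ⟨x, hx, hlx⟩ := exists_cls_ne (hl.isHomCF' hD) hy hly
  obtain ⟨R, hR⟩ := exists_sylCent p x
  obtain ⟨c, hc⟩ := hyD x hx R hR.pgp hR.le
  have hcard : Nat.card R ∣ Nat.card D := by
    let f : R →* D :=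
      { toFun := fun y => ⟨c⁻¹ * y * c, hc y y.2⟩
        map_one' := by ext; simp
        map_mul' := fun a b => by ext; simp [mul_assoc] }
    refine Subgroup.card_dvd_of_injective f fun a b hab => ?_
    have h1 : c⁻¹ * (a : G) * c = c⁻¹ * (b : G) * c := congrArg Subtype.val hab
    exact Subtype.ext (mul_left_cancel (mul_right_cancel h1))
  obtain ⟨j, hj⟩ := hcard
  obtain ⟨m, hm, hcm⟩ := hR.ndvd
  obtain ⟨Y, hY, hYl⟩ := exists_om_cls red χ x
  have hclass : Nat.card (centralizer {x} : Subgroup G) * Nat.card {y : G // IsConj x y} =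
      Nat.card G := by
    rw [← card_class_mul x]
    congr 1
    rw [Nat.card_eq_fintype_card, Fintype.card_subtype]
  refine ⟨m * Y, j * ⟨χ.1 x, χ.integral x⟩, ?_, ?_⟩
  · rw [map_mul, map_natCast, hYl, hχ _ (isCF_cls x)]
    refine mul_ne_zero ?_ hlx
    rwa [Ne, CharP.cast_eq_zero_iff k p]
  · have h3 : (Nat.card R : ℂ) * m * Nat.card {y : G // IsConj x y} = Nat.card G := by
      rw [← hclass, hcm]
      push_cast
      ring
    have h4 : (Nat.card D : ℂ) = Nat.card R * j := by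
      rw [hj]; push_cast; ring
    push_cast
    calc (m : ℂ) * Y * (Nat.card D * χ.1 1) = Nat.card R * m * j * (Y * χ.1 1) := by
          rw [h4]; ring
      _ = (Nat.card R * m * Nat.card {y : G // IsConj x y}) * (j * χ.1 x) := by rw [hY]; ring
      _ = _ := by rw [h3]

end Height

section Cong

variable {k : Type*} [Field k] (p : ℕ) [hp : Fact p.Prime] [CharP k p]
  (red : integralClosure ℤ ℂ →+* k) {G : Type*} [Group G] [Fintype G]

omit hp [CharP k p] in
include p in
/-- central characters of relative traces from `C_G(u)` -/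
theorem om_trG (H : Subgroup G) {l : (G → k) → k} (u : G) (hH : ∀ x, x ∈ H ↔ x * u = u * x)
    {E : H → AA} (hEcf : IsCF E) (χ : Irr G) (hχ : InL red l χ.1) :
    ∃ X : AA, (X : ℂ) * χ.1 1 = H.index * ∑ t : H, (E t : ℂ) * χ.1 (u * t) ∧
      red X = l (trG H (fun x => ext H (fun t => red (E t)) (u⁻¹ * x))) := by
  -- the integral function on `G`
  set A : G → AA := fun x => if h : u⁻¹ * x ∈ H then E ⟨u⁻¹ * x, h⟩ else 0 with hA
  have hAinv : ∀ h ∈ H, ∀ x, A (h * x * h⁻¹) = A x := by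
    intro h hh x
    have hcomm : u⁻¹ * h = h * u⁻¹ := by
      rw [inv_mul_eq_iff_eq_mul, ← mul_assoc, ← (hH h).1 hh, mul_inv_cancel_right]
    have h1 : u⁻¹ * (h * x * h⁻¹) = h * (u⁻¹ * x) * h⁻¹ := by
      rw [← mul_assoc, ← mul_assoc, hcomm]; simp only [mul_assoc]
    have h2 : u⁻¹ * (h * x * h⁻¹) ∈ H ↔ u⁻¹ * x ∈ H := by
      rw [h1]
      constructor
      · intro h3
        have := H.mul_mem (H.mul_mem (H.inv_mem hh) h3) hh
        have e : h⁻¹ * (h * (u⁻¹ * x) * h⁻¹) * h = u⁻¹ * x := by group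
        rwa [e] at this
      · intro h3
        exact H.mul_mem (H.mul_mem hh h3) (H.inv_mem hh)
    simp only [hA]
    by_cases h3 : u⁻¹ * x ∈ H
    · rw [dif_pos h3, dif_pos (h2.2 h3)]
      have h4 : (⟨u⁻¹ * (h * x * h⁻¹), h2.2 h3⟩ : H) = ⟨h, hh⟩ * ⟨u⁻¹ * x, h3⟩ * ⟨h, hh⟩⁻¹ :=
        Subtype.ext h1
      rw [h4, hEcf]
    · rw [dif_neg h3, dif_neg fun h4 => h3 (h2.1 h4)]
  set Y : G → AA := fun g => ∑ c : G ⧸ H, A (c.out⁻¹ * g * c.out) with hY
  have hYcf : IsCF Y := tr_isCF H A hAinv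
  obtain ⟨X, hX, hX2⟩ := exists_omAA red χ hYcf
  refine ⟨X, ?_, ?_⟩
  · rw [hX, omC, div_mul_cancel₀ _ χ.one_ne_zero]
    have h1 : ∑ g : G, (Y g : ℂ) * χ.1 g = H.index * ∑ g : G, (A g : ℂ) * χ.1 g := by
      rw [← sum_tr H (fun g => (A g : ℂ)) χ.1 χ.isCF]
      refine Finset.sum_congr rfl fun g _ => ?_
      simp only [hY]
      push_cast
      rfl
    have h2 : ∑ g : G, (A g : ℂ) * χ.1 g = ∑ t : H, (E t : ℂ) * χ.1 (u * t) := by
      rw [← Equiv.sum_comp (Equiv.mulLeft u) (fun g => (A g : ℂ) * χ.1 g)]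
      have h4 : ∀ g : G, ((A (Equiv.mulLeft u g) : AA) : ℂ) * χ.1 (Equiv.mulLeft u g) =
          if h : g ∈ H then (E ⟨g, h⟩ : ℂ) * χ.1 (u * g) else 0 := by
        intro g
        simp only [hA, Equiv.coe_mulLeft, inv_mul_cancel_left]
        split_ifs
        · rfl
        · simp
      rw [Finset.sum_congr rfl fun g _ => h4 g]
      rw [← Finset.sum_subset (Finset.subset_univ (univ.filter fun g : G => g ∈ H))]
      · refine Finset.sum_bij' (i := fun g hg => (⟨g, (mem_filter.1 hg).2⟩ : H))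
          (j := fun t _ => (t : G)) (fun _ _ => mem_univ _)
          (fun t _ => mem_filter.2 ⟨mem_univ _, t.2⟩) (fun _ _ => rfl) (fun _ _ => rfl) ?_
        intro g hg
        rw [dif_pos (mem_filter.1 hg).2]
      · intro g _ hg
        rw [dif_neg fun h => hg (mem_filter.2 ⟨mem_univ _, h⟩)]
    rw [h1, h2]
  · have hYk : IsCF fun g => red (Y g) := fun t x => congrArg red (hYcf t x)
    rw [hX2, hχ _ hYk]
    congr 1
    ext g
    rw [trG]
    simp only [hY, map_sum]
    refine Finset.sum_congr rfl fun c _ => ?_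
    simp only [hA, P179Y.ext]
    split_ifs
    · rfl
    · exact map_zero red

/-- the function `t ↦ η(t⁻¹)` on the `p`-regular elements -/
noncomputable def zb {H : Type*} [Group H] [Finite H] (η : Irr H) (t : H) : AA :=
  if ¬ p ∣ orderOf t then chA η t⁻¹ else 0

omit hp in
theorem zb_isCF {H : Type*} [Group H] [Finite H] (η : Irr H) : IsCF (zb p η) := by
  intro t x
  unfold zb
  rw [orderOf_conj]
  have e : (t * x * t⁻¹)⁻¹ = t * x⁻¹ * t⁻¹ := by group
  rw [e, chA_isCF η]

/-- the value of the central character of the block at the relative trace -/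
noncomputable def xv (H : Subgroup G) (u : G) (l : (G → k) → k) (η : Irr H) : k :=
  l (trG H (fun x => ext H (fun t => red (zb p η t)) (u⁻¹ * x)))

omit hp [CharP k p] in
theorem om_gg (H : Subgroup G) {l : (G → k) → k} (u : G) (hH : ∀ x, x ∈ H ↔ x * u = u * x)
    (η : Irr H) (χ : Irr G) (hχ : InL red l χ.1) :
    ∃ X : AA, (X : ℂ) * χ.1 1 = Nat.card G * gg p H u χ.1 η.1 ∧ red X = xv p red H u l η := by
  obtain ⟨X, hX, hX2⟩ := om_trG p red H u hH (zb_isCF p η) χ hχ
  refine ⟨X, ?_, hX2⟩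
  have hH0 : (Nat.card H : ℂ) ≠ 0 := by exact_mod_cast Nat.card_pos.ne'
  rw [hX, gg, rsum_eq, Finset.sum_filter]
  have h1 : ∑ t : H, ((zb p η t : AA) : ℂ) * χ.1 (u * t) =
      ∑ t : H, if ¬ p ∣ orderOf t then χ.1 (u * t) * η.1 t⁻¹ else 0 := by
    refine Finset.sum_congr rfl fun t _ => ?_
    by_cases ht : ¬ p ∣ orderOf t
    · rw [zb, if_pos ht, if_pos ht]
      exact mul_comm (η.1 t⁻¹) (χ.1 (u * t))
    · rw [zb, if_neg ht, if_neg ht]
      exact zero_mul _
  rw [h1, ← mul_assoc]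
  congr 1
  have h2 : (Nat.card G : ℂ) = Nat.card H * H.index := by
    rw [← Subgroup.card_mul_index H]; push_cast; ring
  rw [h2]
  field_simp

end Cong

end P179T
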