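import Vale.Agent.P179.H526.M9d
import Vale.Agent.P179.H526.FrobB
import Vale.Agent.P179.H526.Bridge
import Vale.Agent.P179.H524.P7
import Vale.Agent.P179.H166.K6p3

/-!
# `l(B) ≤ k(B) - 1` and the number of weights
-/

namespace P179T

open P179H524 P179C P179A Finset P179P P179Y Subgroup

open P179X (pp SameSec IrrB Srat autOrd)

open scoped Classical

variable {p : ℕ} [hp : Fact p.Prime] {k : Type*} [Field k] [IsAlgClosed k] [CharP k p]
  (red : integralClosure ℤ ℂ →+* k) {G : Type} [Group G] [Fintype G]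

/-- `l(B) < k(B)` -/
theorem numSimple_lt {B : MonoidAlgebra k G} (hB : IsBlock B) {l : (G → k) → k}
    (hlB : ∀ χ : Irr G, InL red l χ.1 ↔ CharInBlock red χ.1 B) (χ : Irr G) (hχ : InL red l χ.1)
    (x : G) (hx : p ∣ orderOf x) (hne : χ.1 x ≠ 0) :
    numSimpleIn B < (univ.filter fun χ : Irr G => InL red l χ.1).card := by
  obtain ⟨r, hr, hr2⟩ := P179P.N3 p red hB (fun x y h => sec_orth p red B x y h)
  refine lt_of_le_of_lt hr ?_
  have h1 : (r : ℂ) * Nat.card G = ∑ ψ ∈ univ.filter (fun ψ : Irr G => InL red l ψ.1),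
      ∑ g ∈ univ.filter (fun g : G => ¬ p ∣ orderOf g), ψ.1 g * ψ.1 g⁻¹ := by
    rw [hr2, Finset.sum_comm, sum_IrrB red B (fun χ => ∑ g ∈ univ.filter
      (fun g : G => ¬ p ∣ orderOf g), χ g * χ g⁻¹), Finset.sum_filter]
    exact Finset.sum_congr rfl fun ψ _ => if_congr (hlB ψ).symm rfl rfl
  have h2 : ∀ ψ : Irr G, ∑ g ∈ univ.filter (fun g : G => ¬ p ∣ orderOf g), ψ.1 g * ψ.1 g⁻¹ =
      ((∑ g ∈ univ.filter (fun g : G => ¬ p ∣ orderOf g), Complex.normSq (ψ.1 g) : ℝ) : ℂ) := by
    intro ψ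
    push_cast
    refine Finset.sum_congr rfl fun g _ => ?_
    rw [Irr.inv_eq_conj, Complex.mul_conj]
  have h3 : ∀ ψ : Irr G, ∑ g : G, Complex.normSq (ψ.1 g) = (Nat.card G : ℝ) := by
    intro ψ
    have h4 := irrChar_inner ψ.2 ψ.2
    rw [if_pos rfl] at h4
    have h5 : ∑ g : G, ψ.1 g * ψ.1 g⁻¹ = ((∑ g : G, Complex.normSq (ψ.1 g) : ℝ) : ℂ) := by
      push_cast
      refine Finset.sum_congr rfl fun g _ => ?_
      rw [Irr.inv_eq_conj, Complex.mul_conj]
    rw [h5, ← Nat.card_eq_fintype_card] at h4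
    exact_mod_cast h4
  have h4 : ∀ ψ : Irr G, ∑ g ∈ univ.filter (fun g : G => ¬ p ∣ orderOf g),
      Complex.normSq (ψ.1 g) ≤ (Nat.card G : ℝ) := by
    intro ψ
    rw [← h3 ψ]
    exact Finset.sum_le_sum_of_subset_of_nonneg (Finset.filter_subset _ _)
      fun _ _ _ => Complex.normSq_nonneg _
  have h5 : ∑ g ∈ univ.filter (fun g : G => ¬ p ∣ orderOf g),
      Complex.normSq (χ.1 g) < (Nat.card G : ℝ) := by
    rw [← h3 χ]
    refine Finset.sum_lt_sum_of_subset (Finset.filter_subset _ _) (mem_univ x) ?_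
      (Complex.normSq_pos.2 hne) fun _ _ _ => Complex.normSq_nonneg _
    rw [mem_filter]
    exact fun h => h.2 hx
  rw [Finset.sum_congr rfl fun ψ _ => h2 ψ] at h1
  have h6 : (r : ℝ) * Nat.card G = ∑ ψ ∈ univ.filter (fun ψ : Irr G => InL red l ψ.1),
      ∑ g ∈ univ.filter (fun g : G => ¬ p ∣ orderOf g), Complex.normSq (ψ.1 g) := by
    exact_mod_cast h1
  have h7 : ∑ ψ ∈ univ.filter (fun ψ : Irr G => InL red l ψ.1),
      ∑ g ∈ univ.filter (fun g : G => ¬ p ∣ orderOf g), Complex.normSq (ψ.1 g) <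
      ∑ ψ ∈ univ.filter (fun ψ : Irr G => InL red l ψ.1), (Nat.card G : ℝ) :=
    Finset.sum_lt_sum (fun ψ _ => h4 ψ) ⟨χ, mem_filter.2 ⟨mem_univ _, hχ⟩, h5⟩
  rw [← h6, Finset.sum_const, nsmul_eq_mul] at h7
  have h8 : (0 : ℝ) < Nat.card G := by exact_mod_cast Nat.card_pos
  have h9 := lt_of_mul_lt_mul_right h7 h8.le
  exact_mod_cast h9

/-- the number of weights is less than the number of characters of the block of `N_G(D)` -/
theorem numWeights_lt {B : MonoidAlgebra k G} {D : Subgroup G}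
    {l : (G → k) → k} (hl : BP p D l) (hD : IsPGroup p D) (hab : D ≤ centralizer (D : Set G))
    (hT : ¬ p ∣ (centralizer (D : Set G)).relIndex (stabT D l))
    (hlB : ∀ z : G → k, IsCF z → l z = centralChar B (mkF z)) {u : G} (hu : u ∈ D) (hu1 : u ≠ 1)
    {b : ℕ} (hb : (univ.filter fun ψ : Irr (normalizer (D : Set G)) =>
      InL red (lres (normalizer (D : Set G)) l) ψ.1).card ≤ b + 1) :
    numWeightsIn p red B ≤ b := by
  refine numWeights_le red hl hD hab hT hlB fun S hS => ?_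
  have hDN : D ≤ normalizer (D : Set G) := le_normalizer
  have hsub : S ⊆ univ.filter fun ψ : Irr (normalizer (D : Set G)) =>
      InL red (lres (normalizer (D : Set G)) l) ψ.1 := by
    intro χ hχ
    rw [mem_filter]
    refine ⟨mem_univ _, fun z hz => ?_⟩
    rw [(hS χ hχ).lam z hz, hl.cut]
    rfl
  have hne : S ≠ univ.filter fun ψ : Irr (normalizer (D : Set G)) =>
      InL red (lres (normalizer (D : Set G)) l) ψ.1 := by
    intro heq
    set v : normalizer (D : Set G) := ⟨u, hDN hu⟩ with hv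
    have hv1 : v ≠ 1 := fun h => hu1 (congrArg Subtype.val h)
    have hvp : ∃ n : ℕ, v ^ p ^ n = 1 := by
      obtain ⟨n, hn⟩ := hD ⟨u, hu⟩
      have h : u ^ p ^ n = 1 := congrArg Subtype.val hn
      exact ⟨n, Subtype.ext h⟩
    have hvpp : pp p v = v := by
      have h := pp_eq (p := p) (a := v) (b := 1) (by simp) hvp (by
        rw [orderOf_one]
        exact fun h => hp.out.one_lt.ne' (Nat.dvd_one.1 h))
      rwa [mul_one] at h
    have hsec : ¬ SameSec p v 1 := by
      unfold SameSec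
      have h1 : pp p (1 : normalizer (D : Set G)) = 1 := by
        rw [pp_eq_one_iff, orderOf_one]
        exact fun h => hp.out.one_lt.ne' (Nat.dvd_one.1 h)
      rw [hvpp, h1, isConj_comm, isConj_one_right]
      exact hv1
    have h0 := KK_sec p red (lres (normalizer (D : Set G)) l) v 1 hsec
    have h1 : KK red (lres (normalizer (D : Set G)) l) v 1 =
        ∑ χ ∈ S, ((Complex.normSq (χ.1 1) : ℝ) : ℂ) := by
      rw [KK, ← Finset.sum_filter, ← heq]
      refine Finset.sum_congr rfl fun χ hχ => ?_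
      have h2 := (hS χ hχ).wt.ker v (mem_subgroupOf.2 hu) 1
      rw [mul_one] at h2
      rw [h2, Irr.inv_eq_conj, Complex.mul_conj]
    rw [h0] at h1
    have h2 : (0 : ℝ) = ∑ χ ∈ S, Complex.normSq (χ.1 1) := by exact_mod_cast h1
    -- `S` is not empty
    have hCN : centralizer (D : Set G) ≤ normalizer (D : Set G) := cent_le_norm D
    have hl' := hl.restrict hDN hCN
    have hD' : IsPGroup p (D.subgroupOf (normalizer (D : Set G))) := hD.comap_subtype
    have hab' : D.subgroupOf (normalizer (D : Set G)) ≤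
        centralizer ((D.subgroupOf (normalizer (D : Set G)) : Subgroup _) : Set _) := by
      intro x hx
      rw [mem_cent_subgroupOf hDN]
      exact hab (by simpa [Subgroup.mem_subgroupOf] using hx)
    obtain ⟨η, hη⟩ := exists_inL p red (hl'.isHomCF hD' hab')
    have hηS : η ∈ S := by
      rw [heq, mem_filter]
      exact ⟨mem_univ _, hη⟩
    have h3 : 0 < ∑ χ ∈ S, Complex.normSq (χ.1 1) :=
      Finset.sum_pos' (fun _ _ => Complex.normSq_nonneg _)
        ⟨η, hηS, Complex.normSq_pos.2 η.one_ne_zero⟩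
    rw [← h2] at h3
    exact lt_irrefl _ h3
  have h4 := Finset.card_lt_card (Finset.ssubset_iff_subset_ne.2 ⟨hsub, hne⟩)
  omega

end P179T
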