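import Vale.Agent.P179.H526.M9e
import Vale.Agent.P179.H143.T6B2
import Vale.Agent.P179.H143.T6C
import Vale.Agent.P179.H166.Y4

/-!
# 3-blocks with elementary abelian defect group of order 9
-/

namespace P179T

open P179H524 P179C P179A Finset P179P P179Y Subgroup

open P179X (pp SameSec IrrB Srat autOrd)

open scoped Classical

variable {k : Type*} [Field k] [IsAlgClosed k] [CharP k 3]
  (red : integralClosure ℤ ℂ →+* k) {G : Type} [Group G] [Fintype G]

omit [IsAlgClosed k] [CharP k 3] in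
theorem mm_self_eq {H : Type} [Group H] [Fintype H] (η : Irr H) : (mm 3 η.1 η.1).re =
    (∑ t ∈ univ.filter (fun s : H => ¬ 3 ∣ orderOf s), ‖η.1 t‖ ^ 2) / Nat.card H := by
  have h1 : mm 3 η.1 η.1 = (((∑ t ∈ univ.filter (fun s : H => ¬ 3 ∣ orderOf s), ‖η.1 t‖ ^ 2) /
      Nat.card H : ℝ) : ℂ) := by
    rw [mm, rsum_eq, div_eq_inv_mul]
    push_cast
    congr 1
    refine Finset.sum_congr rfl fun t _ => ?_
    rw [Irr.inv_eq_conj, Complex.mul_conj, Complex.normSq_eq_norm_sq]
    push_cast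
    rfl
  rw [h1, Complex.ofReal_re]

/-- **Theorem K9** -/
theorem K9 {D : Subgroup G} {l : (G → k) → k} (hl : BP 3 D l) (hD : IsPGroup 3 D)
    (hab : D ≤ centralizer (D : Set G))
    (hT : ¬ 3 ∣ (centralizer (D : Set G)).relIndex (stabT D l)) (hcard : Nat.card D = 9)
    (hexp : ∀ a ∈ D, a ^ 3 = 1) {u : G} (hu : u ∈ D) (hu1 : u ≠ 1) :
    (univ.filter fun χ : Irr G => InL red l χ.1).card ≤ 9 ∧
      ∀ χ : Irr G, InL red l χ.1 → ∃ x : G, 3 ∣ orderOf x ∧ χ.1 x ≠ 0 := by
  have : Fact (Nat.Prime 3) := ⟨Nat.prime_three⟩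
  obtain ⟨H, hHu⟩ : ∃ H : Subgroup G, H = centralizer {u} := ⟨_, rfl⟩
  have hDH : D ≤ H := hHu ▸ le_cent_of_mem hu hab
  have hCH : centralizer (D : Set G) ≤ H := hHu ▸ cent_le_of_mem hu
  have hlH := hl.restrict hDH hCH
  have habH : D.subgroupOf H ≤ centralizer ((D.subgroupOf H : Subgroup H) : Set H) := by
    intro x hx
    rw [mem_cent_subgroupOf hDH]
    exact hab (by simpa [Subgroup.mem_subgroupOf] using hx)
  have hTH : ¬ 3 ∣ (centralizer ((D.subgroupOf H : Subgroup H) : Set H)).relIndex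
      (stabT (D.subgroupOf H) (lres H l)) :=
    fun h => hT (h.trans (relIndex_stabT_lres_dvd hDH hCH))
  have hcardH : Nat.card (D.subgroupOf H) = 9 := by
    rw [← hcard]
    exact Nat.card_congr (Subgroup.subgroupOfEquivOfLe hDH).toEquiv
  set u' : H := ⟨u, hDH hu⟩ with hu'
  obtain ⟨-, hC1, hC2⟩ := pieceC red (D := D.subgroupOf H) (l := lres H l) hlH hcardH
    (fun a ha => Subtype.ext (hexp a (mem_subgroupOf.1 ha))) habH hTH (u := u')
    (mem_subgroupOf.2 hu) (fun h => hu1 (congrArg Subtype.val h))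
    (fun x => Subtype.ext (by
      have h := x.2
      have h2 : (x : G) ∈ centralizer {u} := hHu ▸ h
      exact mem_centralizer_singleton_iff.1 h2))
  obtain ⟨h1, h2⟩ := K9_of red hl hD hab hT hcard hu (hexp u hu) hHu (stA 3 H)
    (fun η hη => xv_eq 3 red hl hD hab hT hu hHu η hη) (fun η hη => by
      rw [mm_self_eq]
      linarith [hC1 η hη]) (by
      rw [Complex.re_sum]
      have h3 : bs red (lres H l) = univ.filter fun η : Irr H => InL red (lres H l) η.1 := by
        ext η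
        rw [mem_bs 3 red, mem_filter]
        simp
      rw [h3]
      refine le_trans (le_of_eq ?_) hC2
      exact Finset.sum_congr rfl fun η _ => mm_self_eq η)
  refine ⟨h1, fun χ hχ => ?_⟩
  obtain ⟨t, ht, hne⟩ := h2 χ hχ
  refine ⟨u * t, ?_, hne⟩
  by_contra h3
  have hup : ∃ n : ℕ, u ^ 3 ^ n = 1 := ⟨1, by rw [pow_one]; exact hexp u hu⟩
  have h4 : pp 3 (u * (t : G)) = u := by
    refine pp_eq ?_ hup (by rwa [Subgroup.orderOf_coe])
    have h := t.2
    have h2 : (t : G) ∈ centralizer {u} := hHu ▸ h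
    exact (mem_centralizer_singleton_iff.1 h2).symm
  rw [(pp_eq_one_iff _).2 h3] at h4
  exact hu1 h4.symm

/-- **Theorem**: `l = w` for 3-blocks with elementary abelian defect group of order 9 -/
theorem main_ea9 {B : MonoidAlgebra k G} (hB : IsBlock B) {D : Subgroup G}
    (hBD : IsDefectGroup B D) (hcard : Nat.card D = 9) (hexp : ∀ a ∈ D, a ^ 3 = 1) :
    haveI : Fact (Nat.Prime 3) := ⟨Nat.prime_three⟩
    numSimpleIn B = numWeightsIn 3 red B := by
  have : Fact (Nat.Prime 3) := ⟨Nat.prime_three⟩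
  have hDab : ∀ a ∈ D, ∀ b ∈ D, a * b = b * a := by
    have h1 : Nat.card D = 3 ^ 2 := by rw [hcard]; norm_num
    intro a ha b hb
    have h2 := (IsPGroup.isMulCommutative_of_card_eq_prime_sq h1).is_comm.comm ⟨a, ha⟩ ⟨b, hb⟩
    exact congrArg Subtype.val h2
  have hab : D ≤ centralizer (D : Set G) := by
    intro x hx
    rw [mem_centralizer_iff]
    intro y hy
    exact hDab y hy x hx
  obtain ⟨hDp, l, hl, hlz⟩ := exists_BP_of_block (p := 3) B hB D hBD
  have hlB : ∀ χ : Irr G, InL red l χ.1 ↔ CharInBlock red χ.1 B := inL_iff red hB hlz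
  have hT := inertial_coprime hB hBD hDab hl hDp hlz
  have hne : ∃ u ∈ D, u ≠ 1 := by
    by_contra hcon
    push Not at hcon
    have h1 : D = ⊥ := (Subgroup.eq_bot_iff_forall D).2 hcon
    rw [h1, Subgroup.card_bot] at hcard
    omega
  obtain ⟨u, hu, hu1⟩ := hne
  -- `l(B) ≤ 8`
  obtain ⟨h9, hsing⟩ := K9 red hl hDp hab hT hcard hexp hu hu1
  obtain ⟨χ, hχ⟩ := exists_inL 3 red (hl.isHomCF hDp hab)
  obtain ⟨x, hx, hxne⟩ := hsing χ hχ
  have hl8 := numSimple_lt (p := 3) red hB hlB χ hχ x hx hxne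
  -- `w(B) ≤ 8`
  have hw8 : numWeightsIn 3 red B ≤ 8 := by
    refine numWeights_lt red hl hDp hab hT hlz hu hu1 (b := 8) ?_
    have hDN : D ≤ normalizer (D : Set G) := le_normalizer
    have hCN : centralizer (D : Set G) ≤ normalizer (D : Set G) := cent_le_norm D
    have hcard' : Nat.card (D.subgroupOf (normalizer (D : Set G))) = 9 := by
      rw [← hcard]
      exact Nat.card_congr (Subgroup.subgroupOfEquivOfLe hDN).toEquiv
    refine (K9 red (hl.restrict hDN hCN) hDp.comap_subtype ?_ ?_ hcard'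
      (fun a ha => Subtype.ext (hexp a (mem_subgroupOf.1 ha)))
      (u := ⟨u, hDN hu⟩) (mem_subgroupOf.2 hu) (fun h => hu1 (congrArg Subtype.val h))).1
    · intro x hx
      rw [mem_cent_subgroupOf hDN]
      exact hab (by simpa [Subgroup.mem_subgroupOf] using hx)
    · exact fun h => hT (h.trans (relIndex_stabT_lres_dvd hDN hCN))
  have h10 := P179C.theoremC9 red B hB D hBD hDab
  exact h10.eq_of_lt_of_lt (by omega) (by omega)

end P179T
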