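import Vale.Agent.P179.H526.M9f
import Vale.Agent.P179.H143.T6R

/-!
# 3-blocks with defect groups of order 9
-/

namespace P179T

open P179H524 P179C P179A Finset P179P P179Y Subgroup

open P179X (pp SameSec IrrB Srat autOrd)

open scoped Classical

section

variable {p : ℕ} [hp : Fact p.Prime] {k : Type*} [Field k] [IsAlgClosed k] [CharP k p]
  (red : integralClosure ℤ ℂ →+* k) {G : Type} [Group G] [Fintype G]

/-- the characters of the block do not vanish on the section of a regular element -/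
theorem exists_sing_of_RegT {D : Subgroup G} {l : (G → k) → k} (hl : BP p D l)
    (hD : IsPGroup p D) (hab : D ≤ centralizer (D : Set G))
    (hT : ¬ p ∣ (centralizer (D : Set G)).relIndex (stabT D l)) {u : G} (hu : RegT D l u)
    (hu1 : u ≠ 1) (χ : Irr G) (hχ : InL red l χ.1) : ∃ x : G, p ∣ orderOf x ∧ χ.1 x ≠ 0 := by
  obtain ⟨φ, hφ⟩ := exists_NDT p red hl hD hab hu
  obtain ⟨a, b, -, hb, hab'⟩ := hφ.unit
  have hH : ∀ x, x ∈ centralizer {u} ↔ x * u = u * x := fun x => mem_centralizer_singleton_iff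
  have hne := dn_ne_zero p red (centralizer {u}) Nat.card_pos.ne' hφ hb hab' u hH
    hl.smul (κ := ((centralizer (D : Set G)).relIndex (stabT D l) : k))
    (by rwa [Ne, CharP.cast_eq_zero_iff k p]) (K5P_ofT p red hl hD hab hu) χ hχ
  have hex : ∃ t : centralizer {u}, ¬ p ∣ orderOf t ∧ χ.1 (u * t) ≠ 0 := by
    by_contra hcon
    push Not at hcon
    apply hne
    rw [dn, rsum_eq, Finset.sum_eq_zero, mul_zero]
    intro t ht
    rw [hcon t (mem_filter.1 ht).2, zero_mul]
  obtain ⟨t, ht, htne⟩ := hex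
  refine ⟨u * t, ?_, htne⟩
  by_contra h3
  obtain ⟨c, hc⟩ := hD ⟨u, hu.1⟩
  have hup : ∃ n : ℕ, u ^ p ^ n = 1 := ⟨c, by simpa using congrArg Subtype.val hc⟩
  have h4 : pp p (u * (t : G)) = u :=
    pp_eq ((hH _).1 t.2).symm hup (by rwa [Subgroup.orderOf_coe])
  rw [(pp_eq_one_iff _).2 h3] at h4
  exact hu1 h4.symm

end

section

variable {k : Type*} [Field k] [IsAlgClosed k] [CharP k 3]
  (red : integralClosure ℤ ℂ →+* k) {G : Type} [Group G] [Fintype G]

/-- `k(B) ≤ 9`, for `|D| = 9` -/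
theorem K9' {D : Subgroup G} {l : (G → k) → k} (hl : BP 3 D l) (hD : IsPGroup 3 D)
    (hab : D ≤ centralizer (D : Set G))
    (hT : ¬ 3 ∣ (centralizer (D : Set G)).relIndex (stabT D l)) (hcard : Nat.card D = 9) :
    (univ.filter fun χ : Irr G => InL red l χ.1).card ≤ 9 ∧
      ∀ χ : Irr G, InL red l χ.1 → ∃ x : G, 3 ∣ orderOf x ∧ χ.1 x ≠ 0 := by
  have : Fact (Nat.Prime 3) := ⟨Nat.prime_three⟩
  have hne : ∃ u ∈ D, u ≠ 1 := by
    by_contra hcon
    push Not at hcon
    have h1 : D = ⊥ := (Subgroup.eq_bot_iff_forall D).2 hcon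
    rw [h1, Subgroup.card_bot] at hcard
    omega
  by_cases hexp : ∀ a ∈ D, a ^ 3 = 1
  · obtain ⟨u, hu, hu1⟩ := hne
    exact K9 red hl hD hab hT hcard hexp hu hu1
  · push Not at hexp
    obtain ⟨u, hu, hu3⟩ := hexp
    have hdvd : orderOf u ∣ 9 := by
      have h1 : orderOf (⟨u, hu⟩ : D) ∣ Nat.card D := orderOf_dvd_natCard _
      rw [hcard, Subgroup.orderOf_mk] at h1
      exact h1
    have hord : orderOf u = 9 := by
      have h2 : orderOf u ∣ 3 ^ 2 := by simpa using hdvd
      obtain ⟨i, hi, hi2⟩ := (Nat.dvd_prime_pow Nat.prime_three).1 h2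
      interval_cases i
      · exfalso
        apply hu3
        have h3 : u = 1 := orderOf_eq_one_iff.1 (by simpa using hi2)
        rw [h3, one_pow]
      · exfalso
        apply hu3
        rw [← orderOf_dvd_iff_pow_eq_one, hi2, pow_one]
      · rw [hi2]; norm_num
    have hDu : D = zpowers u := by
      symm
      refine Subgroup.eq_of_le_of_card_ge ?_ ?_
      · rw [zpowers_le]
        exact hu
      · rw [hcard, Nat.card_zpowers, hord]
    have hreg : RegT D l u := regT_of_zpowers 3 hDu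
    refine ⟨?_, fun χ hχ => exists_sing_of_RegT red hl hD hab hT hreg ?_ χ hχ⟩
    · have := card_le_of_RegT 3 red hl hD hab hT hreg
      rwa [hcard] at this
    · intro h1
      apply hu3
      rw [h1, one_pow]

/-- **Theorem**: `l = w` for 3-blocks with defect groups of order 9 -/
theorem main9 {B : MonoidAlgebra k G} (hB : IsBlock B) {D : Subgroup G}
    (hBD : IsDefectGroup B D) (hcard : Nat.card D = 9) :
    haveI : Fact (Nat.Prime 3) := ⟨Nat.prime_three⟩
    numSimpleIn B = numWeightsIn 3 red B := by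
  have : Fact (Nat.Prime 3) := ⟨Nat.prime_three⟩
  have hDab : ∀ a ∈ D, ∀ b ∈ D, a * b = b * a := by
    have h1 : Nat.card D = 3 ^ 2 := by rw [hcard]; norm_num
    intro a ha b hb
    have h2 := (IsPGroup.isMulCommutative_of_card_eq_prime_sq h1).is_comm.comm ⟨a, ha⟩ ⟨b, hb⟩
    exact congrArg Subtype.val h2
  have hab : D ≤ centralizer (D : Set G) := by
    intro x hx
    rw [mem_centralizer_iff]
    intro y hy
    exact hDab y hy x hx
  obtain ⟨hDp, l, hl, hlz⟩ := exists_BP_of_block (p := 3) B hB D hBD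
  have hlB : ∀ χ : Irr G, InL red l χ.1 ↔ CharInBlock red χ.1 B := inL_iff red hB hlz
  have hT := inertial_coprime hB hBD hDab hl hDp hlz
  have hne : ∃ u ∈ D, u ≠ 1 := by
    by_contra hcon
    push Not at hcon
    have h1 : D = ⊥ := (Subgroup.eq_bot_iff_forall D).2 hcon
    rw [h1, Subgroup.card_bot] at hcard
    omega
  obtain ⟨u, hu, hu1⟩ := hne
  -- `l(B) ≤ 8`
  obtain ⟨h9, hsing⟩ := K9' red hl hDp hab hT hcard
  obtain ⟨χ, hχ⟩ := exists_inL 3 red (hl.isHomCF hDp hab)
  obtain ⟨x, hx, hxne⟩ := hsing χ hχ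
  have hl8 := numSimple_lt (p := 3) red hB hlB χ hχ x hx hxne
  -- `w(B) ≤ 8`
  have hw8 : numWeightsIn 3 red B ≤ 8 := by
    refine numWeights_lt red hl hDp hab hT hlz hu hu1 (b := 8) ?_
    have hDN : D ≤ normalizer (D : Set G) := le_normalizer
    have hCN : centralizer (D : Set G) ≤ normalizer (D : Set G) := cent_le_norm D
    have hcard' : Nat.card (D.subgroupOf (normalizer (D : Set G))) = 9 := by
      rw [← hcard]
      exact Nat.card_congr (Subgroup.subgroupOfEquivOfLe hDN).toEquiv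
    refine (K9' red (hl.restrict hDN hCN) hDp.comap_subtype ?_ ?_ hcard').1
    · intro x hx
      rw [mem_cent_subgroupOf hDN]
      exact hab (by simpa [Subgroup.mem_subgroupOf] using hx)
    · exact fun h => hT (h.trans (relIndex_stabT_lres_dvd hDN hCN))
  have h10 := P179C.theoremC9 red B hB D hBD hDab
  exact h10.eq_of_lt_of_lt (by omega) (by omega)

end

end P179T
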