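import Vale.Agent.P179.H143.R5
import Vale.Agent.P179.H166.WG
import Vale.Agent.P179.H166.PPClass
import Vale.Agent.P179.H166.PPCrit

/-!
# From the congruence modulo `p` to the congruence modulo `p²`

The blockwise Alperin weight conjecture modulo `p²` for a block `B` of `G` follows from the
congruence modulo `p` for `B` and for the central idempotent `B ⊗ ⋯ ⊗ B` of `G ≀ C_p`.
-/

namespace P179M

open Subgroup P179H524 P179A P179C P179K P179R MonoidAlgebra

open scoped Classical Pointwise

universe u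

section Idem

/-- Theorem C for central idempotents. -/
theorem idem_modEq (p : ℕ) [hp : Fact p.Prime] {𝒢 : ∀ (G : Type) [Group G], Subgroup G → Prop}
    (h𝒢 : GoodClass2 p 𝒢) {k : Type u} [Field k] [IsAlgClosed k] [CharP k p]
    (red : integralClosure ℤ ℂ →+* k) {G : Type} [Group G] [Finite G]
    (e : MonoidAlgebra k G) (he : e ∈ Subalgebra.center k (MonoidAlgebra k G)) (hee : e * e = e)
    (hP : ∀ g : G, e.coeff g ≠ 0 → ∀ P : Subgroup G, IsPGroup p P → P ≤ centralizer {g} → 𝒢 G P) :
    numSimpleIn e ≡ numW p red e [MOD p] := by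
  have := Fintype.ofFinite (ConjClasses G)
  have := Fintype.ofFinite (Quot (P179H524.Weight.Conj (p := p) (G := G)))
  obtain ⟨O, hO, hred⟩ := exists_O p red
  have hG : (Nat.card G : ℂ) ≠ 0 := by exact_mod_cast Nat.card_pos.ne'
  have hee' : (⟨e, he⟩ : Subalgebra.center k (MonoidAlgebra k G)) * ⟨e, he⟩ = ⟨e, he⟩ :=
    Subtype.ext hee
  have hW : (numW p red e : k) =
      ∑ C : ConjClasses G, e.coeff C.out * redC red (nW p (ind C) / Nat.card G) := by
    rw [numW_eq_numWc red e he, numWc_eq_card p red he, ← sum_homs_card _ hee']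
    have h1 : (⟨e, he⟩ : Subalgebra.center k (MonoidAlgebra k G)) =
        ∑ C : ConjClasses G, e.coeff C.out •
          (⟨classSum k C.out, classSum_mem_center C.out⟩ :
            Subalgebra.center k (MonoidAlgebra k G)) := by
      apply Subtype.ext
      rw [AddSubmonoidClass.coe_finsetSum]
      exact eq_sum_classSum e he
    rw [h1]
    simp only [map_sum, map_smul, smul_eq_mul]
    rw [Finset.sum_comm]
    refine Finset.sum_congr rfl fun C _ => ?_
    rw [← Finset.mul_sum]
    congr 1
    symm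
    refine redC_nW p red (isCF_ind C) _ fun g => ?_
    have : ConjClasses.mk C.out = C := Quot.out_eq C
    change (classSum k C.out).coeff g = _
    rw [coeff_classSum, this]
  have hS := P179C.numSimpleIn_eq p e he hee
  have key : (numSimpleIn e : k) = (numW p red e : k) := by
    rw [hS, hW, finsum_eq_sum_of_fintype]
    refine Finset.sum_congr rfl fun C _ => ?_
    by_cases hC : e.coeff C.out = 0
    · rw [hC, zero_mul, zero_mul]
    · congr 1
      have hz : ZG p 𝒢 (ind C) := by
        intro g hg P hP' hPg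
        have hgC : ConjClasses.mk g = C := by
          by_contra hne
          refine hg ?_
          unfold ind
          rw [if_neg hne]
          exact dvd_zero _
        have hBg : e.coeff g ≠ 0 := by
          have h4 := C2.coeff_out e he g
          rw [hgC] at h4
          rwa [← h4]
        exact hP g hBg P hP' hPg
      have hreg : RegSupp p (ind C) := by
        intro g hg hpg
        have hgC : ConjClasses.mk g = C := by
          by_contra hne
          refine hg ?_
          unfold ind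
          rw [if_neg hne]
        have h4 := C2.coeff_out e he g
        rw [hgC] at h4
        rw [osima_g p e he hee g hpg] at h4
        exact hC h4
      have hmain := main_fun_good_of2 p h𝒢 O (stepL p) (Nat.card G) G rfl (ind C) (isCF_ind C)
        hreg hz
      obtain ⟨t, ht⟩ := dvd_nL p (ind C) (isCF_ind C)
      have hint := isIntegral_nW p (G := G) C
      have hGZ : (Nat.card G : ℤ) ≠ 0 := by exact_mod_cast Nat.card_pos.ne'
      rw [ht, Int.mul_ediv_cancel_left _ hGZ]
      unfold Cong at hmain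
      rw [ht] at hmain
      have h5 : (((Nat.card G : ℤ) * t : ℤ) - nW p (ind C)) / (Nat.card G : ℂ) =
          (t : ℂ) - nW p (ind C) / Nat.card G := by
        push_cast
        rw [sub_div, mul_div_cancel_left₀ _ hG]
      rw [h5] at hmain
      have h6 : (t : ℂ) ∈ integralClosure ℤ ℂ := intCast_mem _ t
      have h7 := (hred _ (sub_mem h6 hint)).mp hmain
      have h8 : (⟨(t : ℂ) - nW p (ind C) / Nat.card G, sub_mem h6 hint⟩ : integralClosure ℤ ℂ) =
          ((t : ℤ) : integralClosure ℤ ℂ) - ⟨nW p (ind C) / Nat.card G, hint⟩ := rfl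
      rw [h8, map_sub, map_intCast, sub_eq_zero] at h7
      rw [h7, redC_of_mem red hint]
  exact (CharP.natCast_eq_natCast k p).mp key

end Idem

section Step

variable (p : ℕ) [hp : Fact p.Prime] {k : Type u} [Field k] [IsAlgClosed k] [CharP k p]

/-- the passage from `p ^ n` to `p ^ (n + 1)` -/
theorem step_modEq (red : integralClosure ℤ ℂ →+* k) {G : Type} [Group G] [Finite G] {Q : Type}
    [Group Q] [Fintype Q] (hQ : Nat.card Q = p) {e : MonoidAlgebra k G}
    (he : e ∈ Subalgebra.center k (MonoidAlgebra k G)) (hee : e * e = e) {n : ℕ} (hn : 1 ≤ n)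
    (h1 : ∀ red : integralClosure ℤ ℂ →+* k, ((p : ℤ) ^ n) ∣ (numSimpleIn e : ℤ) - numW p red e)
    (h2 : ((p : ℤ) ^ n) ∣ (numSimpleIn (ehat Q e) : ℤ) - numW p red (ehat Q e)) :
    ((p : ℤ) ^ (n + 1)) ∣ (numSimpleIn e : ℤ) - numW p red e := by
  have := Fintype.ofFinite G
  have hfin : Finite (G ≀ᵣ Q) := inferInstance
  have h1s := numSimpleIn_ehat (p := p) (Q := Q) hQ e he hee
  have h2w := numW_wr red hQ he hee
  have h4 := h1 red
  have h5 := h1 (((frobeniusEquiv k p).symm : k →+* k).comp red)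
  set l : ℤ := (numSimpleIn e : ℤ)
  set w : ℤ := (numW p red e : ℤ)
  set w2 : ℤ := (numW p (((frobeniusEquiv k p).symm : k →+* k).comp red) e : ℤ)
  set lh : ℤ := (numSimpleIn (ehat Q e) : ℤ)
  set wh : ℤ := (numW p red (ehat Q e) : ℤ)
  have h1' : (p : ℤ) * lh = l ^ p + (p - 1) * l := by
    have h6 : ((p * numSimpleIn (ehat Q e) : ℕ) : ℤ) =
        ((numSimpleIn e ^ p + (p - 1) * numSimpleIn e : ℕ) : ℤ) := by rw [h1s]
    rw [Nat.cast_mul, Nat.cast_add, Nat.cast_pow, Nat.cast_mul,
      Nat.cast_sub hp.out.one_lt.le, Nat.cast_one] at h6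
    exact h6
  have h2' : (p : ℤ) * wh + w = w ^ p + p * w2 := by
    have h6 := congrArg (fun n : ℕ => (n : ℤ)) h2w
    simp only [Nat.cast_mul, Nat.cast_add, Nat.cast_pow] at h6
    exact h6
  have h6 : l - w = (l ^ p - w ^ p) + p * (l - w2) - p * (lh - wh) := by
    linear_combination h1' - h2'
  rw [h6]
  refine dvd_sub (dvd_add (pow_dvd_pow_sub hp.out hn h4) ?_) ?_
  · rw [pow_succ, mul_comm ((p : ℤ) ^ n)]
    exact mul_dvd_mul_left _ h5
  · rw [pow_succ, mul_comm ((p : ℤ) ^ n)]
    exact mul_dvd_mul_left _ h2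

end Step

section Base

variable {p : ℕ} [hp : Fact p.Prime]

/-- evaluation of the elements of the base group at `q` -/
def ev (G Q : Type) [Group G] [Group Q] (q : Q) :
    (RegularWreathProduct.rightHom : G ≀ᵣ Q →* Q).ker →* G where
  toFun a := a.1.left q
  map_one' := rfl
  map_mul' a b := by
    have h : a.1.right = 1 := a.2
    change (a.1 * b.1).left q = _
    rw [mul_left', h, inv_one, one_mul]

/-- the `p`-subgroups centralising an element of the support of `B ⊗ ⋯ ⊗ B` -/
theorem ehat_support {k : Type u} [Field k] [CharP k p] {G : Type} [Group G] [Finite G] {Q : Type}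
    [Group Q] [Fintype Q] (B : MonoidAlgebra k G) (D : Subgroup G) (hD : IsRelTrace B D)
    (x : G ≀ᵣ Q) (hx : haveI := Fintype.ofFinite G; (ehat Q B).coeff x ≠ 0)
    (P : Subgroup (G ≀ᵣ Q)) (hP : IsPGroup p P) (hPx : P ≤ centralizer {x}) :
    ∃ c : Q → G, ∀ a ∈ P, a.right = 1 → ∀ q, (c q)⁻¹ * a.left q * c q ∈ D := by
  have := Fintype.ofFinite G
  rw [coeff_ehat, wcoef] at hx
  have hxr : x.right = 1 := by
    by_contra h
    rw [if_neg h] at hx
    exact hx rfl
  rw [if_pos hxr] at hx
  have hxq : ∀ q, B.coeff (x.left q) ≠ 0 := fun q => by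
    rw [Finset.prod_ne_zero_iff] at hx
    exact hx q (Finset.mem_univ q)
  have key : ∀ q, ∃ c : G, ∀ a ∈ P, a.right = 1 → c⁻¹ * a.left q * c ∈ D := by
    intro q
    let Pq : Subgroup G :=
      (P.subgroupOf (RegularWreathProduct.rightHom : G ≀ᵣ Q →* Q).ker).map (ev G Q q)
    have hPq : IsPGroup p Pq := by
      refine IsPGroup.map ?_ _
      exact hP.comap_subtype
    have hPqx : Pq ≤ centralizer {x.left q} := by
      rintro _ ⟨a, ha, rfl⟩
      have h1 : a.1 ∈ P := ha
      have h2 := mem_centralizer_singleton_iff.1 (hPx h1)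
      have h3 : a.1.right = 1 := a.2
      have h4 := congrArg (fun z : G ≀ᵣ Q => z.left q) h2
      simp only [mul_left', h3, hxr, inv_one, one_mul] at h4
      rw [mem_centralizer_singleton_iff]
      exact h4
    obtain ⟨c, hc⟩ := zab_of_relTrace p B D hD (x.left q) (hxq q) Pq hPq hPqx
    exact ⟨c, fun a ha har => hc _ ⟨⟨a, har⟩, ha, rfl⟩⟩
  choose c hc using key
  exact ⟨c, fun a ha har q => hc q a ha har⟩

omit hp in
/-- the index of the base group in a subgroup -/
theorem relIndex_base {G : Type} [Group G] {Q : Type} [Group Q] (hQ : Nat.card Q = p)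
    (P : Subgroup (G ≀ᵣ Q)) :
    (RegularWreathProduct.rightHom : G ≀ᵣ Q →* Q).ker.relIndex P ∣ p := by
  rw [relIndex_ker, ← hQ]
  exact card_subgroup_dvd_card _

end Base

section Main

variable (p : ℕ) [hp : Fact p.Prime] {𝒢 : ∀ (G : Type) [Group G], Subgroup G → Prop}

/-- **From `p` to `p²`.** -/
theorem modSq (h𝒢 : GoodClass2 p 𝒢) {k : Type u} [Field k] [IsAlgClosed k] [CharP k p]
    (red : integralClosure ℤ ℂ →+* k) {G : Type} [Group G] [Finite G]
    (B : MonoidAlgebra k G) (hB : IsBlock B) (D : Subgroup G) (hD : IsRelTrace B D)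
    (h1 : ∀ (P : Subgroup G) (c : G), (∀ x ∈ P, c⁻¹ * x * c ∈ D) → 𝒢 G P)
    (h2 : ∀ (Q : Type) [Group Q] [Fintype Q], Nat.card Q = p → ∀ P : Subgroup (G ≀ᵣ Q),
      IsPGroup p P → ∀ c : Q → G, (∀ a ∈ P, a.right = 1 → ∀ q, (c q)⁻¹ * a.left q * c q ∈ D) →
      𝒢 (G ≀ᵣ Q) P) :
    numSimpleIn B ≡ numWeightsIn p red B [MOD p ^ 2] := by
  have := Fintype.ofFinite G
  obtain ⟨Q, hQg, hQf, hQ⟩ := exists_group_card p
  have hfin : Finite (G ≀ᵣ Q) := inferInstance
  have hb : ∀ red : integralClosure ℤ ℂ →+* k, ((p : ℤ) ^ 1) ∣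
      (numSimpleIn B : ℤ) - numW p red B := by
    intro red
    rw [pow_one]
    refine Nat.modEq_iff_dvd.1 (idem_modEq p h𝒢 red B hB.1 hB.2.1 ?_).symm
    intro g hg P hP hPg
    obtain ⟨c, hc⟩ := zab_of_relTrace p B D hD g hg P hP hPg
    exact h1 P c hc
  have hw : ((p : ℤ) ^ 1) ∣ (numSimpleIn (ehat Q B) : ℤ) - numW p red (ehat Q B) := by
    rw [pow_one]
    refine Nat.modEq_iff_dvd.1 (idem_modEq p h𝒢 red (ehat Q B) (ehat_mem B hB.1)
      (ehat_idem B hB.2.1) ?_).symm
    intro x hx P hP hPx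
    obtain ⟨c, hc⟩ := ehat_support B D hD x hx P hP hPx
    exact h2 Q hQ P hP c hc
  have h3 := step_modEq p red hQ hB.1 hB.2.1 le_rfl hb hw
  rw [numWeightsIn_eq_numWc p red hB, ← numW_eq_numWc red B hB.1]
  refine (Nat.modEq_iff_dvd.2 ?_).symm
  exact_mod_cast h3

end Main

section Two

/-- blocks with abelian defect groups, `p = 2`: the weight conjecture modulo `4` -/
theorem modFour {k : Type u} [Field k] [IsAlgClosed k] [CharP k 2]
    (red : integralClosure ℤ ℂ →+* k) {G : Type} [Group G] [Finite G]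
    (B : MonoidAlgebra k G) (hB : IsBlock B) (D : Subgroup G) (hD : IsRelTrace B D)
    (hab : ∀ a ∈ D, ∀ b ∈ D, a * b = b * a) :
    numSimpleIn B ≡ numWeightsIn 2 red B [MOD 4] := by
  have : Fact (Nat.Prime 2) := ⟨Nat.prime_two⟩
  refine modSq 2 (TwClass.goodClass 2) red B hB D hD (fun P c hc => TwClass.of_conj (Or.inl hab) c hc)
    ?_
  intro Q _ _ hQ P hP c hc
  set K := (RegularWreathProduct.rightHom : G ≀ᵣ Q →* Q).ker with hK
  have habK : ∀ a ∈ P, ∀ b ∈ P, a ∈ K → b ∈ K → a * b = b * a := by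
    intro a ha b hb haK hbK
    have ha' : a.right = 1 := haK
    have hb' : b.right = 1 := hbK
    have h3 : ∀ q, a.left q * b.left q = b.left q * a.left q := by
      intro q
      have h := hab _ (hc a ha ha' q) _ (hc b hb hb' q)
      have h1 : c q * (((c q)⁻¹ * a.left q * c q) * ((c q)⁻¹ * b.left q * c q)) * (c q)⁻¹
        = c q * (((c q)⁻¹ * b.left q * c q) * ((c q)⁻¹ * a.left q * c q)) * (c q)⁻¹ := by rw [h]
      have e1 : c q * (((c q)⁻¹ * a.left q * c q) * ((c q)⁻¹ * b.left q * c q)) * (c q)⁻¹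
        = a.left q * b.left q := by group
      have e2 : c q * (((c q)⁻¹ * b.left q * c q) * ((c q)⁻¹ * a.left q * c q)) * (c q)⁻¹
        = b.left q * a.left q := by group
      rwa [e1, e2] at h1
    refine RegularWreathProduct.ext ?_ ?_
    · funext q
      rw [mul_left', mul_left', ha', hb', inv_one, one_mul]
      exact h3 q
    · rw [RegularWreathProduct.mul_right, RegularWreathProduct.mul_right, ha', hb']
  rcases (Nat.dvd_prime Nat.prime_two).1 (relIndex_base hQ P) with h | h
  · have hle : P ≤ K := relIndex_eq_one.1 h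
    exact Or.inl fun a ha b hb => habK a ha b hb (hle ha) (hle hb)
  · refine Or.inr ⟨Or.inl rfl, noTw_of_index_two (K.subgroupOf P) h ?_⟩
    intro a ha b hb
    exact Subtype.ext (habK a a.2 b b.2 ha hb)

end Two

end P179M
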