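import Vale.Agent.P179.H143.CDefs
import Vale.Agent.P179.H526.InertDefs

/-!
# Blocks with small inertial index, groups with small automiser
-/

namespace P179B

open Subgroup

/-- The block `b` of `C_G(D)` has small inertial index `e`: `2 e ≤ p`; or the inertial quotient is
abelian and `e + log_2 e < p`; or the nontrivial elements of `D` which are not regular lie in a
union of `s` proper subgroups with `e + s < p`. -/
def SmallIndex (p : ℕ) {k : Type*} [Field k] {G : Type*} [Group G] (D : Subgroup G)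
    (b : MonoidAlgebra k (centralizer (D : Set G))) : Prop :=
  2 * inertialIndex D b ≤ p ∨
  ((∀ s ∈ inertialGroup D b, ∀ t ∈ inertialGroup D b,
      s * t * s⁻¹ * t⁻¹ ∈ centralizer (D : Set G)) ∧
    inertialIndex D b + Nat.log 2 (inertialIndex D b) < p) ∨
  (∃ (s : ℕ) (K : Fin s → Subgroup G), (∀ i, K i < D) ∧
    (∀ u ∈ D, u ≠ 1 → u ∉ regularElements D b → ∃ i, u ∈ K i) ∧ inertialIndex D b + s < p)

/-- The block `B` of `G` with defect group `D` is small: `p = 3` and `|D| = 9`; or `D` is abelian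
and, for some block `b` of `C_G(D)` with `b^G = B`, the block `b` has small inertial index, or `p`
is odd, all nontrivial elements of `D` are regular, and for `m = p` (or `m = 9` if `p = 3`) and
`w = |W_p(B)|` the inertial index `e` satisfies `w ≤ m` and `e < m + w`. -/
def SmallBlock (p : ℕ) {k : Type*} [Field k] (red : integralClosure ℤ ℂ →+* k) {G : Type*}
    [Group G] (B : MonoidAlgebra k G) : Prop :=
  ∃ D : Subgroup G, IsDefectGroup B D ∧
    ((p = 3 ∧ Nat.card D = 9) ∨
      (∀ a ∈ D, ∀ c ∈ D, a * c = c * a) ∧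
        ∃ b : MonoidAlgebra k (centralizer (D : Set G)), IsBlock b ∧ InducesTo b B ∧
          (SmallIndex p D b ∨
            2 < p ∧ (∀ u ∈ D, u ≠ 1 → u ∈ regularElements D b) ∧
              ∃ m : ℕ, (m = p ∨ p = 3 ∧ m = 9) ∧ numWeightsIn p red B ≤ m ∧
                inertialIndex D b < m + numWeightsIn p red B))

/-- The Sylow `p`-subgroups `P` of `H` are abelian with small automiser `A = N_H(P) / C_H(P)`:
`2 |A| ≤ p`; or `A` is abelian and `|A| + log_2 |A| < p`; or `A` acts freely on `P - 1` and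
`|A| < p`, or `|A| ≤ 8` if `p = 3`. -/
def SmallSylow (p : ℕ) (H : Type*) [Group H] : Prop :=
  ∀ P : Sylow p H, (∀ a ∈ P, ∀ b ∈ P, a * b = b * a) ∧
    ∃ a : ℕ, a = (centralizer ((P : Subgroup H) : Set H)).relIndex
        (normalizer ((P : Subgroup H) : Set H)) ∧
      (2 * a ≤ p ∨
        ((∀ s ∈ normalizer ((P : Subgroup H) : Set H), ∀ t ∈ normalizer ((P : Subgroup H) : Set H),
            s * t * s⁻¹ * t⁻¹ ∈ centralizer ((P : Subgroup H) : Set H)) ∧
          a + Nat.log 2 a < p) ∨
        ((∀ n ∈ normalizer ((P : Subgroup H) : Set H), ∀ u ∈ P, u ≠ 1 → n * u * n⁻¹ = u →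
            n ∈ centralizer ((P : Subgroup H) : Set H)) ∧
          (a < p ∨ p = 3 ∧ a ≤ 8)))

end P179B
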