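import Mathlib

/-!
# Rational functions on an abelian `p`-group with integral Fourier differences

The combinatorial part of Theorem Z.
-/

namespace P179Z

open Finset

open scoped Classical ComplexConjugate

/-- values with integral differences and sum zero -/
theorem coset_lemma {ι : Type*} [Fintype ι] (y : ι → ℝ) (t : ℝ) (ht : t < 1)
    (hint : ∀ i j, ∃ c : ℤ, y i - y j = c) (hsum : ∑ i, y i = 0) (hb : ∀ i, |y i| ≤ t)
    (hne : ∃ i, y i ≠ 0) : (Fintype.card ι : ℝ) * (t * (1 - t)) ≤ ∑ i, y i ^ 2 := by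
  obtain ⟨i₀, hi₀⟩ := hne
  have hpos : ∃ i, 0 < y i := by
    by_contra hcon
    push Not at hcon
    have h1 := (Finset.sum_eq_zero_iff_of_nonpos (fun i _ => hcon i)).1 hsum i₀ (mem_univ _)
    exact hi₀ h1
  have hneg : ∃ i, y i < 0 := by
    by_contra hcon
    push Not at hcon
    have h1 := (Finset.sum_eq_zero_iff_of_nonneg (fun i _ => hcon i)).1 hsum i₀ (mem_univ _)
    exact hi₀ h1
  obtain ⟨i, hi⟩ := hpos
  obtain ⟨j, hj⟩ := hneg
  set f := y i with hf
  have hft : f ≤ t := (le_abs_self _).trans (hb i)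
  have hjt : -y j ≤ t := (neg_le_abs _).trans (hb j)
  have hval : ∀ l, y l = f ∨ y l = f - 1 := by
    intro l
    obtain ⟨c, hc⟩ := hint l i
    have h1 := abs_le.1 (hb l)
    have h2 : (c : ℝ) < 1 := by rw [← hc]; linarith
    have h3 : (-2 : ℝ) < c := by rw [← hc]; linarith
    have h4 : c < 1 := by exact_mod_cast h2
    have h5 : -2 < c := by exact_mod_cast h3
    have h6 : c = 0 ∨ c = -1 := by omega
    rcases h6 with h6 | h6
    · left
      rw [h6, Int.cast_zero] at hc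
      linarith
    · right
      rw [h6] at hc
      push_cast at hc
      linarith
  have hj2 : y j = f - 1 := by
    rcases hval j with h | h
    · rw [h] at hj
      exact absurd hi (not_lt.2 hj.le)
    · exact h
  have h1ft : 1 - f ≤ t := by linarith
  have hsq : ∀ l, y l ^ 2 = (2 * f - 1) * y l + f * (1 - f) := by
    intro l
    rcases hval l with h | h <;> rw [h] <;> ring
  rw [Finset.sum_congr rfl fun l _ => hsq l, Finset.sum_add_distrib, ← Finset.mul_sum, hsum,
    mul_zero, zero_add, Finset.sum_const, Finset.card_univ, nsmul_eq_mul]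
  refine mul_le_mul_of_nonneg_left ?_ (Nat.cast_nonneg _)
  nlinarith [mul_nonneg (sub_nonneg.2 hft) (sub_nonneg.2 h1ft)]

section Main

variable {D : Type*} [AddCommGroup D] [Fintype D]

/-- the Fourier coefficients -/
noncomputable def xC (A : D → ℤ) (ν : AddChar D ℂ) : ℂ :=
  (Fintype.card D : ℂ)⁻¹ * ∑ u, (A u : ℂ) * ν u

theorem xC_pow (A : D → ℤ) (ν : AddChar D ℂ) {j : ℕ} (hj : (Nat.card D).Coprime j)
    (hA : ∀ u, A (j • u) = A u) : xC A (ν ^ j) = xC A ν := by
  unfold xC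
  congr 1
  rw [← Equiv.sum_comp (nsmulCoprime hj) (fun u => (A u : ℂ) * ν u)]
  refine Finset.sum_congr rfl fun u _ => ?_
  have h1 : (nsmulCoprime hj) u = j • u := rfl
  rw [h1, hA, AddChar.pow_apply, AddChar.map_nsmul_eq_pow]

theorem conj_xC (A : D → ℤ) (ν : AddChar D ℂ) (hA : ∀ u, A (-u) = A u) :
    conj (xC A ν) = xC A ν := by
  unfold xC
  rw [map_mul, map_inv₀, map_natCast, map_sum]
  congr 1
  rw [← Equiv.sum_comp (Equiv.neg D) (fun u => (A u : ℂ) * ν u)]
  refine Finset.sum_congr rfl fun u _ => ?_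
  rw [map_mul, map_intCast, Equiv.neg_apply, hA, ← AddChar.map_neg_eq_conj]

theorem parseval (A : D → ℤ) :
    ∑ ν : AddChar D ℂ, ‖xC A ν‖ ^ 2 = (Fintype.card D : ℝ)⁻¹ * ∑ u, (A u : ℝ) ^ 2 := by
  have hq : (Fintype.card D : ℂ) ≠ 0 := by exact_mod_cast Fintype.card_ne_zero
  have h1 : ∀ ν : AddChar D ℂ, ((‖xC A ν‖ ^ 2 : ℝ) : ℂ) = (Fintype.card D : ℂ)⁻¹ ^ 2 *
      ∑ u, ∑ v, (A u : ℂ) * (A v) * ν (u - v) := by
    intro ν
    have h2 : ((‖xC A ν‖ ^ 2 : ℝ) : ℂ) = xC A ν * conj (xC A ν) := by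
      rw [Complex.mul_conj, Complex.normSq_eq_norm_sq]
    rw [h2]
    unfold xC
    rw [map_mul, map_inv₀, map_natCast, map_sum, mul_mul_mul_comm, Finset.sum_mul_sum, sq]
    congr 1
    refine Finset.sum_congr rfl fun u _ => Finset.sum_congr rfl fun v _ => ?_
    rw [map_mul, map_intCast, sub_eq_add_neg, AddChar.map_add_eq_mul, AddChar.map_neg_eq_conj]
    ring
  have h3 : ((∑ ν : AddChar D ℂ, ‖xC A ν‖ ^ 2 : ℝ) : ℂ) =
      (Fintype.card D : ℂ)⁻¹ * ∑ u, (A u : ℂ) ^ 2 := by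
    push_cast
    have h4 : ∀ ν : AddChar D ℂ, (‖xC A ν‖ : ℂ) ^ 2 = (Fintype.card D : ℂ)⁻¹ ^ 2 *
      ∑ u, ∑ v, (A u : ℂ) * (A v) * ν (u - v) := by
      intro ν
      rw [← h1]
      push_cast
      rfl
    rw [Finset.sum_congr rfl fun ν _ => h4 ν, ← Finset.mul_sum, Finset.sum_comm]
    have h5 : ∀ u : D, ∑ ν : AddChar D ℂ, ∑ v, (A u : ℂ) * (A v) * ν (u - v) =
        (Fintype.card D : ℂ) * (A u : ℂ) ^ 2 := by
      intro u
      rw [Finset.sum_comm]
      have h6 : ∀ v : D, ∑ ν : AddChar D ℂ, (A u : ℂ) * (A v) * ν (u - v) =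
          if u = v then (Fintype.card D : ℂ) * (A u : ℂ) ^ 2 else 0 := by
        intro v
        rw [← Finset.mul_sum, AddChar.sum_apply_eq_ite]
        by_cases h : u = v
        · rw [if_pos (sub_eq_zero.2 h), if_pos h, h]; ring
        · rw [if_neg (fun h' => h (sub_eq_zero.1 h')), if_neg h, mul_zero]
      rw [Finset.sum_congr rfl fun v _ => h6 v, Finset.sum_ite_eq, if_pos (mem_univ _)]
    rw [Finset.sum_congr rfl fun u _ => h5 u, ← Finset.mul_sum, ← mul_assoc, sq, mul_assoc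
      ((Fintype.card D : ℂ)⁻¹), inv_mul_cancel₀ hq, mul_one]
  apply Complex.ofReal_injective
  rw [h3]
  push_cast
  rfl

/-- inflation of characters of `D / K` -/
noncomputable def io (K : AddSubgroup D) (lam : AddChar (D ⧸ K) ℂ) : AddChar D ℂ :=
  lam.compAddMonoidHom (QuotientAddGroup.mk' K)

theorem io_apply (K : AddSubgroup D) (lam : AddChar (D ⧸ K) ℂ) (u : D) :
    io K lam u = lam (u : D ⧸ K) := rfl

theorem io_mul (K : AddSubgroup D) (a b : AddChar (D ⧸ K) ℂ) :
    io K (a * b) = io K a * io K b := by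
  ext u
  simp [io_apply]

theorem io_pow (K : AddSubgroup D) (a : AddChar (D ⧸ K) ℂ) (j : ℕ) :
    io K (a ^ j) = io K a ^ j := by
  ext u
  simp [io_apply, AddChar.pow_apply]

theorem io_injective (K : AddSubgroup D) : Function.Injective (io K) := by
  intro a b h
  ext u
  obtain ⟨u, rfl⟩ := QuotientAddGroup.mk_surjective u
  rw [← io_apply, ← io_apply, h]

theorem io_surj (K : AddSubgroup D) (ν : AddChar D ℂ) (hν : ∀ u ∈ K, ν u = 1) :
    ∃ lam, io K lam = ν := by
  let f : D →+ Additive ℂ := AddChar.toAddMonoidHomEquiv ν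
  have hf : K ≤ f.ker := by
    intro u hu
    rw [AddMonoidHom.mem_ker]
    exact congrArg Additive.ofMul (hν u hu)
  refine ⟨AddChar.toAddMonoidHomEquiv.symm (QuotientAddGroup.lift K f hf), ?_⟩
  ext u
  rfl

end Main

end P179Z
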