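import Mathlib

/-!
# Covering the non-regular elements, for an abelian group of automorphisms
-/

namespace P179Z

open Subgroup

set_option linter.unusedSectionVars false

section

variable {G : Type*} [Group G] [Finite G] {p : ℕ} [hp : Fact p.Prime] {D T : Subgroup G}

/-- the elements whose commutator with `n` is in `K` -/
def FK (D K : Subgroup G) (hab : ∀ a ∈ D, ∀ b ∈ D, a * b = b * a) (n : G)
    (hn : ∀ d ∈ D, n * d * n⁻¹ ∈ D) : Subgroup G where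
  carrier := {d | d ∈ D ∧ n * d * n⁻¹ * d⁻¹ ∈ K}
  one_mem' := ⟨one_mem _, by simp⟩
  mul_mem' := by
    rintro a b ⟨ha, ha'⟩ ⟨hb, hb'⟩
    refine ⟨mul_mem ha hb, ?_⟩
    have h1 : n * (a * b) * n⁻¹ * (a * b)⁻¹ = (n * a * n⁻¹ * a⁻¹) * (n * b * n⁻¹ * b⁻¹) := by
      have h3 : n * (a * b) * n⁻¹ * (a * b)⁻¹ = n * a * n⁻¹ * ((n * b * n⁻¹ * b⁻¹) * a⁻¹) := by
        group
      have h4 : (n * b * n⁻¹ * b⁻¹) * a⁻¹ = a⁻¹ * (n * b * n⁻¹ * b⁻¹) :=
        (hab _ (inv_mem ha) _ (mul_mem (hn b hb) (inv_mem hb))).symm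
      rw [h3, h4]
      group
    rw [h1]
    exact mul_mem ha' hb'
  inv_mem' := by
    rintro a ⟨ha, ha'⟩
    refine ⟨inv_mem ha, ?_⟩
    have h1 : n * a⁻¹ * n⁻¹ * (a⁻¹)⁻¹ = (n * a * n⁻¹ * a⁻¹)⁻¹ := by
      have h2 : a * (n * a⁻¹ * n⁻¹) = (n * a⁻¹ * n⁻¹) * a := hab a ha _ (hn _ (inv_mem ha))
      rw [inv_inv, ← h2]
      group
    rw [h1]
    exact inv_mem ha'

theorem mem_FK {D K : Subgroup G} {hab : ∀ a ∈ D, ∀ b ∈ D, a * b = b * a} {n : G}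
    {hn : ∀ d ∈ D, n * d * n⁻¹ ∈ D} {d : G} :
    d ∈ FK D K hab n hn ↔ d ∈ D ∧ n * d * n⁻¹ * d⁻¹ ∈ K := Iff.rfl

/-- `T`-stable subgroups of `D` -/
def Stb (D T K : Subgroup G) : Prop := K ≤ D ∧ ∀ t ∈ T, ∀ x ∈ K, t * x * t⁻¹ ∈ K

theorem le_FK {K : Subgroup G} (hab : ∀ a ∈ D, ∀ b ∈ D, a * b = b * a)
    (hT : ∀ t ∈ T, ∀ d ∈ D, t * d * t⁻¹ ∈ D) (hK : Stb D T K) {n : G} (hn : n ∈ T) :
    K ≤ FK D K hab n (hT n hn) := fun x hx =>
  ⟨hK.1 hx, mul_mem (hK.2 n hn x hx) (inv_mem hx)⟩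

theorem stb_FK {K : Subgroup G} (hab : ∀ a ∈ D, ∀ b ∈ D, a * b = b * a)
    (hT : ∀ t ∈ T, ∀ d ∈ D, t * d * t⁻¹ ∈ D)
    (hcomm : ∀ s ∈ T, ∀ t ∈ T, s * t * s⁻¹ * t⁻¹ ∈ centralizer (D : Set G))
    (hK : Stb D T K) {n : G} (hn : n ∈ T) : Stb D T (FK D K hab n (hT n hn)) := by
  refine ⟨fun x hx => hx.1, fun t ht x hx => ⟨hT t ht x hx.1, ?_⟩⟩
  -- `t⁻¹ n t` acts as `n`
  have h1 : t⁻¹ * n * t * n⁻¹ ∈ centralizer (D : Set G) := by
    have := hcomm t⁻¹ (inv_mem ht) n hn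
    rwa [inv_inv] at this
  have h2 : (t⁻¹ * n * t * n⁻¹) * (n * x * n⁻¹) * (t⁻¹ * n * t * n⁻¹)⁻¹ = n * x * n⁻¹ := by
    rw [← mem_centralizer_iff.1 h1 _ (hT n hn x hx.1), mul_inv_cancel_right]
  have h3 : n * (t * x * t⁻¹) * n⁻¹ * (t * x * t⁻¹)⁻¹ = t * (n * x * n⁻¹ * x⁻¹) * t⁻¹ := by
    conv_rhs => rw [← h2]
    group
  rw [h3]
  exact hK.2 t ht _ hx.2

/-- **Key lemma** -/
theorem exists_K (hD : IsPGroup p D) (hab : ∀ a ∈ D, ∀ b ∈ D, a * b = b * a)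
    (hT : ∀ t ∈ T, ∀ d ∈ D, t * d * t⁻¹ ∈ D)
    (hcomm : ∀ s ∈ T, ∀ t ∈ T, s * t * s⁻¹ * t⁻¹ ∈ centralizer (D : Set G))
    {m : ℕ} (hm : ¬ p ∣ m) (hmT : ∀ t ∈ T, t ^ m ∈ centralizer (D : Set G))
    {t : G} (ht : t ∈ T) (htC : t ∉ centralizer (D : Set G)) :
    ∃ K : Subgroup G, Stb D T K ∧ (∃ d ∈ D, t * d * t⁻¹ * d⁻¹ ∉ K) ∧
      ∀ u ∈ D, u ∉ K → ∀ n ∈ T, n * u * n⁻¹ = u → ∀ d ∈ D, n * d * n⁻¹ * d⁻¹ ∈ K := by
  -- a maximal stable subgroup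
  have hne : (∃ K : Subgroup G, Stb D T K ∧ ∃ d ∈ D, t * d * t⁻¹ * d⁻¹ ∉ K) := by
    refine ⟨⊥, ⟨bot_le, ?_⟩, ?_⟩
    · intro s _ x hx
      rw [mem_bot] at hx ⊢
      rw [hx]
      group
    · by_contra hcon
      push Not at hcon
      apply htC
      rw [mem_centralizer_iff]
      intro d hd
      have h1 := hcon d hd
      rw [mem_bot, mul_inv_eq_one, mul_inv_eq_iff_eq_mul] at h1
      exact h1.symm
  obtain ⟨K, ⟨hK1, hK2⟩, hKmax⟩ := (Set.toFinite {K : Subgroup G | Stb D T K ∧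
    ∃ d ∈ D, t * d * t⁻¹ * d⁻¹ ∉ K}).exists_maximal hne
  refine ⟨K, hK1, hK2, ?_⟩
  have hmax : ∀ F : Subgroup G, Stb D T F → K ≤ F → (∃ x ∈ F, x ∉ K) →
      ∀ d ∈ D, t * d * t⁻¹ * d⁻¹ ∈ F := by
    intro F hF hKF hx d hd
    by_contra hcon
    obtain ⟨x, hxF, hxK⟩ := hx
    exact hxK (hKmax ⟨hF, d, hd, hcon⟩ hKF hxF)
  -- `t` has no fixed points on `D / K`
  have hFt : ∀ x ∈ D, t * x * t⁻¹ * x⁻¹ ∈ K → x ∈ K := by
    intro x hx hx'
    by_contra hxK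
    have h1 := hmax _ (stb_FK hab hT hcomm hK1 ht) (le_FK hab hT hK1 ht) ⟨x, ⟨hx, hx'⟩, hxK⟩
    obtain ⟨d, hd, hdK⟩ := hK2
    apply hdK
    set c := t * d * t⁻¹ * d⁻¹ with hc
    have hcD : c ∈ D := mul_mem (hT t ht d hd) (inv_mem hd)
    have hcF : t * c * t⁻¹ * c⁻¹ ∈ K := (h1 d hd).2
    -- the powers of `t`
    have hpow : ∀ j : ℕ, t ^ j * d * (t ^ j)⁻¹ * d⁻¹ * (c ^ j)⁻¹ ∈ K := by
      intro j
      induction j with
      | zero => simp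
      | succ j ih =>
        have hcj : c ^ j ∈ D := pow_mem hcD j
        -- `t c^j t⁻¹ c^{-j} ∈ K`
        have hcjK : t * c ^ j * t⁻¹ * (c ^ j)⁻¹ ∈ K := by
          have : c ^ j ∈ FK D K hab t (hT t ht) := pow_mem (show c ∈ FK D K hab t (hT t ht) from
            ⟨hcD, hcF⟩) j
          exact this.2
        have h2 := hK1.2 t ht _ ih
        have e1 : t ^ (j + 1) * d * (t ^ (j + 1))⁻¹ * d⁻¹ * (c ^ (j + 1))⁻¹ =
            (t * (t ^ j * d * (t ^ j)⁻¹ * d⁻¹ * (c ^ j)⁻¹) * t⁻¹) *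
              ((t * c ^ j * t⁻¹ * (c ^ j)⁻¹) * (c ^ j * c * (c ^ (j + 1))⁻¹)) := by
          have h3 : c ^ j * c = c * c ^ j := (pow_succ c j).symm.trans (pow_succ' c j)
          have h4 : c * d = t * d * t⁻¹ := by rw [hc]; group
          have h5 : (c ^ j)⁻¹ * (c ^ j * c * (c ^ (j + 1))⁻¹) = c * (c ^ (j + 1))⁻¹ := by group
          have h6 : t ^ (j + 1) = t * t ^ j := pow_succ' t j
          rw [h6]
          calc t * t ^ j * d * (t * t ^ j)⁻¹ * d⁻¹ * (c ^ (j + 1))⁻¹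
              = t * t ^ j * d * (t ^ j)⁻¹ * (t⁻¹ * d⁻¹ * (c ^ (j + 1))⁻¹) := by group
            _ = t * t ^ j * d * (t ^ j)⁻¹ * (d⁻¹ * t⁻¹ * (t * d * t⁻¹) * d⁻¹ * (c ^ (j + 1))⁻¹) := by
              group
            _ = t * t ^ j * d * (t ^ j)⁻¹ * (d⁻¹ * t⁻¹ * (c * d) * d⁻¹ * (c ^ (j + 1))⁻¹) := by
              rw [h4]
            _ = t * t ^ j * d * (t ^ j)⁻¹ * (d⁻¹ * t⁻¹ * (c * (c ^ (j + 1))⁻¹)) := by group
            _ = t * t ^ j * d * (t ^ j)⁻¹ * (d⁻¹ * t⁻¹ *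
                ((c ^ j)⁻¹ * (c ^ j * c * (c ^ (j + 1))⁻¹))) := by rw [h5]
            _ = _ := by group
        rw [e1]
        refine mul_mem h2 (mul_mem hcjK ?_)
        rw [← pow_succ, mul_inv_cancel]
        exact one_mem _
    have h3 := hpow m
    have h4 : t ^ m * d * (t ^ m)⁻¹ = d := by
      rw [← mem_centralizer_iff.1 (hmT t ht) d hd, mul_inv_cancel_right]
    rw [h4, mul_inv_cancel, one_mul] at h3
    have h5 : c ^ m ∈ K := by
      have := inv_mem h3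
      rwa [inv_inv] at this
    -- `c` is a power of `c ^ m`
    obtain ⟨a, ha⟩ := hD ⟨c, hcD⟩
    have ha' : c ^ p ^ a = 1 := by simpa using congrArg Subtype.val ha
    have hcop : m.Coprime (orderOf c) :=
      Nat.Coprime.coprime_dvd_right (orderOf_dvd_of_pow_eq_one ha')
        (Nat.Coprime.pow_right a (Nat.Coprime.symm ((Nat.Prime.coprime_iff_not_dvd hp.out).2 hm)))
    obtain ⟨j, hj⟩ := exists_pow_eq_self_of_coprime hcop
    rw [← hj]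
    exact pow_mem h5 j
  -- every element of `D` is a commutator with `t`, modulo `K`
  have hsurj : ∀ F : Subgroup G, K ≤ F → (∀ d ∈ D, t * d * t⁻¹ * d⁻¹ ∈ F) → D ≤ F := by
    intro F hKF hF
    have hcomm' : ∀ a b : D, (⟨t * a * t⁻¹ * (a : G)⁻¹, mul_mem (hT t ht a a.2) (inv_mem a.2)⟩ : D) *
        ⟨t * b * t⁻¹ * (b : G)⁻¹, mul_mem (hT t ht b b.2) (inv_mem b.2)⟩ =
        ⟨t * (a * b : D) * t⁻¹ * ((a * b : D) : G)⁻¹,
          mul_mem (hT t ht _ (a * b).2) (inv_mem (a * b).2)⟩ := by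
      intro a b
      apply Subtype.ext
      change (t * a * t⁻¹ * (a : G)⁻¹) * (t * b * t⁻¹ * (b : G)⁻¹) =
        t * (a * b) * t⁻¹ * ((a : G) * b)⁻¹
      have h2 : (a : G)⁻¹ * (t * b * t⁻¹ * (b : G)⁻¹) = (t * b * t⁻¹ * (b : G)⁻¹) * (a : G)⁻¹ :=
        hab _ (inv_mem a.2) _ (mul_mem (hT t ht b b.2) (inv_mem b.2))
      calc (t * a * t⁻¹ * (a : G)⁻¹) * (t * b * t⁻¹ * (b : G)⁻¹)
          = t * a * t⁻¹ * ((a : G)⁻¹ * (t * b * t⁻¹ * (b : G)⁻¹)) := by group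
        _ = t * a * t⁻¹ * ((t * b * t⁻¹ * (b : G)⁻¹) * (a : G)⁻¹) := by rw [h2]
        _ = _ := by group
    -- the hom on the quotient
    let KD : Subgroup D := K.subgroupOf D
    have hKDn : KD.Normal := ⟨fun x hx g => by
      rw [mem_subgroupOf] at hx ⊢
      have : ((g * x * g⁻¹ : D) : G) = x := by
        push_cast
        rw [hab g g.2 x x.2, mul_inv_cancel_right]
      rw [this]
      exact hx⟩
    let φ : D →* D ⧸ KD :=
      { toFun := fun a => QuotientGroup.mk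
          (⟨t * a * t⁻¹ * (a : G)⁻¹, mul_mem (hT t ht a a.2) (inv_mem a.2)⟩ : D)
        map_one' := by
          rw [QuotientGroup.eq_one_iff, mem_subgroupOf]
          simp
        map_mul' := fun a b => by
          rw [← QuotientGroup.mk_mul, hcomm'] }
    have hφker : φ.ker = KD := by
      ext a
      rw [MonoidHom.mem_ker]
      change (QuotientGroup.mk _ : D ⧸ KD) = 1 ↔ _
      rw [QuotientGroup.eq_one_iff, mem_subgroupOf, mem_subgroupOf]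
      constructor
      · intro h
        exact hFt a a.2 h
      · intro h
        exact mul_mem (hK1.2 t ht _ h) (inv_mem h)
    have hφs : Function.Surjective φ := by
      have h1 : Nat.card φ.range = Nat.card (D ⧸ KD) := by
        rw [← Nat.card_congr (QuotientGroup.quotientKerEquivRange φ).toEquiv, hφker]
      have h2 : φ.range = ⊤ := Subgroup.eq_top_of_card_eq _ h1
      exact MonoidHom.range_eq_top.1 h2
    intro d hd
    obtain ⟨a, ha⟩ := hφs (QuotientGroup.mk ⟨d, hd⟩)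
    have h1 : (QuotientGroup.mk (⟨t * a * t⁻¹ * (a : G)⁻¹,
        mul_mem (hT t ht a a.2) (inv_mem a.2)⟩ : D) : D ⧸ KD) = QuotientGroup.mk ⟨d, hd⟩ := ha
    rw [QuotientGroup.eq, mem_subgroupOf] at h1
    have h2 : d = (t * a * t⁻¹ * (a : G)⁻¹) * ((t * a * t⁻¹ * (a : G)⁻¹)⁻¹ * d) := by
      rw [mul_inv_cancel_left]
    rw [h2]
    exact mul_mem (hF a a.2) (hKF h1)
  intro u hu huK n hn hnu d hd
  have huF : u ∈ FK D K hab n (hT n hn) := ⟨hu, by rw [hnu, mul_inv_cancel]; exact one_mem _⟩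
  have h1 := hmax _ (stb_FK hab hT hcomm hK1 hn) (le_FK hab hT hK1 hn) ⟨u, huF, huK⟩
  have h2 := hsurj _ (le_FK hab hT hK1 hn) h1
  exact (h2 hd).2

/-- the elements acting trivially on `D / K` -/
def NK (D K N : Subgroup G) (hK : ∀ t ∈ N, ∀ x ∈ K, t * x * t⁻¹ ∈ K)
    (hN : ∀ t ∈ N, ∀ d ∈ D, t * d * t⁻¹ ∈ D) : Subgroup G where
  carrier := {n | n ∈ N ∧ ∀ d ∈ D, n * d * n⁻¹ * d⁻¹ ∈ K}
  one_mem' := ⟨one_mem _, fun d _ => by simp⟩
  mul_mem' := by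
    rintro a b ⟨ha, ha'⟩ ⟨hb, hb'⟩
    refine ⟨mul_mem ha hb, fun d hd => ?_⟩
    have h1 : a * b * d * (a * b)⁻¹ * d⁻¹ = (a * (b * d * b⁻¹ * d⁻¹) * a⁻¹) * (a * d * a⁻¹ * d⁻¹) := by
      group
    rw [h1]
    exact mul_mem (hK a ha _ (hb' d hd)) (ha' d hd)
  inv_mem' := by
    rintro a ⟨ha, ha'⟩
    refine ⟨inv_mem ha, fun d hd => ?_⟩
    have h1 : a⁻¹ * d * a⁻¹⁻¹ * d⁻¹ = (a * (a⁻¹ * d * a) * a⁻¹ * (a⁻¹ * d * a)⁻¹)⁻¹ := by
      group
    rw [h1]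
    refine inv_mem (ha' _ ?_)
    have := hN a⁻¹ (inv_mem ha) d hd
    rwa [inv_inv] at this

/-- **Cover** -/
theorem exists_cover_abelian (hD : IsPGroup p D) (hab : ∀ a ∈ D, ∀ b ∈ D, a * b = b * a)
    (hT : ∀ t ∈ T, ∀ d ∈ D, t * d * t⁻¹ ∈ D)
    (hcomm : ∀ s ∈ T, ∀ t ∈ T, s * t * s⁻¹ * t⁻¹ ∈ centralizer (D : Set G))
    {m : ℕ} (hm : ¬ p ∣ m) (hmT : ∀ t ∈ T, t ^ m ∈ centralizer (D : Set G)) :
    ∀ (c : ℕ) (N : Subgroup G), N ≤ T → (centralizer (D : Set G)).relIndex N = c →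
    ∃ (s : ℕ) (K : Fin s → Subgroup G), 2 ^ s ≤ c ∧ (∀ i, ¬ D ≤ K i) ∧
      ∀ u ∈ D, (∀ i, u ∉ K i) → ∀ n ∈ N, n * u * n⁻¹ = u → n ∈ centralizer (D : Set G) := by
  intro c
  induction c using Nat.strong_induction_on with
  | _ c ih =>
  intro N hNT hc
  have hcpos : 0 < c := by
    rw [← hc]
    exact Nat.pos_of_ne_zero (Subgroup.index_ne_zero_of_finite (H :=
      (centralizer (D : Set G)).subgroupOf N))
  by_cases hN : N ≤ centralizer (D : Set G)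
  · exact ⟨0, fun i => i.elim0, by rw [pow_zero]; exact hcpos, fun i => i.elim0,
      fun u _ _ n hn _ => hN hn⟩
  · obtain ⟨t, htN, htC⟩ := SetLike.not_le_iff_exists.1 hN
    obtain ⟨K, hK1, ⟨d0, hd0, hd0K⟩, hK3⟩ := exists_K hD hab hT hcomm hm hmT (hNT htN) htC
    have hKN : ∀ t ∈ N, ∀ x ∈ K, t * x * t⁻¹ ∈ K := fun t ht => hK1.2 t (hNT ht)
    have hND : ∀ t ∈ N, ∀ d ∈ D, t * d * t⁻¹ ∈ D := fun t ht => hT t (hNT ht)
    set N' := NK D K N hKN hND with hN'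
    have hN'N : N' ≤ N := fun x hx => hx.1
    have htN' : t ∉ N' := fun h => hd0K (h.2 d0 hd0)
    have hCN' : centralizer (D : Set G) ⊓ N ≤ N' := by
      rintro x ⟨hx1, hx2⟩
      refine ⟨hx2, fun d hd => ?_⟩
      rw [← mem_centralizer_iff.1 hx1 d hd, mul_inv_cancel_right, mul_inv_cancel]
      exact one_mem _
    have h1 : (centralizer (D : Set G)).relIndex N' * N'.relIndex N = c := by
      rw [← hc, ← inf_relIndex_right (centralizer (D : Set G)) N,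
        ← relIndex_mul_relIndex _ _ _ hCN' hN'N]
      congr 1
      rw [← inf_relIndex_right (centralizer (D : Set G)) N',
        ← inf_relIndex_right (centralizer (D : Set G) ⊓ N) N', inf_assoc, inf_eq_right.2 hN'N]
    have h2 : 2 ≤ N'.relIndex N := by
      have h3 : N'.relIndex N ≠ 0 := Subgroup.index_ne_zero_of_finite (H := N'.subgroupOf N)
      have h4 : N'.relIndex N ≠ 1 := by
        rw [Ne, relIndex_eq_one]
        intro h
        exact htN' (h htN)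
      omega
    have hpos : 0 < (centralizer (D : Set G)).relIndex N' :=
      Nat.pos_of_ne_zero (Subgroup.index_ne_zero_of_finite (H :=
        (centralizer (D : Set G)).subgroupOf N'))
    obtain ⟨s, K', hs, hK'D, hK'⟩ := ih ((centralizer (D : Set G)).relIndex N') (by nlinarith) N'
      (hN'N.trans hNT) rfl
    refine ⟨s + 1, Fin.cons K K', ?_, ?_, ?_⟩
    · rw [pow_succ, ← h1]
      exact Nat.mul_le_mul hs h2
    · intro i
      refine Fin.cases ?_ (fun i => ?_) i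
      · rw [Fin.cons_zero]
        intro hDK
        exact hd0K (hDK (mul_mem (hT t (hNT htN) d0 hd0) (inv_mem hd0)))
      · rw [Fin.cons_succ]
        exact hK'D i
    · intro u hu huK n hn hnu
      refine hK' u hu (fun i => ?_) n ⟨hn, fun d hd => ?_⟩ hnu
      · have := huK i.succ
        rwa [Fin.cons_succ] at this
      · have := huK 0
        rw [Fin.cons_zero] at this
        exact hK3 u hu this n (hNT hn) hnu d hd

end

end P179Z
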