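import Vale.Agent.P179.H526.Z10
import Vale.Agent.P179.H905.K4

/-!
# The equality theorem for an abelian inertial quotient
-/

namespace P179I

open P179H524 P179C P179A Finset P179P Subgroup P179Y

open P179B (inertialGroup inertialIndex regularElements)

open scoped Classical

section

variable {p : ℕ} [hp : Fact p.Prime] {k : Type*} [Field k] [IsAlgClosed k] [CharP k p]
  (red : integralClosure ℤ ℂ →+* k) {G : Type} [Group G] [Fintype G]

/-- abelian inertial quotient -/
theorem equality_abelian {B : MonoidAlgebra k G} (hB : IsBlock B) {D : Subgroup G}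
    (hD : IsDefectGroup B D) (hab : ∀ a ∈ D, ∀ b ∈ D, a * b = b * a)
    {b : MonoidAlgebra k (centralizer (D : Set G))} (hb : IsBlock b) (hbB : InducesTo b B)
    (hE : ∀ s ∈ inertialGroup D b, ∀ t ∈ inertialGroup D b,
      s * t * s⁻¹ * t⁻¹ ∈ centralizer (D : Set G))
    (he : inertialIndex D b + Nat.log 2 (inertialIndex D b) < p) :
    numSimpleIn B = numWeightsIn p red B := by
  obtain ⟨hDp, -⟩ := exists_BP_of_block (p := p) B hB D hD
  obtain ⟨l, hl, hlz, hlb⟩ := exists_BP_of_subblock (p := p) hB hD hab hb hbB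
  have hT := stabT_eq_inertialGroup hb hlb
  have hdiv := hT_of_block hB hD hDp hab hl hlz
  rw [hT] at hdiv
  have hTD : ∀ t ∈ inertialGroup D b, ∀ d ∈ D, t * d * t⁻¹ ∈ D := fun t ht d hd =>
    (mem_normalizer_iff.1 ht.1 d).1 hd
  have hCT : ∀ t ∈ inertialGroup D b, ∀ x ∈ centralizer (D : Set G),
      t * x * t⁻¹ ∈ centralizer (D : Set G) := fun t ht x hx =>
    P179B.conj_mem_centralizer_of_mem_normalizer ht.1 hx
  have hn : ((centralizer (D : Set G)).subgroupOf (inertialGroup D b)).Normal := ⟨fun x hx g => by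
    rw [mem_subgroupOf] at hx ⊢
    exact hCT g g.2 x hx⟩
  obtain ⟨s, K, hs, hK, hcov⟩ := P179Z.exists_cover_abelian hDp hab hTD hE
    (m := inertialIndex D b) hdiv (fun t ht => by
      exact Subgroup.pow_index_mem ((centralizer (D : Set G)).subgroupOf (inertialGroup D b))
        ⟨t, ht⟩) (inertialIndex D b) (inertialGroup D b) le_rfl rfl
  refine equality_cover red hB hD hab hb hbB K hK ?_ ?_
  · intro u hu _ hun
    by_contra hcon
    push Not at hcon
    exact hun ⟨hu, hcov u hu hcon⟩
  · have h1 : s ≤ Nat.log 2 (inertialIndex D b) := Nat.le_log_of_pow_le (by norm_num) hs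
    omega

end

end P179I
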