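import Vale.Agent.P179.H526.Z11
import Vale.Agent.P179.H526.M9g
import Vale.Agent.P179.H143.R1

/-!
# The equality for all blocks of groups with abelian Sylow `p`-subgroups with a small automiser
-/

namespace P179I

open P179H524 P179C P179A Finset P179P Subgroup P179Y

open P179B (inertialGroup inertialIndex regularElements)

open scoped Classical Pointwise

section Frattini

variable {p : ℕ} [hp : Fact p.Prime] {G : Type*} [Group G] [Finite G]

/-- Frattini: an element which normalises `D ≤ P`, `P` an abelian Sylow subgroup, normalises `P`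
modulo `C(D)`. -/
theorem frattini_abelian (P : Sylow p G) (hab : ∀ a ∈ P, ∀ b ∈ P, a * b = b * a) {D : Subgroup G}
    (hDP : D ≤ P) {t : G} (ht : ∀ d ∈ D, t * d * t⁻¹ ∈ D) :
    ∃ c ∈ centralizer (D : Set G), c * t ∈ normalizer ((P : Subgroup G) : Set G) := by
  set C : Subgroup G := centralizer (D : Set G) with hC
  have hPC : (P : Subgroup G) ≤ C := by
    intro x hx
    rw [hC, mem_centralizer_iff]
    intro d hd
    exact hab d (hDP hd) x hx
  have hDt : ∀ d ∈ D, t⁻¹ * d * t ∈ D := by
    intro d hd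
    have h1 : D ≤ D := le_rfl
    have hinj : Function.Injective (fun x : D => (⟨t * x * t⁻¹, ht x x.2⟩ : D)) := by
      intro x y hxy
      have h2 := congrArg Subtype.val hxy
      simp only at h2
      have h3 : (x : G) = y := by
        have := congrArg (fun z => t⁻¹ * z * t) h2
        simpa [mul_assoc] using this
      exact Subtype.ext h3
    obtain ⟨x, hx⟩ := Finite.surjective_of_injective hinj ⟨d, hd⟩
    have h2 := congrArg Subtype.val hx
    simp only at h2
    rw [← h2]
    simp [mul_assoc]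
  have hPtC : ((t • P : Sylow p G) : Subgroup G) ≤ C := by
    intro x hx
    rw [hC, mem_centralizer_iff]
    intro d hd
    rw [Sylow.coe_subgroup_smul, Subgroup.mem_pointwise_smul_iff_inv_smul_mem] at hx
    have h2 : t⁻¹ * x * t ∈ (P : Subgroup G) := by
      simpa [MulAut.smul_def, mul_assoc] using hx
    have h3 := hab _ (hDP (hDt d hd)) _ h2
    have h4 := congrArg (fun z => t * z * t⁻¹) h3
    simpa [mul_assoc] using h4
  obtain ⟨c, hc⟩ := MulAction.exists_smul_eq C ((t • P).subtype hPtC) (P.subtype hPC)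
  refine ⟨c, c.2, ?_⟩
  have h5 : ((c : G) * t) • P = P := by
    rw [mul_smul]
    have h6 := Sylow.smul_subtype hPtC c (P := t • P)
    rw [hc] at h6
    exact (Sylow.subtype_injective h6).symm
  exact Sylow.smul_eq_iff_mem_normalizer.1 h5

/-- the index of the centralisers -/
theorem relIndex_le_of_frattini {D P T : Subgroup G} (hDP : D ≤ P)
    (hT : ∀ t ∈ T, ∃ c ∈ centralizer (D : Set G), c * t ∈ normalizer (P : Set G)) :
    (centralizer (D : Set G)).relIndex T ≤
      (centralizer (P : Set G)).relIndex (normalizer (P : Set G)) := by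
  set C : Subgroup G := centralizer (D : Set G) with hC
  set N : Subgroup G := normalizer (P : Set G) with hN
  have hPC : centralizer (P : Set G) ≤ C := Subgroup.centralizer_le hDP
  choose c hc hcN using hT
  -- cosets: `t ↦ (c_t t)⁻¹`
  let F : T → N := fun t => ⟨(c t t.2 * t)⁻¹, inv_mem (hcN t t.2)⟩
  let Q := T ⧸ C.subgroupOf T
  let R := N ⧸ (centralizer (P : Set G)).subgroupOf N
  let φ : Q → R := fun x => QuotientGroup.mk (F (x.out)⁻¹)
  have hinj : Function.Injective φ := by
    intro x y hxy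
    have h1 : (F (x.out)⁻¹)⁻¹ * F (y.out)⁻¹ ∈ (centralizer (P : Set G)).subgroupOf N :=
      QuotientGroup.eq.1 hxy
    rw [mem_subgroupOf] at h1
    have h2 : c ((x.out)⁻¹ : T) (x.out⁻¹).2 * ((x.out)⁻¹ : T) *
        (c ((y.out)⁻¹ : T) (y.out⁻¹).2 * ((y.out)⁻¹ : T))⁻¹ ∈ C := by
      have := hPC h1
      simpa [F] using this
    have h3 : ((x.out)⁻¹ : T) * ((y.out : T) : G) ∈ C := by
      have h4 := C.mul_mem (C.mul_mem (inv_mem (hc _ (x.out⁻¹).2)) h2) (hc _ (y.out⁻¹).2)
      have e : (c ((x.out)⁻¹ : T) (x.out⁻¹).2)⁻¹ * (c ((x.out)⁻¹ : T) (x.out⁻¹).2 *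
          ((x.out)⁻¹ : T) * (c ((y.out)⁻¹ : T) (y.out⁻¹).2 * ((y.out)⁻¹ : T))⁻¹) *
          c ((y.out)⁻¹ : T) (y.out⁻¹).2 = ((x.out)⁻¹ : T) * ((y.out : T) : G) := by
        push_cast
        group
      rw [e] at h4
      exact h4
    have h4 : (QuotientGroup.mk x.out : Q) = QuotientGroup.mk y.out := by
      rw [QuotientGroup.eq, mem_subgroupOf]
      simpa using h3
    rw [← Quotient.out_eq' x, ← Quotient.out_eq' y]
    exact h4
  have : Finite R := inferInstance
  have h1 := Nat.card_le_card_of_injective φ hinj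
  exact h1

end Frattini

section

variable {p : ℕ} [hp : Fact p.Prime] {k : Type*} [Field k] [IsAlgClosed k] [CharP k p]
  (red : integralClosure ℤ ℂ →+* k) {G : Type} [Group G] [Fintype G]

/-- **All blocks** of a group with abelian Sylow `p`-subgroups with small automiser. -/
theorem equality_of_sylow
    (h : ∀ P : Sylow p G, (∀ a ∈ P, ∀ b ∈ P, a * b = b * a) ∧
      (2 * (centralizer ((P : Subgroup G) : Set G)).relIndex (normalizer ((P : Subgroup G) : Set G))
          ≤ p ∨
        ((∀ s ∈ normalizer ((P : Subgroup G) : Set G), ∀ t ∈ normalizer ((P : Subgroup G) : Set G),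
            s * t * s⁻¹ * t⁻¹ ∈ centralizer ((P : Subgroup G) : Set G)) ∧
          (centralizer ((P : Subgroup G) : Set G)).relIndex
              (normalizer ((P : Subgroup G) : Set G)) +
            Nat.log 2 ((centralizer ((P : Subgroup G) : Set G)).relIndex
              (normalizer ((P : Subgroup G) : Set G))) < p) ∨
        ((∀ n ∈ normalizer ((P : Subgroup G) : Set G), ∀ u ∈ P, u ≠ 1 → n * u * n⁻¹ = u →
            n ∈ centralizer ((P : Subgroup G) : Set G)) ∧
          ((centralizer ((P : Subgroup G) : Set G)).relIndex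
              (normalizer ((P : Subgroup G) : Set G)) < p ∨
            p = 3 ∧ (centralizer ((P : Subgroup G) : Set G)).relIndex
              (normalizer ((P : Subgroup G) : Set G)) ≤ 8))))
    {B : MonoidAlgebra k G} (hB : IsBlock B) :
    numSimpleIn B = numWeightsIn p red B := by
  obtain ⟨D, hD⟩ := P179R.exists_defectGroup B hB.1
  obtain ⟨hDp, -⟩ := exists_BP_of_block (p := p) B hB D hD
  obtain ⟨P, hDP⟩ := hDp.exists_le_sylow
  obtain ⟨hPab, hP⟩ := h P
  have hab : ∀ a ∈ D, ∀ b ∈ D, a * b = b * a := fun a ha b hb => hPab a (hDP ha) b (hDP hb)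
  obtain ⟨b, hb, hbB⟩ := P179Y.exists_subblock (p := p) hB hD
  set T := inertialGroup D b with hTdef
  have hTD : ∀ t ∈ T, ∀ d ∈ D, t * d * t⁻¹ ∈ D := fun t ht d hd =>
    (mem_normalizer_iff.1 ht.1 d).1 hd
  have hCT : ∀ t ∈ T, ∀ x ∈ centralizer (D : Set G),
      t * x * t⁻¹ ∈ centralizer (D : Set G) := fun t ht x hx =>
    P179B.conj_mem_centralizer_of_mem_normalizer ht.1 hx
  have hF : ∀ t ∈ T, ∃ c ∈ centralizer (D : Set G),
      c * t ∈ normalizer ((P : Subgroup G) : Set G) := fun t ht =>
    frattini_abelian P hPab hDP (hTD t ht)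
  have hPC : centralizer ((P : Subgroup G) : Set G) ≤ centralizer (D : Set G) :=
    Subgroup.centralizer_le hDP
  have hle : inertialIndex D b ≤ (centralizer ((P : Subgroup G) : Set G)).relIndex
      (normalizer ((P : Subgroup G) : Set G)) := relIndex_le_of_frattini hDP hF
  rcases hP with h1 | ⟨hc, h1⟩ | ⟨hfree, h1⟩
  · exact equality_half red hB hD hab hb hbB (by omega)
  · refine equality_abelian red hB hD hab hb hbB ?_ ?_
    · intro s hs t ht
      obtain ⟨c, hc1, hc2⟩ := hF s hs
      obtain ⟨d, hd1, hd2⟩ := hF t ht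
      have h2 := hPC (hc _ hc2 _ hd2)
      -- modulo the normal subgroup `C`
      have h3 : s * t * s⁻¹ * t⁻¹ = (s * d⁻¹ * s⁻¹) * c⁻¹ *
          (c * s * (d * t) * (c * s)⁻¹ * (d * t)⁻¹) *
          (d * (t * c * t⁻¹)) := by group
      rw [h3]
      exact mul_mem (mul_mem (mul_mem (hCT s hs _ (inv_mem hd1)) (inv_mem hc1)) h2)
        (mul_mem hd1 (hCT t ht _ hc1))
    · have h2 := Nat.log_mono_right (b := 2) hle
      omega
  · have hreg : ∀ u ∈ D, u ≠ 1 → u ∈ regularElements D b := by
      intro u hu hu1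
      refine ⟨hu, fun n hn hnu => ?_⟩
      obtain ⟨c, hc1, hc2⟩ := hF n hn
      have h2 : c * n * u * (c * n)⁻¹ = u := by
        have h3 : c * u = u * c := (mem_centralizer_iff.1 hc1 u hu).symm
        calc c * n * u * (c * n)⁻¹ = c * (n * u * n⁻¹) * c⁻¹ := by group
          _ = c * u * c⁻¹ := by rw [hnu]
          _ = u := by rw [h3]; group
      have h4 := hPC (hfree _ hc2 u (hDP hu) hu1 h2)
      have h5 := mul_mem (inv_mem hc1) h4
      rwa [← mul_assoc, inv_mul_cancel, one_mul] at h5
    rcases h1 with h1 | ⟨rfl, h1⟩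
    · refine equality_cover red hB hD hab hb hbB (s := 0) (fun i => i.elim0) (fun i => i.elim0)
        (fun u hu hu1 hun => absurd (hreg u hu hu1) hun) (by omega)
    · exact equality_free3 red hB hD hab hb hbB hreg (by omega)

end

end P179I
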