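import Vale.Agent.P179.H905.WP3
import Vale.Agent.P179.H905.WP5
import Vale.Agent.P179.H143.R3

/-!
# Weights and simple modules of the quotient by a normal `p`-subgroup, blockwise
-/

namespace P179R

open P179H524 P179C P179A P179P Finset Subgroup

universe u

section Quo

variable {k : Type u} [Field k] {G : Type} [Group G] (R : Subgroup G) [R.Normal]

/-- the homomorphism of the group algebras -/
noncomputable def quo : MonoidAlgebra k G →ₐ[k] MonoidAlgebra k (G ⧸ R) :=
  MonoidAlgebra.mapDomainAlgHom k k (QuotientGroup.mk' R)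

theorem quo_single (g : G) (a : k) : quo R (MonoidAlgebra.single g a) =
    MonoidAlgebra.single (g : G ⧸ R) a := by
  simp [quo]

theorem quo_surjective : Function.Surjective (quo (k := k) R) := by
  intro x
  induction x using MonoidAlgebra.induction_linear with
  | zero => exact ⟨0, map_zero _⟩
  | add a b ha hb =>
    obtain ⟨a, rfl⟩ := ha
    obtain ⟨b, rfl⟩ := hb
    exact ⟨a + b, map_add _ _ _⟩
  | single c a =>
    obtain ⟨g, rfl⟩ := QuotientGroup.mk_surjective c
    exact ⟨MonoidAlgebra.single g a, quo_single R g a⟩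

theorem quo_mem {e : MonoidAlgebra k G} (he : e ∈ Subalgebra.center k (MonoidAlgebra k G)) :
    quo R e ∈ Subalgebra.center k (MonoidAlgebra k (G ⧸ R)) := by
  rw [Subalgebra.mem_center_iff] at he ⊢
  intro x
  obtain ⟨x, rfl⟩ := quo_surjective R x
  rw [← map_mul, ← map_mul, he x]

open scoped Classical in
theorem coeff_quo [Fintype G] (e : MonoidAlgebra k G) (c : G ⧸ R) :
    (quo R e).coeff c = ∑ g : G, if (g : G ⧸ R) = c then e.coeff g else 0 := by
  induction e using MonoidAlgebra.induction_linear with
  | zero => simp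
  | add a b ha hb =>
    rw [map_add]
    have h1 : (quo R a + quo R b).coeff c = (quo R a).coeff c + (quo R b).coeff c := by simp
    rw [h1, ha, hb, ← Finset.sum_add_distrib]
    refine Finset.sum_congr rfl fun g _ => ?_
    split_ifs
    · simp
    · simp
  | single x a =>
    rw [quo_single, Finset.sum_eq_single x]
    · by_cases h : (x : G ⧸ R) = c
      · rw [if_pos h, h]
        simp
      · rw [if_neg h]
        simp [h]
    · intro g _ hg
      split_ifs
      · simp [hg.symm]
      · rfl
    · intro h
      exact absurd (mem_univ _) h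

end Quo

section Weights

variable {p : ℕ} [hp : Fact p.Prime] {G : Type} [Group G] [Finite G] (R : Subgroup G) [R.Normal]

theorem card_comap_mk (M : Subgroup (G ⧸ R)) :
    Nat.card (M.comap (QuotientGroup.mk' R)) = Nat.card R * Nat.card M := by
  have h3 : (M.comap (QuotientGroup.mk' R)).index = M.index :=
    index_comap_of_surjective _ (QuotientGroup.mk'_surjective R)
  have h4 := card_mul_index (M.comap (QuotientGroup.mk' R))
  have h5 := card_mul_index M
  have h6 : 0 < M.index := Nat.pos_of_ne_zero M.index_ne_zero_of_finite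
  have hGR : Nat.card G = Nat.card (G ⧸ R) * Nat.card R := card_eq_card_quotient_mul_card_subgroup R
  rw [h3, hGR, ← h5] at h4
  have h7 : Nat.card (M.comap (QuotientGroup.mk' R)) * M.index =
      Nat.card R * Nat.card M * M.index := by
    rw [h4]; ring
  exact Nat.eq_of_mul_eq_mul_right h6 h7

theorem normalizer_comap_mk (M : Subgroup (G ⧸ R)) :
    normalizer ((M.comap (QuotientGroup.mk' R) : Subgroup G) : Set G) =
      (normalizer (M : Set (G ⧸ R))).comap (QuotientGroup.mk' R) := by
  ext x
  rw [mem_comap]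
  exact mem_normalizer_comap _ (QuotientGroup.mk'_surjective R) M x

theorem factor_aux {d : ℕ} (hd : 0 < d) (M : Subgroup (G ⧸ R)) :
    (d * Nat.card M).factorization p = (Nat.card (normalizer (M : Set (G ⧸ R)))).factorization p ↔
    (d * Nat.card (M.comap (QuotientGroup.mk' R))).factorization p =
      (Nat.card (normalizer ((M.comap (QuotientGroup.mk' R) : Subgroup G) : Set G))).factorization
        p := by
  rw [normalizer_comap_mk, card_comap_mk, card_comap_mk]
  rw [show d * (Nat.card R * Nat.card M) = Nat.card R * (d * Nat.card M) by ring,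
    Nat.factorization_mul Nat.card_pos.ne' (Nat.mul_pos hd Nat.card_pos).ne',
    Nat.factorization_mul Nat.card_pos.ne' Nat.card_pos.ne', Finsupp.add_apply,
    Finsupp.add_apply]
  omega

/-- inflation of weights -/
def inflWF (hR : IsPGroup p R) (w : WF p (G ⧸ R)) : WF p G where
  R := w.R.comap (QuotientGroup.mk' R)
  χ := fun g => w.χ (QuotientGroup.mk' R g)
  pgp := w.pgp.comap_of_ker_isPGroup _ (by rw [QuotientGroup.ker_mk']; exact hR)
  supp := fun x hx => w.supp _ fun h => hx
    ((mem_normalizer_comap _ (QuotientGroup.mk'_surjective R) w.R x).2 h)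
  irr := w.irr.comp (normalizerHom (QuotientGroup.mk' R) (QuotientGroup.mk'_surjective R) w.R)
    (normalizerHom_surjective _ _ _)
  triv := fun r hr x => by
    rw [map_mul]
    exact w.triv _ hr _
  dz := by
    obtain ⟨d, hd, h1, h2⟩ := w.deg_pos
    exact ⟨d, by rw [map_one]; exact h1, (factor_aux R hd w.R).1 h2⟩

theorem inflWF_R (hR : IsPGroup p R) (w : WF p (G ⧸ R)) :
    (inflWF R hR w).R = w.R.comap (QuotientGroup.mk' R) := rfl

theorem inflWF_χ (hR : IsPGroup p R) (w : WF p (G ⧸ R)) (g : G) :
    (inflWF R hR w).χ g = w.χ (g : G ⧸ R) := rfl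

theorem inflWF_injective (hR : IsPGroup p R) : Function.Injective (inflWF (p := p) R hR) := by
  intro a b h
  refine WF.ext' ?_ ?_
  · exact comap_injective (QuotientGroup.mk'_surjective R) (congrArg WF.R h)
  · funext c
    obtain ⟨g, rfl⟩ := QuotientGroup.mk_surjective c
    exact congrFun (congrArg WF.χ h) g

theorem rel_inflWF (hR : IsPGroup p R) (a b : WF p (G ⧸ R)) :
    WF.Rel (inflWF R hR a) (inflWF R hR b) ↔ WF.Rel a b := by
  constructor
  · rintro ⟨g, h1, h2⟩
    refine ⟨(g : G ⧸ R), fun c => ?_, fun c => ?_⟩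
    · obtain ⟨x, rfl⟩ := QuotientGroup.mk_surjective c
      exact h1 x
    · obtain ⟨x, rfl⟩ := QuotientGroup.mk_surjective c
      exact h2 x
  · rintro ⟨c, h1, h2⟩
    obtain ⟨g, rfl⟩ := QuotientGroup.mk_surjective c
    exact ⟨g, fun x => h1 x, fun x => h2 x⟩

theorem inflWF_surjective (hR : IsPGroup p R) :
    Function.Surjective (inflWF (p := p) (G := G) R hR) := by
  intro w
  have hRw : R ≤ w.R := w.le_of_norm hR (by rw [normalizer_eq_top (H := R)]; exact le_top)
  set M : Subgroup (G ⧸ R) := w.R.map (QuotientGroup.mk' R) with hM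
  have hMc : M.comap (QuotientGroup.mk' R) = w.R := by
    rw [hM, comap_map_eq_self]
    rw [QuotientGroup.ker_mk']
    exact hRw
  let χ' : G ⧸ R → ℂ := fun c => w.χ c.out
  have hχ' : ∀ g : G, χ' (g : G ⧸ R) = w.χ g := by
    intro g
    obtain ⟨r, hr⟩ := QuotientGroup.mk_out_eq_mul R g
    change w.χ ((g : G ⧸ R).out) = _
    rw [hr]
    exact w.triv _ (hRw r.2) g
  have hN : ∀ x : G, x ∈ normalizer (w.R : Set G) ↔ (x : G ⧸ R) ∈ normalizer (M : Set (G ⧸ R)) := by
    intro x
    rw [← hMc]
    exact mem_normalizer_comap _ (QuotientGroup.mk'_surjective R) M x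
  -- the homomorphism of the normalizers
  let f : normalizer (w.R : Set G) →* normalizer (M : Set (G ⧸ R)) :=
    { toFun := fun x => ⟨((x : G) : G ⧸ R), (hN x).1 x.2⟩
      map_one' := rfl
      map_mul' := fun _ _ => rfl }
  have hf : Function.Surjective f := by
    rintro ⟨y, hy⟩
    obtain ⟨x, rfl⟩ := QuotientGroup.mk_surjective y
    exact ⟨⟨x, (hN x).2 hy⟩, rfl⟩
  have hirr : IsIrrChar (fun n : normalizer (M : Set (G ⧸ R)) => χ' n) := by
    obtain ⟨ψ, hψ, h⟩ := irr_quot f.ker w.irr (fun r hr x => by
      have h1 : ((r : G) : G ⧸ R) = 1 := congrArg Subtype.val (MonoidHom.mem_ker.1 hr)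
      exact w.triv r (hRw ((QuotientGroup.eq_one_iff _).1 h1)) x)
    have h2 := hψ.comp (QuotientGroup.quotientKerEquivOfSurjective f hf).symm.toMonoidHom
      (QuotientGroup.quotientKerEquivOfSurjective f hf).symm.surjective
    have h3 : (fun n : normalizer (M : Set (G ⧸ R)) => χ' n) = fun n =>
        ψ ((QuotientGroup.quotientKerEquivOfSurjective f hf).symm.toMonoidHom n) := by
      funext n
      obtain ⟨x, rfl⟩ := hf n
      have h4 : (QuotientGroup.quotientKerEquivOfSurjective f hf).symm.toMonoidHom (f x) =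
          (QuotientGroup.mk x : normalizer (w.R : Set G) ⧸ f.ker) := by
        change (QuotientGroup.quotientKerEquivOfSurjective f hf).symm (f x) = _
        rw [MulEquiv.symm_apply_eq]
        rfl
      rw [h4, ← h x]
      exact hχ' x
    rw [h3]
    exact h2
  refine ⟨⟨M, χ', w.pgp.map _, ?_, hirr, ?_, ?_⟩, ?_⟩
  · intro c hc
    obtain ⟨x, rfl⟩ := QuotientGroup.mk_surjective c
    rw [hχ']
    exact w.supp x fun h => hc ((hN x).1 h)
  · rintro _ ⟨r, hr, rfl⟩ c
    obtain ⟨x, rfl⟩ := QuotientGroup.mk_surjective c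
    have h1 : (x : G ⧸ R) * QuotientGroup.mk' R r = ((x * r : G) : G ⧸ R) := rfl
    rw [h1, hχ', hχ']
    exact w.triv r hr x
  · obtain ⟨d, hd, h1, h2⟩ := w.deg_pos
    refine ⟨d, ?_, (factor_aux R hd M).2 ?_⟩
    · rw [← h1]
      exact hχ' 1
    · rw [hMc]
      exact h2
  · refine WF.ext' hMc ?_
    funext g
    exact hχ' g

end Weights

section In

variable {p : ℕ} [hp : Fact p.Prime] {k : Type u} [Field k] [CharP k p]
  (red : integralClosure ℤ ℂ →+* k) {G : Type} [Group G] [Finite G] (R : Subgroup G) [R.Normal]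

theorem in_inflWF (hR : IsPGroup p R) (w : WF p (G ⧸ R)) {e : MonoidAlgebra k G}
    (he : e ∈ Subalgebra.center k (MonoidAlgebra k G)) :
    (inflWF R hR w).In red e ↔ w.In red (quo R e) := by
  have := Fintype.ofFinite G
  have hf1 : Fintype (normalizer ((w.R.comap (QuotientGroup.mk' R) : Subgroup G) : Set G)) :=
    Fintype.ofFinite _
  have hf2 : Fintype (normalizer (w.R : Set (G ⧸ R))) := Fintype.ofFinite _
  unfold WF.In
  have hcf : IsCF (fun n : normalizer ((w.R.comap (QuotientGroup.mk' R) : Subgroup G) : Set G) =>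
      e.coeff (n : G)) := by
    intro x y
    exact (P179C.mem_center_iff _).1 he x y
  have h3 := lam_push red (normalizerHom (QuotientGroup.mk' R) (QuotientGroup.mk'_surjective R) w.R)
    (normalizerHom_surjective _ _ _) w.irr hcf
  have h4 : pushR (normalizerHom (QuotientGroup.mk' R) (QuotientGroup.mk'_surjective R) w.R)
      (fun n : normalizer ((w.R.comap (QuotientGroup.mk' R) : Subgroup G) : Set G) =>
        e.coeff (n : G)) = fun n : normalizer (w.R : Set (G ⧸ R)) => (quo R e).coeff n := by
    funext c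
    unfold pushR
    rw [coeff_quo]
    refine Fintype.sum_of_injective (fun n : normalizer
      ((w.R.comap (QuotientGroup.mk' R) : Subgroup G) : Set G) => (n : G))
      Subtype.val_injective _ _ ?_ ?_
    · intro g hg
      refine if_neg fun h => hg ⟨⟨g, (mem_normalizer_comap _ (QuotientGroup.mk'_surjective R)
        w.R g).2 ?_⟩, rfl⟩
      change (g : G ⧸ R) ∈ _
      rw [h]
      exact c.2
    · intro n
      by_cases h : normalizerHom (QuotientGroup.mk' R) (QuotientGroup.mk'_surjective R) w.R n = c
      · have h' : (((n : G) : G ⧸ R)) = (c : G ⧸ R) := congrArg Subtype.val h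
        rw [if_pos h, if_pos h']
      · have h' : ¬ (((n : G) : G ⧸ R)) = (c : G ⧸ R) := fun h' => h (Subtype.ext h')
        rw [if_neg h, if_neg h']
  rw [h4] at h3
  have h5 : lam red (fun n : normalizer (w.R : Set (G ⧸ R)) => w.χ n)
      (fun n : normalizer (w.R : Set (G ⧸ R)) => (quo R e).coeff n) =
      lam red (fun n : normalizer ((w.R.comap (QuotientGroup.mk' R) : Subgroup G) : Set G) =>
        w.χ (normalizerHom (QuotientGroup.mk' R) (QuotientGroup.mk'_surjective R) w.R n))
      (fun n : normalizer ((w.R.comap (QuotientGroup.mk' R) : Subgroup G) : Set G) =>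
        e.coeff (n : G)) := h3
  have h6 : lam red (fun n : normalizer ((inflWF R hR w).R : Set G) => (inflWF R hR w).χ n)
      (fun n : normalizer ((inflWF R hR w).R : Set G) => e.coeff (n : G)) =
      lam red (fun n : normalizer ((w.R.comap (QuotientGroup.mk' R) : Subgroup G) : Set G) =>
        w.χ (normalizerHom (QuotientGroup.mk' R) (QuotientGroup.mk'_surjective R) w.R n))
      (fun n : normalizer ((w.R.comap (QuotientGroup.mk' R) : Subgroup G) : Set G) =>
        e.coeff (n : G)) := rfl
  rw [h5, h6]

theorem numW_quo (hR : IsPGroup p R) {e : MonoidAlgebra k G}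
    (he : e ∈ Subalgebra.center k (MonoidAlgebra k G)) :
    numW p red e = numW p red (quo R e) := by
  symm
  unfold numW
  let F : {w : WF p (G ⧸ R) // w.In red (quo R e)} → {w : WF p G // w.In red e} :=
    fun w => ⟨inflWF R hR w.1, (in_inflWF red R hR w.1 he).2 w.2⟩
  have hF : Function.Bijective F := by
    constructor
    · intro a b h
      exact Subtype.ext (inflWF_injective R hR (congrArg Subtype.val h))
    · rintro ⟨w, hw⟩
      obtain ⟨v, rfl⟩ := inflWF_surjective R hR w
      exact ⟨⟨v, (in_inflWF red R hR v he).1 hw⟩, rfl⟩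
  exact Nat.card_congr (Quot.congr (Equiv.ofBijective F hF) fun a b =>
    (rel_inflWF R hR a.1 b.1).symm)

end In

end P179R
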