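import Vale.Agent.P179.H526.Z13
import Vale.Agent.P179.H525.QuotS

/-!
# The blockwise equality passes from `G / R` to `G`, for a normal `p`-subgroup `R`
-/

namespace P179R

open P179H524 P179C P179A P179P Finset Subgroup

universe u

section Simple

variable {k : Type u} [Field k] {G : Type} [Group G] (R : Subgroup G) [R.Normal]

theorem asAlgebraHom_quo {V : Type*} [AddCommGroup V] [Module k V]
    (ρ : Representation k (G ⧸ R) V) (e : MonoidAlgebra k G) :
    Representation.asAlgebraHom (ρ.comp (QuotientGroup.mk' R) : Representation k G V) e =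
      ρ.asAlgebraHom (quo R e) := by
  induction e using MonoidAlgebra.induction_linear with
  | zero => rw [map_zero, map_zero, map_zero]
  | add a b ha hb => rw [map_add, ha, hb, map_add, map_add]
  | single g a =>
    rw [quo_single, Representation.asAlgebraHom_single, Representation.asAlgebraHom_single]
    rfl

theorem numSimpleIn_quo {p : ℕ} [hp : Fact p.Prime] [CharP k p] [Finite G] (hR : IsPGroup p R)
    (e : MonoidAlgebra k G) : numSimpleIn e = numSimpleIn (quo R e) := by
  symm
  unfold numSimpleIn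
  have hin : ∀ a : IrrRep k (G ⧸ R), InBlock (inflate k R a) e ↔ InBlock a (quo R e) := by
    intro a
    unfold InBlock
    rw [← asAlgebraHom_quo]
    rfl
  have hsurj : ∀ b : IrrRep k G, ∃ a : IrrRep k (G ⧸ R), inflate k R a = b := by
    rintro ⟨⟨n, ρ⟩, hρ⟩
    have h1 : ∀ r ∈ R, ρ r = 1 := fun r hr => apply_eq_one_of_isIrreducible R hR ρ hρ r hr
    let ρ' : Representation k (G ⧸ R) (Fin n → k) := QuotientGroup.lift R ρ h1
    have h2 : ρ'.comp (QuotientGroup.mk' R) = ρ := by
      ext g : 1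
      rfl
    have h3 : ρ'.IsIrreducible := by
      rw [← isIrreducible_comp_iff ρ' (QuotientGroup.mk' R) (QuotientGroup.mk'_surjective R), h2]
      exact hρ
    refine ⟨⟨⟨n, ρ'⟩, h3⟩, ?_⟩
    unfold inflate
    congr 1
  have hE : ∀ (K : Type) [Group K] (P : IrrRep k K → Prop),
      Equivalence (fun a b : {a : IrrRep k K // P a} => IrrRep.Iso a.1 b.1) := fun K _ P =>
    ⟨fun a => (isoEqv k K).refl _, fun h => (isoEqv k K).symm h,
      fun h h' => (isoEqv k K).trans h h'⟩
  let F : (Quot fun a b : {a : IrrRep k (G ⧸ R) // InBlock a (quo R e)} => IrrRep.Iso a.1 b.1) →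
      (Quot fun a b : {a : IrrRep k G // InBlock a e} => IrrRep.Iso a.1 b.1) :=
    Quot.map (fun a => ⟨inflate k R a.1, (hin a.1).2 a.2⟩)
      fun a b h => (inflate_iso_iff k R a.1 b.1).mpr h
  refine Nat.card_congr (Equiv.ofBijective F ⟨?_, ?_⟩)
  · rintro ⟨a⟩ ⟨b⟩ h
    exact Quot.sound ((inflate_iso_iff k R a.1 b.1).mp (((hE G _).quot_mk_eq_iff _ _).1 h))
  · rintro ⟨b, hb⟩
    obtain ⟨a, rfl⟩ := hsurj b
    exact ⟨Quot.mk _ ⟨a, (hin a).1 hb⟩, rfl⟩

end Simple

section Exact

variable (p : ℕ) [hp : Fact p.Prime] {k : Type u} [Field k] [IsAlgClosed k] [CharP k p]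
  (red : integralClosure ℤ ℂ →+* k) {G : Type} [Group G] [Finite G]

/-- two finite families of homomorphisms of the centre with the same numbers at the blocks in `e`
have the same numbers at the central idempotent `e` -/
theorem card_eq_of_blocks {ι κ : Type} [Finite ι] [Finite κ]
    (μ : ι → (Subalgebra.center k (MonoidAlgebra k G) →ₐ[k] k))
    (ν : κ → (Subalgebra.center k (MonoidAlgebra k G) →ₐ[k] k))
    (e : Subalgebra.center k (MonoidAlgebra k G))
    (h : ∀ (B : MonoidAlgebra k G) (hB : IsBlock B), centralChar B (e : MonoidAlgebra k G) = 1 →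
      Nat.card {i // μ i ⟨B, hB.1⟩ = 1} = Nat.card {j // ν j ⟨B, hB.1⟩ = 1}) :
    Nat.card {i // μ i e = 1} = Nat.card {j // ν j e = 1} := by
  -- the block of a homomorphism
  have hb : ∀ l : Subalgebra.center k (MonoidAlgebra k G) →ₐ[k] k,
      ∃ B : {B : MonoidAlgebra k G // IsBlock B}, ∀ z, l z = centralChar B.1 z := by
    intro l
    obtain ⟨B, hB, h⟩ := homBlockStmt l
    exact ⟨⟨B, hB⟩, h⟩
  choose β hβ using hb
  have hβ1 : ∀ l (B : {B : MonoidAlgebra k G // IsBlock B}), l ⟨B.1, B.2.1⟩ = 1 ↔ β l = B := by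
    intro l B
    rw [hβ l]
    change centralChar (β l).1 B.1 = 1 ↔ _
    rw [charBlockStmt (β l).1 B.1 (β l).2 B.2]
    constructor
    · intro h1
      by_contra hne
      rw [if_neg fun h' => hne (Subtype.ext h')] at h1
      exact zero_ne_one h1
    · rintro rfl
      rw [if_pos rfl]
  have key : ∀ {ι : Type} (μ : ι → (Subalgebra.center k (MonoidAlgebra k G) →ₐ[k] k)),
      Nonempty ({i // μ i e = 1} ≃
        Σ B : {B : {B : MonoidAlgebra k G // IsBlock B} // centralChar B.1 (e : MonoidAlgebra k G) = 1},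
          {i // μ i ⟨B.1.1, B.1.2.1⟩ = 1}) := by
    intro ι μ
    refine ⟨⟨fun i => ⟨⟨β (μ i.1), by rw [← hβ]; exact i.2⟩, ⟨i.1, (hβ1 _ _).2 rfl⟩⟩,
      fun x => ⟨x.2.1, ?_⟩, ?_, ?_⟩⟩
    · have h1 := (hβ1 _ _).1 x.2.2
      rw [hβ, h1]
      exact x.1.2
    · intro i
      rfl
    · rintro ⟨⟨B, hB⟩, ⟨i, hi⟩⟩
      have h1 := (hβ1 _ _).1 hi
      subst h1
      rfl
  obtain ⟨E1⟩ := key μ
  obtain ⟨E2⟩ := key ν
  rw [Nat.card_congr E1, Nat.card_congr E2]
  refine Nat.card_congr (Equiv.sigmaCongrRight fun B => ?_)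
  exact (Finite.card_eq.1 (h B.1.1 B.1.2 B.2)).some

/-- the blocks in a central element on which their central character is `1` -/
theorem mul_eq_self_of_centralChar {B e : MonoidAlgebra k G} (hB : IsBlock B)
    (he : e ∈ Subalgebra.center k (MonoidAlgebra k G)) (hee : e * e = e)
    (h : centralChar B e = 1) : B * e = B := by
  -- `B e` is an idempotent of the centre in `B`
  have h1 : B * e ∈ Subalgebra.center k (MonoidAlgebra k G) := mul_mem hB.1 he
  have hcomm : e * B = B * e := (Subalgebra.mem_center_iff.1 hB.1 e)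
  have h2 : (B * e) * (B * e) = B * e := by
    calc (B * e) * (B * e) = B * (e * B) * e := by noncomm_ring
      _ = (B * B) * (e * e) := by rw [hcomm]; noncomm_ring
      _ = B * e := by rw [hB.2.1, hee]
  have h3 : (B * e) * B = B * e := by
    rw [mul_assoc, hcomm, ← mul_assoc, hB.2.1]
  rcases hB.2.2.2 _ h1 h2 h3 with h4 | h4
  · exfalso
    obtain ⟨l, hl⟩ := blockHomStmt (k := k) (G := G) B hB
    have h5 : l (⟨B, hB.1⟩ * ⟨e, he⟩) = 0 := by
      have : (⟨B, hB.1⟩ * ⟨e, he⟩ : Subalgebra.center k (MonoidAlgebra k G)) = 0 := Subtype.ext h4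
      rw [this, map_zero]
    rw [map_mul, hl, hl] at h5
    change centralChar B B * centralChar B e = 0 at h5
    rw [h, charBlockStmt B B hB hB, if_pos rfl, one_mul] at h5
    exact one_ne_zero h5
  · exact h4

/-- from blocks to central idempotents, exact version -/
theorem eq_of_blocks (e : MonoidAlgebra k G)
    (he : e ∈ Subalgebra.center k (MonoidAlgebra k G)) (hee : e * e = e)
    (h : ∀ B : MonoidAlgebra k G, IsBlock B → B * e = B →
      numSimpleIn B = numWeightsIn p red B) :
    numSimpleIn e = numW p red e := by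
  obtain ⟨r, μ, hμ1, -⟩ := exists_L p (k := k) (G := G)
  rw [hμ1 e he, numW_eq_numWc red e he, numWc_eq_card p red he]
  refine card_eq_of_blocks μ (fun q : Quot (P179H524.Weight.Conj (p := p) (G := G)) =>
      mu p red q.out) ⟨e, he⟩ ?_
  intro B hB hBe
  rw [← hμ1 B hB.1, ← numWc_eq_card p red hB.1, ← numWeightsIn_eq_numWc p red hB]
  exact h B hB (mul_eq_self_of_centralChar hB he hee hBe)

/-- **the blockwise equality passes from `G / R` to `G`** -/
theorem eq_of_quo (R : Subgroup G) [R.Normal] (hR : IsPGroup p R)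
    {B : MonoidAlgebra k G} (hB : IsBlock B)
    (h : ∀ B' : MonoidAlgebra k (G ⧸ R), IsBlock B' → B' * quo R B = B' →
      numSimpleIn B' = numWeightsIn p red B') : numSimpleIn B = numWeightsIn p red B := by
  rw [numWeightsIn_eq_numWc p red hB, ← numW_eq_numWc red B hB.1, numW_quo red R hR hB.1,
    numSimpleIn_quo (p := p) R hR B]
  exact eq_of_blocks p red _ (quo_mem R hB.1) (by rw [← map_mul, hB.2.1]) h

end Exact

end P179R
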