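import Vale.Agent.P179.H905.I23
import Vale.Agent.P179.H166.PPFinal

/-!
# The equality for free inertial action, inertial index possibly larger than `p`
-/

namespace P179I

open P179H524 P179C P179A Finset P179P Subgroup P179Y

open P179X (pp SameSec IrrB Srat autOrd)

open P179B (inertialGroup inertialIndex regularElements)

open scoped Classical

theorem eq_of_modEq {m l w e : ℕ} (h : l ≡ w [MOD m]) (hl : 0 < l) (hle : l ≤ e) (hw : w ≤ m)
    (he : e < m + w) : l = w := by
  rcases le_total l w with h1 | h1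
  · have h2 := (Nat.modEq_iff_dvd' h1).1 h
    rcases Nat.eq_zero_or_pos (w - l) with h3 | h3
    · omega
    · have h4 := Nat.le_of_dvd h3 h2
      omega
  · have h2 := (Nat.modEq_iff_dvd' h1).1 h.symm
    rcases Nat.eq_zero_or_pos (l - w) with h3 | h3
    · omega
    · have h4 := Nat.le_of_dvd h3 h2
      omega

section

variable {p : ℕ} [hp : Fact p.Prime] {k : Type*} [Field k] [IsAlgClosed k] [CharP k p]
  (red : integralClosure ℤ ℂ →+* k) {G : Type} [Group G] [Fintype G]

/-- free inertial action, `|W| ≤ p` and `e < p + |W|` -/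
theorem equality_freeW {B : MonoidAlgebra k G} (hB : IsBlock B) {D : Subgroup G}
    (hD : IsDefectGroup B D) (hab : ∀ a ∈ D, ∀ b ∈ D, a * b = b * a)
    {b : MonoidAlgebra k (centralizer (D : Set G))} (hb : IsBlock b) (hbB : InducesTo b B)
    (hp2 : p ≠ 2) (hfree : ∀ u ∈ D, u ≠ 1 → u ∈ regularElements D b)
    (hw : numWeightsIn p red B ≤ p) (he : inertialIndex D b < p + numWeightsIn p red B) :
    numSimpleIn B = numWeightsIn p red B := by
  obtain ⟨h1, -⟩ := bounds_free red hB hD hab hb hbB hp2 hfree
  exact eq_of_modEq (P179C.theoremC p red B hB D hD hab) (P179C.numSimpleIn_pos B hB) h1 hw he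

end

section

variable {k : Type*} [Field k] [IsAlgClosed k] [CharP k 3]
  (red : integralClosure ℤ ℂ →+* k) {G : Type} [Group G] [Fintype G]

/-- free inertial action, `p = 3` -/
theorem equality_freeW3 {B : MonoidAlgebra k G} (hB : IsBlock B) {D : Subgroup G}
    (hD : IsDefectGroup B D) (hab : ∀ a ∈ D, ∀ b ∈ D, a * b = b * a)
    {b : MonoidAlgebra k (centralizer (D : Set G))} (hb : IsBlock b) (hbB : InducesTo b B)
    (hfree : ∀ u ∈ D, u ≠ 1 → u ∈ regularElements D b)
    (hw : numWeightsIn 3 red B ≤ 9) (he : inertialIndex D b < 9 + numWeightsIn 3 red B) :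
    numSimpleIn B = numWeightsIn 3 red B := by
  have : Fact (Nat.Prime 3) := ⟨Nat.prime_three⟩
  obtain ⟨h1, -⟩ := bounds_free (p := 3) red hB hD hab hb hbB (by norm_num) hfree
  exact eq_of_modEq (P179C.theoremC9 red B hB D hD hab) (P179C.numSimpleIn_pos B hB) h1 hw he

end

end P179I
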