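import Vale.Agent.P179.H526.SmallDefs
import Vale.Agent.P179.H526.Z12
import Vale.Agent.P179.H526.Z14
import Vale.Agent.P179.H526.Z18

/-!
# The equality for small blocks, also modulo a normal `p`-subgroup
-/

namespace P179B

open Subgroup P179H524

universe u

section

variable {p : ℕ} [hp : Fact p.Prime] {k : Type u} [Field k] [IsAlgClosed k] [CharP k p]
  (red : integralClosure ℤ ℂ →+* k) {G : Type} [Group G] [Finite G]

omit hp [IsAlgClosed k] [CharP k p] in
theorem inducesTo_iff {H : Subgroup G} (b : MonoidAlgebra k H) (B : MonoidAlgebra k G) :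
    InducesTo b B ↔ P179C.InducesTo b B := by
  unfold InducesTo P179C.InducesTo
  simp only [centralChar_eq]
  rfl

theorem equality_small {B : MonoidAlgebra k G} (hB : IsBlock B) (h : SmallBlock p red B) :
    numSimpleIn B = numWeightsIn p red B := by
  have := Fintype.ofFinite G
  obtain ⟨D, hD, ⟨rfl, h9⟩ | ⟨hab, b, hb, hbB, h⟩⟩ := h
  · rw [numSimpleIn_eq, numWeightsIn_eq]
    exact P179T.main9 red hB hD h9
  · have hbB' := (inducesTo_iff b B).1 hbB
    rw [numWeightsIn_eq] at h
    rw [numSimpleIn_eq, numWeightsIn_eq]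
    rcases h with (h | ⟨hE, h⟩ | ⟨s, K, hK, hcov, h⟩) | ⟨hp2, hfree, m, rfl | ⟨rfl, rfl⟩, hw, he⟩
    · exact P179I.equality_half red hB hD hab hb hbB' h
    · exact P179I.equality_abelian red hB hD hab hb hbB' hE h
    · exact P179I.equality_cover red hB hD hab hb hbB' K (fun i => (hK i).not_ge) hcov (by omega)
    · exact P179I.equality_freeW red hB hD hab hb hbB' (by omega) hfree hw he
    · exact P179I.equality_freeW3 red hB hD hab hb hbB' hfree hw he

theorem equality_smallSylow (h : SmallSylow p G) {B : MonoidAlgebra k G} (hB : IsBlock B) :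
    numSimpleIn B = numWeightsIn p red B := by
  have := Fintype.ofFinite G
  rw [numSimpleIn_eq, numWeightsIn_eq]
  refine P179I.equality_of_sylow red (fun P => ?_) hB
  obtain ⟨h1, a, rfl, h2⟩ := h P
  exact ⟨h1, h2⟩

/-- the blockwise equality passes from `G / R` to `G` -/
theorem equality_quo (R : Subgroup G) [R.Normal] (hR : IsPGroup p R) {B : MonoidAlgebra k G}
    (hB : IsBlock B) (h : ∀ B' : MonoidAlgebra k (G ⧸ R), IsBlock B' →
      B' * MonoidAlgebra.mapDomainAlgHom k k (QuotientGroup.mk' R) B = B' →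
      numSimpleIn B' = numWeightsIn p red B') : numSimpleIn B = numWeightsIn p red B := by
  rw [numSimpleIn_eq, numWeightsIn_eq]
  refine P179R.eq_of_quo p red R hR hB fun B' hB' hBB' => ?_
  have h1 := h B' hB' hBB'
  rwa [numSimpleIn_eq, numWeightsIn_eq] at h1

end

theorem exists_root (p : ℕ) [Fact p.Prime] {k : Type u} [Field k] [IsAlgClosed k] [CharP k p]
    {G : Type} [Group G] [Finite G] {B : MonoidAlgebra k G} (hB : IsBlock B) {D : Subgroup G}
    (hD : IsDefectGroup B D) :
    ∃ b : MonoidAlgebra k (centralizer (D : Set G)), IsBlock b ∧ InducesTo b B := by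
  have := Fintype.ofFinite G
  obtain ⟨b, hb, hbB⟩ := P179Y.exists_subblock (p := p) hB hD
  exact ⟨b, hb, (inducesTo_iff b B).2 hbB⟩

end P179B
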