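import Vale.Agent.P179.H526.Z14
import Vale.Agent.P179.H166.PPFinal

/-!
# Additive relations pass from the blocks of `G / R` dominated by `B` to `B`
-/

namespace P179R

open P179H524 P179C P179A P179P Finset Subgroup

universe u

section Add

variable (p : ℕ) [hp : Fact p.Prime] {k : Type u} [Field k] [IsAlgClosed k] [CharP k p]
  (red : integralClosure ℤ ℂ →+* k) {G : Type} [Group G] [Finite G]

include p in
theorem finite_blocks : Finite {B : MonoidAlgebra k G // IsBlock B} := by
  obtain ⟨r, μ, hμ1, -⟩ := exists_L p (k := k) (G := G)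
  have h1 : ∀ B : {B : MonoidAlgebra k G // IsBlock B}, ∃ i : Fin r, μ i ⟨B.1, B.2.1⟩ = 1 := by
    intro B
    have h2 := (numSimpleIn_pos B.1 B.2).ne'
    rw [hμ1 B.1 B.2.1] at h2
    have h3 : Nonempty {i // μ i ⟨B.1, B.2.1⟩ = 1} := (Nat.card_ne_zero.1 h2).1
    exact ⟨h3.some.1, h3.some.2⟩
  choose f hf using h1
  refine Finite.of_injective f fun B B' h => ?_
  have h2 := hf B
  have h3 := hf B'
  rw [h] at h2
  obtain ⟨B₀, hB₀, hl⟩ := homBlockStmt (μ (f B'))
  have key : ∀ C : {B : MonoidAlgebra k G // IsBlock B}, μ (f B') ⟨C.1, C.2.1⟩ = 1 → B₀ = C.1 := by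
    intro C hC
    rw [hl] at hC
    change centralChar B₀ C.1 = 1 at hC
    rw [charBlockStmt B₀ C.1 hB₀ C.2] at hC
    by_contra hne
    rw [if_neg hne] at hC
    exact zero_ne_one hC
  exact Subtype.ext ((key B h2).symm.trans (key B' h3))

/-- the numbers at a central element are sums over the blocks -/
theorem card_eq_sum {ι : Type} [Finite ι]
    (μ : ι → (Subalgebra.center k (MonoidAlgebra k G) →ₐ[k] k))
    (e : Subalgebra.center k (MonoidAlgebra k G))
    [Fintype {B : {B : MonoidAlgebra k G // IsBlock B} //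
      centralChar B.1 (e : MonoidAlgebra k G) = 1}] :
    Nat.card {i // μ i e = 1} = ∑ B : {B : {B : MonoidAlgebra k G // IsBlock B} //
      centralChar B.1 (e : MonoidAlgebra k G) = 1}, Nat.card {i // μ i ⟨B.1.1, B.1.2.1⟩ = 1} := by
  have hb : ∀ l : Subalgebra.center k (MonoidAlgebra k G) →ₐ[k] k,
      ∃ B : {B : MonoidAlgebra k G // IsBlock B}, ∀ z, l z = centralChar B.1 z := by
    intro l
    obtain ⟨B, hB, h⟩ := homBlockStmt l
    exact ⟨⟨B, hB⟩, h⟩
  choose β hβ using hb
  have hβ1 : ∀ l (B : {B : MonoidAlgebra k G // IsBlock B}), l ⟨B.1, B.2.1⟩ = 1 ↔ β l = B := by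
    intro l B
    rw [hβ l]
    change centralChar (β l).1 B.1 = 1 ↔ _
    rw [charBlockStmt (β l).1 B.1 (β l).2 B.2]
    constructor
    · intro h1
      by_contra hne
      rw [if_neg fun h' => hne (Subtype.ext h')] at h1
      exact zero_ne_one h1
    · rintro rfl
      rw [if_pos rfl]
  have E : {i // μ i e = 1} ≃
        Σ B : {B : {B : MonoidAlgebra k G // IsBlock B} // centralChar B.1 (e : MonoidAlgebra k G) = 1},
          {i // μ i ⟨B.1.1, B.1.2.1⟩ = 1} := by
    refine ⟨fun i => ⟨⟨β (μ i.1), by rw [← hβ]; exact i.2⟩, ⟨i.1, (hβ1 _ _).2 rfl⟩⟩,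
      fun x => ⟨x.2.1, ?_⟩, ?_, ?_⟩
    · have h1 := (hβ1 _ _).1 x.2.2
      rw [hβ, h1]
      exact x.1.2
    · intro i
      rfl
    · rintro ⟨⟨B, hB⟩, ⟨i, hi⟩⟩
      have h1 := (hβ1 _ _).1 hi
      subst h1
      rfl
  rw [Nat.card_congr E, Nat.card_sigma]

/-- an additive relation passes from the blocks in a central idempotent to the idempotent -/
theorem rel_of_blocks {P : ℕ → ℕ → Prop} (h0 : P 0 0)
    (hadd : ∀ a b c d, P a b → P c d → P (a + c) (b + d)) (e : MonoidAlgebra k G)
    (he : e ∈ Subalgebra.center k (MonoidAlgebra k G)) (hee : e * e = e)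
    (h : ∀ B : MonoidAlgebra k G, IsBlock B → B * e = B →
      P (numSimpleIn B) (numWeightsIn p red B)) :
    P (numSimpleIn e) (numW p red e) := by
  obtain ⟨r, μ, hμ1, -⟩ := exists_L p (k := k) (G := G)
  have hfin := finite_blocks p (k := k) (G := G)
  have := Fintype.ofFinite {B : {B : MonoidAlgebra k G // IsBlock B} // centralChar B.1 e = 1}
  rw [hμ1 e he, numW_eq_numWc red e he, numWc_eq_card p red he]
  rw [card_eq_sum μ ⟨e, he⟩, card_eq_sum (fun q : Quot (P179H524.Weight.Conj (p := p) (G := G)) =>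
      mu p red q.out) ⟨e, he⟩]
  have key : ∀ s : Finset {B : {B : MonoidAlgebra k G // IsBlock B} // centralChar B.1 e = 1},
      P (∑ B ∈ s, Nat.card {i // μ i ⟨B.1.1, B.1.2.1⟩ = 1})
        (∑ B ∈ s, Nat.card {q : Quot (P179H524.Weight.Conj (p := p) (G := G)) //
          mu p red q.out ⟨B.1.1, B.1.2.1⟩ = 1}) := by
    classical
    intro s
    induction s using Finset.induction_on with
    | empty => exact h0
    | insert B s hB ih =>
      rw [Finset.sum_insert hB, Finset.sum_insert hB]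
      refine hadd _ _ _ _ ?_ ih
      rw [← hμ1 B.1.1 B.1.2.1, ← numWc_eq_card p red B.1.2.1, ← numWeightsIn_eq_numWc p red B.1.2]
      exact h B.1.1 B.1.2 (mul_eq_self_of_centralChar B.1.2 he hee B.2)
  exact key univ

/-- **an additive relation passes from the blocks of `G / R` dominated by `B` to `B`** -/
theorem rel_of_quo {P : ℕ → ℕ → Prop} (h0 : P 0 0)
    (hadd : ∀ a b c d, P a b → P c d → P (a + c) (b + d)) (R : Subgroup G) [R.Normal]
    (hR : IsPGroup p R) {B : MonoidAlgebra k G} (hB : IsBlock B)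
    (h : ∀ B' : MonoidAlgebra k (G ⧸ R), IsBlock B' → B' * quo R B = B' →
      P (numSimpleIn B') (numWeightsIn p red B')) :
    P (numSimpleIn B) (numWeightsIn p red B) := by
  rw [numWeightsIn_eq_numWc p red hB, ← numW_eq_numWc red B hB.1, numW_quo red R hR hB.1,
    numSimpleIn_quo (p := p) R hR B]
  exact rel_of_blocks p red h0 hadd _ (quo_mem R hB.1) (by rw [← map_mul, hB.2.1]) h

end Add

end P179R
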