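import Vale.Agent.P179.H526.Z1

/-!
# The combinatorial part of Theorem Z
-/

namespace P179Z

open Finset

open scoped Classical ComplexConjugate

variable {D : Type*} [AddCommGroup D] [Fintype D] {p : ℕ} [hp : Fact p.Prime]

/-- the algebra behind the bound for the norm -/
theorem bound_aux {p e a q M S : ℝ} (hp : 2 < p) (he : e ≤ p - 2) (ha1 : 1 ≤ a) (ha : 2 * a < p)
    (hq : 0 < q) (hS : (p - 2 * a) * S ≤ p * (M - a ^ 2 * (q * (1 - 1 / p)))) (hM : M ≤ q * e) :
    S * (p - 1) < q * (p * (p - 2)) := by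
  by_contra hcon
  push Not at hcon
  have hp0 : 0 < p := by linarith
  have h1 : 0 < p - 2 * a := by linarith
  have h2 : p * (M - a ^ 2 * (q * (1 - 1 / p))) ≤ q * (p * e - a ^ 2 * (p - 1)) := by
    have h3 : p * (M - a ^ 2 * (q * (1 - 1 / p))) = p * M - q * (a ^ 2 * (p - 1)) := by
      field_simp
    rw [h3]
    nlinarith
  have h3 : q * (p * e - a ^ 2 * (p - 1)) ≤ q * (p * (p - 2) - a ^ 2 * (p - 1)) := by
    refine mul_le_mul_of_nonneg_left ?_ hq.le
    nlinarith
  have h4 : (p - 2 * a) * S ≤ q * (p * (p - 2) - a ^ 2 * (p - 1)) := hS.trans (h2.trans h3)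
  have h5 : (p - 2 * a) * (q * (p * (p - 2))) ≤ (p - 2 * a) * (S * (p - 1)) :=
    mul_le_mul_of_nonneg_left hcon h1.le
  have h6 : (p - 2 * a) * (S * (p - 1)) ≤ q * (p * (p - 2) - a ^ 2 * (p - 1)) * (p - 1) := by
    have := mul_le_mul_of_nonneg_right h4 (by linarith : (0 : ℝ) ≤ p - 1)
    linarith
  have h7 : (p - 2 * a) * (q * (p * (p - 2))) ≤
      q * (p * (p - 2) - a ^ 2 * (p - 1)) * (p - 1) := h5.trans h6
  have h8 : 0 ≤ q * ((p * (p - 2) - a ^ 2 * (p - 1)) * (p - 1) -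
      (p - 2 * a) * (p * (p - 2))) := by nlinarith
  have h9 : (p * (p - 2) - a ^ 2 * (p - 1)) * (p - 1) - (p - 2 * a) * (p * (p - 2)) =
      -(p * (p - 2) * (a - 1) ^ 2 + a ^ 2) := by ring
  rw [h9] at h8
  have h10 : 0 < p * (p - 2) * (a - 1) ^ 2 + a ^ 2 := by
    have : 0 ≤ p * (p - 2) * (a - 1) ^ 2 := by
      have := mul_nonneg (mul_nonneg hp0.le (by linarith : (0:ℝ) ≤ p - 2)) (sq_nonneg (a - 1))
      exact this
    positivity
  nlinarith

/-- a subgroup has at least `p - 1` Galois conjugate cosets -/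
theorem galois_cosets (hDp : ∃ n, Nat.card D = p ^ n) (K : AddSubgroup D) (B : D → ℤ)
    (hB : ∀ j : ℕ, (Nat.card D).Coprime j → ∀ u, B (j • u) = B u) (x : AddChar D ℂ → ℝ)
    (hx : ∀ ν, xC B ν = x ν) (μ : AddChar D ℂ) (hμ : ∃ u ∈ K, μ u ≠ 1) :
    ((p : ℝ) - 1) * ∑ lam : AddChar (D ⧸ K) ℂ, x (μ * io K lam) ^ 2 ≤
      ∑ ν : AddChar D ℂ, x ν ^ 2 := by
  obtain ⟨n, hn⟩ := hDp
  obtain ⟨u, hu, hμu⟩ := hμ
  have hcop : ∀ j : Fin (p - 1), (Nat.card D).Coprime (j + 1) := by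
    intro j
    rw [hn]
    refine Nat.Coprime.pow_left n ((Nat.Prime.coprime_iff_not_dvd hp.out).2 fun h => ?_)
    have := Nat.le_of_dvd (Nat.succ_pos _) h
    have := j.2
    omega
  have hxpow : ∀ (ν : AddChar D ℂ) (j : Fin (p - 1)), x (ν ^ ((j : ℕ) + 1)) = x ν := by
    intro ν j
    have h1 := xC_pow B ν (hcop j) (hB _ (hcop j))
    rw [hx, hx] at h1
    exact_mod_cast h1
  let Φ : Fin (p - 1) × AddChar (D ⧸ K) ℂ → AddChar D ℂ := fun z => μ ^ ((z.1 : ℕ) + 1) * io K z.2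
  -- the value of `μ` at `u` is a root of unity of `p`-power order
  have hup : μ u ^ p ^ n = 1 := by
    rw [← AddChar.map_nsmul_eq_pow, ← hn]
    have : Nat.card D • u = 0 := by rw [Nat.card_eq_fintype_card]; exact card_nsmul_eq_zero
    rw [this, AddChar.map_zero_eq_one]
  have hΦ : Function.Injective Φ := by
    rintro ⟨i, lam⟩ ⟨j, lam'⟩ h
    have h1 : μ ^ ((i : ℕ) + 1) * io K lam = μ ^ ((j : ℕ) + 1) * io K lam' := h
    have h2 : μ u ^ ((i : ℕ) + 1) = μ u ^ ((j : ℕ) + 1) := by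
      have h3 := DFunLike.congr_fun h1 u
      rw [AddChar.mul_apply, AddChar.mul_apply, AddChar.pow_apply, AddChar.pow_apply, io_apply,
        io_apply, (QuotientAddGroup.eq_zero_iff u).2 hu, AddChar.map_zero_eq_one,
        AddChar.map_zero_eq_one, mul_one, mul_one] at h3
      exact h3
    have hne0 : μ u ≠ 0 := by
      intro h0
      rw [h0, zero_pow (pow_ne_zero _ hp.out.ne_zero)] at hup
      exact zero_ne_one hup
    have hij : i = j := by
      by_contra hne
      have key : ∀ a b : ℕ, a < b → b < p → μ u ^ a = μ u ^ b → False := by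
        intro a b hab hb hpow
        have h3 : μ u ^ (b - a) = 1 := by
          have h4 : μ u ^ b = μ u ^ a * μ u ^ (b - a) := by
            rw [← pow_add, Nat.add_sub_cancel' hab.le]
          rw [h4] at hpow
          have h5 := mul_left_cancel₀ (pow_ne_zero a hne0)
            ((mul_one (μ u ^ a)).trans hpow)
          exact h5.symm
        have h6 : orderOf (μ u) ∣ b - a := orderOf_dvd_of_pow_eq_one h3
        have h7 : orderOf (μ u) ∣ p ^ n := orderOf_dvd_of_pow_eq_one hup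
        obtain ⟨s, -, hs⟩ := (Nat.dvd_prime_pow hp.out).1 h7
        rcases Nat.eq_zero_or_pos s with h8 | h8
        · rw [h8, pow_zero, orderOf_eq_one_iff] at hs
          exact hμu hs
        · have h9 : p ∣ b - a := (dvd_pow_self p h8.ne').trans (hs ▸ h6)
          have := Nat.le_of_dvd (by omega) h9
          omega
      rcases lt_or_gt_of_ne (fun h => hne (Fin.ext h) : (i : ℕ) ≠ j) with h3 | h3
      · exact key _ _ (by omega : (i : ℕ) + 1 < (j : ℕ) + 1) (by have := j.2; omega) h2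
      · exact key _ _ (by omega : (j : ℕ) + 1 < (i : ℕ) + 1) (by have := i.2; omega) h2.symm
    subst hij
    have h3 : io K lam = io K lam' := mul_left_cancel h1
    rw [io_injective K h3]
  have h1 : ∑ z : Fin (p - 1) × AddChar (D ⧸ K) ℂ, x (Φ z) ^ 2 ≤ ∑ ν : AddChar D ℂ, x ν ^ 2 := by
    rw [← Finset.sum_image (s := univ) (g := Φ) (f := fun ν => x ν ^ 2)
      (fun a _ b _ h => hΦ h)]
    exact Finset.sum_le_univ_sum_of_nonneg fun ν => sq_nonneg _
  refine le_trans (le_of_eq ?_) h1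
  rw [Fintype.sum_prod_type]
  have h2 : ∀ j : Fin (p - 1), ∑ lam : AddChar (D ⧸ K) ℂ, x (Φ (j, lam)) ^ 2 =
      ∑ lam : AddChar (D ⧸ K) ℂ, x (μ * io K lam) ^ 2 := by
    intro j
    have hc : (Nat.card (AddChar (D ⧸ K) ℂ)).Coprime ((j : ℕ) + 1) := by
      have : Nat.card (AddChar (D ⧸ K) ℂ) = Nat.card (D ⧸ K) := by
        rw [Nat.card_eq_fintype_card, Nat.card_eq_fintype_card, AddChar.card_eq]
      rw [this]
      exact (hcop j).coprime_dvd_left (AddSubgroup.card_quotient_dvd_card K)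
    rw [← Equiv.sum_comp (powCoprime hc) (fun lam => x (Φ (j, lam)) ^ 2)]
    refine Finset.sum_congr rfl fun lam _ => ?_
    have h3 : Φ (j, (powCoprime hc) lam) = (μ * io K lam) ^ ((j : ℕ) + 1) := by
      change μ ^ ((j : ℕ) + 1) * io K (lam ^ ((j : ℕ) + 1)) = _
      rw [io_pow, mul_pow]
    rw [h3, hxpow]
  rw [Finset.sum_congr rfl fun j _ => h2 j, Finset.sum_const, Finset.card_univ, Fintype.card_fin,
    nsmul_eq_mul, Nat.cast_sub hp.out.one_le, Nat.cast_one]

end P179Z
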