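import Vale.Agent.P179.H526.Z15
import Vale.Agent.P179.H166.Z17

/-!
# Blocks with cyclic defect groups are small; blocks with `D R / R` cyclic
-/

namespace P179B

open Subgroup P179H524

universe u

/-- an element with two coprime powers in a subgroup is in the subgroup -/
theorem mem_of_pow_mem {G : Type*} [Group G] {C : Subgroup G} {n : G} {a b : ℕ}
    (h : Nat.Coprime a b) (ha : n ^ a ∈ C) (hb : n ^ b ∈ C) : n ∈ C := by
  have h1 : n = (n ^ a) ^ (Nat.gcdA a b) * (n ^ b) ^ (Nat.gcdB a b) := by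
    rw [← zpow_natCast n a, ← zpow_natCast n b, ← zpow_mul, ← zpow_mul, ← zpow_add,
      ← Nat.gcd_eq_gcd_ab, Nat.Coprime.gcd_eq_one h, Nat.cast_one, zpow_one]
  rw [h1]
  exact mul_mem (zpow_mem ha _) (zpow_mem hb _)

/-- an element normalising a cyclic `p`-group, which fixes a nontrivial element and has a power
prime to `p` in the centraliser, centralises the group -/
theorem mem_centralizer_of_cyclic {G : Type*} [Group G] [Finite G] {p : ℕ} [hp : Fact p.Prime]
    {D : Subgroup G} (hD : IsPGroup p D) [IsCyclic D] {n u : G} (hn : ∀ x ∈ D, n * x * n⁻¹ ∈ D)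
    (hu : u ∈ D) (hu1 : u ≠ 1) (hnu : n * u * n⁻¹ = u) {e : ℕ} (he : ¬ p ∣ e)
    (hne : n ^ e ∈ centralizer (D : Set G)) : n ∈ centralizer (D : Set G) := by
  obtain ⟨⟨d, hd⟩, hgen⟩ := IsCyclic.exists_generator (α := D)
  have hpow : ∀ x ∈ D, ∃ i : ℕ, x = d ^ i := by
    intro x hx
    obtain ⟨i, hi⟩ := (mem_powers_iff_mem_zpowers).2 (hgen ⟨x, hx⟩)
    exact ⟨i, (congrArg Subtype.val hi).symm⟩
  obtain ⟨m, hm⟩ := hD ⟨d, hd⟩
  have hm' : d ^ p ^ m = 1 := congrArg Subtype.val hm
  obtain ⟨j, hj⟩ := hpow _ (hn d hd)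
  have hconj : ∀ i : ℕ, n * d ^ i * n⁻¹ = d ^ (i * j) := by
    intro i
    rw [← conj_pow, hj, ← pow_mul, mul_comm]
  -- the fixed element
  obtain ⟨i, hi⟩ := hpow u hu
  rw [hi, hconj] at hnu
  obtain ⟨M, -, hM⟩ := (Nat.dvd_prime_pow hp.out).1 (orderOf_dvd_of_pow_eq_one hm')
  have hjp : (p : ℤ) ∣ j - 1 := by
    by_contra hcon
    have h1 : (i * j) ≡ i [MOD orderOf d] := pow_eq_pow_iff_modEq.1 hnu
    rw [hM] at h1
    have h2 : ((p ^ M : ℕ) : ℤ) ∣ (i : ℤ) * (j - 1) := by
      have := (Nat.modEq_iff_dvd.1 h1.symm)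
      push_cast at this ⊢
      have h3 : (i : ℤ) * (j - 1) = i * j - i := by ring
      rw [h3]
      exact this
    have hcop : IsCoprime ((p ^ M : ℕ) : ℤ) ((j : ℤ) - 1) := by
      push_cast
      refine IsCoprime.pow_left ?_
      exact (Nat.prime_iff_prime_int.1 hp.out).coprime_iff_not_dvd.2 hcon
    have h3 := hcop.dvd_of_dvd_mul_right h2
    have h4 : p ^ M ∣ i := by exact_mod_cast h3
    apply hu1
    rw [hi, ← orderOf_dvd_iff_pow_eq_one, hM]
    exact h4
  refine mem_of_pow_mem (a := p ^ m) (b := e) ?_ ?_ hne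
  · exact Nat.Coprime.pow_left m ((Nat.Prime.coprime_iff_not_dvd hp.out).2 he)
  · have hiter : ∀ r : ℕ, n ^ r * d * (n ^ r)⁻¹ = d ^ (j ^ r) := by
      intro r
      induction r with
      | zero => simp
      | succ r ih =>
        calc n ^ (r + 1) * d * (n ^ (r + 1))⁻¹ = n * (n ^ r * d * (n ^ r)⁻¹) * n⁻¹ := by
              rw [pow_succ']; group
          _ = d ^ (j ^ (r + 1)) := by rw [ih, hconj, pow_succ]
    have h1 := dvd_sub_pow_of_dvd_sub (R := ℤ) (a := (j : ℤ)) (b := 1) hjp m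
    have h2 : j ^ p ^ m ≡ 1 [MOD orderOf d] := by
      refine (Nat.modEq_iff_dvd.2 ?_ : (1 : ℕ) ≡ j ^ p ^ m [MOD orderOf d]).symm
      push_cast
      rw [one_pow] at h1
      refine dvd_trans ?_ h1
      have h3 : (orderOf d : ℤ) ∣ ((p ^ m : ℕ) : ℤ) := by
        exact_mod_cast orderOf_dvd_of_pow_eq_one hm'
      refine h3.trans ?_
      push_cast
      exact pow_dvd_pow _ (Nat.le_succ m)
    have h3 : n ^ p ^ m * d * (n ^ p ^ m)⁻¹ = d := by
      rw [hiter]
      conv_rhs => rw [← pow_one d]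
      exact pow_eq_pow_iff_modEq.2 h2
    rw [mem_centralizer_iff]
    intro x hx
    obtain ⟨i', rfl⟩ := hpow x hx
    have h4 : n ^ p ^ m * d ^ i' * (n ^ p ^ m)⁻¹ = d ^ i' := by
      rw [← conj_pow, h3]
    exact (mul_inv_eq_iff_eq_mul.1 h4).symm

/-- the automiser of a cyclic `p`-group, as far as it is prime to `p`, has order less than `p` -/
theorem relIndex_lt_of_cyclic {G : Type*} [Group G] [Finite G] {p : ℕ} [hp : Fact p.Prime]
    {D T : Subgroup G} (hD : IsPGroup p D) [IsCyclic D] (hT : T ≤ normalizer (D : Set G))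
    (he : ¬ p ∣ (centralizer (D : Set G)).relIndex T) :
    (centralizer (D : Set G)).relIndex T < p := by
  let f : T →* MulAut D := D.normalizerMonoidHom.comp (inclusion hT)
  have hker : f.ker = (centralizer (D : Set G)).subgroupOf T := by
    ext t
    rw [MonoidHom.mem_ker, mem_subgroupOf, mem_centralizer_iff]
    constructor
    · intro h d hd
      have h1 := congrArg (fun a : MulAut D => ((a ⟨d, hd⟩ : D) : G)) h
      have h2 : (t : G) * d * (t : G)⁻¹ = d := h1
      exact (mul_inv_eq_iff_eq_mul.1 h2).symm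
    · intro h
      ext d
      change (t : G) * d * (t : G)⁻¹ = d
      rw [← h d d.2, mul_inv_cancel_right]
  have h1 : (centralizer (D : Set G)).relIndex T ∣ Nat.card (MulAut D) := by
    have h2 : (centralizer (D : Set G)).relIndex T = Nat.card f.range := by
      rw [← Subgroup.index_ker, hker]
      rfl
    rw [h2]
    exact Subgroup.card_subgroup_dvd_card _
  rw [IsCyclic.card_mulAut] at h1
  obtain ⟨m, hm⟩ := (IsPGroup.iff_card).1 hD
  rw [hm] at h1
  rcases Nat.eq_zero_or_pos m with rfl | hm0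
  · rw [pow_zero, Nat.totient_one, Nat.dvd_one] at h1
    rw [h1]
    exact hp.out.one_lt
  · rw [Nat.totient_prime_pow hp.out hm0] at h1
    have h2 : Nat.Coprime ((centralizer (D : Set G)).relIndex T) (p ^ (m - 1)) :=
      Nat.Coprime.pow_right _ ((Nat.Prime.coprime_iff_not_dvd hp.out).2 he).symm
    have h3 := h2.dvd_of_dvd_mul_left h1
    have h4 := Nat.le_of_dvd (by have := hp.out.two_le; omega) h3
    have := hp.out.two_le
    omega

section

variable {p : ℕ} [hp : Fact p.Prime] {k : Type u} [Field k] [IsAlgClosed k] [CharP k p]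
  (red : integralClosure ℤ ℂ →+* k) {G : Type} [Group G] [Finite G]

/-- blocks with cyclic defect groups are small -/
theorem smallBlock_of_cyclic {B : MonoidAlgebra k G} (hB : IsBlock B) {D : Subgroup G}
    (hD : IsDefectGroup B D) [hc : IsCyclic D] : SmallBlock p red B := by
  have := Fintype.ofFinite G
  have hDp : IsPGroup p D := (P179Y.exists_BP_of_block (p := p) B hB D hD).1
  have hab : ∀ a ∈ D, ∀ c ∈ D, a * c = c * a := by
    intro a ha c hc'
    have h1 : IsMulCommutative D := IsCyclic.isMulCommutative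
    exact congrArg Subtype.val (h1.is_comm.comm ⟨a, ha⟩ ⟨c, hc'⟩)
  obtain ⟨b, hb, hbB⟩ := exists_root p hB hD
  have hbB' := (inducesTo_iff b B).1 hbB
  obtain ⟨l, hl, hlz, hlb⟩ := P179Y.exists_BP_of_subblock (p := p) hB hD hab hb hbB'
  have hT := P179Y.stabT_eq_inertialGroup hb hlb
  have hdiv := P179Y.hT_of_block hB hD hDp hab hl hlz
  rw [hT] at hdiv
  have hTD : ∀ t ∈ inertialGroup D b, ∀ d ∈ D, t * d * t⁻¹ ∈ D := fun t ht d hd =>
    (mem_normalizer_iff.1 ht.1 d).1 hd
  have hn : ((centralizer (D : Set G)).subgroupOf (inertialGroup D b)).Normal :=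
    ⟨fun x hx g => by
      rw [mem_subgroupOf] at hx ⊢
      exact conj_mem_centralizer_of_mem_normalizer g.2.1 hx⟩
  refine ⟨D, hD, Or.inr ⟨hab, b, hb, hbB, Or.inl (Or.inr (Or.inr ⟨0, Fin.elim0, fun i => i.elim0,
    fun u hu hu1 hun => ?_, ?_⟩))⟩⟩
  · exfalso
    refine hun ⟨hu, fun n hn' hnu => mem_centralizer_of_cyclic hDp (hTD n hn') hu hu1 hnu hdiv ?_⟩
    exact Subgroup.pow_index_mem ((centralizer (D : Set G)).subgroupOf (inertialGroup D b))
      ⟨n, hn'⟩
  · exact relIndex_lt_of_cyclic hDp (fun t ht => ht.1) hdiv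

/-- the equality, if `D R / R` is cyclic, or `p = 3` and `|D R / R| ≤ 9` -/
theorem equality_above (R : Subgroup G) [R.Normal] (hR : IsPGroup p R) {B : MonoidAlgebra k G}
    (hB : IsBlock B) {D : Subgroup G} (hD : IsDefectGroup B D)
    (h : IsCyclic (D.map (QuotientGroup.mk' R)) ∨
      p = 3 ∧ Nat.card (D.map (QuotientGroup.mk' R)) ≤ 9) :
    numSimpleIn B = numWeightsIn p red B := by
  have := Fintype.ofFinite G
  have hDp : IsPGroup p D := (P179Y.exists_BP_of_block (p := p) B hB D hD).1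
  refine equality_quo red R hR hB fun B' hB' hBB' => equality_small red hB' ?_
  obtain ⟨D', hD'le, hD'⟩ := exists_defect_le (p := p) R hR hB hD hB' hBB'
  have hD'p : IsPGroup p D' := (hDp.map (QuotientGroup.mk' R)).to_le hD'le
  rcases h with h | ⟨rfl, h⟩
  · have hc : IsCyclic D' := by
      exact isCyclic_of_injective (inclusion hD'le) (inclusion_injective hD'le)
    exact smallBlock_of_cyclic red hB' hD'
  · obtain ⟨m, hm⟩ := (IsPGroup.iff_card).1 hD'p
    have h1 : Nat.card D' ≤ 9 := (Subgroup.card_le_of_le hD'le).trans h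
    have hm2 : m ≤ 2 := by
      by_contra hcon
      push Not at hcon
      have h2 : 3 ^ 3 ≤ 3 ^ m := Nat.pow_le_pow_right (by norm_num) hcon
      rw [hm] at h1
      omega
    rcases Nat.lt_or_ge m 2 with hm1 | hm1
    · have hc : IsCyclic D' := by
        interval_cases m
        · exact isCyclic_of_card_dvd_prime (p := 3) (by rw [hm]; norm_num)
        · exact isCyclic_of_prime_card (p := 3) (by rw [hm]; norm_num)
      exact smallBlock_of_cyclic red hB' hD'
    · have : m = 2 := le_antisymm hm2 hm1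
      subst this
      exact ⟨D', hD', Or.inl ⟨rfl, by rw [hm]; norm_num⟩⟩

end

end P179B
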