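import Mathlib

/-!
# Integral functions on a vector space over `Z / p` (Theorem Z', combinatorial part)
-/

namespace P179Z

open Finset

open scoped Classical

set_option linter.unusedSectionVars false

section E

variable {p : ℕ} [hp : Fact p.Prime] {E : Type*} [AddCommGroup E] [Module (ZMod p) E] [Fintype E]

/-- a linear form separating `u` from `v` -/
theorem exists_form {u v : E} (h : ∀ c : ZMod p, u ≠ c • v) :
    ∃ g : E →ₗ[ZMod p] ZMod p, g v = 0 ∧ g u ≠ 0 := by
  have h1 : u ∉ Submodule.span (ZMod p) {v} := by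
    rw [Submodule.mem_span_singleton]
    rintro ⟨c, hc⟩
    exact h c hc.symm
  obtain ⟨g, hg, hg2⟩ := Submodule.exists_le_ker_of_notMem h1
  exact ⟨g, LinearMap.mem_ker.1 (hg2 (Submodule.mem_span_singleton_self v)), hg⟩

/-- the pairs `(w, x)`, `x ∈ S`, `x - w ∈ Z` -/
theorem sum_coset (S : Finset E) (Z : Submodule (ZMod p) E) :
    ∑ w : E, (S.filter fun x => x - w ∈ Z).card = S.card * Nat.card Z := by
  simp_rw [Finset.card_filter]
  rw [Finset.sum_comm]
  have h1 : ∀ x ∈ S, ∑ w : E, (if x - w ∈ Z then 1 else 0) = Nat.card Z := by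
    intro x _
    rw [← Equiv.sum_comp (Equiv.subLeft x) (fun w => if x - w ∈ Z then 1 else 0)]
    simp only [Equiv.subLeft_apply, sub_sub_cancel]
    rw [← Finset.card_filter, ← Fintype.card_subtype, Nat.card_eq_fintype_card]
  rw [Finset.sum_congr rfl h1, Finset.sum_const, smul_eq_mul]

theorem card_sup {Z : Submodule (ZMod p) E} {w : E} (hw : w ∉ Z) :
    Nat.card (Z ⊔ Submodule.span (ZMod p) {w} : Submodule (ZMod p) E) = p * Nat.card Z := by
  have h1 := Submodule.finrank_sup_add_finrank_inf_eq Z (Submodule.span (ZMod p) {w})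
  have h2 : Z ⊓ Submodule.span (ZMod p) {w} = ⊥ := by
    rw [Submodule.eq_bot_iff]
    intro x hx
    obtain ⟨hx1, hx2⟩ := Submodule.mem_inf.1 hx
    obtain ⟨c, rfl⟩ := Submodule.mem_span_singleton.1 hx2
    by_cases hc : c = 0
    · rw [hc, zero_smul]
    · exfalso
      apply hw
      have h3 := Z.smul_mem c⁻¹ hx1
      rwa [smul_smul, inv_mul_cancel₀ hc, one_smul] at h3
  have hw0 : w ≠ 0 := fun h => hw (h ▸ Z.zero_mem)
  rw [h2, finrank_bot, add_zero, finrank_span_singleton hw0] at h1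
  rw [Nat.card_eq_fintype_card, Nat.card_eq_fintype_card, Module.card_eq_pow_finrank (K := ZMod p),
    Module.card_eq_pow_finrank (K := ZMod p) (V := Z), h1, ZMod.card, pow_succ, mul_comm]

theorem lower_bound (T : E → ℤ) (M s : ℕ) (hM : ∃ m, M = p ^ m) (hs : s + 1 ≤ p) (hs1 : 1 ≤ s)
    (hscal : ∀ c : ZMod p, c ≠ 0 → ∀ x, T (c • x) = T x) (hT0 : T 0 = 0)
    (hP : ∀ (U : Submodule (ZMod p) E) (X : Finset E) (g : E → (E →ₗ[ZMod p] ZMod p)) (u0 : E),
      u0 ∈ U → T u0 ≠ 0 → (∀ v ∈ X, g v u0 ≠ 0) → X.card + s + 1 ≤ p →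
      (∀ x ∈ U, T x ≠ 0 → (∃ v ∈ X, g v x = 0) ∨ ∃ c : ZMod p, x = c • u0) →
      ∃ z : ℤ, (p : ℤ) * T u0 = z * (M * Nat.card U : ℕ))
    (hT : ∃ x, T x ≠ 0) : ((M * Fintype.card E * (p - s) : ℕ) : ℤ) ≤ p * ∑ x, |T x| := by
  -- an element with minimal valuation
  have hfin : (univ.filter fun x : E => T x ≠ 0).Nonempty := by
    obtain ⟨x, hx⟩ := hT
    exact ⟨x, by simp [hx]⟩
  obtain ⟨u0, hu0, hmin⟩ := Finset.exists_min_image _ (fun x => padicValInt p (T x)) hfin
  rw [mem_filter] at hu0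
  have hu0' : T u0 ≠ 0 := hu0.2
  set κ := padicValInt p (T u0) with hκ
  have hge : ∀ x, T x ≠ 0 → ((p ^ κ : ℕ) : ℤ) ≤ |T x| := by
    intro x hx
    refine Int.le_of_dvd (abs_pos.2 hx) ?_
    rw [dvd_abs]
    push_cast
    rw [padicValInt_dvd_iff]
    exact Or.inr (hmin x (by simp [hx]))
  -- a maximal subspace
  have hmax : ∃ Z : Submodule (ZMod p) E, (u0 ∈ Z ∧ ∀ x ∈ Z, T x ≠ 0 → ∃ c : ZMod p, x = c • u0) ∧
      ∀ Z' : Submodule (ZMod p) E, (u0 ∈ Z' ∧ ∀ x ∈ Z', T x ≠ 0 → ∃ c : ZMod p, x = c • u0) →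
        Z ≤ Z' → Z' ≤ Z := by
    obtain ⟨Z, hZ1, hZ2⟩ := (Set.toFinite {Z : Submodule (ZMod p) E |
      u0 ∈ Z ∧ ∀ x ∈ Z, T x ≠ 0 → ∃ c : ZMod p, x = c • u0}).exists_maximal
      ⟨Submodule.span (ZMod p) {u0}, Submodule.mem_span_singleton_self u0, fun x hx _ => by
        obtain ⟨c, rfl⟩ := Submodule.mem_span_singleton.1 hx
        exact ⟨c, rfl⟩⟩
    exact ⟨Z, hZ1, fun Z' h1 h2 => hZ2 h1 h2⟩
  obtain ⟨Z, ⟨huZ, hZ⟩, hZmax⟩ := hmax
  have hcardpow : ∀ U : Submodule (ZMod p) E, ∃ c, M * Nat.card U = p ^ c := by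
    intro U
    obtain ⟨m, rfl⟩ := hM
    refine ⟨m + Module.finrank (ZMod p) U, ?_⟩
    rw [Nat.card_eq_fintype_card, Module.card_eq_pow_finrank (K := ZMod p), ZMod.card, pow_add]
  have hpos : 0 < p := hp.out.pos
  -- the first divisibility
  have h1 : M * Nat.card Z ≤ p ^ (κ + 1) := by
    obtain ⟨z, hz⟩ := hP Z ∅ (fun _ => 0) u0 huZ hu0' (by simp) (by simp; omega)
      (fun x hx hTx => Or.inr (hZ x hx hTx))
    obtain ⟨c, hc⟩ := hcardpow Z
    rw [hc] at hz ⊢
    have h2 : (p : ℤ) ^ c ∣ p * T u0 := ⟨z, by rw [hz]; push_cast; ring⟩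
    have h3 : c ≤ κ + 1 := by
      rw [padicValInt_dvd_iff] at h2
      rcases h2 with h2 | h2
      · exact absurd h2 (mul_ne_zero (by exact_mod_cast hpos.ne') hu0')
      · rw [padicValInt.mul (by exact_mod_cast hpos.ne') hu0', padicValInt.self hp.out.one_lt] at h2
        omega
    exact Nat.pow_le_pow_right hpos h3
  -- the number of points in the cosets
  set S := univ.filter fun x : E => T x ≠ 0 with hS
  set j : ℕ := if M * Nat.card Z ≤ p ^ κ then 1 else p - s with hj
  have hjs : j ≤ p - 1 := by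
    rw [hj]
    have := hp.out.two_le
    split_ifs <;> omega
  have hrep : ∀ w : E, ∀ x ∈ Z ⊔ Submodule.span (ZMod p) {w}, x ∉ Z →
      ∃ c : ZMod p, c ≠ 0 ∧ ∃ v, v - w ∈ Z ∧ x = c • v := by
    intro w x hx hxZ
    obtain ⟨y, hy, z, hz, rfl⟩ := Submodule.mem_sup.1 hx
    obtain ⟨c, rfl⟩ := Submodule.mem_span_singleton.1 hz
    have hc : c ≠ 0 := by
      rintro rfl
      rw [zero_smul, add_zero] at hxZ
      exact hxZ hy
    refine ⟨c, hc, c⁻¹ • y + w, ?_, ?_⟩
    · rw [add_sub_cancel_right]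
      exact Z.smul_mem _ hy
    · rw [smul_add, smul_smul, mul_inv_cancel₀ hc, one_smul]
  have hcount : ∀ w : E, j ≤ (S.filter fun x => x - w ∈ Z).card := by
    intro w
    by_cases hw : w ∈ Z
    · -- the multiples of `u0`
      refine hjs.trans ?_
      have hu00 : u0 ≠ 0 := fun h => hu0' (h ▸ hT0)
      have h2 : ((univ.filter fun c : ZMod p => c ≠ 0).image fun c => c • u0).card = p - 1 := by
        rw [Finset.card_image_of_injective _ (smul_left_injective (ZMod p) hu00),
          Finset.filter_ne' univ (0 : ZMod p), Finset.card_erase_of_mem (mem_univ _),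
          Finset.card_univ, ZMod.card]
      rw [← h2]
      refine Finset.card_le_card fun x hx => ?_
      obtain ⟨c, hc, rfl⟩ := mem_image.1 hx
      rw [mem_filter, hS, mem_filter]
      refine ⟨⟨mem_univ _, ?_⟩, Z.sub_mem (Z.smul_mem c huZ) hw⟩
      rw [hscal c (mem_filter.1 hc).2]
      exact hu0'
    · rw [hj]
      split_ifs with hcase
      · -- maximality
        have hlt : ¬ (Z ⊔ Submodule.span (ZMod p) {w} ≤ Z) := by
          intro h2
          exact hw (h2 (Submodule.mem_sup_right (Submodule.mem_span_singleton_self w)))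
        have h2 : ¬ (u0 ∈ Z ⊔ Submodule.span (ZMod p) {w} ∧
            ∀ x ∈ Z ⊔ Submodule.span (ZMod p) {w}, T x ≠ 0 → ∃ c : ZMod p, x = c • u0) :=
          fun h3 => hlt (hZmax _ h3 le_sup_left)
        have h3 : ∃ x ∈ Z ⊔ Submodule.span (ZMod p) {w}, T x ≠ 0 ∧ ∀ c : ZMod p, x ≠ c • u0 := by
          by_contra h4
          push Not at h4
          exact h2 ⟨Submodule.mem_sup_left huZ, fun x hx hTx => h4 x hx hTx⟩
        obtain ⟨x, hx, hTx, hxc⟩ := h3
        have hxZ : x ∉ Z := fun h4 => by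
          obtain ⟨c, hc⟩ := hZ x h4 hTx
          exact hxc c hc
        obtain ⟨c, hc, v, hv, rfl⟩ := hrep w x hx hxZ
        rw [Nat.one_le_iff_ne_zero, Ne, Finset.card_eq_zero]
        intro h5
        have h6 : v ∈ S.filter fun x => x - w ∈ Z := by
          rw [mem_filter, hS, mem_filter]
          refine ⟨⟨mem_univ _, ?_⟩, hv⟩
          rwa [hscal c hc] at hTx
        rw [h5] at h6
        exact absurd h6 (Finset.notMem_empty _)
      · by_contra hlt
        push Not at hlt
        apply hcase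
        have hg : ∀ v : E, ∃ g : E →ₗ[ZMod p] ZMod p, v ∉ Z → g v = 0 ∧ g u0 ≠ 0 := by
          intro v
          by_cases hv : v ∈ Z
          · exact ⟨(0 : E →ₗ[ZMod p] ZMod p), fun h => absurd hv h⟩
          · obtain ⟨g, hg⟩ := exists_form (p := p) (u := u0) (v := v) (by
              intro c hc
              have hc0 : c ≠ 0 := by
                rintro rfl
                rw [zero_smul] at hc
                exact hu0' (hc ▸ hT0)
              apply hv
              have h4 := Z.smul_mem c⁻¹ huZ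
              rwa [hc, smul_smul, inv_mul_cancel₀ hc0, one_smul] at h4)
            exact ⟨g, fun _ => hg⟩
        choose g hg using hg
        have hXZ : ∀ v : E, v - w ∈ Z → v ∉ Z := by
          intro v hv hvZ
          apply hw
          have := Z.sub_mem hvZ hv
          rwa [sub_sub_cancel] at this
        obtain ⟨z, hz⟩ := hP (Z ⊔ Submodule.span (ZMod p) {w}) (S.filter fun x => x - w ∈ Z) g u0
          (Submodule.mem_sup_left huZ) hu0' (fun v hv => (hg v (hXZ v (mem_filter.1 hv).2)).2)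
          (by omega) (by
            intro x hx hTx
            by_cases hxZ : x ∈ Z
            · exact Or.inr (hZ x hxZ hTx)
            · left
              obtain ⟨c, hc, v, hv, rfl⟩ := hrep w x hx hxZ
              rw [hscal c hc] at hTx
              refine ⟨v, ?_, ?_⟩
              · rw [mem_filter, hS, mem_filter]
                exact ⟨⟨mem_univ _, hTx⟩, hv⟩
              · rw [map_smul, (hg v (hXZ v hv)).1, smul_zero])
        rw [card_sup hw] at hz
        obtain ⟨c, hc⟩ := hcardpow Z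
        have h5 : T u0 = z * (M * Nat.card Z : ℕ) := by
          have h6 : (p : ℤ) * T u0 = p * (z * (M * Nat.card Z : ℕ)) := by
            rw [hz]; push_cast; ring
          exact mul_left_cancel₀ (by exact_mod_cast hpos.ne') h6
        rw [hc] at h5 ⊢
        have h6 : (p : ℤ) ^ c ∣ T u0 := ⟨z, by rw [h5]; push_cast; ring⟩
        rw [padicValInt_dvd_iff] at h6
        rcases h6 with h6 | h6
        · exact absurd h6 hu0'
        · exact Nat.pow_le_pow_right hpos h6
  have h2 : Fintype.card E * j ≤ S.card * Nat.card Z := by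
    rw [← sum_coset, ← Finset.card_univ, ← smul_eq_mul, ← Finset.sum_const]
    exact Finset.sum_le_sum fun w _ => hcount w
  have h3 : M * Nat.card Z * (p - s) ≤ j * (p * p ^ κ) := by
    rw [hj]
    split_ifs with hcase
    · calc M * Nat.card Z * (p - s) ≤ p ^ κ * p := Nat.mul_le_mul hcase (by omega)
        _ = 1 * (p * p ^ κ) := by ring
    · calc M * Nat.card Z * (p - s) ≤ p ^ (κ + 1) * (p - s) := Nat.mul_le_mul_right _ h1
        _ = (p - s) * (p * p ^ κ) := by ring
  have h4 : ((S.card * p ^ κ : ℕ) : ℤ) ≤ ∑ x, |T x| := by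
    have h5 : ∑ x, |T x| = ∑ x ∈ S, |T x| := by
      rw [hS, Finset.sum_filter]
      refine Finset.sum_congr rfl fun x _ => ?_
      split_ifs with h
      · rfl
      · rw [not_not.1 h, abs_zero]
    rw [h5]
    calc ((S.card * p ^ κ : ℕ) : ℤ) = ∑ x ∈ S, ((p ^ κ : ℕ) : ℤ) := by
          rw [Finset.sum_const, nsmul_eq_mul]; push_cast; ring
      _ ≤ ∑ x ∈ S, |T x| := Finset.sum_le_sum fun x hx => hge x (by
          rw [hS, mem_filter] at hx
          exact hx.2)
  have hZpos : 0 < Nat.card Z := Nat.card_pos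
  have h5 : M * Fintype.card E * (p - s) * Nat.card Z ≤ p * (S.card * p ^ κ) * Nat.card Z := by
    calc M * Fintype.card E * (p - s) * Nat.card Z
        = Fintype.card E * (M * Nat.card Z * (p - s)) := by ring
      _ ≤ Fintype.card E * (j * (p * p ^ κ)) := Nat.mul_le_mul_left _ h3
      _ = Fintype.card E * j * (p * p ^ κ) := by ring
      _ ≤ S.card * Nat.card Z * (p * p ^ κ) := Nat.mul_le_mul_right _ h2
      _ = p * (S.card * p ^ κ) * Nat.card Z := by ring
  have h6 := Nat.le_of_mul_le_mul_right h5 hZpos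
  calc ((M * Fintype.card E * (p - s) : ℕ) : ℤ) ≤ ((p * (S.card * p ^ κ) : ℕ) : ℤ) := by
        exact_mod_cast h6
    _ = p * ((S.card * p ^ κ : ℕ) : ℤ) := by push_cast; ring
    _ ≤ p * ∑ x, |T x| := mul_le_mul_of_nonneg_left h4 (by positivity)

end E

end P179Z
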