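import Vale.Agent.P179.H526.Z4

/-!
# Generalized characters of a finite abelian group
-/

namespace P179Z

open Finset

open scoped Classical

set_option linter.unusedSectionVars false

section Gen

variable {D : Type*} [AddCommGroup D] [Fintype D]

/-- integral combinations of characters -/
def IsGen (θ : D → ℂ) : Prop := ∃ c : AddChar D ℂ → ℤ, ∀ u, θ u = ∑ ψ, (c ψ : ℂ) * ψ u

theorem IsGen.char (ψ : AddChar D ℂ) : IsGen fun u => ψ u := by
  refine ⟨fun φ => if φ = ψ then 1 else 0, fun u => ?_⟩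
  have h1 : ∀ φ : AddChar D ℂ, (((if φ = ψ then 1 else 0 : ℤ)) : ℂ) * φ u =
      if φ = ψ then φ u else 0 := by
    intro φ
    split_ifs <;> simp
  rw [Finset.sum_congr rfl fun φ _ => h1 φ, Finset.sum_ite_eq', if_pos (mem_univ _)]

theorem IsGen.one : IsGen fun _ : D => (1 : ℂ) := by
  have := IsGen.char (1 : AddChar D ℂ)
  simpa using this

theorem IsGen.add {θ η : D → ℂ} (h1 : IsGen θ) (h2 : IsGen η) : IsGen fun u => θ u + η u := by
  obtain ⟨c, hc⟩ := h1
  obtain ⟨d, hd⟩ := h2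
  refine ⟨fun ψ => c ψ + d ψ, fun u => ?_⟩
  dsimp only
  rw [hc, hd, ← Finset.sum_add_distrib]
  exact Finset.sum_congr rfl fun ψ _ => by push_cast; ring

theorem IsGen.sub {θ η : D → ℂ} (h1 : IsGen θ) (h2 : IsGen η) : IsGen fun u => θ u - η u := by
  obtain ⟨c, hc⟩ := h1
  obtain ⟨d, hd⟩ := h2
  refine ⟨fun ψ => c ψ - d ψ, fun u => ?_⟩
  dsimp only
  rw [hc, hd, ← Finset.sum_sub_distrib]
  exact Finset.sum_congr rfl fun ψ _ => by push_cast; ring

theorem IsGen.mul {θ η : D → ℂ} (h1 : IsGen θ) (h2 : IsGen η) : IsGen fun u => θ u * η u := by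
  obtain ⟨c, hc⟩ := h1
  obtain ⟨d, hd⟩ := h2
  refine ⟨fun ρ => ∑ ψ : AddChar D ℂ, c ψ * d (ψ⁻¹ * ρ), fun u => ?_⟩
  dsimp only
  rw [hc, hd]
  have h3 : ∀ ρ : AddChar D ℂ, ((∑ ψ : AddChar D ℂ, c ψ * d (ψ⁻¹ * ρ) : ℤ) : ℂ) * ρ u =
      ∑ ψ : AddChar D ℂ, ((c ψ : ℂ) * ψ u) * ((d (ψ⁻¹ * ρ) : ℂ) * (ψ⁻¹ * ρ) u) := by
    intro ρ
    rw [Int.cast_sum, Finset.sum_mul]
    refine Finset.sum_congr rfl fun ψ _ => ?_
    rw [Int.cast_mul]
    have h4 : ρ u = ψ u * (ψ⁻¹ * ρ) u := by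
      rw [← AddChar.mul_apply, mul_inv_cancel_left]
    generalize (ψ⁻¹ * ρ) u = y at h4 ⊢
    rw [h4]
    ring
  rw [Finset.sum_congr rfl fun ρ _ => h3 ρ, Finset.sum_comm, Finset.sum_mul]
  refine Finset.sum_congr rfl fun ψ _ => ?_
  rw [← Finset.mul_sum]
  congr 1
  exact (Equiv.sum_comp (Equiv.mulLeft ψ⁻¹) (fun ρ : AddChar D ℂ => (d ρ : ℂ) * ρ u)).symm

theorem IsGen.prod {κ : Type*} (s : Finset κ) (θ : κ → D → ℂ) (h : ∀ i ∈ s, IsGen (θ i)) :
    IsGen fun u => ∏ i ∈ s, θ i u := by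
  induction s using Finset.induction_on with
  | empty => simpa using IsGen.one
  | insert i s hi ih =>
    have h1 := (h i (mem_insert_self i s)).mul (ih fun j hj => h j (mem_insert_of_mem hj))
    simpa only [Finset.prod_insert hi] using h1

theorem IsGen.sum {κ : Type*} (s : Finset κ) (θ : κ → D → ℂ) (h : ∀ i ∈ s, IsGen (θ i)) :
    IsGen fun u => ∑ i ∈ s, θ i u := by
  induction s using Finset.induction_on with
  | empty =>
    refine ⟨fun _ => 0, fun u => ?_⟩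
    simp
  | insert i s hi ih =>
    have h1 := (h i (mem_insert_self i s)).add (ih fun j hj => h j (mem_insert_of_mem hj))
    simpa only [Finset.sum_insert hi] using h1

end Gen

section Prin

variable {p : ℕ} [hp : Fact p.Prime] {D : Type*} [AddCommGroup D] [Fintype D]
  {E : Type*} [AddCommGroup E] [Module (ZMod p) E] [Fintype E]

/-- the indicator function of a subspace -/
theorem isGen_ind (φ : D →+ E) (U : Submodule (ZMod p) E) :
    IsGen fun u : D => if φ u ∈ U then (Fintype.card (E ⧸ U) : ℂ) else 0 := by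
  have h1 : ∀ u : D, (if φ u ∈ U then (Fintype.card (E ⧸ U) : ℂ) else 0) =
      ∑ ψ : AddChar (E ⧸ U) ℂ, ψ (U.mkQ (φ u)) := by
    intro u
    rw [AddChar.sum_apply_eq_ite]
    have h2 : U.mkQ (φ u) = 0 ↔ φ u ∈ U := by
      rw [Submodule.mkQ_apply, Submodule.Quotient.mk_eq_zero]
    by_cases h : φ u ∈ U
    · rw [if_pos h, if_pos (h2.2 h)]
    · rw [if_neg h, if_neg (fun h' => h (h2.1 h'))]
  simp_rw [h1]
  refine IsGen.sum _ _ fun ψ _ => ?_
  have h3 := IsGen.char (ψ.compAddMonoidHom (U.mkQ.toAddMonoidHom.comp φ))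
  simpa using h3

theorem sum_std (n : ℕ) (hn : 1 ≤ n) (hnp : n < p) :
    ∑ c : ZMod p, (ZMod.stdAddChar c - 1 : ℂ) ^ n = p * (-1) ^ n := by
  have h1 : ∀ c : ZMod p, (ZMod.stdAddChar c - 1 : ℂ) ^ n =
      ∑ m ∈ Finset.range (n + 1), ZMod.stdAddChar ((m : ZMod p) * c) *
        ((-1) ^ (n - m) * (n.choose m : ℂ)) := by
    intro c
    rw [sub_eq_add_neg, add_pow]
    refine Finset.sum_congr rfl fun m _ => ?_
    rw [← AddChar.map_nsmul_eq_pow, nsmul_eq_mul]
    ring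
  rw [Finset.sum_congr rfl fun c _ => h1 c, Finset.sum_comm]
  have h2 : ∀ m ∈ Finset.range (n + 1), ∑ c : ZMod p, ZMod.stdAddChar ((m : ZMod p) * c) *
      ((-1) ^ (n - m) * (n.choose m : ℂ)) = if m = 0 then (p : ℂ) * (-1) ^ n else 0 := by
    intro m hm
    rw [Finset.mem_range] at hm
    rw [← Finset.sum_mul]
    have h3 : ∑ c : ZMod p, (ZMod.stdAddChar ((m : ZMod p) * c) : ℂ) =
        if (m : ZMod p) = 0 then (p : ℂ) else 0 := by
      have h4 := AddChar.sum_mulShift (R := ZMod p) (m : ZMod p)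
        (ZMod.isPrimitive_stdAddChar p)
      rw [ZMod.card, Nat.cast_ite, Nat.cast_zero] at h4
      rw [← h4]
      exact Finset.sum_congr rfl fun c _ => by rw [mul_comm]
    rw [h3]
    by_cases hm0 : m = 0
    · rw [if_pos hm0, hm0]
      simp
    · rw [if_neg hm0, if_neg, zero_mul]
      rw [ZMod.natCast_eq_zero_iff]
      intro h5
      have := Nat.le_of_dvd (Nat.pos_of_ne_zero hm0) h5
      omega
  rw [Finset.sum_congr rfl h2, Finset.sum_ite_eq', if_pos (Finset.mem_range.2 (by omega))]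

end Prin

end P179Z
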