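import Vale.Agent.P179.H526.Z5

/-!
# The principle, and the combinatorial theorem
-/

namespace P179Z

open Finset

open scoped Classical

set_option linter.unusedSectionVars false

section Main

variable {p : ℕ} [hp : Fact p.Prime] {D : Type*} [AddCommGroup D] [Fintype D]
  {E : Type*} [AddCommGroup E] [Module (ZMod p) E] [Fintype E] {ι : Type*} [Fintype ι]

theorem card_ker_mul (φ : D →+ E) (hφ : Function.Surjective φ) :
    Nat.card φ.ker * Fintype.card E = Nat.card D := by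
  rw [AddSubgroup.card_eq_card_quotient_mul_card_addSubgroup φ.ker,
    Nat.card_congr (QuotientAddGroup.quotientKerEquivOfSurjective φ hφ).toEquiv,
    Nat.card_eq_fintype_card (α := E), mul_comm]

theorem sum_fib (φ : D →+ E) (B : D → ℤ) (T : E → ℤ)
    (hT : ∀ x, T x = ∑ u ∈ univ.filter (fun u => φ u = x), B u) (Θ : E → ℂ) :
    ∑ u, Θ (φ u) * (B u : ℂ) = ∑ x, Θ x * (T x : ℂ) := by
  rw [← Finset.sum_fiberwise (s := univ) (g := fun u => φ u)]
  refine Finset.sum_congr rfl fun x _ => ?_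
  rw [hT]
  push_cast
  rw [Finset.mul_sum]
  refine Finset.sum_congr rfl fun u hu => ?_
  rw [(mem_filter.1 hu).2]

/-- the character attached to a linear form -/
noncomputable def lc (φ : D →+ E) (g : E →ₗ[ZMod p] ZMod p) (a : ZMod p) : AddChar D ℂ :=
  ZMod.stdAddChar.compAddMonoidHom ((a • g).toAddMonoidHom.comp φ)

theorem lc_apply (φ : D →+ E) (g : E →ₗ[ZMod p] ZMod p) (a : ZMod p) (u : D) :
    lc φ g a u = ZMod.stdAddChar (a * g (φ u)) := rfl

theorem principle [Nonempty ι] (φ : D →+ E) (hφ : Function.Surjective φ)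
    (f : ι → (E →ₗ[ZMod p] ZMod p))
    (B : D → ℤ) (hB0 : ∀ u, (∃ i, f i (φ u) = 0) → B u = 0)
    (hBint : ∀ θ : D → ℂ, IsGen θ → (∀ u, (∃ i, f i (φ u) = 0) → θ u = 0) →
      ∃ z : ℤ, ∑ u, θ u * (B u : ℂ) = z * Nat.card D)
    (T : E → ℤ) (hT : ∀ x, T x = ∑ u ∈ univ.filter (fun u => φ u = x), B u)
    (hscal : ∀ c : ZMod p, c ≠ 0 → ∀ x, T (c • x) = T x)
    (U : Submodule (ZMod p) E) (X : Finset E) (g : E → (E →ₗ[ZMod p] ZMod p)) (u0 : E)
    (hu0 : u0 ∈ U) (hTu0 : T u0 ≠ 0) (hg : ∀ v ∈ X, g v u0 ≠ 0)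
    (hX : X.card + Fintype.card ι + 1 ≤ p)
    (hsupp : ∀ x ∈ U, T x ≠ 0 → (∃ v ∈ X, g v x = 0) ∨ ∃ c : ZMod p, x = c • u0) :
    ∃ z : ℤ, (p : ℤ) * T u0 = z * (Nat.card φ.ker * Nat.card U : ℕ) := by
  have hT0' : ∀ x, (∃ i, f i x = 0) → T x = 0 := by
    intro x hx
    rw [hT]
    refine Finset.sum_eq_zero fun u hu => hB0 u ?_
    rw [(mem_filter.1 hu).2]
    exact hx
  have hfu0 : ∀ i, f i u0 ≠ 0 := fun i hi => hTu0 (hT0' u0 ⟨i, hi⟩)
  have hs1 : 1 ≤ Fintype.card ι := Fintype.card_pos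
  set Θ : E → ℂ := fun x => (if x ∈ U then (Fintype.card (E ⧸ U) : ℂ) else 0) *
    ((∏ i : ι, (ZMod.stdAddChar ((f i u0)⁻¹ * f i x) - 1 : ℂ)) *
      ∏ v ∈ X, (ZMod.stdAddChar ((g v u0)⁻¹ * g v x) - 1 : ℂ)) with hΘ
  have hgen : IsGen fun u : D => Θ (φ u) := by
    refine IsGen.mul (isGen_ind φ U) (IsGen.mul ?_ ?_)
    · refine IsGen.prod _ (fun i (u : D) => (ZMod.stdAddChar ((f i u0)⁻¹ * f i (φ u)) - 1 : ℂ))
        fun i _ => ?_
      exact IsGen.sub (IsGen.char (lc φ (f i) (f i u0)⁻¹)) IsGen.one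
    · refine IsGen.prod _ (fun v (u : D) => (ZMod.stdAddChar ((g v u0)⁻¹ * g v (φ u)) - 1 : ℂ))
        fun v _ => ?_
      exact IsGen.sub (IsGen.char (lc φ (g v) (g v u0)⁻¹)) IsGen.one
  have hΘ0 : ∀ x, (∃ i, f i x = 0) → Θ x = 0 := by
    rintro x ⟨i, hi⟩
    rw [hΘ]
    dsimp only
    rw [Finset.prod_eq_zero (mem_univ i) (by rw [hi, mul_zero, AddChar.map_zero_eq_one, sub_self]),
      zero_mul, mul_zero]
  obtain ⟨z, hz⟩ := hBint _ hgen fun u hu => hΘ0 _ hu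
  rw [sum_fib φ B T hT Θ] at hz
  set n := Fintype.card ι + X.card with hn
  have hu00 : u0 ≠ 0 := by
    rintro rfl
    obtain ⟨i⟩ := (inferInstance : Nonempty ι)
    exact hfu0 i (map_zero _)
  have hval : ∀ c : ZMod p, Θ (c • u0) =
      (Fintype.card (E ⧸ U) : ℂ) * (ZMod.stdAddChar c - 1 : ℂ) ^ n := by
    intro c
    rw [hΘ]
    dsimp only
    rw [if_pos (U.smul_mem c hu0)]
    have h1 : ∏ i : ι, (ZMod.stdAddChar ((f i u0)⁻¹ * f i (c • u0)) - 1 : ℂ) =
        (ZMod.stdAddChar c - 1 : ℂ) ^ Fintype.card ι := by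
      rw [Finset.prod_congr rfl fun i _ => by
        rw [map_smul, smul_eq_mul, mul_comm c, inv_mul_cancel_left₀ (hfu0 i)],
        Finset.prod_const, Finset.card_univ]
    have h2 : ∏ v ∈ X, (ZMod.stdAddChar ((g v u0)⁻¹ * g v (c • u0)) - 1 : ℂ) =
        (ZMod.stdAddChar c - 1 : ℂ) ^ X.card := by
      rw [Finset.prod_congr rfl fun v hv => by
        rw [map_smul, smul_eq_mul, mul_comm c, inv_mul_cancel_left₀ (hg v hv)],
        Finset.prod_const]
    rw [h1, h2, ← pow_add]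
  have hsum : ∑ x, Θ x * (T x : ℂ) = (Fintype.card (E ⧸ U) : ℂ) * (T u0 : ℂ) * (p * (-1) ^ n) := by
    have h1 : ∑ x, Θ x * (T x : ℂ) = ∑ x ∈ univ.image (fun c : ZMod p => c • u0),
        Θ x * (T x : ℂ) := by
      symm
      refine Finset.sum_subset (Finset.subset_univ _) fun x _ hx => ?_
      by_cases hTx : T x = 0
      · rw [hTx, Int.cast_zero, mul_zero]
      by_cases hxU : x ∈ U
      · rcases hsupp x hxU hTx with ⟨v, hv, hgv⟩ | ⟨c, hc⟩
        · rw [hΘ]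
          dsimp only
          rw [Finset.prod_eq_zero (s := X) hv (by
            rw [hgv, mul_zero, AddChar.map_zero_eq_one, sub_self]), mul_zero, mul_zero, zero_mul]
        · exact absurd (mem_image.2 ⟨c, mem_univ _, hc.symm⟩) hx
      · rw [hΘ]
        dsimp only
        rw [if_neg hxU, zero_mul, zero_mul]
    rw [h1, Finset.sum_image (fun a _ b _ h => smul_left_injective (ZMod p) hu00 h)]
    have h2 : ∀ c : ZMod p, Θ (c • u0) * (T (c • u0) : ℂ) =
        (Fintype.card (E ⧸ U) : ℂ) * (T u0 : ℂ) * (ZMod.stdAddChar c - 1 : ℂ) ^ n := by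
      intro c
      rw [hval]
      by_cases hc : c = 0
      · rw [hc, AddChar.map_zero_eq_one, sub_self, zero_pow (by omega)]
        ring
      · rw [hscal c hc]
        ring
    rw [Finset.sum_congr rfl fun c _ => h2 c, ← Finset.mul_sum, sum_std n (by omega) (by omega)]
  rw [hsum] at hz
  have hcard : (Nat.card D : ℂ) = (Nat.card φ.ker : ℂ) * (Nat.card U * Fintype.card (E ⧸ U)) := by
    rw [← card_ker_mul φ hφ, ← Nat.card_eq_fintype_card, Submodule.card_eq_card_quotient_mul_card U,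
      Nat.card_eq_fintype_card (α := E ⧸ U)]
    push_cast
    ring
  rw [hcard] at hz
  have hq : (Fintype.card (E ⧸ U) : ℂ) ≠ 0 := by exact_mod_cast Fintype.card_ne_zero
  refine ⟨(-1) ^ n * z, ?_⟩
  have h3 : ((p : ℂ) * T u0) = ((-1) ^ n * z) * (Nat.card φ.ker * Nat.card U) := by
    have h4 : (-1 : ℂ) ^ n * (-1) ^ n = 1 := by
      rw [← mul_pow]; norm_num
    apply mul_left_cancel₀ hq
    calc (Fintype.card (E ⧸ U) : ℂ) * (p * T u0) =
        ((-1) ^ n * (-1) ^ n) * ((Fintype.card (E ⧸ U) : ℂ) * (p * T u0)) := by rw [h4, one_mul]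
      _ = (-1) ^ n * ((Fintype.card (E ⧸ U) : ℂ) * (T u0 : ℂ) * (p * (-1) ^ n)) := by ring
      _ = (-1) ^ n * (z * ((Nat.card φ.ker : ℂ) * (Nat.card U * Fintype.card (E ⧸ U)))) := by
        rw [hz]
      _ = _ := by ring
  have h5 : (((p : ℤ) * T u0 : ℤ) : ℂ) = (((-1) ^ n * z * (Nat.card φ.ker * Nat.card U : ℕ) : ℤ) : ℂ) := by
    push_cast
    exact h3
  exact_mod_cast h5

end Main

end P179Z
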