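import Vale.Agent.P179.H526.Z6

/-!
# The combinatorial theorem
-/

namespace P179Z

open Finset

open scoped Classical

set_option linter.unusedSectionVars false

section Main

variable {p : ℕ} [hp : Fact p.Prime] {D : Type*} [AddCommGroup D] [Fintype D]
  {E : Type*} [AddCommGroup E] [Module (ZMod p) E] [Fintype E] {ι : Type*} [Fintype ι]

theorem card_WE (φ : D →+ E) (hφ : Function.Surjective φ) (f : ι → (E →ₗ[ZMod p] ZMod p))
    (hf : ∀ i, f i ≠ 0) :
    p * Nat.card D ≤ p * (univ.filter fun u : D => ∀ i, f i (φ u) ≠ 0).card +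
      Fintype.card ι * Nat.card D := by
  have h1 : ∀ i, p * (univ.filter fun u : D => f i (φ u) = 0).card = Nat.card D := by
    intro i
    have h2 : Function.Surjective (((f i).toAddMonoidHom).comp φ) := by
      have h3 : Function.Surjective (f i) := LinearMap.surjective (hf i)
      exact h3.comp hφ
    rw [← card_ker_mul _ h2, ZMod.card, mul_comm]
    congr 1
    rw [← Fintype.card_subtype, Nat.card_eq_fintype_card]
    exact Fintype.card_congr (Equiv.refl _)
  have h2 : (univ : Finset D) ⊆ (univ.filter fun u : D => ∀ i, f i (φ u) ≠ 0) ∪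
      univ.biUnion fun i : ι => univ.filter fun u : D => f i (φ u) = 0 := by
    intro u _
    rw [mem_union, mem_filter, mem_biUnion]
    by_cases h : ∀ i, f i (φ u) ≠ 0
    · exact Or.inl ⟨mem_univ _, h⟩
    · push Not at h
      obtain ⟨i, hi⟩ := h
      exact Or.inr ⟨i, mem_univ _, by rw [mem_filter]; exact ⟨mem_univ _, hi⟩⟩
  have h3 := (Finset.card_le_card h2).trans (Finset.card_union_le _ _)
  have h4 : (univ.biUnion fun i : ι => univ.filter fun u : D => f i (φ u) = 0).card ≤
      ∑ i : ι, (univ.filter fun u : D => f i (φ u) = 0).card := Finset.card_biUnion_le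
  rw [Finset.card_univ, ← Nat.card_eq_fintype_card] at h3
  calc p * Nat.card D ≤ p * ((univ.filter fun u : D => ∀ i, f i (φ u) ≠ 0).card +
        ∑ i : ι, (univ.filter fun u : D => f i (φ u) = 0).card) :=
        Nat.mul_le_mul_left _ (h3.trans (Nat.add_le_add_left h4 _))
    _ = p * (univ.filter fun u : D => ∀ i, f i (φ u) ≠ 0).card +
        ∑ i : ι, p * (univ.filter fun u : D => f i (φ u) = 0).card := by
        rw [mul_add, Finset.mul_sum]
    _ = _ := by
        rw [Finset.sum_congr rfl fun i _ => h1 i, Finset.sum_const, Finset.card_univ, smul_eq_mul]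

theorem main_combE [Nonempty ι] (hDp : ∃ n, Nat.card D = p ^ n) (φ : D →+ E)
    (hφ : Function.Surjective φ)
    (f : ι → (E →ₗ[ZMod p] ZMod p)) (hf : ∀ i, f i ≠ 0) (A : D → ℤ) (a : ℤ) (e : ℕ)
    (he : e + Fintype.card ι + 1 ≤ p) (ha0 : a ≠ 0) (ha : 2 * |a| < p)
    (hgal : ∀ u, (∀ i, f i (φ u) ≠ 0) → ∀ j : ℕ, ¬ p ∣ j → A (j • u) = A u)
    (hmod : ∀ u, (∀ i, f i (φ u) ≠ 0) → (p : ℤ) ∣ A u - a)
    (hint : ∀ θ : D → ℂ, IsGen θ → (∀ u, (∃ i, f i (φ u) = 0) → θ u = 0) →
      ∃ z : ℤ, ∑ u, θ u * (A u : ℂ) = z * Nat.card D)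
    (hmass : ∑ u ∈ univ.filter (fun u : D => ∀ i, f i (φ u) ≠ 0), (A u) ^ 2 ≤ Nat.card D * e) :
    ∑ u ∈ univ.filter (fun u : D => ∀ i, f i (φ u) ≠ 0), A u =
      a * (univ.filter (fun u : D => ∀ i, f i (φ u) ≠ 0)).card := by
  set W := univ.filter (fun u : D => ∀ i, f i (φ u) ≠ 0) with hW
  have hmemW : ∀ u, u ∈ W ↔ ∀ i, f i (φ u) ≠ 0 := by
    intro u
    rw [hW, mem_filter]
    exact ⟨fun h => h.2, fun h => ⟨mem_univ _, h⟩⟩
  have hnotW : ∀ u, u ∉ W ↔ ∃ i, f i (φ u) = 0 := by
    intro u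
    rw [hmemW]
    push Not
    rfl
  set B : D → ℤ := fun u => if u ∈ W then A u - a else 0 with hB
  set T : E → ℤ := fun x => ∑ u ∈ univ.filter (fun u => φ u = x), B u with hTdef
  have hB0 : ∀ u, (∃ i, f i (φ u) = 0) → B u = 0 := by
    intro u hu
    rw [hB]
    dsimp only
    rw [if_neg ((hnotW u).2 hu)]
  -- Galois invariance
  have hBj : ∀ j : ℕ, ¬ p ∣ j → ∀ u, B (j • u) = B u := by
    intro j hj u
    have hjz : (j : ZMod p) ≠ 0 := by rwa [Ne, ZMod.natCast_eq_zero_iff]
    have h1 : j • u ∈ W ↔ u ∈ W := by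
      rw [hmemW, hmemW]
      refine forall_congr' fun i => ?_
      rw [map_nsmul, map_nsmul, nsmul_eq_mul, Ne, mul_eq_zero, not_or]
      exact ⟨fun h => h.2, fun h => ⟨hjz, h⟩⟩
    rw [hB]
    dsimp only
    by_cases h : u ∈ W
    · rw [if_pos h, if_pos (h1.2 h), hgal u ((hmemW u).1 h) j hj]
    · rw [if_neg h, if_neg (fun h' => h (h1.1 h'))]
  have hscal : ∀ c : ZMod p, c ≠ 0 → ∀ x, T (c • x) = T x := by
    intro c hc x
    have hcv : ¬ p ∣ c.val := by
      intro h
      apply hc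
      rw [← ZMod.natCast_zmod_val c, (ZMod.natCast_eq_zero_iff _ _).2 h]
    obtain ⟨n, hn⟩ := id hDp
    have hcop : (Nat.card D).Coprime c.val := by
      rw [hn]
      exact Nat.Coprime.pow_left n ((Nat.Prime.coprime_iff_not_dvd hp.out).2 hcv)
    have hφc : ∀ u, φ (c.val • u) = c • φ u := by
      intro u
      rw [map_nsmul]
      conv_rhs => rw [← ZMod.natCast_zmod_val c]
      rw [Nat.cast_smul_eq_nsmul]
    rw [hTdef]
    dsimp only
    rw [Finset.sum_filter, Finset.sum_filter,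
      ← Equiv.sum_comp (nsmulCoprime hcop) (fun u => if φ u = c • x then B u else 0)]
    refine Finset.sum_congr rfl fun u _ => ?_
    have h1 : (nsmulCoprime hcop) u = c.val • u := rfl
    rw [h1, hφc, hBj _ hcv]
    refine if_congr ?_ rfl rfl
    constructor
    · intro h
      exact smul_right_injective E hc h
    · rintro rfl
      rfl
  -- integrality of `B`
  have hBint : ∀ θ : D → ℂ, IsGen θ → (∀ u, (∃ i, f i (φ u) = 0) → θ u = 0) →
      ∃ z : ℤ, ∑ u, θ u * (B u : ℂ) = z * Nat.card D := by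
    intro θ hθ hθ0
    obtain ⟨z, hz⟩ := hint θ hθ hθ0
    obtain ⟨c, hc⟩ := hθ
    have h1 : ∑ u, θ u = c 0 * Nat.card D := by
      rw [Finset.sum_congr rfl fun u _ => hc u, Finset.sum_comm]
      have h2 : ∀ ψ : AddChar D ℂ, ∑ u, (c ψ : ℂ) * ψ u = if ψ = 0 then (c 0 : ℂ) * Nat.card D else 0 := by
        intro ψ
        rw [← Finset.mul_sum, AddChar.sum_eq_ite]
        split_ifs with h
        · rw [h, Nat.card_eq_fintype_card]
        · rw [mul_zero]
      rw [Finset.sum_congr rfl fun ψ _ => h2 ψ, Finset.sum_ite_eq', if_pos (mem_univ _)]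
    refine ⟨z - a * c 0, ?_⟩
    have h2 : ∀ u, θ u * (B u : ℂ) = θ u * (A u : ℂ) - a * θ u := by
      intro u
      rw [hB]
      dsimp only
      by_cases h : u ∈ W
      · rw [if_pos h]
        push_cast
        ring
      · rw [if_neg h, hθ0 u ((hnotW u).1 h)]
        ring
    rw [Finset.sum_congr rfl fun u _ => h2 u, Finset.sum_sub_distrib, ← Finset.mul_sum, h1, hz]
    push_cast
    ring
  have hs1 : 1 ≤ Fintype.card ι := Fintype.card_pos
  -- divisibility of `B`
  have hdvd : ∀ u, (p : ℤ) ∣ B u := by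
    intro u
    rw [hB]
    dsimp only
    split_ifs with h
    · exact hmod u ((hmemW u).1 h)
    · exact dvd_zero _
  have hp0 : (0 : ℤ) < p := by exact_mod_cast hp.out.pos
  have hsq : ∀ u, (p : ℤ) * |B u| ≤ B u ^ 2 := by
    intro u
    rcases eq_or_ne (B u) 0 with h5 | h5
    · rw [h5]; simp
    · have h6 : (p : ℤ) ≤ |B u| := Int.le_of_dvd (abs_pos.2 h5) ((dvd_abs _ _).2 (hdvd u))
      rw [← sq_abs, sq]
      exact mul_le_mul_of_nonneg_right h6 (abs_nonneg _)
  -- `T = 0`
  have hTzero : ∀ x, T x = 0 := by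
    by_contra hcon
    push Not at hcon
    have hM : ∃ m, Nat.card φ.ker = p ^ m := by
      obtain ⟨n, hn⟩ := id hDp
      obtain ⟨m, -, hm⟩ := (Nat.dvd_prime_pow hp.out).1 (hn ▸ AddSubgroup.card_addSubgroup_dvd_card φ.ker)
      exact ⟨m, hm⟩
    have hT00 : T 0 = 0 := by
      rw [hTdef]
      dsimp only
      refine Finset.sum_eq_zero fun u hu => hB0 u ?_
      obtain ⟨i⟩ := (inferInstance : Nonempty ι)
      exact ⟨i, by rw [(mem_filter.1 hu).2, map_zero]⟩
    have h1 := lower_bound (p := p) T (Nat.card φ.ker) (Fintype.card ι) hM (by omega) hs1 hscal hT00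
      (fun U X g u0 hu0 hTu0 hg hX hsupp => principle φ hφ f B hB0 hBint T (fun _ => rfl) hscal U X
        g u0 hu0 hTu0 hg hX hsupp) hcon
    rw [card_ker_mul φ hφ] at h1
    -- the upper bound
    have h2 : ∑ x, |T x| ≤ ∑ u, |B u| := by
      rw [← Finset.sum_fiberwise (s := univ) (g := fun u => φ u) (f := fun u => |B u|)]
      exact Finset.sum_le_sum fun x _ => Finset.abs_sum_le_sum_abs _ _
    set q : ℤ := ((Nat.card D : ℕ) : ℤ) with hq
    set s : ℤ := ((Fintype.card ι : ℕ) : ℤ) with hs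
    have hq0 : 0 < q := by rw [hq]; exact_mod_cast Nat.card_pos
    have hsp : s + e + 1 ≤ p := by rw [hs]; exact_mod_cast (by omega : Fintype.card ι + e + 1 ≤ p)
    have hsp1 : 1 ≤ s := by rw [hs]; exact_mod_cast hs1
    have h3 : q * (p - s) ≤ ∑ u, B u ^ 2 := by
      have h4 : ((Nat.card D * (p - Fintype.card ι) : ℕ) : ℤ) = q * (p - s) := by
        rw [hq, hs, Nat.cast_mul, Nat.cast_sub (by omega)]
      rw [h4] at h1
      refine h1.trans ((mul_le_mul_of_nonneg_left h2 hp0.le).trans ?_)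
      rw [Finset.mul_sum]
      exact Finset.sum_le_sum fun u _ => hsq u
    have hterm : ∀ u ∈ W, (p - 2 * |a|) * B u ^ 2 ≤ p * (A u ^ 2 - a ^ 2) := by
      intro u hu
      obtain ⟨k, hk⟩ := hdvd u
      have h5 : B u = A u - a := by rw [hB]; dsimp only; rw [if_pos hu]
      have h6 : A u = a + p * k := by rw [← hk, h5]; ring
      have h7 : -(|a| * k ^ 2) ≤ a * k := by
        have h8 : |k| ≤ k ^ 2 := by
          rw [← sq_abs]
          rcases eq_or_ne k 0 with rfl | hk0
          · simp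
          · have : 1 ≤ |k| := Int.one_le_abs hk0
            nlinarith
        have h9 := neg_abs_le (a * k)
        rw [abs_mul] at h9
        nlinarith [mul_le_mul_of_nonneg_left h8 (abs_nonneg a)]
      rw [hk, h6]
      have h8 : (p : ℤ) * ((a + p * k) ^ 2 - a ^ 2) - (p - 2 * |a|) * (p * k) ^ 2 =
          2 * p ^ 2 * (a * k + |a| * k ^ 2) := by ring
      have h9 : 0 ≤ 2 * (p : ℤ) ^ 2 * (a * k + |a| * k ^ 2) :=
        mul_nonneg (by positivity) (by linarith)
      linarith
    have h4 : (p - 2 * |a|) * ∑ u, B u ^ 2 ≤ p * (q * e - a ^ 2 * W.card) := by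
      have h5 : ∑ u, B u ^ 2 = ∑ u ∈ W, B u ^ 2 := by
        symm
        refine Finset.sum_subset (Finset.subset_univ _) fun u _ hu => ?_
        rw [hB]
        dsimp only
        rw [if_neg hu]
        ring
      rw [h5, Finset.mul_sum]
      refine (Finset.sum_le_sum hterm).trans ?_
      rw [← Finset.mul_sum, Finset.sum_sub_distrib, Finset.sum_const, nsmul_eq_mul]
      refine mul_le_mul_of_nonneg_left ?_ hp0.le
      rw [hq]
      linarith
    have h5 : q * (p - s) ≤ p * W.card := by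
      have h6 := card_WE φ hφ f hf
      rw [← hW] at h6
      have h7 : ((p * Nat.card D : ℕ) : ℤ) ≤ ((p * W.card + Fintype.card ι * Nat.card D : ℕ) : ℤ) := by
        exact_mod_cast h6
      push_cast at h7
      rw [hq, hs]
      linarith
    set α : ℤ := |a| with hα
    have hα1 : 1 ≤ α := Int.one_le_abs ha0
    have hα2 : a ^ 2 = α ^ 2 := (sq_abs a).symm
    have h6 : (p - 2 * α) * (q * (p - s)) ≤ p * (q * e - α ^ 2 * W.card) := by
      rw [← hα2]
      exact (mul_le_mul_of_nonneg_left h3 (by linarith)).trans h4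
    have h7 : (p - 2 * α) * (q * (p - s)) ≤ q * (p * e) - α ^ 2 * (q * (p - s)) := by
      have h8 := mul_le_mul_of_nonneg_left h5 (sq_nonneg α)
      linarith
    have h8 : q * ((p - s) * (p - 2 * α + α ^ 2) - p * e) ≤ 0 := by linarith
    have h9 : (p - s) * (p - 2 * α + α ^ 2) - p * e ≤ 0 := by
      by_contra h10
      push Not at h10
      have := mul_pos hq0 h10
      linarith
    have h10 : (p : ℤ) * e ≤ p * (p - s - 1) := mul_le_mul_of_nonneg_left (by linarith) hp0.le
    have h11 : 0 ≤ (p - s) * (α - 1) ^ 2 := mul_nonneg (by linarith) (sq_nonneg _)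
    nlinarith
  -- conclusion
  have h1 : ∑ u, B u = 0 := by
    rw [← Finset.sum_fiberwise (s := univ) (g := fun u => φ u) (f := fun u => B u)]
    exact Finset.sum_eq_zero fun x _ => hTzero x
  have h2 : ∑ u, B u = ∑ u ∈ W, (A u - a) := by
    rw [← Finset.sum_subset (Finset.subset_univ W) fun u _ hu => by
      rw [hB]
      dsimp only
      rw [if_neg hu]]
    refine Finset.sum_congr rfl fun u hu => ?_
    rw [hB]
    dsimp only
    rw [if_pos hu]
  rw [h1, Finset.sum_sub_distrib, Finset.sum_const, nsmul_eq_mul] at h2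
  linarith

end Main

end P179Z
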