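import Vale.Agent.P179.H526.Z7

/-!
# The combinatorial theorem, for homomorphisms `D → Z / p`
-/

namespace P179Z

open Finset

open scoped Classical

set_option linter.unusedSectionVars false

section Main

variable {p : ℕ} [hp : Fact p.Prime] {D : Type*} [AddCommGroup D] [Fintype D]
  {ι : Type*} [Fintype ι]

/-- the space of values -/
theorem exists_space (f : ι → (D →+ ZMod p)) : ∃ (E : Submodule (ZMod p) (ι → ZMod p))
    (φ : D →+ E), Function.Surjective φ ∧ ∀ u i, (φ u : ι → ZMod p) i = f i u := by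
  set F : D →+ (ι → ZMod p) := AddMonoidHom.pi f with hF
  refine ⟨AddSubgroup.toZModSubmodule p F.range,
    ⟨⟨fun u => ⟨F u, ⟨u, rfl⟩⟩, ?_⟩, ?_⟩, ?_, ?_⟩
  · apply Subtype.ext
    exact map_zero F
  · intro a b
    apply Subtype.ext
    exact map_add F a b
  · rintro ⟨x, u, rfl⟩
    exact ⟨u, rfl⟩
  · intro u i
    rfl

theorem card_WS (f : ι → (D →+ ZMod p)) (hf : ∀ i, f i ≠ 0) :
    p * Nat.card D ≤ p * (univ.filter fun u : D => ∀ i, f i u ≠ 0).card +
      Fintype.card ι * Nat.card D := by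
  obtain ⟨E, φ, hφ, hφf⟩ := exists_space f
  have h1 := card_WE φ hφ (fun i => (LinearMap.proj i).comp E.subtype) (by
    intro i h0
    obtain ⟨u, hu⟩ := DFunLike.ne_iff.1 (hf i)
    apply hu
    have := DFunLike.congr_fun h0 (φ u)
    simpa [hφf] using this)
  simpa [hφf] using h1

/-- **Combinatorial theorem** -/
theorem main_combS [Nonempty ι] (hDp : ∃ n, Nat.card D = p ^ n)
    (f : ι → (D →+ ZMod p)) (hf : ∀ i, f i ≠ 0) (A : D → ℤ) (a : ℤ) (e : ℕ)
    (he : e + Fintype.card ι + 1 ≤ p) (ha0 : a ≠ 0) (ha : 2 * |a| < p)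
    (hgal : ∀ u, (∀ i, f i u ≠ 0) → ∀ j : ℕ, ¬ p ∣ j → A (j • u) = A u)
    (hmod : ∀ u, (∀ i, f i u ≠ 0) → (p : ℤ) ∣ A u - a)
    (hint : ∀ c : AddChar D ℂ → ℤ, (∀ u, (∃ i, f i u = 0) → ∑ ψ, (c ψ : ℂ) * ψ u = 0) →
      ∃ z : ℤ, ∑ u, (∑ ψ, (c ψ : ℂ) * ψ u) * (A u : ℂ) = z * Nat.card D)
    (hmass : ∑ u ∈ univ.filter (fun u : D => ∀ i, f i u ≠ 0), (A u) ^ 2 ≤ Nat.card D * e) :
    ∑ u ∈ univ.filter (fun u : D => ∀ i, f i u ≠ 0), A u =
      a * (univ.filter (fun u : D => ∀ i, f i u ≠ 0)).card := by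
  obtain ⟨E, φ, hφ, hφf⟩ := exists_space f
  have hfg : ∀ i u, ((LinearMap.proj i).comp E.subtype : E →ₗ[ZMod p] ZMod p) (φ u) = f i u := by
    intro i u
    exact hφf u i
  have h1 := main_combE hDp φ hφ (fun i => (LinearMap.proj i).comp E.subtype) (by
    intro i h0
    obtain ⟨u, hu⟩ := DFunLike.ne_iff.1 (hf i)
    apply hu
    have := DFunLike.congr_fun h0 (φ u)
    rw [hfg] at this
    exact this) A a e he ha0 ha
    (by simpa only [hfg] using hgal) (by simpa only [hfg] using hmod)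
    (by
      rintro θ ⟨c, hc⟩ hθ
      obtain ⟨z, hz⟩ := hint c (fun u hu => by
        rw [← hc]
        exact hθ u (by simpa only [hfg] using hu))
      refine ⟨z, ?_⟩
      rw [← hz]
      exact Finset.sum_congr rfl fun u _ => by rw [hc])
    (by simpa only [hfg] using hmass)
  simpa only [hfg] using h1

end Main

end P179Z
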