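import Mathlib

/-!
# Homomorphisms to `Z / p` vanishing on a proper subgroup of an abelian `p`-group
-/

namespace P179Z

open scoped Classical IsMulCommutative

theorem exists_form_ne {p : ℕ} [hp : Fact p.Prime] {V : Type*} [AddCommGroup V]
    [Module (ZMod p) V] {v : V} (hv : v ≠ 0) : ∃ g : V →+ ZMod p, g v ≠ 0 := by
  have h1 : v ∉ (⊥ : Submodule (ZMod p) V) := by
    rwa [Submodule.mem_bot]
  obtain ⟨g, hg, -⟩ := Submodule.exists_le_ker_of_notMem h1
  exact ⟨g.toAddMonoidHom, hg⟩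

theorem exists_hom_ne_zero {p : ℕ} [hp : Fact p.Prime] {X : Type*} [AddCommGroup X] [Nontrivial X]
    (hX : ∃ n : ℕ, ∀ x : X, p ^ n • x = 0) : ∃ f : X →+ ZMod p, f ≠ 0 := by
  set P : AddSubgroup X := (nsmulAddMonoidHom (α := X) p).range with hP
  have hmod : ∀ v : X ⧸ P, p • v = 0 := by
    intro v
    obtain ⟨x, rfl⟩ := QuotientAddGroup.mk_surjective v
    rw [← QuotientAddGroup.mk_nsmul, QuotientAddGroup.eq_zero_iff]
    exact ⟨x, rfl⟩
  have M : Module (ZMod p) (X ⧸ P) := AddCommGroup.zmodModule hmod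
  have hne : ∃ x : X, x ∉ P := by
    by_contra hcon
    push Not at hcon
    obtain ⟨n, hn⟩ := hX
    have h1 : ∀ m : ℕ, ∀ x : X, ∃ y : X, x = p ^ m • y := by
      intro m
      induction m with
      | zero => intro x; exact ⟨x, by simp⟩
      | succ m ih =>
        intro x
        obtain ⟨y, hy⟩ := ih x
        obtain ⟨z, hz⟩ := hcon y
        refine ⟨z, ?_⟩
        have hz' : p • z = y := hz
        rw [hy, ← hz', pow_succ, mul_smul]
    obtain ⟨x, hx⟩ := exists_ne (0 : X)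
    obtain ⟨y, hy⟩ := h1 n x
    exact hx (by rw [hy, hn])
  obtain ⟨x, hx⟩ := hne
  have hx' : (QuotientAddGroup.mk x : X ⧸ P) ≠ 0 := by
    rw [Ne, QuotientAddGroup.eq_zero_iff]
    exact hx
  obtain ⟨g, hg⟩ := exists_form_ne (p := p) hx'
  refine ⟨g.comp (QuotientAddGroup.mk' P), fun h => hg ?_⟩
  exact DFunLike.congr_fun h x

theorem exists_hom_of_lt {p : ℕ} [hp : Fact p.Prime] {G : Type*} [Group G] {D K : Subgroup G}
    [IsMulCommutative D] [Finite D] (hD : IsPGroup p D) (hK : K < D) :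
    ∃ f : Additive D →+ ZMod p, f ≠ 0 ∧ ∀ u : D, (u : G) ∈ K → f (Additive.ofMul u) = 0 := by
  set Q : AddSubgroup (Additive D) := Subgroup.toAddSubgroup (K.subgroupOf D) with hQ
  have hmem : ∀ u : D, Additive.ofMul u ∈ Q ↔ (u : G) ∈ K := fun u => Iff.rfl
  have hnt : Nontrivial (Additive D ⧸ Q) := by
    obtain ⟨x, hxD, hxK⟩ := SetLike.exists_of_lt hK
    refine ⟨⟨(Additive.ofMul (⟨x, hxD⟩ : D) : Additive D), 0, ?_⟩⟩
    rw [Ne, QuotientAddGroup.eq_zero_iff, hmem]
    exact hxK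
  obtain ⟨n, hn⟩ := IsPGroup.iff_card.1 hD
  obtain ⟨f, hf⟩ := exists_hom_ne_zero (p := p) (X := Additive D ⧸ Q) ⟨n, fun v => by
    obtain ⟨x, rfl⟩ := QuotientAddGroup.mk_surjective v
    rw [← QuotientAddGroup.mk_nsmul, ← hn]
    have h1 : Nat.card D • x = 0 := by
      apply Additive.toMul.injective
      rw [toMul_nsmul, toMul_zero]
      exact pow_card_eq_one'
    rw [h1, QuotientAddGroup.mk_zero]⟩
  refine ⟨f.comp (QuotientAddGroup.mk' Q), fun h => hf ?_, fun u hu => ?_⟩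
  · ext v
    exact DFunLike.congr_fun h v
  · rw [AddMonoidHom.comp_apply, QuotientAddGroup.mk'_apply,
      (QuotientAddGroup.eq_zero_iff _).2 ((hmem u).2 hu), map_zero]

end P179Z
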